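import Mathlib

/-!
The dual bimodule `D R = Hom_k(R,k)` and the trivial extension algebra `TA k R = R ⋉ D R`;
the triangular algebra `Lam E F = [[E, F], [0, E]]`.
-/

set_option autoImplicit false

open MulOpposite

universe u v w

namespace Crest.Agent.R186

/-- the dual bimodule, `(a • φ • b) x = φ (b * x * a)` -/
def DB (k : Type w) [Field k] (R : Type u) [Ring R] [Algebra k R] : Type (max u w) :=
  Module.Dual k R

namespace DB

variable {k : Type w} [Field k] {R : Type u} [Ring R] [Algebra k R]

instance : AddCommGroup (DB k R) := inferInstanceAs (AddCommGroup (Module.Dual k R))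
instance : Module k (DB k R) := inferInstanceAs (Module k (Module.Dual k R))
instance [FiniteDimensional k R] : FiniteDimensional k (DB k R) :=
  inferInstanceAs (FiniteDimensional k (Module.Dual k R))

/-- the underlying linear form -/
def val : DB k R ≃ₗ[k] Module.Dual k R := LinearEquiv.refl k _

@[ext] theorem ext {φ ψ : DB k R} (h : ∀ x, val φ x = val ψ x) : φ = ψ := LinearMap.ext h

instance : SMul R (DB k R) := ⟨fun a φ => val.symm (val φ ∘ₗ LinearMap.mulRight k a)⟩
instance : SMul Rᵐᵒᵖ (DB k R) := ⟨fun a φ => val.symm (val φ ∘ₗ LinearMap.mulLeft k a.unop)⟩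

@[simp] theorem val_smul (a : R) (φ : DB k R) (x : R) : val (a • φ) x = val φ (x * a) := rfl
@[simp] theorem val_op_smul (a : Rᵐᵒᵖ) (φ : DB k R) (x : R) :
    val (a • φ) x = val φ (a.unop * x) := rfl

instance : Module R (DB k R) where
  one_smul φ := by ext; simp
  mul_smul a b φ := by ext; simp [mul_assoc]
  smul_zero a := by ext; simp
  smul_add a φ ψ := by ext; simp
  add_smul a b φ := by ext; simp [mul_add]
  zero_smul φ := by ext; simp

instance : Module Rᵐᵒᵖ (DB k R) where
  one_smul φ := by ext; simp
  mul_smul a b φ := by ext; simp [mul_assoc]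
  smul_zero a := by ext; simp
  smul_add a φ ψ := by ext; simp
  add_smul a b φ := by ext; simp [add_mul]
  zero_smul φ := by ext; simp

instance : SMulCommClass R Rᵐᵒᵖ (DB k R) := ⟨fun a b φ => by ext; simp [mul_assoc]⟩
instance : IsScalarTower k R (DB k R) := ⟨fun a b φ => by ext; simp⟩
instance : IsScalarTower k Rᵐᵒᵖ (DB k R) := ⟨fun a b φ => by ext; simp⟩

end DB

/-- the trivial extension algebra -/
abbrev TA (k : Type w) [Field k] (R : Type u) [Ring R] [Algebra k R] : Type (max u w) :=
  TrivSqZeroExt R (DB k R)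

/-- an `E`-bimodule seen as a bimodule over `E × E`: first factor on the left, second factor on
the right -/
def Fab (_E : Type u) (F : Type v) : Type v := F

namespace Fab

variable {E : Type u} [Ring E] {F : Type v} [AddCommGroup F]

instance : AddCommGroup (Fab E F) := inferInstanceAs (AddCommGroup F)
instance {k : Type w} [Field k] [Module k F] : Module k (Fab E F) := inferInstanceAs (Module k F)
instance {k : Type w} [Field k] [Module k F] [FiniteDimensional k F] :
    FiniteDimensional k (Fab E F) := inferInstanceAs (FiniteDimensional k F)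

/-- the identity -/
def val : Fab E F ≃+ F := AddEquiv.refl _

instance [Module E F] : Module (E × E) (Fab E F) := Module.compHom F (RingHom.fst E E)
instance [Module Eᵐᵒᵖ F] : Module (E × E)ᵐᵒᵖ (Fab E F) :=
  Module.compHom F (RingHom.op (RingHom.snd E E))

@[simp] theorem val_smul [Module E F] (a : E × E) (y : Fab E F) : val (a • y) = a.1 • val y := rfl
@[simp] theorem val_op_smul [Module Eᵐᵒᵖ F] (a : (E × E)ᵐᵒᵖ) (y : Fab E F) :
    val (a • y) = op a.unop.2 • val y := rfl
omit [Ring E] in
@[simp] theorem val_k_smul {k : Type w} [Field k] [Module k F] (c : k) (y : Fab E F) :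
    val (c • y) = c • val y := rfl

instance [Module E F] [Module Eᵐᵒᵖ F] [SMulCommClass E Eᵐᵒᵖ F] :
    SMulCommClass (E × E) (E × E)ᵐᵒᵖ (Fab E F) :=
  ⟨fun a b y => val.injective (by simp [smul_comm a.1])⟩
instance {k : Type w} [Field k] [Algebra k E] [Module k F] [Module E F] [IsScalarTower k E F] :
    IsScalarTower k (E × E) (Fab E F) := ⟨fun a b y => val.injective (by simp)⟩
instance {k : Type w} [Field k] [Algebra k E] [Module k F] [Module Eᵐᵒᵖ F]
    [IsScalarTower k Eᵐᵒᵖ F] : IsScalarTower k (E × E)ᵐᵒᵖ (Fab E F) :=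
  ⟨fun a b y => val.injective (by simp)⟩

end Fab

/-- the triangular matrix algebra `[[E, F], [0, E]]` -/
abbrev Lam (E : Type u) (F : Type u) : Type u := TrivSqZeroExt (E × E) (Fab E F)

/-- `V · ker χ` for a right module `V` -/
def radR {k : Type w} [Field k] {R : Type u} [Ring R] [Algebra k R] (χ : R →ₐ[k] k)
    (V : Type v) [AddCommGroup V] [Module k V] [Module Rᵐᵒᵖ V] : Submodule k V :=
  Submodule.span k {v | ∃ (a : R) (y : V), χ a = 0 ∧ v = op a • y}

end Crest.Agent.R186
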