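import Crest.Agent.R186.MC2
import Crest.Agent.R186.DualBi

/-!
Duality for matrix complexes with coefficients in the dual bimodule.
-/

set_option autoImplicit false

open MulOpposite

universe u v w

namespace Crest.Agent.R186.ALv

open MC

theorem Van_prod {R : Type u} [Ring R] {Q : MC R} {V : Type v} [AddCommGroup V] [Module R V]
    [Module Rᵐᵒᵖ V] {V' : Type w} [AddCommGroup V'] [Module R V'] [Module Rᵐᵒᵖ V'] {n j : ℤ}
    (h : Q.Van Q V n j) (h' : Q.Van Q V' n j) : Q.Van Q (V × V') n j := by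
  intro M hM h0
  have c1 : ∀ X : Q.ι → Q.ι → V × V', Q.colD (fun i l => (X i l).1) = fun i l => (Q.colD X i l).1 :=
    fun X => by ext i l; simp [colD_apply, Finset.sum_apply, Prod.fst_sum]
  have c2 : ∀ X : Q.ι → Q.ι → V × V', Q.colD (fun i l => (X i l).2) = fun i l => (Q.colD X i l).2 :=
    fun X => by ext i l; simp [colD_apply, Finset.sum_apply, Prod.snd_sum]
  have r1 : ∀ X : Q.ι → Q.ι → V × V', Q.rD Q (fun i l => (X i l).1) = fun i l => (Q.rD Q X i l).1 :=
    fun X => by ext i l; simp [rD_apply, rowD_apply, Prod.fst_sum]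
  have r2 : ∀ X : Q.ι → Q.ι → V × V', Q.rD Q (fun i l => (X i l).2) = fun i l => (Q.rD Q X i l).2 :=
    fun X => by ext i l; simp [rD_apply, rowD_apply, Prod.snd_sum]
  have m1 : Q.IsMat Q n j (fun i l => (M i l).1) := by
    refine ⟨Q.isCol_iff.2 ⟨fun i hi => ?_, fun i => ?_⟩, fun i =>
      (hM.2 i).comp (LinearMap.fst Rᵐᵒᵖ V V')⟩
    · rw [hM.1.eq_zero hi]; rfl
    · ext l; exact congrArg (fun x => (x l).1) (hM.1.e_smul i)
  have m2 : Q.IsMat Q n j (fun i l => (M i l).2) := by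
    refine ⟨Q.isCol_iff.2 ⟨fun i hi => ?_, fun i => ?_⟩, fun i =>
      (hM.2 i).comp (LinearMap.snd Rᵐᵒᵖ V V')⟩
    · rw [hM.1.eq_zero hi]; rfl
    · ext l; exact congrArg (fun x => (x l).2) (hM.1.e_smul i)
  obtain ⟨S, T, hS⟩ := h _ m1 (by rw [r1, c1, h0]; rfl)
  obtain ⟨S', T', hS'⟩ := h' _ m2 (by rw [r2, c2, h0]; rfl)
  refine ⟨fun i l => (S i l, S' i l), fun i l => (T i l, T' i l), ?_⟩
  ext i l
  · have e1 := congrFun (congrFun (c1 fun i l => (S i l, S' i l)) i) l
    have e2 := congrFun (congrFun (r1 fun i l => (T i l, T' i l)) i) l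
    have e3 := congrFun (congrFun hS i) l
    simp only [Pi.add_apply, Prod.fst_add] at e3 ⊢
    rw [e3, ← e1, ← e2]
  · have e1 := congrFun (congrFun (c2 fun i l => (S i l, S' i l)) i) l
    have e2 := congrFun (congrFun (r2 fun i l => (T i l, T' i l)) i) l
    have e3 := congrFun (congrFun hS' i) l
    simp only [Pi.add_apply, Prod.snd_add] at e3 ⊢
    rw [e3, ← e1, ← e2]

variable {k : Type w} [Field k] {Λ : Type u} [Ring Λ] [Algebra k Λ] (P : MC Λ)

theorem rowEx_DB {n : ℤ} (hc : P.ColEx Λ n) : P.RowEx (DB k Λ) n :=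
  (P.rowEx_iff_colEx (DB.val (k := k) (R := Λ)).toLinearMap (fun _ _ _ => rfl)
    DB.val.bijective n).2 hc

theorem colEx_DB [FiniteDimensional k Λ] {n : ℤ} (hr : P.RowEx Λ n) : P.ColEx (DB k Λ) n := by
  refine (P.rowEx_iff_colEx (DB.val (k := k) (R := Λ)).toLinearMap.flip (fun _ _ _ => rfl)
    ?_ n).1 hr
  exact (Module.evalEquiv k Λ).bijective

/-- trace pairing -/
def pair (a c : ℤ) (N : P.ι → P.ι → DB k Λ) (Y : P.ι → P.ι → Λ) : k :=
  ∑ i ∈ P.fib a, ∑ l ∈ P.fib c, DB.val (N i l) (Y l i)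

theorem pair_rD (a c : ℤ) (N : P.ι → P.ι → DB k Λ) (Y : P.ι → P.ι → Λ) :
    pair P a c (P.rD P N) Y = pair P a (c + 1) N (P.colD Y) := by
  refine Finset.sum_congr rfl fun i _ => ?_
  have := P.pair_rowD (DB.val (k := k) (R := Λ)).toLinearMap (fun _ _ _ => rfl) c (N i)
    (fun l => Y l i)
  refine this.trans (Finset.sum_congr rfl fun l _ => ?_)
  simp [colD_apply, Finset.sum_apply]

theorem pair_colD (a c : ℤ) (N : P.ι → P.ι → DB k Λ) (Y : P.ι → P.ι → Λ) :
    pair P (a + 1) c (P.colD N) Y = pair P a c N (P.rD P Y) := by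
  unfold pair
  rw [Finset.sum_comm, Finset.sum_comm (s := P.fib a)]
  refine Finset.sum_congr rfl fun l _ => ?_
  have := P.pair_rowD (DB.val (k := k) (R := Λ)).toLinearMap.flip (fun _ _ _ => rfl) a (Y l)
    (fun i => N i l)
  refine Eq.trans (Finset.sum_congr rfl fun i _ => ?_) this.symm
  simp [colD_apply, Finset.sum_apply]

theorem pair_mproj (a c : ℤ) (N : P.ι → P.ι → DB k Λ) (Y : P.ι → P.ι → Λ) :
    pair P a c (P.mproj P a c N) Y = pair P a c N (P.mproj P c a Y) := by
  refine Finset.sum_congr rfl fun i hi => Finset.sum_congr rfl fun l hl => ?_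
  rw [P.mem_fib] at hi hl
  simp [mproj_apply, hi, hl]

theorem pair_single (a c : ℤ) (N : P.ι → P.ι → DB k Λ) {i l : P.ι} (hi : P.deg i = a)
    (hl : P.deg l = c) (x : Λ) :
    pair P a c N (Pi.single l (Pi.single i x)) = DB.val (N i l) x := by
  unfold pair
  rw [Finset.sum_eq_single i, Finset.sum_eq_single l]
  · simp
  · intro l' _ h; simp [Pi.single_eq_of_ne h]
  · intro h; exact (h ((P.mem_fib _ _).2 hl)).elim
  · intro i' _ h
    refine Finset.sum_eq_zero fun l' _ => ?_
    by_cases h' : l' = l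
    · subst h'; simp [Pi.single_eq_of_ne h]
    · simp [Pi.single_eq_of_ne h']
  · intro h; exact (h ((P.mem_fib _ _).2 hi)).elim

theorem pair_repr (a c : ℤ) (ψ : (P.ι → P.ι → Λ) →ₗ[k] k) :
    ∃ N : P.ι → P.ι → DB k Λ, ∀ Y, P.IsMat P c a Y → pair P a c N Y = ψ Y := by
  refine ⟨fun i l => DB.val.symm (ψ ∘ₗ LinearMap.single k (fun _ => P.ι → Λ) l ∘ₗ
    LinearMap.single k (fun _ => Λ) i), fun Y hY => ?_⟩
  have : Y = ∑ i ∈ P.fib a, ∑ l ∈ P.fib c, Pi.single l (Pi.single i (Y l i)) := by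
    ext l i
    simp only [Finset.sum_apply]
    by_cases hi : P.deg i = a
    · by_cases hl : P.deg l = c
      · rw [Finset.sum_eq_single i, Finset.sum_eq_single l]
        · simp
        · intro l' _ h; simp [Pi.single_eq_of_ne' h]
        · intro h; exact (h ((P.mem_fib _ _).2 hl)).elim
        · intro i' _ h
          refine Finset.sum_eq_zero fun l' _ => ?_
          by_cases h' : l' = l
          · subst h'; simp [Pi.single_eq_of_ne' h]
          · simp [Pi.single_eq_of_ne' h']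
        · intro h; exact (h ((P.mem_fib _ _).2 hi)).elim
      · rw [hY.1.eq_zero hl]
        refine (Finset.sum_eq_zero fun i' _ => Finset.sum_eq_zero fun l' hl' => ?_).symm
        have : l' ≠ l := fun h => hl (h ▸ (P.mem_fib _ _).1 hl')
        simp [Pi.single_eq_of_ne' this]
    · rw [(hY.2 l).eq_zero hi]
      refine (Finset.sum_eq_zero fun i' hi' => Finset.sum_eq_zero fun l' _ => ?_).symm
      have : i' ≠ i := fun h => hi (h ▸ (P.mem_fib _ _).1 hi')
      by_cases h' : l' = l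
      · subst h'; simp [Pi.single_eq_of_ne' this]
      · simp [Pi.single_eq_of_ne' h']
  conv_rhs => rw [this]
  simp [pair]

theorem mat_ext {a c : ℤ} {N N' : P.ι → P.ι → DB k Λ} (hN : P.IsMat P a c N)
    (hN' : P.IsMat P a c N') (h : ∀ Y, pair P a c N Y = pair P a c N' Y) : N = N' := by
  ext i l x
  by_cases hi : P.deg i = a
  · by_cases hl : P.deg l = c
    · rw [← pair_single P a c N hi hl, ← pair_single P a c N' hi hl, h]
    · rw [(hN.2 i).eq_zero hl, (hN'.2 i).eq_zero hl]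
  · rw [hN.1.eq_zero hi, hN'.1.eq_zero hi]

/-- Serre duality for the vanishing predicate -/
theorem Van_dual {a b : ℤ} (hr : P.RowEx (DB k Λ) b) (h : P.Van P Λ (b - 1) a) :
    P.Van P (DB k Λ) a b := by
  intro M hM h0
  have hN : P.IsMat P a (b - 1) (P.rD P M) := hM.rD'
  let f : (P.ι → P.ι → Λ) →ₗ[k] (P.ι → P.ι → Λ) :=
    { toFun := fun Y => P.colD (P.rD P (P.mproj P (b - 1) a Y))
      map_add' := fun Y Z => by simp only [map_add]
      map_smul' := fun c Y => by
        have e1 : P.mproj P (b - 1) a (c • Y) = c • P.mproj P (b - 1) a Y := by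
          ext i l
          simp only [mproj_apply, Pi.smul_apply]
          split_ifs <;> simp
        have e2 : ∀ Z : P.ι → P.ι → Λ, P.rD P (c • Z) = c • P.rD P Z := fun Z => by
          ext i : 1
          exact (P.rowL k).map_smul c (Z i)
        rw [e1, e2, colD_smul]; rfl }
  let φ : (P.ι → P.ι → Λ) →ₗ[k] k :=
    { toFun := fun Y => pair P a (b - 1) (P.rD P M) Y
      map_add' := fun Y Z => by simp [pair, Finset.sum_add_distrib]
      map_smul' := fun c Y => by simp [pair, Finset.mul_sum] }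
  obtain ⟨ψ, hψ⟩ := dual_factor f φ fun Y hY => by
    obtain ⟨S, S', hS⟩ := h _ (P.isMat_mproj P (b - 1) a Y) hY
    change pair P a (b - 1) (P.rD P M) Y = 0
    rw [← (P.isMat_iff_mproj P).1 hN, pair_mproj, hS]
    have e : pair P a (b - 1) (P.rD P M) (P.colD S + P.rD P S') =
        pair P a (b - 1) (P.rD P M) (P.colD S) + pair P a (b - 1) (P.rD P M) (P.rD P S') :=
      φ.map_add _ _
    have e1 := pair_rD P a (b - 1 - 1) (P.rD P M) S
    rw [sub_add_cancel, rD_rD] at e1
    rw [e, ← e1, ← pair_colD, h0]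
    simp [pair]
  obtain ⟨N0, hN0⟩ := pair_repr P (a - 1) b ψ
  have hN' := P.isMat_mproj P (a - 1) b N0
  have hDN : P.IsMat P a b (P.colD (P.mproj P (a - 1) b N0)) := by simpa using hN'.colD
  have key : P.rD P (P.colD (P.mproj P (a - 1) b N0)) = P.rD P M := by
    refine mat_ext P hDN.rD' hN fun Y => ?_
    have hY := P.isMat_mproj P (b - 1) a Y
    have hfY : P.IsMat P b (a - 1) (f Y) := by
      have := hY.rD'.colD
      rwa [sub_add_cancel] at this
    rw [← (P.isMat_iff_mproj P).1 hDN.rD', pair_mproj, pair_rD, sub_add_cancel]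
    have e1 := pair_colD P (a - 1) b (P.mproj P (a - 1) b N0) (P.colD (P.mproj P (b - 1) a Y))
    rw [sub_add_cancel] at e1
    rw [e1, ← colD_rD, pair_mproj]
    change pair P (a - 1) b N0 (P.mproj P b (a - 1) (f Y)) = φ Y
    rw [(P.isMat_iff_mproj P).1 hfY, hN0 _ hfY, hψ]
  obtain ⟨S', -, hS'⟩ := (hM.sub hDN).exists_rD hr (by rw [map_sub, key, sub_self])
  exact ⟨_, S', by rw [hS']; abel⟩

end Crest.Agent.R186.ALv
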