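import Mathlib

/-!
Vanishing of `Ext` in terms of an explicit projective resolution / injective coresolution.
-/

set_option autoImplicit false

open CategoryTheory

universe u

namespace Crest.Agent.R186

section General
open Abelian
universe w v' u'
variable {C : Type u'} [Category.{v'} C] [Abelian C] [HasExt.{w} C] {S : ShortComplex C}

theorem ext_one_iff_proj (hS : S.ShortExact) [Projective S.X₂] (Y : C) :
    Subsingleton (Ext.{w} S.X₃ Y (0 + 1)) ↔ ∀ φ : S.X₁ ⟶ Y, ∃ ψ : S.X₂ ⟶ Y, S.f ≫ ψ = φ := by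
  constructor
  · intro h φ
    obtain ⟨x, hx⟩ := Ext.contravariant_sequence_exact₁ hS Y (Ext.mk₀ φ) (n₁ := 0 + 1) rfl
      (Subsingleton.elim _ _)
    obtain ⟨ψ, rfl⟩ := (Ext.mk₀_bijective _ _).2 x
    rw [Ext.mk₀_comp_mk₀] at hx
    exact ⟨ψ, (Ext.mk₀_bijective _ _).1 hx⟩
  · intro h
    refine subsingleton_of_forall_eq 0 fun x => ?_
    obtain ⟨y, rfl⟩ := Ext.contravariant_sequence_exact₃ hS Y x (Ext.eq_zero_of_projective _)
      (n₀ := 0) rfl
    obtain ⟨φ, rfl⟩ := (Ext.mk₀_bijective _ _).2 y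
    obtain ⟨ψ, rfl⟩ := h φ
    rw [← Ext.mk₀_comp_mk₀]
    exact hS.extClass_comp_assoc _

theorem ext_succ_iff_proj (hS : S.ShortExact) [Projective S.X₂] (Y : C) (n : ℕ) :
    Subsingleton (Ext.{w} S.X₃ Y (n + 1 + 1)) ↔ Subsingleton (Ext.{w} S.X₁ Y (n + 1)) := by
  constructor
  · intro h
    refine subsingleton_of_forall_eq 0 fun x => ?_
    obtain ⟨y, rfl⟩ := Ext.contravariant_sequence_exact₁ hS Y x (n₁ := n + 1 + 1) (by omega)
      (Subsingleton.elim _ _)
    rw [Ext.eq_zero_of_projective y, Ext.comp_zero]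
  · intro h
    refine subsingleton_of_forall_eq 0 fun x => ?_
    obtain ⟨y, rfl⟩ := Ext.contravariant_sequence_exact₃ hS Y x (Ext.eq_zero_of_projective _)
      (n₀ := n + 1) (by omega)
    rw [Subsingleton.elim y 0, Ext.comp_zero]

theorem ext_one_iff_inj (hS : S.ShortExact) [Injective S.X₂] (X : C) :
    Subsingleton (Ext.{w} X S.X₁ (0 + 1)) ↔ ∀ φ : X ⟶ S.X₃, ∃ ψ : X ⟶ S.X₂, ψ ≫ S.g = φ := by
  constructor
  · intro h φ
    obtain ⟨x, hx⟩ := Ext.covariant_sequence_exact₃ X hS (Ext.mk₀ φ) (n₁ := 0 + 1) rfl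
      (Subsingleton.elim _ _)
    obtain ⟨ψ, rfl⟩ := (Ext.mk₀_bijective _ _).2 x
    rw [Ext.mk₀_comp_mk₀] at hx
    exact ⟨ψ, (Ext.mk₀_bijective _ _).1 hx⟩
  · intro h
    refine subsingleton_of_forall_eq 0 fun x => ?_
    obtain ⟨y, rfl⟩ := Ext.covariant_sequence_exact₁ X hS x (Ext.eq_zero_of_injective _)
      (n₀ := 0) rfl
    obtain ⟨φ, rfl⟩ := (Ext.mk₀_bijective _ _).2 y
    obtain ⟨ψ, rfl⟩ := h φ
    rw [← Ext.mk₀_comp_mk₀, Ext.comp_assoc_of_second_deg_zero, hS.comp_extClass, Ext.comp_zero]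

theorem ext_succ_iff_inj (hS : S.ShortExact) [Injective S.X₂] (X : C) (n : ℕ) :
    Subsingleton (Ext.{w} X S.X₁ (n + 1 + 1)) ↔ Subsingleton (Ext.{w} X S.X₃ (n + 1)) := by
  constructor
  · intro h
    refine subsingleton_of_forall_eq 0 fun x => ?_
    obtain ⟨y, rfl⟩ := Ext.covariant_sequence_exact₃ X hS x (n₁ := n + 1 + 1) rfl
      (Subsingleton.elim _ _)
    rw [Ext.eq_zero_of_injective y, Ext.zero_comp]
  · intro h
    refine subsingleton_of_forall_eq 0 fun x => ?_
    obtain ⟨y, rfl⟩ := Ext.covariant_sequence_exact₁ X hS x (Ext.eq_zero_of_injective _)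
      (n₀ := n + 1) rfl
    rw [Subsingleton.elim y 0, Ext.zero_comp]

end General

variable {R : Type u} [Ring R]

/-- `Ext^{n+1}(M,N) = 0` iff `Hom(P, N)` is exact at `n+1`. -/
theorem ext_subsingleton_iff_of_res {M N : Type u} [AddCommGroup M] [Module R M]
    [AddCommGroup N] [Module R N]
    (P : ℕ → Type u) [∀ n, AddCommGroup (P n)] [∀ n, Module R (P n)]
    (hP : ∀ n, Module.Projective R (P n))
    (d : ∀ n, P (n + 1) →ₗ[R] P n) (ε : P 0 →ₗ[R] M) (hε : Function.Surjective ε)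
    (h0 : Function.Exact (d 0) ε) (hd : ∀ n, Function.Exact (d (n + 1)) (d n)) (n : ℕ) :
    Subsingleton (Abelian.Ext (ModuleCat.of R M) (ModuleCat.of R N) (n + 1)) ↔
      ∀ φ : P (n + 1) →ₗ[R] N, φ ∘ₗ d (n + 1) = 0 → ∃ ψ : P n →ₗ[R] N, ψ ∘ₗ d n = φ := by
  induction n generalizing M P with
  | zero =>
    have : Projective ε.shortComplexKer.X₂ := by
      have := hP 0
      exact ModuleCat.projective_of_categoryTheory_projective (ModuleCat.of R (P 0))
    refine (ext_one_iff_proj (LinearMap.shortExact_shortComplexKer hε) (ModuleCat.of R N)).trans ?_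
    let e : P 1 →ₗ[R] LinearMap.ker ε := (d 0).codRestrict _ fun x => h0.apply_apply_eq_zero x
    have he : Function.Surjective e := fun x => by
      obtain ⟨y, hy⟩ := (h0 x.1).1 x.2
      exact ⟨y, Subtype.ext hy⟩
    constructor
    · intro h φ hφ
      have hk : LinearMap.ker e ≤ LinearMap.ker φ := fun x hx => by
        have hx' : d 0 x = 0 := congrArg Subtype.val hx
        obtain ⟨y, rfl⟩ := (hd 0 x).1 hx'
        exact LinearMap.congr_fun hφ y
      let φ' : LinearMap.ker ε →ₗ[R] N :=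
        ((LinearMap.ker e).liftQ φ hk) ∘ₗ (e.quotKerEquivOfSurjective he).symm.toLinearMap
      have hφ' : ∀ x, φ' (e x) = φ x := fun x => by
        have : (e.quotKerEquivOfSurjective he).symm (e x) = Submodule.Quotient.mk x := by
          rw [LinearEquiv.symm_apply_eq]; rfl
        simp [φ', this]
      obtain ⟨ψ, hψ⟩ := h (ModuleCat.ofHom φ')
      refine ⟨ψ.hom, LinearMap.ext fun x => ?_⟩
      rw [← hφ' x]
      exact LinearMap.congr_fun (congrArg ModuleCat.Hom.hom hψ) (e x)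
    · intro h φ
      obtain ⟨ψ, hψ⟩ := h (φ.hom ∘ₗ e) (LinearMap.ext fun x => by
        have : e (d 1 x) = 0 := Subtype.ext ((hd 0).apply_apply_eq_zero x)
        simp [this])
      refine ⟨ModuleCat.ofHom ψ, ModuleCat.hom_ext (LinearMap.ext fun x => ?_)⟩
      obtain ⟨y, rfl⟩ := he x
      exact LinearMap.congr_fun hψ y
  | succ n ih =>
    have : Projective ε.shortComplexKer.X₂ := by
      have := hP 0
      exact ModuleCat.projective_of_categoryTheory_projective (ModuleCat.of R (P 0))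
    refine (ext_succ_iff_proj (LinearMap.shortExact_shortComplexKer hε) (ModuleCat.of R N) n).trans ?_
    let e : P 1 →ₗ[R] LinearMap.ker ε := (d 0).codRestrict _ fun x => h0.apply_apply_eq_zero x
    have he : Function.Surjective e := fun x => by
      obtain ⟨y, hy⟩ := (h0 x.1).1 x.2
      exact ⟨y, Subtype.ext hy⟩
    exact ih (fun n => P (n + 1)) (fun n => hP (n + 1)) (fun n => d (n + 1)) e he
      (fun x => Subtype.ext_iff.trans (hd 0 x)) fun n => hd (n + 1)

/-- `Ext^{n+1}(M,N) = 0` iff `Hom(M, I)` is exact at `n+1`. -/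
theorem ext_subsingleton_iff_of_cores {M N : Type u} [AddCommGroup M] [Module R M]
    [AddCommGroup N] [Module R N]
    (I : ℕ → Type u) [∀ n, AddCommGroup (I n)] [∀ n, Module R (I n)]
    (hI : ∀ n, Module.Injective R (I n))
    (d : ∀ n, I n →ₗ[R] I (n + 1)) (η : N →ₗ[R] I 0) (hη : Function.Injective η)
    (h0 : Function.Exact η (d 0)) (hd : ∀ n, Function.Exact (d n) (d (n + 1))) (n : ℕ) :
    Subsingleton (Abelian.Ext (ModuleCat.of R M) (ModuleCat.of R N) (n + 1)) ↔
      ∀ φ : M →ₗ[R] I (n + 1), d (n + 1) ∘ₗ φ = 0 → ∃ ψ : M →ₗ[R] I n, d n ∘ₗ ψ = φ := by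
  have se : ∀ {N I0 : Type u} [AddCommGroup N] [Module R N] [AddCommGroup I0] [Module R I0]
      (η : N →ₗ[R] I0), Function.Injective η →
      (ShortComplex.moduleCatMk η (LinearMap.range η).mkQ (LinearMap.range_mkQ_comp η)).ShortExact :=
    fun η hη => ModuleCat.shortComplex_shortExact _ (LinearMap.exact_map_mkQ_range η) hη
      (Submodule.mkQ_surjective _)
  induction n generalizing N I with
  | zero =>
    have : Injective (ShortComplex.moduleCatMk η (LinearMap.range η).mkQ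
        (LinearMap.range_mkQ_comp η)).X₂ := by
      have := hI 0
      exact Module.injective_object_of_injective_module R (I 0)
    refine (ext_one_iff_inj (se η hη) (ModuleCat.of R M)).trans ?_
    let e : (I 0 ⧸ LinearMap.range η) →ₗ[R] I 1 := (LinearMap.range η).liftQ (d 0) (by
      rintro _ ⟨x, rfl⟩; exact h0.apply_apply_eq_zero x)
    have he : Function.Injective e := by
      rw [← LinearMap.ker_eq_bot]
      exact Submodule.ker_liftQ_eq_bot _ _ _ fun x hx => (h0 x).1 hx
    constructor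
    · intro h φ hφ
      have hr : ∀ x, φ x ∈ LinearMap.range e := fun x => by
        obtain ⟨y, hy⟩ := (hd 0 (φ x)).1 (LinearMap.congr_fun hφ x)
        exact ⟨Submodule.Quotient.mk y, hy⟩
      let φ' : M →ₗ[R] (I 0 ⧸ LinearMap.range η) :=
        (LinearEquiv.ofInjective e he).symm.toLinearMap ∘ₗ φ.codRestrict _ hr
      have hφ' : ∀ x, e (φ' x) = φ x := fun x => by
        simp [φ']
      obtain ⟨ψ, hψ⟩ := h (ModuleCat.ofHom φ')
      refine ⟨ψ.hom, LinearMap.ext fun x => ?_⟩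
      rw [← hφ' x]
      exact congrArg e (LinearMap.congr_fun (congrArg ModuleCat.Hom.hom hψ) x)
    · intro h φ
      obtain ⟨ψ, hψ⟩ := h (e ∘ₗ φ.hom) (LinearMap.ext fun x => by
        obtain ⟨y, hy⟩ := Submodule.mkQ_surjective (LinearMap.range η) (φ.hom x)
        have : e (φ.hom x) = d 0 y := by rw [← hy]; rfl
        exact (congrArg (d 1) this).trans ((hd 0).apply_apply_eq_zero y))
      refine ⟨ModuleCat.ofHom ψ, ModuleCat.hom_ext (LinearMap.ext fun x => he ?_)⟩
      exact LinearMap.congr_fun hψ x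
  | succ n ih =>
    have : Injective (ShortComplex.moduleCatMk η (LinearMap.range η).mkQ
        (LinearMap.range_mkQ_comp η)).X₂ := by
      have := hI 0
      exact Module.injective_object_of_injective_module R (I 0)
    refine (ext_succ_iff_inj (se η hη) (ModuleCat.of R M) n).trans ?_
    let e : (I 0 ⧸ LinearMap.range η) →ₗ[R] I 1 := (LinearMap.range η).liftQ (d 0) (by
      rintro _ ⟨x, rfl⟩; exact h0.apply_apply_eq_zero x)
    have he : Function.Injective e := by
      rw [← LinearMap.ker_eq_bot]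
      exact Submodule.ker_liftQ_eq_bot _ _ _ fun x hx => (h0 x).1 hx
    refine ih (fun n => I (n + 1)) (fun n => hI (n + 1)) (fun n => d (n + 1)) e he
      (fun x => (hd 0 x).trans ⟨?_, ?_⟩) fun n => hd (n + 1)
    · rintro ⟨y, rfl⟩; exact ⟨Submodule.Quotient.mk y, rfl⟩
    · rintro ⟨y, rfl⟩
      obtain ⟨z, rfl⟩ := Submodule.mkQ_surjective (LinearMap.range η) y
      exact ⟨z, rfl⟩

/-- `Ext^0(M,N) = 0` iff `Hom(M,N) = 0`. -/
theorem ext_zero_subsingleton_iff {M N : Type u} [AddCommGroup M] [Module R M]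
    [AddCommGroup N] [Module R N] :
    Subsingleton (Abelian.Ext (ModuleCat.of R M) (ModuleCat.of R N) 0) ↔
      ∀ φ : M →ₗ[R] N, φ = 0 := by
  constructor
  · intro h φ
    have := (Abelian.Ext.mk₀_eq_zero_iff (ModuleCat.ofHom φ)).1 (Subsingleton.elim _ _)
    exact congrArg ModuleCat.Hom.hom this
  · intro h
    refine subsingleton_of_forall_eq 0 fun x => ?_
    obtain ⟨φ, rfl⟩ := (Abelian.Ext.mk₀_bijective _ _).2 x
    rw [Abelian.Ext.mk₀_eq_zero_iff]
    exact ModuleCat.hom_ext (h φ.hom)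

end Crest.Agent.R186
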