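import Mathlib
import Crest.Prelude.Def_SymmetricAlgebra

/-!
Row 186 / 178: interface predicates.

`Tach k A M`: `A` is a finite-dimensional symmetric `k`-algebra and `M` a finitely generated,
non-projective, self-orthogonal left `A`-module.
`Basic k A ι`: `A` maps onto `k^ι` with nilpotent kernel, and four kernel elements have
nonzero product.
-/

set_option autoImplicit false

open CategoryTheory

universe u v

namespace Crest.Agent.R186

structure Tach (k : Type v) [Field k] (A : Type u) [Ring A] [Algebra k A]
    (M : Type u) [AddCommGroup M] [Module A M] : Prop where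
  fd : FiniteDimensional k A
  symm : Crest.AlgebraR.IsSymmetricAlgebra k A
  fin : Module.Finite A M
  nproj : ¬ Module.Projective A M
  ext : ∀ i : ℕ, 0 < i → Subsingleton (Abelian.Ext (ModuleCat.of A M) (ModuleCat.of A M) i)

/-- split basic with simples indexed by `ι`, radical of nonzero fourth power -/
def Basic (k : Type v) [Field k] (A : Type u) [Ring A] [Algebra k A] (ι : Type) : Prop :=
  ∃ π : A →ₐ[k] (ι → k), Function.Surjective π ∧
    IsNilpotent (LinearMap.ker π.toLinearMap : Submodule k A) ∧
    ∃ a b c d : A, π a = 0 ∧ π b = 0 ∧ π c = 0 ∧ π d = 0 ∧ a * b * c * d ≠ 0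

/-- The conclusion of the main construction over the field `k`. -/
def MainStmt (k : Type u) [Field k] : Prop :=
  ∃ (A : Type u) (_ : Ring A) (_ : Algebra k A) (M : Type u) (_ : AddCommGroup M)
    (_ : Module A M), Tach k A M ∧ Basic k A (Fin 8)

end Crest.Agent.R186
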