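import Crest.Agent.R186.MC2
import Crest.Agent.R186.DualBi
import Crest.Agent.R186.Tach
import Crest.Agent.R186.ExtRes
import Crest.Agent.R186.ALevelDual

/-!
From a totally acyclic matrix complex over `Λ` with Tate cohomology in degrees `0, -1` only to a
Tachikawa counterexample over the trivial extension `TA k Λ`.
-/

set_option autoImplicit false

open MulOpposite

universe u

namespace Crest.Agent.R186

namespace ALv

open MC

section Mod

variable {Λ : Type u} [Ring Λ] {A : Type u} [Ring A] [Module Λ A] [Module Λᵐᵒᵖ A]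
  [SMulCommClass A Λᵐᵒᵖ A] (P : MC Λ)

/-- rows of degree `m` -/
def Row (A : Type u) [Ring A] [Module Λᵐᵒᵖ A] [SMulCommClass A Λᵐᵒᵖ A] (m : ℤ) :
    Submodule A (P.ι → A) := LinearMap.eqLocus (P.rprojL A m) LinearMap.id

omit [Module Λ A] in
theorem mem_Row {m : ℤ} {v : P.ι → A} : v ∈ Row P A m ↔ P.IsRow m v := Iff.rfl

/-- row times matrix -/
def mulM (m : ℤ) (X : P.ι → P.ι → A) : (P.ι → A) →ₗ[A] (P.ι → A) :=
  ∑ i ∈ P.fib m, (LinearMap.proj i : (P.ι → A) →ₗ[A] A).smulRight (X i)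

omit [Module Λ A] [Module Λᵐᵒᵖ A] [SMulCommClass A Λᵐᵒᵖ A] in
theorem mulM_apply (m : ℤ) (X : P.ι → P.ι → A) (v : P.ι → A) :
    mulM P m X v = ∑ i ∈ P.fib m, v i • X i := by
  simp [mulM]

/-- basis rows -/
def bas (A : Type u) [Ring A] [Module Λᵐᵒᵖ A] [SMulCommClass A Λᵐᵒᵖ A] (m : ℤ) (i : P.ι) :
    Row P A m := ⟨P.rproj m (Pi.single i 1), P.isRow_rproj _ _⟩

omit [Module Λ A] in
theorem sum_bas {m : ℤ} (v : Row P A m) : ∑ i ∈ P.fib m, v.1 i • bas P A m i = v := by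
  apply Subtype.ext
  have h1 : ((∑ i ∈ P.fib m, v.1 i • bas P A m i : Row P A m) : P.ι → A)
      = P.rprojL A m (∑ i ∈ P.fib m, v.1 i • Pi.single i 1) := by
    rw [map_sum, Submodule.coe_sum]
    exact Finset.sum_congr rfl fun i _ => by rw [map_smul]; rfl
  have hv : P.IsRow m v.1 := v.2
  rw [h1]
  conv_rhs => rw [← hv]
  ext j
  simp only [rprojL_apply, rproj_apply]
  split_ifs with h
  · congr 1
    rw [Finset.sum_apply, Finset.sum_eq_single j]
    · simp
    · intro i _ hi; simp [Pi.single_eq_of_ne' hi]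
    · intro h'; exact (h' ((P.mem_fib _ _).2 h)).elim
  · rfl

omit [Module Λ A] in
theorem map_eq_mulM {m : ℤ} (Φ : Row P A m →ₗ[A] (P.ι → A)) (v : Row P A m) :
    Φ v = mulM P m (fun i => Φ (bas P A m i)) v.1 := by
  conv_lhs => rw [← sum_bas P v]
  simp [mulM_apply]

omit [Module Λ A] in
theorem rowD_mulM (m : ℤ) (X : P.ι → P.ι → A) (v : P.ι → A) :
    P.rowD (mulM P m X v) = mulM P m (P.rD P X) v := by
  rw [mulM_apply, mulM_apply, ← rowL_apply (S := A), map_sum]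
  exact Finset.sum_congr rfl fun i _ => by rw [map_smul]; rfl

omit [Module Λ A] in
theorem mulM_isRow (m : ℤ) {j : ℤ} {X : P.ι → P.ι → A} (h : ∀ i, P.IsRow j (X i)) (v : P.ι → A) :
    P.IsRow j (mulM P m X v) := by
  rw [← mem_Row, mulM_apply]
  exact Submodule.sum_mem _ fun i _ => Submodule.smul_mem _ _ (h i)

omit [Module Λ A] in
theorem Row_retract (m : ℤ) :
    ∃ (i : Row P A m →ₗ[A] (P.fib m → A)) (p : (P.fib m → A) →ₗ[A] Row P A m),
      p ∘ₗ i = LinearMap.id := by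
  refine ⟨LinearMap.pi fun j => LinearMap.proj j.1 ∘ₗ (Row P A m).subtype,
    ∑ j : P.fib m, (LinearMap.proj j : (P.fib m → A) →ₗ[A] A).smulRight (bas P A m j.1), ?_⟩
  refine LinearMap.ext fun v => ?_
  conv_rhs => rw [LinearMap.id_apply, ← sum_bas P v, ← Finset.sum_coe_sort]
  simp

omit [Module Λ A] in
theorem Row_projective (m : ℤ) : Module.Projective A (Row P A m) := by
  obtain ⟨i, p, h⟩ := Row_retract (A := A) P m
  exact Module.Projective.of_split i p h

omit [Module Λ A] in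
theorem Row_finite (m : ℤ) : Module.Finite A (Row P A m) := by
  obtain ⟨i, p, h⟩ := Row_retract (A := A) P m
  exact Module.Finite.of_surjective p fun v => ⟨i v, LinearMap.congr_fun h v⟩

variable (hA : ∀ (d : Λ) (a x : A), (op d • a) * x = a * (d • x))
include hA

omit [SMulCommClass A Λᵐᵒᵖ A] in
theorem smul_bal (d : Λ) (a : A) (x : P.ι → A) : (op d • a) • x = a • d • x := by
  ext i; exact hA d a (x i)

omit [SMulCommClass A Λᵐᵒᵖ A] in
theorem mulM_rowD (m : ℤ) (X : P.ι → P.ι → A) (v : P.ι → A) :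
    mulM P m X (P.rowD v) = mulM P (m + 1) (P.colD X) v := by
  rw [mulM_apply, mulM_apply]
  have h1 : ∀ j ∈ P.fib m, P.rowD v j • X j = ∑ i ∈ P.fib (m + 1), v i • P.D i j • X j :=
    fun j hj => by
      rw [rowD_apply, (P.mem_fib _ _).1 hj, Finset.sum_smul]
      exact Finset.sum_congr rfl fun i _ => smul_bal P hA _ _ _
  have h2 : ∀ i ∈ P.fib (m + 1), v i • P.colD X i = ∑ j ∈ P.fib m, v i • P.D i j • X j :=
    fun i hi => by
      rw [colD_apply, (P.mem_fib _ _).1 hi, add_sub_cancel_right, Finset.smul_sum]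
  rw [Finset.sum_congr rfl h1, Finset.sum_congr rfl h2, Finset.sum_comm]

omit [SMulCommClass A Λᵐᵒᵖ A] in
theorem mulM_rproj (m : ℤ) (X : P.ι → P.ι → A) (v : P.ι → A) :
    mulM P m X (P.rproj m v) = mulM P m (P.proj m X) v := by
  rw [mulM_apply, mulM_apply]
  refine Finset.sum_congr rfl fun i hi => ?_
  rw [rproj_apply, proj_apply, if_pos ((P.mem_fib _ _).1 hi), if_pos ((P.mem_fib _ _).1 hi),
    smul_bal P hA]

theorem mulM_bas (m : ℤ) (X : P.ι → P.ι → A) (i : P.ι) :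
    mulM P m X (bas P A m i).1 = P.proj m X i := by
  change mulM P m X (P.rproj m _) = _
  rw [mulM_rproj P hA, mulM_apply]
  by_cases h : P.deg i = m
  · rw [Finset.sum_eq_single i]
    · simp
    · intro j _ hj; simp [Pi.single_eq_of_ne hj]
    · intro h'; exact (h' ((P.mem_fib _ _).2 h)).elim
  · rw [proj_apply, if_neg h]
    refine Finset.sum_eq_zero fun j hj => ?_
    have : j ≠ i := fun e => h (e ▸ (P.mem_fib _ _).1 hj)
    simp [Pi.single_eq_of_ne this]

theorem eq_zero_of_mulM {m : ℤ} {X : P.ι → P.ι → A} (hX : P.IsCol m X)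
    (h : ∀ v, P.IsRow m v → mulM P m X v = 0) : X = 0 := by
  ext i : 1
  rw [← hX, ← mulM_bas P hA, h _ (bas P A m i).2]; rfl

/-- a linear map on rows is given by a matrix -/
theorem exists_mat {m j : ℤ} [SMulCommClass Λ Λᵐᵒᵖ A] (Φ : Row P A m →ₗ[A] (P.ι → A))
    (h : ∀ v, ∃ w, P.IsRow j w ∧ P.rowD w = Φ v) :
    ∃ X, P.IsMat P m j X ∧ ∀ v : Row P A m, Φ v = mulM P m (P.rD P X) v.1 := by
  choose X hX1 hX2 using fun i => h (bas P A m i)
  refine ⟨P.mproj P m j X, P.isMat_mproj P m j X, fun v => ?_⟩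
  have e1 : P.mproj P m j X = P.proj m X := by
    change P.proj m (fun i => P.rproj j (X i)) = _
    rw [funext hX1]
  have e2 : P.proj m (P.rD P X) = P.rD P (P.proj m X) := P.proj_comp (P.rowL Λ) m X
  have hv : P.IsRow m v.1 := v.2
  rw [e1, ← e2, ← mulM_rproj P hA, hv, map_eq_mulM]
  congr 2
  exact funext fun i => (hX2 i).symm

end Mod

section Res

variable {Λ : Type u} [Ring Λ] {A : Type u} [Ring A] [Module Λᵐᵒᵖ A]
  [SMulCommClass A Λᵐᵒᵖ A] (P : MC Λ)

/-- the module of boundaries -/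
def Bd (A : Type u) [Ring A] [Module Λᵐᵒᵖ A] [SMulCommClass A Λᵐᵒᵖ A] (j : ℤ) :
    Submodule A (P.ι → A) := (Row P A j).map (P.rowL A)

/-- differential of the resolution -/
def dd (A : Type u) [Ring A] [Module Λᵐᵒᵖ A] [SMulCommClass A Λᵐᵒᵖ A] (j : ℤ) (n : ℕ) :
    Row P A (j + (n + 1 : ℕ)) →ₗ[A] Row P A (j + n) :=
  (P.rowL A).restrict fun v hv => IsRow.rowD (by
    rw [add_assoc]; exact_mod_cast hv)

/-- augmentation -/
def aug (A : Type u) [Ring A] [Module Λᵐᵒᵖ A] [SMulCommClass A Λᵐᵒᵖ A] (j : ℤ) :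
    Row P A (j + (0 : ℕ)) →ₗ[A] Bd P A j :=
  (P.rowL A).restrict fun v hv => ⟨v, by simpa using hv, rfl⟩

theorem aug_surjective (j : ℤ) : Function.Surjective (aug P A j) := by
  rintro ⟨_, v, hv, rfl⟩
  exact ⟨⟨v, by simpa using hv⟩, rfl⟩

theorem exact_aug (hr : ∀ n, P.RowEx A n) (j : ℤ) : Function.Exact (dd P A j 0) (aug P A j) := by
  intro v
  constructor
  · intro h
    obtain ⟨w, hw, hw'⟩ := (hr _).exists_isRow v.2 (congrArg Subtype.val h)
    exact ⟨⟨w, by rw [add_assoc] at hw; exact_mod_cast hw⟩, Subtype.ext hw'⟩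
  · rintro ⟨w, rfl⟩
    exact Subtype.ext (P.rowD_rowD _)

theorem exact_dd (hr : ∀ n, P.RowEx A n) (j : ℤ) (n : ℕ) :
    Function.Exact (dd P A j (n + 1)) (dd P A j n) := by
  intro v
  constructor
  · intro h
    obtain ⟨w, hw, hw'⟩ := (hr _).exists_isRow v.2 (congrArg Subtype.val h)
    exact ⟨⟨w, by rw [add_assoc] at hw; exact_mod_cast hw⟩, Subtype.ext hw'⟩
  · rintro ⟨w, rfl⟩
    exact Subtype.ext (P.rowD_rowD _)

variable [Module Λ A] [SMulCommClass Λ Λᵐᵒᵖ A]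
  (hA : ∀ (d : Λ) (a x : A), (op d • a) * x = a * (d • x))
include hA

theorem ext_Bd (hr : ∀ n, P.RowEx A n) (j : ℤ) (n : ℕ) (hv : P.Van P A (j + (n + 1 : ℕ)) j) :
    Subsingleton (CategoryTheory.Abelian.Ext (ModuleCat.of A (Bd P A j))
      (ModuleCat.of A (Bd P A j)) (n + 1)) := by
  refine (ext_subsingleton_iff_of_res (fun n : ℕ => Row P A (j + n))
    (fun n => Row_projective P _) (dd P A j) (aug P A j) (aug_surjective P j) (exact_aug P hr j)
    (exact_dd P hr j) n).2 fun φ hφ => ?_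
  obtain ⟨X, hX, hφX⟩ := exists_mat P hA (j := j) ((Bd P A j).subtype ∘ₗ φ) fun v => (φ v).2
  have h0 : P.colD (P.rD P X) = 0 := by
    refine eq_zero_of_mulM P hA hX.rD'.colD.1 fun v hv => ?_
    have hv' : v ∈ Row P A (j + (n + 1 + 1 : ℕ)) := by
      rw [add_assoc] at hv; exact_mod_cast hv
    rw [← mulM_rowD P hA]
    have := hφX (dd P A j (n + 1) ⟨v, hv'⟩)
    refine this.symm.trans ?_
    exact congrArg Subtype.val (LinearMap.congr_fun hφ ⟨v, hv'⟩)
  obtain ⟨S, S', hS, -, hXS⟩ := hv.exists_isMat hX h0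
  refine ⟨(mulM P (j + n) (P.rD P S) ∘ₗ (Row P A (j + n)).subtype).codRestrict _ fun v =>
    ⟨mulM P (j + n) S v.1, mulM_isRow P _ hS.2 _, rowD_mulM P _ _ _⟩, ?_⟩
  refine LinearMap.ext fun v => Subtype.ext ?_
  refine Eq.trans ?_ (hφX v).symm
  change mulM P (j + n) (P.rD P S) (P.rowD v.1) = _
  rw [mulM_rowD P hA, hXS, map_add, rD_rD, add_zero, colD_rD, add_assoc]
  rfl

theorem not_proj_Bd (hr : ∀ n, P.RowEx A n) (hc : ∀ n, P.ColEx A n) {k : Type*} [AddCommGroup k]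
    (χ : A →+ k) (h1 : ∀ i j x, χ (P.D i j • x) = 0) (h2 : ∀ i j x, χ (op (P.D i j) • x) = 0)
    (i0 : P.ι) (h3 : χ (op (P.e i0) • 1) ≠ 0) :
    ¬ Module.Projective A (Bd P A (P.deg i0)) := by
  intro hp
  set j := P.deg i0 with hj
  obtain ⟨s, hs⟩ := Module.projective_lifting_property (aug P A j) LinearMap.id (aug_surjective P j)
  have hs' : ∀ z, P.rowD (s z).1 = z.1 := fun z => congrArg Subtype.val (LinearMap.congr_fun hs z)
  let Φ : Row P A (j + (0 : ℕ)) →ₗ[A] (P.ι → A) := (Row P A _).subtype ∘ₗ s ∘ₗ aug P A j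
  let T : P.ι → P.ι → A := P.proj (j + (0 : ℕ)) fun i => Φ (bas P A _ i)
  have hΦ : ∀ v, Φ v = mulM P (j + (0 : ℕ)) T v.1 := fun v => by
    have hv : P.IsRow _ v.1 := v.2
    rw [← mulM_rproj P hA, hv, map_eq_mulM]
  have hT : P.IsCol (j + (0 : ℕ)) T := P.isCol_proj _ _
  have h0 : P.colD T = 0 := by
    refine eq_zero_of_mulM P hA hT.colD fun v hv => ?_
    rw [← mulM_rowD P hA]
    refine (hΦ ⟨_, hv.rowD⟩).symm.trans ?_
    have : aug P A j ⟨_, hv.rowD⟩ = 0 := Subtype.ext (P.rowD_rowD _)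
    simp [Φ, this]
  obtain ⟨S, hS⟩ := ColEx.pi (W := fun _ : P.ι => A) (fun _ => hc _) T hT h0
  have e1 : χ (T i0 i0) = 0 := by
    rw [← hS, colD_apply, Finset.sum_apply, map_sum]
    exact Finset.sum_eq_zero fun l _ => h1 _ _ _
  have e2 : Φ (bas P A _ i0) = T i0 := by rw [hΦ, mulM_bas P hA, hT]
  obtain ⟨w, hw⟩ := hr _ _ (IsRow.sub (bas P A (j + (0 : ℕ)) i0).2
    (s (aug P A j (bas P A _ i0))).2) (by rw [map_sub, hs']; exact sub_self _)
  have e3 : χ (((bas P A (j + (0 : ℕ)) i0).1 - Φ (bas P A _ i0)) i0) = 0 := by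
    refine (congrArg (fun x => χ (x i0)) hw).symm.trans ?_
    simp only [rowD_apply, map_sum]
    exact Finset.sum_eq_zero fun l _ => h2 _ _ _
  rw [e2, Pi.sub_apply, map_sub, e1, sub_zero] at e3
  apply h3
  simpa [bas, rproj_apply, hj] using e3

end Res

section TA

variable {k : Type u} [Field k] {Λ : Type u} [Ring Λ] [Algebra k Λ]

theorem op_smul_eq (d : Λ) (x : TA k Λ) : op d • x = x * TrivSqZeroExt.inl d := by
  ext <;> simp

theorem smul_eq (d : Λ) (x : TA k Λ) : d • x = TrivSqZeroExt.inl d * x := by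
  ext <;> simp

instance : SMulCommClass (TA k Λ) Λᵐᵒᵖ (TA k Λ) :=
  ⟨fun a b x => by
    rw [← op_unop b, op_smul_eq, op_smul_eq, smul_eq_mul, smul_eq_mul, mul_assoc]⟩

instance : SMulCommClass Λ Λᵐᵒᵖ (TA k Λ) :=
  ⟨fun a b x => by
    rw [← op_unop b, op_smul_eq, op_smul_eq, smul_eq, smul_eq, mul_assoc]⟩

theorem fd_TA [FiniteDimensional k Λ] : FiniteDimensional k (TA k Λ) :=
  inferInstanceAs (FiniteDimensional k (Λ × DB k Λ))

theorem symm_TA [FiniteDimensional k Λ] : Crest.AlgebraR.IsSymmetricAlgebra k (TA k Λ) := by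
  have := fd_TA (k := k) (Λ := Λ)
  let lam : TA k Λ →ₗ[k] k :=
    { toFun := fun x => DB.val x.snd 1
      map_add' := fun x y => by simp
      map_smul' := fun c x => by simp }
  have hl : ∀ x y, lam (x * y) = DB.val y.snd x.fst + DB.val x.snd y.fst := fun x y => by
    simp [lam]
  have hsymm : ∀ x y, lam (x * y) = lam (y * x) := fun x y => by rw [hl, hl, add_comm]
  let φ : TA k Λ →ₗ[k] Module.Dual k (TA k Λ) := (LinearMap.mul k _).compr₂ lam
  have hinj : Function.Injective φ := by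
    rw [injective_iff_map_eq_zero]
    intro x hx
    have h1 : ∀ y, lam (x * y) = 0 := fun y => LinearMap.congr_fun hx y
    ext y
    · refine (Module.forall_dual_apply_eq_zero_iff k _).1 fun ψ => ?_
      have := h1 (TrivSqZeroExt.inr (DB.val.symm ψ))
      simpa [hl] using this
    · have := h1 (TrivSqZeroExt.inl y)
      simpa [hl] using this
  refine ⟨LinearEquiv.ofInjectiveOfFinrankEq φ hinj (Subspace.dual_finrank_eq).symm, ?_⟩
  intro a x b y
  change lam (a * x * b * y) = lam (x * (b * y * a))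
  rw [mul_assoc, mul_assoc, hsymm a]
  simp only [mul_assoc]

end TA

end ALv

open ALv in
theorem tach_of_mc {k : Type u} [Field k] {Λ : Type u} [Ring Λ] [Algebra k Λ]
    [FiniteDimensional k Λ] (P : MC Λ) (hr : ∀ n, P.RowEx Λ n) (hc : ∀ n, P.ColEx Λ n)
    (hv : ∀ n j : ℤ, 1 ≤ n - j ∨ n - j ≤ -2 → P.Van P Λ n j)
    (χ : Λ →ₐ[k] k) (hχ : ∀ i j, χ (P.D i j) = 0) (i0 : P.ι) (hi0 : χ (P.e i0) ≠ 0) :
    ∃ (M : Type u) (_ : AddCommGroup M) (_ : Module (TA k Λ) M), Tach k (TA k Λ) M := by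
  have hA : ∀ (d : Λ) (a x : TA k Λ), (op d • a) * x = a * (d • x) := fun d a x => by
    rw [op_smul_eq, smul_eq, mul_assoc]
  have hr' : ∀ n, P.RowEx (TA k Λ) n := fun n => (hr n).prod (rowEx_DB (k := k) P (hc n))
  have hc' : ∀ n, P.ColEx (TA k Λ) n := fun n => (hc n).prod (colEx_DB (k := k) P (hr n))
  have hv' : ∀ n j : ℤ, 1 ≤ n - j → P.Van P (TA k Λ) n j := fun n j h =>
    Van_prod (hv n j (Or.inl h))
      (Van_dual (k := k) P (rowEx_DB P (hc j)) (hv _ _ (Or.inr (by omega))))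
  refine ⟨Bd P (TA k Λ) (P.deg i0), inferInstance, inferInstance, fd_TA, symm_TA, ?_, ?_, ?_⟩
  · have := Row_finite (A := TA k Λ) P (P.deg i0 + (0 : ℕ))
    exact Module.Finite.of_surjective _ (aug_surjective P _)
  · refine not_proj_Bd P hA hr' hc' (k := k)
      { toFun := fun x => χ x.fst, map_zero' := by simp, map_add' := fun x y => by simp }
      (fun i j x => ?_) (fun i j x => ?_) i0 ?_
    · simp [hχ]
    · simp [hχ]
    · simpa using hi0
  · intro i hi
    obtain ⟨n, rfl⟩ : ∃ n, i = n + 1 := ⟨i - 1, by omega⟩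
    exact ext_Bd P hA hr' _ n (hv' _ _ (by push_cast; omega))

end Crest.Agent.R186
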