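import Crest.Agent.R186.PB2

/-!
Casimir elements `cas φ = ∑ φ(a_i) ⊗ a'_i` of the free bimodule over a symmetric algebra, and the
extension of a bimodule by a twisted derivation.
-/

set_option autoImplicit false

open MulOpposite
open scoped TensorProduct

universe u

namespace Crest.Agent.R186

namespace PB

variable {k : Type u} [Field k] {R : Type u} [Ring R] [Algebra k R]

/-- map into a finite power -/
def Hom.pi {V W : PB k R} {n : ℕ} (f : Fin n → Hom V W) : Hom V (W.pow n) :=
  ⟨LinearMap.pi fun i => (f i).l, fun a v => funext fun i => (f i).map_r a v⟩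

@[simp] theorem ev_pi {V W : PB k R} {n : ℕ} (f : Fin n → Hom V W) (v : V.V) (i : Fin n) :
    (W.ev i).l ((Hom.pi f).l v) = (f i).l v := rfl

theorem pow_ext {V : PB k R} {n : ℕ} {x y : (V.pow n).V}
    (h : ∀ i, (V.ev i).l x = (V.ev i).l y) : x = y := funext h

section OT

variable [FiniteDimensional k R]

theorem inner_inner (a b c d : R) (z : (OT k R).V) :
    (inner a b).l ((inner c d).l z) = (inner (c * a) (b * d)).l z :=
  Hom.ext_OT (f := (inner a b).comp (inner c d)) (fun x y => by simp [mul_assoc]) z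

theorem inner_one (z : (OT k R).V) : (inner (1 : R) 1).l z = z :=
  Hom.ext_OT (g := Hom.id _) (fun x y => by simp) z

theorem inner_add_left (a b c : R) (z : (OT k R).V) :
    (inner (a + b) c).l z = (inner a c).l z + (inner b c).l z :=
  Hom.ext_OT (g := (inner a c).add (inner b c)) (fun x y => by simp [mul_add]) z

theorem inner_add_right (a b c : R) (z : (OT k R).V) :
    (inner a (b + c)).l z = (inner a b).l z + (inner a c).l z :=
  Hom.ext_OT (g := (inner a b).add (inner a c)) (fun x y => by simp [add_mul]) z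

theorem inner_zero_left (c : R) (z : (OT k R).V) : (inner 0 c).l z = 0 := by
  have := inner_add_left 0 0 c z
  simpa using this

theorem inner_zero_right (c : R) (z : (OT k R).V) : (inner c 0).l z = 0 := by
  have := inner_add_right c 0 0 z
  simpa using this

theorem inner_algebraMap (r : k) (z : (OT k R).V) :
    (inner (algebraMap k R r) 1).l z = (inner 1 (algebraMap k R r)).l z :=
  Hom.ext_OT (fun x y => by
    simp [Algebra.algebraMap_eq_smul_one]) z

theorem otFib_inner (χ : R →ₐ[k] k) (a b : R) (z : (OT k R).V) :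
    otFib χ ((inner a b).l z) = χ b • (otFib χ z * a) := by
  induction z using OT_induction with
  | zero => simp
  | add x y hx hy => simp only [map_add, hx, hy, add_mul, smul_add]
  | tmul x y => simp [mul_smul]

/-- the elements commuting with `z` for the inner actions -/
def centr (z : (OT k R).V) : Subalgebra k R where
  carrier := {a | (inner a 1).l z = (inner 1 a).l z}
  mul_mem' {a b} ha hb := by
    have ha' : (inner a 1).l z = (inner 1 a).l z := ha
    have hb' : (inner b 1).l z = (inner 1 b).l z := hb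
    have h1 := congrArg (inner b 1).l ha'
    have h2 := congrArg (inner 1 a).l hb'
    simp only [inner_inner, mul_one, one_mul] at h1 h2
    exact h1.trans h2
  add_mem' {a b} ha hb := by
    have ha' : (inner a 1).l z = (inner 1 a).l z := ha
    have hb' : (inner b 1).l z = (inner 1 b).l z := hb
    change (inner (a + b) 1).l z = (inner 1 (a + b)).l z
    rw [inner_add_left, inner_add_right, ha', hb']
  algebraMap_mem' r := inner_algebraMap r z

theorem mem_centr {z : (OT k R).V} {a : R} : a ∈ centr z ↔ (inner a 1).l z = (inner 1 a).l z :=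
  Iff.rfl

variable (S : SymData k R)

/-- `∑ φ(a_i) ⊗ a'_i` -/
noncomputable def cas : (R →ₗ[k] R) →ₗ[k] (OT k R).V :=
  ∑ i, (tm (k := k) (R := R)).flip (S.a' i) ∘ₗ LinearMap.applyₗ (S.a i)

theorem cas_apply (φ : R →ₗ[k] R) : cas S φ = ∑ i, tm (k := k) (φ (S.a i)) (S.a' i) := by
  simp [cas]

theorem cas_congr {φ ψ : R →ₗ[k] R} (h : ∀ w, φ w = ψ w) : cas S φ = cas S ψ :=
  congrArg _ (LinearMap.ext h)

theorem smul_cas (a : R) (φ : R →ₗ[k] R) :
    a • cas S φ = cas S (LinearMap.mulLeft k a ∘ₗ φ) := by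
  simp [cas_apply, Finset.smul_sum]

theorem op_smul_cas (c : R) (φ : R →ₗ[k] R) :
    op c • cas S φ = cas S (φ ∘ₗ LinearMap.mulLeft k c) := by
  have := S.casimir_left ((tm (k := k) (R := R)) ∘ₗ φ) c
  simpa [cas_apply, Finset.smul_sum] using this.symm

theorem inner_cas (a b : R) (φ : R →ₗ[k] R) :
    (inner a b).l (cas S φ)
      = cas S (LinearMap.mulRight k a ∘ₗ φ ∘ₗ LinearMap.mulRight k b) := by
  have := S.casimir_right ((tm (k := k) (R := R)) ∘ₗ LinearMap.mulRight k a ∘ₗ φ) b
  simpa [cas_apply] using this.symm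

theorem otFib_cas (χ : R →ₐ[k] k) (ς : R) (hς : ∀ x, S.lam (x * ς) = χ x) (φ : R →ₗ[k] R) :
    otFib χ (cas S φ) = φ ς := by
  conv_rhs => rw [← S.expand ς]
  simp [cas_apply, hς]

/-- `x ⊗ y ↦ λ(y) x` -/
noncomputable def otL : (OT k R).V →ₗ[k] R :=
  otLift (LinearMap.mk₂ k (fun x y : R => S.lam y • x) (by intros; simp)
    (by intros; rw [smul_comm]) (by intros; simp [add_smul]) (by intros; simp [mul_smul]))

@[simp] theorem otL_tm (x y : R) : otL S (tm (k := k) x y) = S.lam y • x := rfl

theorem otL_inner (a : R) (z : (OT k R).V) : otL S ((inner a 1).l z) = otL S z * a := by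
  induction z using OT_induction with
  | zero => simp
  | add x y hx hy => simp only [map_add, hx, hy, add_mul]
  | tmul x y => simp

theorem expand_OT (z : (OT k R).V) :
    ∑ i, tm (k := k) (otL S ((inner 1 (S.a i)).l z)) (S.a' i) = z := by
  induction z using OT_induction with
  | zero => simp
  | add x y hx hy => simp only [map_add, LinearMap.add_apply, Finset.sum_add_distrib, hx, hy]
  | tmul x y =>
    conv_rhs => rw [← S.expand' y]
    simp

theorem eq_smul_cas {z : (OT k R).V} (h : ∀ a, a ∈ centr z) :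
    z = otL S z • cas S LinearMap.id := by
  conv_lhs => rw [← expand_OT S z]
  rw [cas_apply, Finset.smul_sum]
  refine Finset.sum_congr rfl fun i _ => ?_
  rw [← mem_centr.1 (h _), otL_inner]
  rfl

theorem otL_smul_cas (c : R) : otL S (c • cas S LinearMap.id) = c := by
  conv_rhs => rw [← mul_one c, ← S.expand 1]
  simp [cas_apply, Finset.smul_sum, Finset.mul_sum]

end OT

/-! ### extension by a twisted derivation -/

/-- the elements for which the derivation identity holds -/
def derSub (Ω : PB k R) (σ : R →ₐ[k] R) (δ : R →ₗ[k] Ω.V) (h1 : δ 1 = 0) : Subalgebra k R where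
  carrier := {b | ∀ a, δ (a * b) = a • δ b + op (σ b) • δ a}
  mul_mem' {b c} hb hc a := by
    rw [← mul_assoc, hc, hb, hc b, map_mul, op_mul, mul_smul, mul_smul, smul_add, smul_add,
      smul_comm a (op (σ c)), add_assoc]
  add_mem' {b c} hb hc a := by
    rw [mul_add, map_add, hb, hc, map_add, map_add, op_add, smul_add, add_smul]
    abel
  algebraMap_mem' r a := by
    rw [AlgHom.commutes, Algebra.algebraMap_eq_smul_one, mul_smul_comm, mul_one, map_smul,
      map_smul, h1, smul_zero, smul_zero, zero_add, op_smul, smul_assoc, op_one, one_smul]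

theorem mem_derSub {Ω : PB k R} {σ : R →ₐ[k] R} {δ : R →ₗ[k] Ω.V} {h1 : δ 1 = 0} {b : R} :
    b ∈ derSub Ω σ δ h1 ↔ ∀ a, δ (a * b) = a • δ b + op (σ b) • δ a := Iff.rfl

/-- `Ω × R` with the left action twisted by `δ` and `σ` -/
def Ext' (Ω : PB k R) (σ : R →ₐ[k] R) (δ : R →ₗ[k] Ω.V)
    (_h : ∀ a b, δ (a * b) = a • δ b + op (σ b) • δ a) : Type u := Ω.V × R

namespace Ext'

variable {Ω : PB k R} {σ : R →ₐ[k] R} {δ : R →ₗ[k] Ω.V}
  {h : ∀ a b, δ (a * b) = a • δ b + op (σ b) • δ a}

instance : AddCommGroup (Ext' Ω σ δ h) := inferInstanceAs (AddCommGroup (Ω.V × R))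
instance : Module k (Ext' Ω σ δ h) := inferInstanceAs (Module k (Ω.V × R))
instance : Module Rᵐᵒᵖ (Ext' Ω σ δ h) := inferInstanceAs (Module Rᵐᵒᵖ (Ω.V × R))
instance : IsScalarTower k Rᵐᵒᵖ (Ext' Ω σ δ h) := inferInstanceAs (IsScalarTower k Rᵐᵒᵖ (Ω.V × R))

/-- the identity -/
def val : Ext' Ω σ δ h ≃ₗ[k] Ω.V × R := LinearEquiv.refl k _

instance : SMul R (Ext' Ω σ δ h) :=
  ⟨fun a z => val.symm (a • (val z).1 + op (val z).2 • δ a, σ a * (val z).2)⟩

theorem val_smul (a : R) (z : Ext' Ω σ δ h) :
    val (a • z) = (a • (val z).1 + op (val z).2 • δ a, σ a * (val z).2) := rfl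

theorem val_op_smul (a : Rᵐᵒᵖ) (z : Ext' Ω σ δ h) :
    val (a • z) = (a • (val z).1, (val z).2 * a.unop) := rfl

include h in
theorem δ_one : δ 1 = 0 := by simpa using h 1 1

instance : Module R (Ext' Ω σ δ h) where
  one_smul z := val.injective (by simp [val_smul, δ_one (h := h)])
  mul_smul a b z := val.injective (by
    simp only [val_smul, h, map_mul, mul_assoc, mul_smul, smul_add, op_mul, smul_comm a,
      add_assoc])
  smul_zero a := val.injective (by simp [val_smul])
  smul_add a x y := val.injective (by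
    simp only [val_smul, map_add, Prod.fst_add, Prod.snd_add, smul_add, op_add, add_smul, mul_add,
      Prod.mk_add_mk, Prod.mk.injEq, and_true]
    abel)
  add_smul a b z := val.injective (by
    simp only [val_smul, map_add, smul_add, add_smul, add_mul, Prod.mk_add_mk, Prod.mk.injEq,
      and_true]
    abel)
  zero_smul z := val.injective (by simp [val_smul])

instance : SMulCommClass R Rᵐᵒᵖ (Ext' Ω σ δ h) :=
  ⟨fun a b z => val.injective (by
    simp only [val_smul, val_op_smul, smul_add, op_mul, op_unop, mul_smul, mul_assoc,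
      smul_comm a])⟩

instance : IsScalarTower k R (Ext' Ω σ δ h) :=
  ⟨fun c a z => val.injective (by
    simp only [val_smul, map_smul, smul_assoc, smul_mul_assoc, Prod.smul_mk, smul_add,
      smul_comm c (op (val z).2)])⟩

/-- the left module isomorphism with `Ω × R` -/
def toExt : (Ω.V × R) →ₗ[R] Ext' Ω σ δ h where
  toFun p := val.symm (p.1 + δ p.2, σ p.2)
  map_add' x y := val.injective (by
    simp only [Prod.fst_add, Prod.snd_add, map_add, LinearEquiv.apply_symm_apply, Prod.mk_add_mk,
      Prod.mk.injEq, and_true]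
    abel)
  map_smul' a x := val.injective (by
    simp [val_smul, h, add_assoc])

theorem toExt_bijective (hσ : ∀ a, σ (σ a) = a) :
    Function.Bijective (toExt : (Ω.V × R) →ₗ[R] Ext' Ω σ δ h) := by
  constructor
  · intro x y e
    have e' : (x.1 + δ x.2, σ x.2) = (y.1 + δ y.2, σ y.2) := e
    rw [Prod.mk.injEq] at e'
    have h2 : x.2 = y.2 := by rw [← hσ x.2, e'.2, hσ]
    exact Prod.ext (by simpa [h2] using e'.1) h2
  · intro z
    refine ⟨((val z).1 - δ (σ (val z).2), σ (val z).2), val.injective ?_⟩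
    change (_ - _ + _, _) = _
    simp [hσ]

end Ext'

/-- the extension of the regular bimodule (twisted by `σ` on the left) by `Ω` -/
noncomputable def ext [FiniteDimensional k R] (Ω : PB k R) (σ : R →ₐ[k] R) (δ : R →ₗ[k] Ω.V)
    (h : ∀ a b, δ (a * b) = a • δ b + op (σ b) • δ a) (hσ : ∀ a, σ (σ a) = a) : PB k R where
  V := Ext' Ω σ δ h
  fd := inferInstanceAs (FiniteDimensional k (Ω.V × R))
  pl := Module.Projective.of_equiv (LinearEquiv.ofBijective _ (Ext'.toExt_bijective hσ))
  pr := by
    have : Module.Projective Rᵐᵒᵖ R := Module.Projective.of_equiv (opLinearEquiv Rᵐᵒᵖ).symm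
    exact inferInstanceAs (Module.Projective Rᵐᵒᵖ (Ω.V × R))

section ext

variable [FiniteDimensional k R] {Ω : PB k R} {σ : R →ₐ[k] R} {δ : R →ₗ[k] Ω.V}
  (h : ∀ a b, δ (a * b) = a • δ b + op (σ b) • δ a) (hσ : ∀ a, σ (σ a) = a)

/-- coordinates -/
noncomputable def extVal : (ext Ω σ δ h hσ).V ≃ₗ[k] Ω.V × R := Ext'.val

theorem extVal_smul (a : R) (z : (ext Ω σ δ h hσ).V) : extVal h hσ (a • z)
    = (a • (extVal h hσ z).1 + op (extVal h hσ z).2 • δ a, σ a * (extVal h hσ z).2) := rfl

theorem extVal_op_smul (a : R) (z : (ext Ω σ δ h hσ).V) : extVal h hσ (op a • z)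
    = (op a • (extVal h hσ z).1, (extVal h hσ z).2 * a) := rfl

/-- the inclusion of `Ω` -/
noncomputable def extIn : Hom Ω (ext Ω σ δ h hσ) where
  l :=
    { toFun w := (extVal h hσ).symm (w, 0)
      map_add' x y := (extVal h hσ).injective (by simp)
      map_smul' a x := (extVal h hσ).injective (by simp [extVal_smul]) }
  map_r a x := (extVal h hσ).injective (by
    rw [← op_unop a, extVal_op_smul]
    simp)

@[simp] theorem extVal_extIn (w : Ω.V) : extVal h hσ ((extIn h hσ).l w) = (w, 0) := rfl

end ext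

end PB

end Crest.Agent.R186
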