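import Crest.Agent.R186.PB2

/-!
Interface: the three-term complex of bimodules `P0 → P1 → B` whose fibre is the truncation
`T f → T e → Z²` of the complex `R`, with the map `ρ : P0 → B` killing the Casimir elements.
-/

set_option autoImplicit false

open MulOpposite

universe u

namespace Crest.Agent.R186

structure BData {k : Type u} [Field k] {T : Type u} [Ring T] [Algebra k T] (χ : T →ₐ[k] k) (ς : T)
    (h : T ≃ₐ[k] T) (f e1 e2 t a1 a2 j : T) where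
  P0 : PB k T
  P1 : PB k T
  B : PB k T
  d : PB.Hom P0 P1
  ι : PB.Hom P1 B
  ρ : PB.Hom P0 B
  ι_d : ∀ r, ι.l (d.l r) = 0
  surj : ∀ z, ∃ ψ r, z = ι.l ψ + ρ.l r
  π0 : P0.V →ₗ[T] T
  π1 : P1.V →ₗ[T] T
  πB : B.V →ₗ[T] T
  fib0 : PB.Fib χ P0 π0
  fib1 : PB.Fib χ P1 π1
  fibB : PB.Fib χ B πB
  range0 : ∀ w, (∃ r, π0 r = w) ↔ w * f = w
  range1 : ∀ w, (∃ r, π1 r = w) ↔ w * e1 = w
  rangeB : ∀ w, (∃ r, πB r = w) ↔ w * e2 = w ∧ w * a2 = 0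
  π_d : ∀ r, π1 (d.l r) = π0 r * t
  π_ι : ∀ r, πB (ι.l r) = π1 r * a1
  π_ρ : ∀ r, πB (ρ.l r) = π0 r * j
  κ1 : P0.V
  κ2 : P0.V
  κ1_c : ∀ a : T, a • κ1 = op a • κ1
  κ2_c : ∀ a : T, h a • κ2 = op a • κ2
  ρ_κ1 : ρ.l κ1 = 0
  ρ_κ2 : ρ.l κ2 = 0
  π_κ1 : π0 κ1 = ς
  π_κ2 : π0 κ2 = ς

end Crest.Agent.R186
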