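import Crest.Agent.R186.TAlg

/-!
The Hochschild 3-cocycle of weight `-1` on `TT k q` (generated tables, found by linear algebra).
`mU a w = m(a, w, u)`, `mT a w = m(a, w, t)`, `m(a, w, x) = m(a, w, z') = 0`; the witnesses are
`nX, nU, nT, nZ`.  The cocycle identity reads, for arrows `β`, `α`,
`m_α(aβ, w) - a m_α(β, w) - m_α(a, σ(β) w) = n_β(a, w) α - n_β(a, w α)` when `w = w e_{l(α)}`.
-/

set_option autoImplicit false
set_option linter.unnecessarySeqFocus false

universe u

namespace Crest.Agent.R186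

namespace TT

variable {k : Type u} [Field k] {q : k}

/-- generated table -/
@[simps] def mU' (a w : TT k q) : TT k q :=
  { e := 0
    x := 0
    y := 0
    z := 0
    u := q * a.v * w.v' - q * a.x * w.x'
    v := q ^ 3 * a.x * w.e' + q ^ 2 * a.z * w.y'
    t := 0
    j := 0
    f := q ^ 2 * a.t * w.y' + q ^ 3 * a.v' * w.x + q ^ 2 * a.n' * w.t
    n := q ^ 2 * a.j * w.y' + q ^ 2 * a.v' * w.z + q ^ 2 * a.f' * w.t - q ^ 2 * a.t * w.e' - q ^ 2 * a.u' * w.x - q ^ 2 * a.n' * w.j
    e' := 0
    x' := 0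
    y' := 0
    z' := 0
    u' := 0
    v' := 0
    t' := q ^ 2 * a.e' * w.y' - q ^ 2 * a.y' * w.e'
    j' := - q ^ 2 * a.e' * w.z' - q * a.y' * w.x'
    f' := 0
    n' := 0 }

/-- generated table, as a bilinear map -/
def mU : TT k q →ₗ[k] TT k q →ₗ[k] TT k q :=
  LinearMap.mk₂ k mU' (by intros; ext <;> simp <;> ring) (by intros; ext <;> simp <;> ring)
    (by intros; ext <;> simp <;> ring) (by intros; ext <;> simp <;> ring)

@[simp] theorem mU_apply (a w : TT k q) : mU a w = mU' a w := rfl

/-- generated table -/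
@[simps] def mT' (a w : TT k q) : TT k q :=
  { e := - q * a.x * w.j' - q * a.u * w.n'
    x := q * a.x * w.t' + a.v * w.n'
    y := - q * a.z * w.j' - q ^ 2 * a.u * w.f'
    z := 0
    u := 0
    v := 0
    t := 0
    j := 0
    f := 0
    n := 0
    e' := 0
    x' := q * a.j' * w.f' - q * a.t' * w.n'
    y' := q * a.y' * w.t' - q * a.e' * w.j'
    z' := a.y' * w.j' + a.j' * w.n'
    u' := q * a.n' * w.f' - q * a.f' * w.n'
    v' := a.n' * w.n'
    t' := 0
    j' := 0
    f' := 0
    n' := 0 }

/-- generated table, as a bilinear map -/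
def mT : TT k q →ₗ[k] TT k q →ₗ[k] TT k q :=
  LinearMap.mk₂ k mT' (by intros; ext <;> simp <;> ring) (by intros; ext <;> simp <;> ring)
    (by intros; ext <;> simp <;> ring) (by intros; ext <;> simp <;> ring)

@[simp] theorem mT_apply (a w : TT k q) : mT a w = mT' a w := rfl

/-- generated table -/
@[simps] def nX' (a w : TT k q) : TT k q :=
  { e := 0
    x := 0
    y := 0
    z := 0
    u := 0
    v := q * a.z * w.j' - q * a.y * w.t'
    t := - q ^ 2 * a.v' * w.y
    j := q * a.u' * w.y + q ^ 2 * a.v' * w.z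
    f := q * a.t * w.j' - q ^ 3 * a.v' * w.u
    n := q * a.t * w.t' + q * a.j * w.j' + q ^ 2 * a.u' * w.u + q ^ 2 * a.v' * w.v
    e' := 0
    x' := 0
    y' := 0
    z' := 0
    u' := q * a.u' * w.x' - q ^ 3 * a.v' * w.e'
    v' := q * a.v' * w.x'
    t' := q * a.e' * w.j' - q * a.x' * w.t'
    j' := - q * a.x' * w.j'
    f' := 0
    n' := 0 }

/-- generated table, as a bilinear map -/
def nX : TT k q →ₗ[k] TT k q →ₗ[k] TT k q :=
  LinearMap.mk₂ k nX' (by intros; ext <;> simp <;> ring) (by intros; ext <;> simp <;> ring)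
    (by intros; ext <;> simp <;> ring) (by intros; ext <;> simp <;> ring)

@[simp] theorem nX_apply (a w : TT k q) : nX a w = nX' a w := rfl

/-- generated table -/
@[simps] def nU' (a w : TT k q) : TT k q :=
  { e := 0
    x := 0
    y := 0
    z := 0
    u := a.y * w.n'
    v := q * a.z * w.n' - q ^ 3 * a.x * w.f'
    t := 0
    j := 0
    f := q * a.t * w.n'
    n := q ^ 2 * a.t * w.f' + q * a.j * w.n'
    e' := 0
    x' := 0
    y' := 0
    z' := 0
    u' := 0
    v' := 0
    t' := q * a.e' * w.n' + q ^ 2 * a.y' * w.f'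
    j' := q ^ 2 * a.y' * w.n'
    f' := 0
    n' := 0 }

/-- generated table, as a bilinear map -/
def nU : TT k q →ₗ[k] TT k q →ₗ[k] TT k q :=
  LinearMap.mk₂ k nU' (by intros; ext <;> simp <;> ring) (by intros; ext <;> simp <;> ring)
    (by intros; ext <;> simp <;> ring) (by intros; ext <;> simp <;> ring)

@[simp] theorem nU_apply (a w : TT k q) : nU a w = nU' a w := rfl

/-- generated table -/
@[simps] def nT' (a w : TT k q) : TT k q :=
  { e := 0
    x := 0
    y := 0
    z := 0
    u := q * a.u * w.t' - a.v * w.j'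
    v := 0
    t := q * a.n' * w.y
    j := q * a.f' * w.y - q * a.n' * w.z
    f := q ^ 2 * a.n' * w.u
    n := q ^ 2 * a.f' * w.u - q * a.n' * w.v
    e' := 0
    x' := 0
    y' := 0
    z' := 0
    u' := q * a.f' * w.x' + q ^ 2 * a.n' * w.e'
    v' := - a.n' * w.x'
    t' := 0
    j' := q * a.j' * w.t' - q * a.t' * w.j'
    f' := q * a.f' * w.t'
    n' := q * a.n' * w.t' }

/-- generated table, as a bilinear map -/
def nT : TT k q →ₗ[k] TT k q →ₗ[k] TT k q :=
  LinearMap.mk₂ k nT' (by intros; ext <;> simp <;> ring) (by intros; ext <;> simp <;> ring)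
    (by intros; ext <;> simp <;> ring) (by intros; ext <;> simp <;> ring)

@[simp] theorem nT_apply (a w : TT k q) : nT a w = nT' a w := rfl

/-- generated table -/
@[simps] def nZ' (a w : TT k q) : TT k q :=
  { e := q * a.z * w.e - q * a.x * w.y
    x := q * a.z * w.x - q * a.x * w.z
    y := 0
    z := 0
    u := q * a.z * w.u
    v := 0
    t := 0
    j := 0
    f := 0
    n := 0
    e' := 0
    x' := 0
    y' := q * a.z * w.y' - q * a.x * w.e' - q ^ 2 * a.e' * w.x - q * a.y' * w.z
    z' := a.x * w.x' + q * a.z * w.z' + q * a.e' * w.e + a.y' * w.y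
    u' := 0
    v' := 0
    t' := 0
    j' := 0
    f' := 0
    n' := 0 }

/-- generated table, as a bilinear map -/
def nZ : TT k q →ₗ[k] TT k q →ₗ[k] TT k q :=
  LinearMap.mk₂ k nZ' (by intros; ext <;> simp <;> ring) (by intros; ext <;> simp <;> ring)
    (by intros; ext <;> simp <;> ring) (by intros; ext <;> simp <;> ring)

@[simp] theorem nZ_apply (a w : TT k q) : nZ a w = nZ' a w := rfl

theorem coc_XX (a w : TT k q) :
    0 = nX a (w * be) * bx - nX a (w * bx) := by
  ext <;> simp <;> ring

theorem coc_XU (a w : TT k q) :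
    mU (a * bx) w - a * mU bx w - mU a (sg bx * w) = nX a (w * be) * bu - nX a (w * bu) := by
  ext <;> simp <;> ring

theorem coc_XT (a w : TT k q) :
    mT (a * bx) w - a * mT bx w - mT a (sg bx * w) = nX a (w * bf) * bt - nX a (w * bt) := by
  ext <;> simp <;> ring

theorem coc_XZ (a w : TT k q) :
    0 = nX a (w * be) * bz' - nX a (w * bz') := by
  ext <;> simp <;> ring

theorem coc_UX (a w : TT k q) :
    0 = nU a (w * be) * bx - nU a (w * bx) := by
  ext <;> simp <;> ring

theorem coc_UU (a w : TT k q) :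
    mU (a * bu) w - a * mU bu w - mU a (sg bu * w) = nU a (w * be) * bu - nU a (w * bu) := by
  ext <;> simp <;> ring

theorem coc_UT (a w : TT k q) :
    mT (a * bu) w - a * mT bu w - mT a (sg bu * w) = nU a (w * bf) * bt - nU a (w * bt) := by
  ext <;> simp <;> ring

theorem coc_UZ (a w : TT k q) :
    0 = nU a (w * be) * bz' - nU a (w * bz') := by
  ext <;> simp <;> ring

theorem coc_TX (a w : TT k q) :
    0 = nT a (w * be) * bx - nT a (w * bx) := by
  ext <;> simp <;> ring

theorem coc_TU (a w : TT k q) :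
    mU (a * bt) w - a * mU bt w - mU a (sg bt * w) = nT a (w * be) * bu - nT a (w * bu) := by
  ext <;> simp <;> ring

theorem coc_TT (a w : TT k q) :
    mT (a * bt) w - a * mT bt w - mT a (sg bt * w) = nT a (w * bf) * bt - nT a (w * bt) := by
  ext <;> simp <;> ring

theorem coc_TZ (a w : TT k q) :
    0 = nT a (w * be) * bz' - nT a (w * bz') := by
  ext <;> simp <;> ring

theorem coc_ZX (a w : TT k q) :
    0 = nZ a (w * be) * bx - nZ a (w * bx) := by
  ext <;> simp <;> ring

theorem coc_ZU (a w : TT k q) :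
    mU (a * bz') w - a * mU bz' w - mU a (sg bz' * w) = nZ a (w * be) * bu - nZ a (w * bu) := by
  ext <;> simp <;> ring

theorem coc_ZT (a w : TT k q) :
    mT (a * bz') w - a * mT bz' w - mT a (sg bz' * w) = nZ a (w * bf) * bt - nZ a (w * bt) := by
  ext <;> simp <;> ring

theorem coc_ZZ (a w : TT k q) :
    0 = nZ a (w * be) * bz' - nZ a (w * bz') := by
  ext <;> simp <;> ring

theorem mU_idem (a w : TT k q) : mU a (w * be) * bf = mU a w := by
  ext <;> simp

theorem mU_e (a w : TT k q) : mU (a * be) w = mU a (be * w) := by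
  ext <;> simp

theorem mU_be (w : TT k q) : mU be w = 0 := by
  ext <;> simp

theorem mU_one (w : TT k q) : mU 1 w = 0 := by
  ext <;> simp

theorem mU_cas (H : k) (w : TT k q) :
    ∑ i, mU (scal H ((sym k q).a i)) ((sym k q).a' i * w) = 0 := by
  rw [sym_sum fun a a' => mU (scal H a) (a' * w)]
  ext <;> simp <;> ring

theorem mT_idem (a w : TT k q) : mT a (w * bf) * be = mT a w := by
  ext <;> simp

theorem mT_e (a w : TT k q) : mT (a * be) w = mT a (be * w) := by
  ext <;> simp

theorem mT_be (w : TT k q) : mT be w = 0 := by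
  ext <;> simp

theorem mT_one (w : TT k q) : mT 1 w = 0 := by
  ext <;> simp

theorem mT_cas (H : k) (w : TT k q) :
    ∑ i, mT (scal H ((sym k q).a i)) ((sym k q).a' i * w) = 0 := by
  rw [sym_sum fun a a' => mT (scal H a) (a' * w)]
  ext <;> simp <;> ring

theorem nX_e (a w : TT k q) : nX a (w * be) = nX a w * be := by
  ext <;> simp

theorem nU_e (a w : TT k q) : nU a (w * be) = nU a w * be := by
  ext <;> simp

theorem nT_e (a w : TT k q) : nT a (w * be) = nT a w * be := by
  ext <;> simp

theorem nZ_e (a w : TT k q) : nZ a (w * be) = nZ a w * be := by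
  ext <;> simp

theorem mT_soc (a : TT k q) : mT a bf' * ac 1 + (q * chi a) • bj = q • (a * bj) := by
  ext <;> simp [ac] <;> ring

theorem cas_sg (H : k) : ∑ i, sg (scal H ((sym k q).a i)) * (sym k q).a' i = 0 := by
  rw [sym_sum fun a a' => sg (scal H a) * a']
  ext <;> simp

end TT

end Crest.Agent.R186
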