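import Crest.Agent.R186.MC2

/-!
Matrix complexes with one generator in each degree of a half line; characters and automorphisms
of the tensor square.
-/

set_option autoImplicit false

open MulOpposite
open scoped TensorProduct

universe u v w

namespace Crest.Agent.R186

namespace MC

variable {R : Type u} [Ring R]

/-- `⋯ → R e₂ → R e₁ → R e₀`, the map `R e_{n+1} → R e_n` being `· d n` -/
def chainDown (e d : ℕ → R) (he : ∀ n, e n * e n = e n) (h1 : ∀ n, e (n + 1) * d n = d n)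
    (h2 : ∀ n, d n * e n = d n) (h3 : ∀ n, d (n + 1) * d n = 0) : MC R where
  ι := ℕ
  deg n := n
  fib n := if 0 ≤ n then {n.toNat} else ∅
  mem_fib n i := by split_ifs <;> simp <;> omega
  e := e
  D i j := if i = j + 1 then d j else 0
  e_idem := he
  e_D i j := by split_ifs with h <;> simp [h, h1]
  D_e i j := by split_ifs with h <;> simp [h2]
  D_deg i j h := if_neg (by omega)
  D_sq i l := by
    refine Finset.sum_eq_zero fun j _ => ?_
    by_cases h : i = j + 1 <;> by_cases h' : j = l + 1 <;> simp [h, h', h3]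

/-- `R e₀ → R e₁ → R e₂ → ⋯` with `R e_n` in degree `c - n`, the map `R e_n → R e_{n+1}` being
`· d n` -/
def chainUp (c : ℤ) (e d : ℕ → R) (he : ∀ n, e n * e n = e n) (h1 : ∀ n, e n * d n = d n)
    (h2 : ∀ n, d n * e (n + 1) = d n) (h3 : ∀ n, d n * d (n + 1) = 0) : MC R where
  ι := ℕ
  deg n := c - n
  fib n := if n ≤ c then {(c - n).toNat} else ∅
  mem_fib n i := by split_ifs <;> simp <;> omega
  e := e
  D i j := if j = i + 1 then d i else 0
  e_idem := he
  e_D i j := by split_ifs with h <;> simp [h1]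
  D_e i j := by split_ifs with h <;> simp [h, h2]
  D_deg i j h := if_neg (by omega)
  D_sq i l := by
    refine Finset.sum_eq_zero fun j _ => ?_
    by_cases h : j = i + 1 <;> by_cases h' : l = j + 1 <;> simp [h, h', h3]

variable {e d : ℕ → R} {W : Type v} [AddCommGroup W] [Module Rᵐᵒᵖ W]

section down
variable {he : ∀ n, e n * e n = e n} {h1 : ∀ n, e (n + 1) * d n = d n}
  {h2 : ∀ n, d n * e n = d n} {h3 : ∀ n, d (n + 1) * d n = 0}

@[simp] theorem chainDown_deg (n : ℕ) : (chainDown e d he h1 h2 h3).deg n = n := rfl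
@[simp] theorem chainDown_e (n : ℕ) : (chainDown e d he h1 h2 h3).e n = e n := rfl
theorem chainDown_D (i j : ℕ) :
    (chainDown e d he h1 h2 h3).D i j = if i = j + 1 then d j else 0 := rfl

theorem chainDown_sum {M : Type*} [AddCommMonoid M] (n : ℕ) (m : ℤ) (h : m = n) (F : ℕ → M) :
    ∑ i ∈ (chainDown e d he h1 h2 h3).fib m, F i = F n := by
  subst h
  change ∑ i ∈ (if (0 : ℤ) ≤ n then {(n : ℤ).toNat} else ∅ : Finset ℕ), F i = _
  simp

theorem chainDown_sum_neg {M : Type*} [AddCommMonoid M] (m : ℤ) (h : m < 0) (F : ℕ → M) :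
    ∑ i ∈ (chainDown e d he h1 h2 h3).fib m, F i = 0 := by
  change ∑ i ∈ (if (0 : ℤ) ≤ m then {m.toNat} else ∅ : Finset ℕ), F i = _
  rw [if_neg (by omega), Finset.sum_empty]

theorem chainDown_rowD (v : ℕ → W) (j : ℕ) :
    (chainDown e d he h1 h2 h3).rowD v j = MulOpposite.op (d j) • v (j + 1) := by
  rw [rowD_apply, chainDown_sum (j + 1) _ (by simp), chainDown_D, if_pos rfl]

end down

section up
variable {c : ℤ} {he : ∀ n, e n * e n = e n} {h1 : ∀ n, e n * d n = d n}
  {h2 : ∀ n, d n * e (n + 1) = d n} {h3 : ∀ n, d n * d (n + 1) = 0}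

@[simp] theorem chainUp_deg (n : ℕ) : (chainUp c e d he h1 h2 h3).deg n = c - n := rfl
@[simp] theorem chainUp_e (n : ℕ) : (chainUp c e d he h1 h2 h3).e n = e n := rfl
theorem chainUp_D (i j : ℕ) :
    (chainUp c e d he h1 h2 h3).D i j = if j = i + 1 then d i else 0 := rfl

theorem chainUp_sum {M : Type*} [AddCommMonoid M] (n : ℕ) (m : ℤ) (h : m = c - n) (F : ℕ → M) :
    ∑ i ∈ (chainUp c e d he h1 h2 h3).fib m, F i = F n := by
  subst h
  change ∑ i ∈ (if c - n ≤ c then {(c - (c - n)).toNat} else ∅ : Finset ℕ), F i = _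
  simp

theorem chainUp_sum_gt {M : Type*} [AddCommMonoid M] (m : ℤ) (h : c < m) (F : ℕ → M) :
    ∑ i ∈ (chainUp c e d he h1 h2 h3).fib m, F i = 0 := by
  change ∑ i ∈ (if m ≤ c then {(c - m).toNat} else ∅ : Finset ℕ), F i = _
  rw [if_neg (by omega), Finset.sum_empty]

theorem chainUp_rowD_zero (v : ℕ → W) : (chainUp c e d he h1 h2 h3).rowD v (0 : ℕ) = 0 := by
  rw [rowD_apply, chainUp_sum_gt _ (by simp)]

theorem chainUp_rowD_succ (v : ℕ → W) (j : ℕ) :
    (chainUp c e d he h1 h2 h3).rowD v (j + 1 : ℕ) = MulOpposite.op (d j) • v j := by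
  rw [rowD_apply, chainUp_sum j _ (by simp; ring), chainUp_D, if_pos rfl]

end up

end MC

variable {k : Type w} [Field k] {T : Type u} [Ring T] [Algebra k T]

/-- the character `χ ⊗ χ` of `T ⊗ T` -/
noncomputable def chi2 (χ : T →ₐ[k] k) : T ⊗[k] T →ₐ[k] k :=
  Algebra.TensorProduct.lift χ χ fun _ _ => Commute.all _ _

@[simp] theorem chi2_tmul (χ : T →ₐ[k] k) (a b : T) : chi2 χ (a ⊗ₜ b) = χ a * χ b := rfl

/-- the automorphism `h ⊗ h` of `T ⊗ T` -/
noncomputable def aut2 (h : T ≃ₐ[k] T) : T ⊗[k] T ≃ₐ[k] T ⊗[k] T :=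
  Algebra.TensorProduct.congr h h

@[simp] theorem aut2_tmul (h : T ≃ₐ[k] T) (a b : T) : aut2 h (a ⊗ₜ b) = h a ⊗ₜ h b := rfl

theorem chi2_aut2 (χ : T →ₐ[k] k) (h : T ≃ₐ[k] T) (hχ : ∀ a, χ (h a) = χ a) (a : T ⊗[k] T) :
    chi2 χ (aut2 h a) = chi2 χ a := by
  induction a using TensorProduct.induction_on with
  | zero => simp
  | add x y hx hy => simp only [map_add, hx, hy]
  | tmul a b => simp [hχ]

theorem lam_mul_soc2 (S : SymData k T) (χ : T →ₐ[k] k) (ς : T) (hς : ∀ x, S.lam (x * ς) = χ x)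
    (a : T ⊗[k] T) : (S.tensor S).lam (a * (ς ⊗ₜ ς)) = chi2 χ a := by
  induction a using TensorProduct.induction_on with
  | zero => simp
  | add x y hx hy => simp only [add_mul, map_add, hx, hy]
  | tmul a b => simp [hς]

end Crest.Agent.R186
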