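import Crest.Agent.R186.TKer
import Crest.Agent.R186.Chain
import Crest.Agent.R186.Tach

/-!
The complexes `L`, `R` over `TT k q` and the quasi-isomorphism `Psi : L → R`.
-/

set_option autoImplicit false

open MulOpposite

universe u

namespace Crest.Agent.R186

namespace TT

variable {k : Type u} [Field k] {q : k}

/-- idempotents of `L` and of `R` -/
def eL : ℕ → TT k q
  | 0 => bf
  | _ + 1 => be

/-- differentials of `L` -/
def dL : ℕ → TT k q
  | 0 => bu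
  | n + 1 => ac (q ^ (n + 2))

/-- differentials of `R` -/
def dR : ℕ → TT k q
  | 0 => bt
  | n + 1 => ac (q⁻¹ ^ n)

theorem eL_idem (n : ℕ) : (eL n : TT k q) * eL n = eL n := by
  cases n <;> ext <;> simp [eL]
theorem eL_dL (n : ℕ) : (eL (n + 1) : TT k q) * dL n = dL n := by
  cases n <;> ext <;> simp [eL, dL, ac]
theorem dL_eL (n : ℕ) : (dL n : TT k q) * eL n = dL n := by
  cases n <;> ext <;> simp [eL, dL, ac]
theorem dL_dL (n : ℕ) : (dL (n + 1) : TT k q) * dL n = 0 := by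
  cases n <;> ext <;> simp [dL, ac] <;> ring
theorem eL_dR (n : ℕ) : (eL n : TT k q) * dR n = dR n := by
  cases n <;> ext <;> simp [eL, dR, ac]
theorem dR_eL (n : ℕ) : (dR n : TT k q) * eL (n + 1) = dR n := by
  cases n <;> ext <;> simp [eL, dR, ac]
theorem dR_dR (hq0 : q ≠ 0) (n : ℕ) : (dR n : TT k q) * dR (n + 1) = 0 := by
  cases n <;> ext <;> simp [dR, ac]
  field_simp
  ring

variable (k q) in
/-- the complex `L` -/
def Lc : MC (TT k q) := MC.chainDown eL dL eL_idem eL_dL dL_eL dL_dL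

/-- the complex `R` -/
def Rc (hq0 : q ≠ 0) : MC (TT k q) := MC.chainUp 2 eL dR eL_idem eL_dR dR_eL (dR_dR hq0)

/-- entries of `Psi` -/
def psi : ℕ → ℕ → TT k q
  | 2, 0 => q ^ 2 • bv
  | 1, 1 => -q • bY
  | 0, 2 => bj
  | _, _ => 0

theorem psi_zero (i : ℕ) : (psi i 0 : TT k q) = if i = 2 then q ^ 2 • bv else 0 := by
  rcases i with _ | _ | _ | i <;> simp [psi]
theorem psi_one (i : ℕ) : (psi i 1 : TT k q) = if i = 1 then -q • bY else 0 := by
  rcases i with _ | _ | i <;> simp [psi]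
theorem psi_two (i : ℕ) : (psi i 2 : TT k q) = if i = 0 then bj else 0 := by
  rcases i with _ | i <;> simp [psi]
theorem psi_ge (i j : ℕ) : (psi i (j + 3) : TT k q) = 0 := by
  rcases i with _ | _ | _ | i <;> simp [psi]

theorem psi_e_f (i j : ℕ) : (eL i : TT k q) * psi i j = psi i j := by
  rcases j with _ | _ | _ | j
  · rw [psi_zero]; split_ifs with h
    · subst h; ext <;> simp [eL]
    · simp
  · rw [zero_add, psi_one]; split_ifs with h
    · subst h; ext <;> simp [eL]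
    · simp
  · rw [show 0 + 1 + 1 = 2 from rfl, psi_two]; split_ifs with h
    · subst h; ext <;> simp [eL]
    · simp
  · rw [psi_ge, mul_zero]

theorem psi_f_e (i j : ℕ) : (psi i j : TT k q) * eL j = psi i j := by
  rcases j with _ | _ | _ | j
  · rw [psi_zero]; split_ifs with h
    · ext <;> simp [eL]
    · simp
  · rw [zero_add, psi_one]; split_ifs with h
    · ext <;> simp [eL]
    · simp
  · rw [show 0 + 1 + 1 = 2 from rfl, psi_two]; split_ifs with h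
    · ext <;> simp [eL]
    · simp
  · rw [psi_ge, zero_mul]

theorem psi_deg (i j : ℕ) (h : (i : ℤ) ≠ 2 - j) : (psi i j : TT k q) = 0 := by
  rcases j with _ | _ | _ | j
  · rw [psi_zero, if_neg (by omega)]
  · rw [zero_add, psi_one, if_neg (by omega)]
  · rw [show 0 + 1 + 1 = 2 from rfl, psi_two, if_neg (by omega)]
  · rw [psi_ge]

theorem ac3_bv : (ac (q ^ 3) : TT k q) * bv = 0 := by ext <;> simp [ac]
theorem ac2_bY : (ac (q ^ 2) : TT k q) * (-q • bY) = (q ^ 2 • bv) * bt := by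
  ext <;> simp [ac]; ring
theorem bu_bj : (bu : TT k q) * bj = (-q • bY) * ac 1 := by ext <;> simp [ac]
theorem bj_ac (c : k) : (bj : TT k q) * ac c = 0 := by ext <;> simp [ac]

theorem psi_comm (hq0 : q ≠ 0) (i l : ℕ) :
    ∑ j ∈ (Lc k q).fib ((Rc hq0).deg l), (Lc k q).D i j * psi j l
      = ∑ j ∈ (Rc hq0).fib ((Rc hq0).deg l + 1), psi i j * (Rc hq0).D j l := by
  rcases l with _ | _ | _ | l
  · refine (MC.chainDown_sum 2 _ rfl _).trans (Eq.trans ?_
      (MC.chainUp_sum_gt _ (show (2 : ℤ) < 2 - (0 : ℕ) + 1 by simp) _).symm)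
    change (if i = 3 then ac (q ^ 3) else 0) * (q ^ 2 • bv) = (0 : TT k q)
    split_ifs with h
    · rw [mul_smul_comm, ac3_bv, smul_zero]
    · rw [zero_mul]
  · refine (MC.chainDown_sum 1 _ rfl _).trans (Eq.trans ?_ (MC.chainUp_sum 0 _ rfl _).symm)
    change (if i = 2 then ac (q ^ 2) else 0) * (-q • bY) = (psi i 0 * bt : TT k q)
    rw [psi_zero]
    split_ifs with h
    · exact ac2_bY
    · rw [zero_mul, zero_mul]
  · refine (MC.chainDown_sum 0 _ rfl _).trans (Eq.trans ?_ (MC.chainUp_sum 1 _ rfl _).symm)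
    change (if i = 1 then bu else 0) * bj = (psi i 1 * ac (q⁻¹ ^ 0) : TT k q)
    rw [psi_one]
    split_ifs with h
    · rw [pow_zero, bu_bj]
    · rw [zero_mul, zero_mul]
  · refine (MC.chainDown_sum_neg _ (show (2 : ℤ) - (l + 3 : ℕ) < 0 by omega) _).trans
      (Eq.trans ?_ (MC.chainUp_sum (l + 2) _
        (show (2 : ℤ) - (l + 3 : ℕ) + 1 = 2 - (l + 2 : ℕ) by omega) _).symm)
    change (0 : TT k q) = psi i (l + 2) * (if l + 3 = l + 2 + 1 then ac (q⁻¹ ^ (l + 1)) else 0)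
    rw [if_pos rfl]
    rcases l with _ | l
    · rw [zero_add, psi_two]
      split_ifs with h
      · exact (bj_ac _).symm
      · rw [zero_mul]
    · rw [psi_ge, zero_mul]

/-- the chain map `L → R` -/
def Psi (hq0 : q ≠ 0) : MC.Hom (Lc k q) (Rc hq0) where
  f := psi
  e_f := psi_e_f
  f_e := psi_f_e
  f_deg := psi_deg
  comm := psi_comm hq0

section cone

variable (hq0 : q ≠ 0) (v : ℕ ⊕ ℕ → TT k q)

theorem cD_inl (j : ℕ) :
    (MC.cone (Psi hq0)).rowD v (.inl j) = -(v (.inl (j + 1)) * dL j) := by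
  refine (MC.cone_rowD_inl (Psi hq0) v j).trans ?_
  exact congrArg Neg.neg (MC.chainDown_rowD _ j)

theorem cD_inr_zero :
    (MC.cone (Psi hq0)).rowD v (.inr (0 : ℕ)) = v (.inl 2) * (q ^ 2 • bv) := by
  refine (MC.cone_rowD_inr (Psi hq0) v (0 : ℕ)).trans ?_
  exact (congrArg₂ (· + ·) (MC.chainDown_sum 2 _ rfl _)
    (MC.chainUp_rowD_zero _)).trans (add_zero _)

theorem cD_inr_one :
    (MC.cone (Psi hq0)).rowD v (.inr (1 : ℕ)) = v (.inl 1) * (-q • bY) + v (.inr 0) * bt := by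
  refine (MC.cone_rowD_inr (Psi hq0) v (1 : ℕ)).trans ?_
  exact congrArg₂ (· + ·) (MC.chainDown_sum 1 _ rfl _) (MC.chainUp_rowD_succ _ 0)

theorem cD_inr_two :
    (MC.cone (Psi hq0)).rowD v (.inr (2 : ℕ)) = v (.inl 0) * bj + v (.inr 1) * ac 1 := by
  rw [← pow_zero q⁻¹]
  refine (MC.cone_rowD_inr (Psi hq0) v (2 : ℕ)).trans ?_
  exact congrArg₂ (· + ·) (MC.chainDown_sum 0 _ rfl _) (MC.chainUp_rowD_succ _ 1)

theorem cD_inr_ge (j : ℕ) :
    (MC.cone (Psi hq0)).rowD v (.inr (j + 3 : ℕ)) = v (.inr (j + 2)) * ac (q⁻¹ ^ (j + 1)) := by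
  refine (MC.cone_rowD_inr (Psi hq0) v (j + 3 : ℕ)).trans ?_
  exact (congrArg₂ (· + ·) (MC.chainDown_sum_neg _ (show (2 : ℤ) - (j + 3 : ℕ) < 0 by omega) _)
    (MC.chainUp_rowD_succ _ (j + 2))).trans (zero_add _)

end cone

theorem exists_rowD_of_deg {R : Type u} [Ring R] (Q : MC R) {n : ℤ} {v : Q.ι → R}
    (hv : Q.IsRow n v) (v' : Q.ι → R) (h : ∀ i, Q.deg i = n → Q.rowD v' i = v i) :
    ∃ v', Q.rowD v' = v := by
  refine ⟨Q.rproj (n + 1) v', ?_⟩
  rw [MC.rowD_rproj, ← hv]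
  funext i
  rw [MC.rproj_apply, MC.rproj_apply]
  split_ifs with hi
  · rw [h i hi]
  · rfl

theorem cone_exists (hq0 : q ≠ 0) {n : ℤ} {v : ℕ ⊕ ℕ → TT k q}
    (hv : (MC.cone (Psi hq0)).IsRow n v) (a b : TT k q)
    (h1 : ∀ i : ℕ, (i : ℤ) = n → -(a * dL i) = v (.inl i))
    (h2 : n = 1 → a * (q ^ 2 • bv) = v (.inr 0))
    (h3 : n = 0 → a * (-q • bY) + b * bt = v (.inr 1))
    (h4 : n = -1 → a * bj + b * ac 1 = v (.inr 2))
    (h5 : ∀ j : ℕ, n = -2 - j → b * ac (q⁻¹ ^ (j + 1)) = v (.inr (j + 3))) :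
    ∃ v', (MC.cone (Psi hq0)).rowD v' = v := by
  refine exists_rowD_of_deg _ hv (Sum.elim (fun _ => a) (fun _ => b)) ?_
  rintro (i | _ | _ | _ | j) hi
  · exact (cD_inl hq0 _ i).trans (h1 i hi)
  · exact (cD_inr_zero hq0 _).trans (h2 (by rw [← hi]; rfl))
  · exact (cD_inr_one hq0 _).trans (h3 (by rw [← hi]; rfl))
  · exact (cD_inr_two hq0 _).trans (h4 (by rw [← hi]; rfl))
  · refine (cD_inr_ge hq0 _ j).trans (h5 j ?_)
    rw [← hi]
    change (2 : ℤ) - ((j + 1 + 1 + 1 : ℕ) : ℤ) - 1 = _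
    push_cast; ring

theorem cone_Psi_rowEx (hq0 : q ≠ 0) (hq : ∀ n : ℕ, 0 < n → q ^ n ≠ 1) (n : ℤ) :
    (MC.cone (Psi hq0)).RowEx (TT k q) n := by
  intro (v : ℕ ⊕ ℕ → TT k q) hv h0
  have hq1 := q_ne_one hq
  have hl : ∀ i : ℕ, v (.inl i) * eL i = v (.inl i) := fun i => hv.e_smul (.inl i)
  have hr : ∀ i : ℕ, v (.inr i) * eL i = v (.inr i) := fun i => hv.e_smul (.inr i)
  have g1 : ∀ j : ℕ, v (.inl (j + 1 : ℕ)) * dL j = 0 := fun j =>
    neg_eq_zero.1 ((cD_inl hq0 v j).symm.trans (congrFun h0 _))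
  have g2 : v (.inl (2 : ℕ)) * (q ^ 2 • bv) = 0 := (cD_inr_zero hq0 v).symm.trans (congrFun h0 _)
  have g3 : v (.inl (1 : ℕ)) * (-q • bY) + v (.inr (0 : ℕ)) * bt = 0 :=
    (cD_inr_one hq0 v).symm.trans (congrFun h0 _)
  have g4 : v (.inl (0 : ℕ)) * bj + v (.inr (1 : ℕ)) * ac 1 = 0 :=
    (cD_inr_two hq0 v).symm.trans (congrFun h0 _)
  have g5 : ∀ j : ℕ, v (.inr (j + 2 : ℕ)) * ac (q⁻¹ ^ (j + 1)) = 0 := fun j =>
    (cD_inr_ge hq0 v j).symm.trans (congrFun h0 _)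
  obtain h | rfl | rfl | rfl | rfl | h : 3 ≤ n ∨ n = 2 ∨ n = 1 ∨ n = 0 ∨ n = -1 ∨ n ≤ -2 := by
    omega
  · obtain ⟨m, rfl⟩ : ∃ m : ℕ, n = (m + 3 : ℕ) := ⟨(n - 3).toNat, by omega⟩
    obtain ⟨a, ha⟩ := ker_ac_pow hq0 hq m (hl (m + 3)) (g1 (m + 2))
    refine cone_exists hq0 hv (-a) 0 (fun i hi => ?_) (by omega) (by omega) (by omega)
      (fun j hj => by omega)
    obtain rfl : i = m + 3 := by omega
    rw [neg_mul, neg_neg]; exact ha
  · obtain ⟨a, r, ha⟩ := ker_ac_sq hq0 hq (hl 2) (g1 1)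
    have hr0 : r = 0 := by
      rw [ha, mul_smul_comm, add_mul, mul_assoc, ac3_bv] at g2
      simpa [hq0] using congrArg TT.f' g2
    rw [hr0, zero_smul, add_zero] at ha
    refine cone_exists hq0 hv (-a) 0 (fun i hi => ?_) (by omega) (by omega) (by omega)
      (fun j hj => by omega)
    obtain rfl : i = 2 := by omega
    rw [neg_mul, neg_neg]; exact ha.symm
  · obtain ⟨a, ha⟩ := ker_bu hq0 hq (hl 1) (g1 0)
    obtain ⟨r, hr'⟩ := ker_bt hq1 (w := v (.inr (0 : ℕ)) + a * (q ^ 2 • bv))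
      (by rw [add_mul, mul_assoc]; exact congrArg₂ (· + ·) (hr 0) (by congr 1; ext <;> simp))
      (by rw [add_mul, mul_assoc, ← ac2_bY, ← mul_assoc, ha, add_comm, g3])
    refine cone_exists hq0 hv (-a + (r / q ^ 2) • bv') 0 (fun i hi => ?_) (fun _ => ?_) (by omega)
      (by omega) (fun j hj => by omega)
    · obtain rfl : i = 1 := by omega
      have : (bv' : TT k q) * ac (q ^ 2) = 0 := by ext <;> simp [ac]
      change -((-a + (r / q ^ 2) • bv') * ac (q ^ 2)) = _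
      rw [add_mul, smul_mul_assoc, this, smul_zero, add_zero, neg_mul, neg_neg, ha]
    · have : ((r / q ^ 2) • bv' : TT k q) * (q ^ 2 • bv) = r • bf' := by
        ext <;> simp
        field_simp
      rw [add_mul, this, ← hr', neg_mul]; abel
  · have hchi : chi (v (.inl (0 : ℕ))) = 0 := by
      have e1 := congrArg TT.j g4
      simpa [ac] using e1
    obtain ⟨a, ha⟩ := ker_chi hq0 hq1 (hl 0) hchi
    obtain ⟨b, hb⟩ := ker_ac_one hq0 hq (w := v (.inr (1 : ℕ)) + a * (-q • bY))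
      (by rw [add_mul, mul_assoc]; exact congrArg₂ (· + ·) (hr 1) (by congr 1; ext <;> simp))
      (by rw [add_mul, mul_assoc, ← bu_bj, ← mul_assoc, ha, add_comm, g4])
    refine cone_exists hq0 hv (-a) b (fun i hi => ?_) (by omega) (fun _ => ?_)
      (by omega) (fun j hj => by omega)
    · obtain rfl : i = 0 := by omega
      rw [neg_mul, neg_neg]; exact ha
    · rw [hb, neg_mul]; abel
  · obtain ⟨b, r, hb⟩ := ker_ac_inv hq0 hq (hr 2) (by simpa using g5 0)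
    refine cone_exists hq0 hv (r • 1) b (fun i hi => by omega) (by omega) (by omega)
      (fun _ => ?_) (fun j hj => by omega)
    rw [hb, smul_mul_assoc, one_mul, add_comm]
  · obtain ⟨m, rfl⟩ : ∃ m : ℕ, n = -2 - m := ⟨(-2 - n).toNat, by omega⟩
    obtain ⟨b, hb⟩ := ker_ac_inv_pow hq0 hq m (hr (m + 3)) (g5 (m + 1))
    refine cone_exists hq0 hv 0 b (fun i hi => by omega) (by omega) (by omega)
      (by omega) (fun j hj => ?_)
    obtain rfl : j = m := by omega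
    exact hb

/-- `R` is exact in position 3 -/
theorem Rc_exact3 (hq0 : q ≠ 0) (hq : ∀ n : ℕ, 0 < n → q ^ n ≠ 1) (w : TT k q)
    (h1 : w * eL 3 = w) (h2 : w * dR 3 = 0) : ∃ v, v * dR 2 = w :=
  ker_ac_inv_pow hq0 hq 0 h1 h2

/-- the projection on the semisimple quotient -/
def piT : TT k q →ₐ[k] (Fin 2 → k) where
  toFun a := ![a.e, a.f]
  map_one' := by ext i; fin_cases i <;> simp
  map_mul' a b := by ext i; fin_cases i <;> simp
  map_zero' := by ext i; fin_cases i <;> simp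
  map_add' a b := by ext i; fin_cases i <;> simp
  commutes' c := by ext i; fin_cases i <;> simp [algebraMap_eq]

theorem piT_eq_zero {a : TT k q} : piT a = 0 ↔ a.e = 0 ∧ a.f = 0 := by
  change ![a.e, a.f] = 0 ↔ _
  simp [funext_iff, Fin.forall_fin_two]

/-- the radical filtration -/
def Fl (d : ℕ) : Submodule k (TT k q) where
  carrier := {a | (0 < d → a.e = 0 ∧ a.f = 0) ∧ (1 < d → a.u = 0 ∧ a.t = 0 ∧ a.z' = 0) ∧
    (2 < d → a.x = 0 ∧ a.y = 0 ∧ a.n = 0 ∧ a.v' = 0 ∧ a.j' = 0) ∧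
    (3 < d → a.v = 0 ∧ a.j = 0 ∧ a.x' = 0 ∧ a.y' = 0 ∧ a.n' = 0) ∧
    (4 < d → a.z = 0 ∧ a.u' = 0 ∧ a.t' = 0) ∧ (5 < d → a.e' = 0 ∧ a.f' = 0)}
  zero_mem' := by simp
  add_mem' := by
    rintro a b ⟨a0, a1, a2, a3, a4, a5⟩ ⟨b0, b1, b2, b3, b4, b5⟩
    refine ⟨fun h => ?_, fun h => ?_, fun h => ?_, fun h => ?_, fun h => ?_, fun h => ?_⟩
    · simp [a0 h, b0 h]
    · simp [a1 h, b1 h]
    · simp [a2 h, b2 h]
    · simp [a3 h, b3 h]
    · simp [a4 h, b4 h]
    · simp [a5 h, b5 h]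
  smul_mem' := by
    rintro c a ⟨a0, a1, a2, a3, a4, a5⟩
    refine ⟨fun h => ?_, fun h => ?_, fun h => ?_, fun h => ?_, fun h => ?_, fun h => ?_⟩
    · simp [a0 h]
    · simp [a1 h]
    · simp [a2 h]
    · simp [a3 h]
    · simp [a4 h]
    · simp [a5 h]

theorem Fl_mul (d : ℕ) (hd : 0 < d) : (Fl d : Submodule k (TT k q)) * Fl 1 ≤ Fl (d + 1) := by
  rw [Submodule.mul_le]
  rintro a ⟨a0, a1, a2, a3, a4, a5⟩ b ⟨b0, -⟩
  obtain ⟨b1, b2⟩ := b0 one_pos
  obtain ⟨c1, c2⟩ := a0 hd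
  refine ⟨fun h => ?_, fun h => ?_, fun h => ?_, fun h => ?_, fun h => ?_, fun h => ?_⟩
  · simp [b1, b2]
  · simp [b1, b2, c1, c2]
  · simp [b1, b2, c1, c2, a1 (by omega)]
  · simp [b1, b2, c1, c2, a1 (by omega), a2 (by omega)]
  · simp [b1, b2, c1, c2, a1 (by omega), a2 (by omega), a3 (by omega)]
  · simp [b1, b2, c1, c2, a1 (by omega), a2 (by omega), a3 (by omega), a4 (by omega)]

theorem Fl_pow (d : ℕ) : (Fl 1 : Submodule k (TT k q)) ^ (d + 1) ≤ Fl (d + 1) := by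
  induction d with
  | zero => rw [zero_add, pow_one]
  | succ d ih => rw [pow_succ]; exact (mul_le_mul_left ih _).trans (Fl_mul _ (by omega))

theorem Fl_six : (Fl 6 : Submodule k (TT k q)) = ⊥ := by
  rw [eq_bot_iff]
  rintro a ⟨a0, a1, a2, a3, a4, a5⟩
  rw [Submodule.mem_bot]
  ext <;> simp [a0 (by omega), a1 (by omega), a2 (by omega), a3 (by omega), a4 (by omega),
    a5 (by omega)]

theorem basic (hq0 : q ≠ 0) (hq1 : q ≠ 1) : Basic k (TT k q) (Fin 2) := by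
  refine ⟨piT, fun c => ⟨c 0 • be + c 1 • bf, ?_⟩, ⟨6, ?_⟩, bu, bt, bu, bt, by simp [piT_eq_zero],
    by simp [piT_eq_zero], by simp [piT_eq_zero], by simp [piT_eq_zero], fun h => ?_⟩
  · change ![_, _] = c
    ext i; fin_cases i <;> simp
  · have : LinearMap.ker (piT : TT k q →ₐ[k] _).toLinearMap = Fl 1 := by
      ext a
      rw [LinearMap.mem_ker, AlgHom.toLinearMap_apply, piT_eq_zero]
      change _ ↔ _ ∧ _
      simp
    rw [this, Submodule.zero_eq_bot, eq_bot_iff, ← Fl_six]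
    exact Fl_pow 5
  · have := congrArg TT.z h
    simp at this
    exact mul_ne_zero hq0 (sub_ne_zero.2 hq1) (by linear_combination -this)

end TT

end Crest.Agent.R186
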