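import Crest.Agent.R186.BCas
import Crest.Agent.R186.Cocycle
import Crest.Agent.R186.TCx

/-!
The start `T → P0 → P1` of the bimodule resolution over `TT k q` and the twisted derivation
`δ : T → Ω = coker (P0 → P1)`.
-/

set_option autoImplicit false

open MulOpposite

universe u

namespace Crest.Agent.R186

namespace TT

open PB

variable {k : Type u} [Field k] {q : k}

/-- the arrows -/
def al : Fin 4 → TT k q := ![bx, bu, bt, bz']
/-- left idempotents of the arrows -/
def el : Fin 4 → TT k q := ![be, be, bf, be]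
/-- right idempotents of the arrows -/
def er : Fin 4 → TT k q := ![be, bf, be, be]
/-- the cocycle -/
def mm : Fin 4 → TT k q →ₗ[k] TT k q →ₗ[k] TT k q := ![0, mU, mT, 0]
/-- the witnesses -/
def nn : Fin 4 → TT k q →ₗ[k] TT k q →ₗ[k] TT k q := ![nX, nU, nT, nZ]

theorem al_0 : (al 0 : TT k q) = bx := rfl
theorem al_1 : (al 1 : TT k q) = bu := rfl
theorem al_2 : (al 2 : TT k q) = bt := rfl
theorem al_3 : (al 3 : TT k q) = bz' := rfl
theorem el_0 : (el 0 : TT k q) = be := rfl
theorem el_1 : (el 1 : TT k q) = be := rfl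
theorem el_2 : (el 2 : TT k q) = bf := rfl
theorem el_3 : (el 3 : TT k q) = be := rfl
theorem er_0 : (er 0 : TT k q) = be := rfl
theorem er_1 : (er 1 : TT k q) = bf := rfl
theorem er_2 : (er 2 : TT k q) = be := rfl
theorem er_3 : (er 3 : TT k q) = be := rfl
theorem mm_0 : (mm 0 : TT k q →ₗ[k] TT k q →ₗ[k] TT k q) = 0 := rfl
theorem mm_1 : (mm 1 : TT k q →ₗ[k] TT k q →ₗ[k] TT k q) = mU := rfl
theorem mm_2 : (mm 2 : TT k q →ₗ[k] TT k q →ₗ[k] TT k q) = mT := rfl
theorem mm_3 : (mm 3 : TT k q →ₗ[k] TT k q →ₗ[k] TT k q) = 0 := rfl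
theorem nn_0 : (nn 0 : TT k q →ₗ[k] TT k q →ₗ[k] TT k q) = nX := rfl
theorem nn_1 : (nn 1 : TT k q →ₗ[k] TT k q →ₗ[k] TT k q) = nU := rfl
theorem nn_2 : (nn 2 : TT k q →ₗ[k] TT k q →ₗ[k] TT k q) = nT := rfl
theorem nn_3 : (nn 3 : TT k q →ₗ[k] TT k q →ₗ[k] TT k q) = nZ := rfl

theorem fin4 {P : Fin 4 → Prop} (h0 : P 0) (h1 : P 1) (h2 : P 2) (h3 : P 3) (i : Fin 4) :
    P i := by
  fin_cases i
  exacts [h0, h1, h2, h3]

theorem be_be : (be : TT k q) * be = be := by ext <;> simp
theorem be_bf : (be : TT k q) * bf = 0 := by ext <;> simp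
theorem bf_be : (bf : TT k q) * be = 0 := by ext <;> simp
theorem bf_bf : (bf : TT k q) * bf = bf := by ext <;> simp
theorem mul_be_add (w : TT k q) : w * be + w * bf = w := by ext <;> simp

theorem nn_be (b : Fin 4) (a w : TT k q) : nn b a (w * be) = nn b a w * be := by
  fin_cases b
  exacts [nX_e a w, nU_e a w, nT_e a w, nZ_e a w]

theorem nn_bf (b : Fin 4) (a w : TT k q) : nn b a (w * bf) = nn b a w * bf := by
  have h := mul_be_add (nn b a w)
  rw [← nn_be] at h
  rw [← add_right_inj (nn b a (w * be)), h, ← map_add, mul_be_add]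

theorem nn_el (b i : Fin 4) (a w : TT k q) : nn b a (w * el i) * al i = nn b a w * al i := by
  have h : nn b a (w * el i) = nn b a w * el i := by
    fin_cases i
    exacts [nn_be b a w, nn_be b a w, nn_bf b a w, nn_be b a w]
  have h2 : (el i : TT k q) * al i = al i := by
    fin_cases i <;> ext <;> simp [el, al]
  rw [h, mul_assoc, h2]

theorem coc (b i : Fin 4) (a w : TT k q) :
    mm i (a * al b) w - a * mm i (al b) w - mm i a (sg (al b) * w)
      = nn b a w * al i - nn b a (w * al i) := by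
  rw [← nn_el]
  induction b using fin4 <;> induction i using fin4 <;>
    simp only [al_0, al_1, al_2, al_3, el_0, el_1, el_2, el_3, mm_0, mm_1, mm_2, mm_3, nn_0, nn_1,
      nn_2, nn_3, LinearMap.zero_apply, mul_zero, sub_zero]
  exacts [coc_XX a w, coc_XU a w, coc_XT a w, coc_XZ a w, coc_UX a w, coc_UU a w, coc_UT a w,
    coc_UZ a w, coc_TX a w, coc_TU a w, coc_TT a w, coc_TZ a w, coc_ZX a w, coc_ZU a w,
    coc_ZT a w, coc_ZZ a w]

theorem mm_idem (i : Fin 4) (a w : TT k q) : mm i a (w * el i) * er i = mm i a w := by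
  induction i using fin4 <;>
    simp only [er_1, er_2, el_1, el_2, mm_0, mm_1, mm_2, mm_3, LinearMap.zero_apply, zero_mul]
  exacts [mU_idem a w, mT_idem a w]

theorem mm_e (i : Fin 4) (a w : TT k q) : mm i (a * be) w = mm i a (be * w) := by
  fin_cases i
  exacts [rfl, mU_e a w, mT_e a w, rfl]

theorem mm_be (i : Fin 4) (w : TT k q) : mm i be w = 0 := by
  fin_cases i
  exacts [rfl, mU_be w, mT_be w, rfl]

theorem mm_one (i : Fin 4) (w : TT k q) : mm i 1 w = 0 := by
  fin_cases i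
  exacts [rfl, mU_one w, mT_one w, rfl]

theorem mm_cas (i : Fin 4) (H : k) (w : TT k q) :
    ∑ l, mm i (scal H ((sym k q).a l)) ((sym k q).a' l * w) = 0 := by
  fin_cases i
  exacts [Finset.sum_const_zero, mU_cas H w, mT_cas H w, Finset.sum_const_zero]

variable (k q) in
/-- projection on `Te ⊗ eT ⊕ Tf ⊗ fT` -/
noncomputable def p0 : Hom (OT k (TT k q)) (OT k (TT k q)) := (inner be be).add (inner bf bf)

theorem p0_p0 (z : (OT k (TT k q)).V) : (p0 k q).l ((p0 k q).l z) = (p0 k q).l z := by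
  simp [p0, inner_inner, be_be, be_bf, bf_be, bf_bf, PB.inner_zero_left]

variable (k q) in
/-- projection on the first syzygy module -/
noncomputable def p1 : Hom ((OT k (TT k q)).pow 4) ((OT k (TT k q)).pow 4) :=
  Hom.pi fun i => (inner (er i) (el i)).comp (ev _ i)

theorem ev_p1 (z : ((OT k (TT k q)).pow 4).V) (i : Fin 4) :
    (ev _ i).l ((p1 k q).l z) = (inner (er i) (el i)).l ((ev _ i).l z) := rfl

theorem p1_p1 (z : ((OT k (TT k q)).pow 4).V) : (p1 k q).l ((p1 k q).l z) = (p1 k q).l z := by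
  refine pow_ext fun i => ?_
  have h1 : (er i : TT k q) * er i = er i := by fin_cases i <;> ext <;> simp [er]
  have h2 : (el i : TT k q) * el i = el i := by fin_cases i <;> ext <;> simp [el]
  rw [ev_p1, ev_p1, inner_inner, h1, h2]

variable (k q) in
/-- commutators with the arrows -/
noncomputable def d' : Hom (OT k (TT k q)) ((OT k (TT k q)).pow 4) :=
  Hom.pi fun i => (inner (al i) 1).sub (inner 1 (al i))

theorem ev_d' (z : (OT k (TT k q)).V) (i : Fin 4) :
    (ev _ i).l ((d' k q).l z) = (inner (al i) 1).l z - (inner 1 (al i)).l z := rfl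

theorem p1_d' (z : (OT k (TT k q)).V) :
    (p1 k q).l ((d' k q).l ((p0 k q).l z)) = (d' k q).l ((p0 k q).l z) := by
  refine pow_ext fun i => ?_
  have a1 : (be : TT k q) * bx = bx := by ext <;> simp
  have a2 : (bx : TT k q) * be = bx := by ext <;> simp
  have a3 : (bf : TT k q) * bx = 0 := by ext <;> simp
  have a4 : (bx : TT k q) * bf = 0 := by ext <;> simp
  have b1 : (be : TT k q) * bu = bu := by ext <;> simp
  have b2 : (bu : TT k q) * be = 0 := by ext <;> simp
  have b3 : (bf : TT k q) * bu = 0 := by ext <;> simp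
  have b4 : (bu : TT k q) * bf = bu := by ext <;> simp
  have c1 : (be : TT k q) * bt = 0 := by ext <;> simp
  have c2 : (bt : TT k q) * be = bt := by ext <;> simp
  have c3 : (bf : TT k q) * bt = bt := by ext <;> simp
  have c4 : (bt : TT k q) * bf = 0 := by ext <;> simp
  have d1 : (be : TT k q) * bz' = bz' := by ext <;> simp
  have d2 : (bz' : TT k q) * be = bz' := by ext <;> simp
  have d3 : (bf : TT k q) * bz' = 0 := by ext <;> simp
  have d4 : (bz' : TT k q) * bf = 0 := by ext <;> simp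
  rw [ev_p1, ev_d']
  fin_cases i <;>
    simp [p0, al, el, er, inner_inner, be_be, bf_bf, PB.inner_zero_left,
      PB.inner_zero_right, *]

variable (k q) in
/-- degree zero -/
noncomputable def P0 : PB k (TT k q) := summand (p0 k q) p0_p0
variable (k q) in
/-- degree one -/
noncomputable def P1 : PB k (TT k q) := summand (p1 k q) p1_p1
/-- inclusion -/
noncomputable def i0 : Hom (P0 k q) (OT k (TT k q)) := summandι _ _
/-- projection -/
noncomputable def r0 : Hom (OT k (TT k q)) (P0 k q) := summandπ _ _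
/-- inclusion -/
noncomputable def i1 : Hom (P1 k q) ((OT k (TT k q)).pow 4) := summandι _ _
/-- projection -/
noncomputable def r1 : Hom ((OT k (TT k q)).pow 4) (P1 k q) := summandπ _ _

theorem i0_inj : Function.Injective (i0 : Hom (P0 k q) _).l := summandι_injective _ _
theorem i1_inj : Function.Injective (i1 : Hom (P1 k q) _).l := summandι_injective _ _
theorem i0_r0 (z : (OT k (TT k q)).V) : i0.l (r0.l z) = (p0 k q).l z := rfl
theorem i1_r1 (z : ((OT k (TT k q)).pow 4).V) : i1.l (r1.l z) = (p1 k q).l z := rfl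
theorem p0_i0 (z : (P0 k q).V) : (p0 k q).l (i0.l z) = i0.l z := p_summandι _ _ z
theorem p1_i1 (z : (P1 k q).V) : (p1 k q).l (i1.l z) = i1.l z := p_summandι _ _ z

/-- the differential -/
noncomputable def dd : Hom (P0 k q) (P1 k q) := r1.comp ((d' k q).comp i0)

theorem i1_dd (z : (P0 k q).V) : i1.l (dd.l z) = (d' k q).l (i0.l z) := by
  have := p1_d' (i0.l z)
  rw [p0_i0] at this
  exact this

theorem p0_cas (φ : TT k q →ₗ[k] TT k q) (h1 : ∀ w, φ (w * be) = φ w * be)
    (h2 : ∀ w, φ (w * bf) = φ w * bf) : (p0 k q).l (cas (sym k q) φ) = cas (sym k q) φ := by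
  rw [p0, Hom.add_l, inner_cas, inner_cas, ← map_add]
  refine cas_congr _ fun w => ?_
  simp only [LinearMap.add_apply, LinearMap.comp_apply, LinearMap.mulRight_apply, h1, h2,
    mul_assoc, be_be, bf_bf, mul_be_add]

/-- the Casimir element -/
noncomputable def κ1 : (P0 k q).V := r0.l (cas (sym k q) LinearMap.id)

theorem i0_κ1 : i0.l (κ1 : (P0 k q).V) = cas (sym k q) LinearMap.id :=
  p0_cas _ (fun _ => rfl) (fun _ => rfl)

theorem κ1_c (a : TT k q) : a • (κ1 : (P0 k q).V) = op a • κ1 := by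
  apply i0_inj
  rw [map_smul, i0.map_r, i0_κ1, smul_cas, op_smul_cas]
  rfl

/-- the augmentation -/
noncomputable def aug : Hom (reg (AlgEquiv.refl : TT k q ≃ₐ[k] TT k q)) (P0 k q) :=
  regGen _ κ1 κ1_c

theorem i0_aug (x : (reg (AlgEquiv.refl : TT k q ≃ₐ[k] TT k q)).V) :
    i0.l (aug.l x) = regVal _ x • cas (sym k q) LinearMap.id := by
  change i0.l (regVal _ x • (κ1 : (P0 k q).V)) = _
  rw [map_smul, i0_κ1]

theorem aug_inj : Function.Injective (aug : Hom _ (P0 k q)).l := by
  intro x y h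
  have := congrArg (fun z => otL (sym k q) (i0.l z)) h
  simp only [i0_aug, otL_smul_cas] at this
  exact (regVal _).injective this

theorem aug_exact (hq0 : q ≠ 0) (hq1 : q ≠ 1) :
    Function.Exact (aug : Hom _ (P0 k q)).l dd.l := by
  intro z
  constructor
  · intro h
    have h1 : ∀ i, al i ∈ centr (i0.l z) := fun i => by
      have := congrArg (fun y => (ev _ i).l (i1.l y)) h
      simp only [i1_dd, ev_d', map_zero] at this
      exact sub_eq_zero.1 this
    have h2 : be ∈ centr (i0.l z) := by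
      rw [mem_centr, ← p0_i0]
      simp [p0, inner_inner, be_be, be_bf, bf_be, PB.inner_zero_left, PB.inner_zero_right]
    have h3 := eq_smul_cas (sym k q)
      (adjoin_eq_top hq0 hq1 _ h2 (h1 0) (h1 1) (h1 2) (h1 3))
    refine ⟨(regVal _).symm (otL (sym k q) (i0.l z)), i0_inj ?_⟩
    rw [i0_aug, LinearEquiv.apply_symm_apply, ← h3]
  · rintro ⟨x, rfl⟩
    apply i1_inj
    rw [i1_dd, i0_aug, map_smul, map_zero]
    refine pow_ext fun i => ?_
    rw [map_smul, ev_d', inner_cas, inner_cas, ← map_sub, map_zero,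
      cas_congr (ψ := 0) _ fun w => by simp, map_zero, smul_zero]

/-- the cocycle as a map to `OT ^ 4` -/
noncomputable def δ' : TT k q →ₗ[k] ((OT k (TT k q)).pow 4).V :=
  LinearMap.pi fun i => cas (sym k q) ∘ₗ mm i

theorem ev_δ' (a : TT k q) (i : Fin 4) : (ev _ i).l (δ' a) = cas (sym k q) (mm i a) := rfl

/-- the cocycle as a map to `P1` -/
noncomputable def δ1 : TT k q →ₗ[k] (P1 k q).V := r1.lk ∘ₗ δ'

theorem i1_δ1 (a : TT k q) : i1.l (δ1 a) = δ' a := by
  refine pow_ext fun i => ?_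
  change (ev _ i).l ((p1 k q).l (δ' a)) = _
  rw [ev_p1, ev_δ', inner_cas]
  exact cas_congr _ fun w => mm_idem i a w

theorem δ1_arrow (b : Fin 4) (a : TT k q) :
    ∃ r : (P0 k q).V, dd.l r
      = δ1 (a * al b) - a • δ1 (al b) - op (sg (al b : TT k q)) • δ1 a := by
  refine ⟨r0.l (cas (sym k q) (nn b a)), i1_inj (pow_ext fun i => ?_)⟩
  rw [i1_dd, i0_r0, p0_cas _ (nn_be b a) (nn_bf b a), ev_d', inner_cas, inner_cas]
  simp only [map_sub, map_smul, Hom.map_r, i1_δ1, ev_δ', smul_cas, op_smul_cas]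
  simp only [← map_sub]
  refine cas_congr _ fun w => ?_
  simpa using (coc b i a w).symm

theorem δ1_be (a : TT k q) :
    δ1 (a * be) = a • δ1 be + op (sg (be : TT k q)) • δ1 a := by
  refine i1_inj (pow_ext fun i => ?_)
  simp only [map_add, map_smul, Hom.map_r, i1_δ1, ev_δ', smul_cas, op_smul_cas]
  simp only [← map_add]
  refine cas_congr _ fun w => ?_
  have : sgn (be : TT k q) = be := by ext <;> simp
  simp [mm_e, mm_be, this]

theorem δ1_one : δ1 (1 : TT k q) = 0 := by
  refine i1_inj (pow_ext fun i => ?_)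
  rw [i1_δ1, ev_δ', map_zero, map_zero, cas_congr (ψ := 0) _ (mm_one i), map_zero]

theorem δ1_cas (H : k) : ∑ l, op ((sym k q).a' l) • δ1 (scal H ((sym k q).a l)) = 0 := by
  refine i1_inj (pow_ext fun i => ?_)
  simp only [map_sum, map_zero, Hom.map_r, i1_δ1, ev_δ', op_smul_cas]
  rw [← map_sum, cas_congr (ψ := 0) _ fun w => ?_, map_zero]
  simpa using mm_cas i H w

section
variable (hq0 : q ≠ 0) (hq1 : q ≠ 1)

/-- the second syzygy bimodule -/
noncomputable def Om : PB k (TT k q) := coker (sym k q) aug dd aug_inj (aug_exact hq0 hq1)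

/-- the projection -/
noncomputable def pr : Hom (P1 k q) (Om hq0 hq1) := cokerπ _ _ _ _ _

theorem pr_surj : Function.Surjective (pr hq0 hq1).l := cokerπ_surjective _ _ _ _ _

theorem pr_eq_zero (w : (P1 k q).V) : (pr hq0 hq1).l w = 0 ↔ ∃ v, dd.l v = w :=
  cokerπ_eq_zero _ _ _ _ _ w

/-- the twisted derivation -/
noncomputable def δ : TT k q →ₗ[k] (Om hq0 hq1).V := (pr hq0 hq1).lk ∘ₗ δ1

theorem δ_apply (a : TT k q) : δ hq0 hq1 a = (pr hq0 hq1).l (δ1 a) := rfl

theorem δ_one : δ hq0 hq1 1 = 0 := by rw [δ_apply, δ1_one, map_zero]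

theorem δ_arrow (i : Fin 4) (a : TT k q) : δ hq0 hq1 (a * al i)
    = a • δ hq0 hq1 (al i) + op (sg (al i : TT k q)) • δ hq0 hq1 a := by
  have := (pr_eq_zero hq0 hq1 _).2 (δ1_arrow i a)
  rw [map_sub, map_sub, map_smul, Hom.map_r, sub_sub, sub_eq_zero] at this
  rw [δ_apply, δ_apply, δ_apply, this]

theorem δ_be (a : TT k q) : δ hq0 hq1 (a * be)
    = a • δ hq0 hq1 be + op (sg (be : TT k q)) • δ hq0 hq1 a := by
  rw [δ_apply, δ1_be, map_add, map_smul, Hom.map_r, δ_apply, δ_apply]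

include hq0 hq1 in
theorem adjoin_al (S : Subalgebra k (TT k q)) (h3 : be ∈ S) (h2 : ∀ i, al i ∈ S) (b : TT k q) :
    b ∈ S := adjoin_eq_top hq0 hq1 S h3 (h2 0) (h2 1) (h2 2) (h2 3) b

theorem δ_mul (a b : TT k q) :
    δ hq0 hq1 (a * b) = a • δ hq0 hq1 b + op (sg b) • δ hq0 hq1 a :=
  mem_derSub.1 (adjoin_al hq0 hq1 (derSub _ sg (δ hq0 hq1) (δ_one hq0 hq1))
    (mem_derSub.2 (δ_be hq0 hq1)) (fun i => mem_derSub.2 (δ_arrow hq0 hq1 i)) b) a

end

end TT

end Crest.Agent.R186
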