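import Crest.Agent.R186.BData
import Crest.Agent.R186.Cocycle
import Crest.Agent.R186.TCx
import Crest.Agent.R186.BRes

/-!
Construction of the bimodule data over `TT k q`.
-/

set_option autoImplicit false

open MulOpposite

universe u

namespace Crest.Agent.R186

namespace TT

open PB

variable {k : Type u} [Field k] {q : k}

/-- fibre of `P0` -/
noncomputable def π0 : (P0 k q).V →ₗ[TT k q] TT k q := otFib chi ∘ₗ i0.l

/-- fibre of `P1` -/
noncomputable def π1 : (P1 k q).V →ₗ[TT k q] TT k q := otFib chi ∘ₗ (ev _ 2).l ∘ₗ i1.l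

theorem π0_apply (z : (P0 k q).V) : π0 z = otFib chi (i0.l z) := rfl
theorem π1_apply (z : (P1 k q).V) : π1 z = otFib chi ((ev _ 2).l (i1.l z)) := rfl

theorem fib_π0 : Fib chi (P0 k q) π0 := (fib_OT chi).summand _ _

theorem fib_π1 : Fib chi (P1 k q) π1 := by
  intro z
  have h := ((fib_OT (chi : TT k q →ₐ[k] k)).pow 4).summand (p1 k q) p1_p1 z
  refine Iff.trans ?_ h
  have key : ∀ i, otFib chi ((ev _ i).l (i1.l z))
      = chi (el i : TT k q) • (otFib chi ((ev _ i).l (i1.l z)) * er i) := fun i => by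
    rw [← otFib_inner, ← ev_p1, p1_i1]
  constructor
  · intro h0
    funext i
    change otFib chi ((ev _ i).l (i1.l z)) = 0
    induction i using fin4
    · rw [key]; simp [el_0]
    · rw [key]; simp [el_1]
    · exact h0
    · rw [key]; simp [el_3]
  · intro h0
    exact congrFun h0 2

theorem otFib_p0 (z : (OT k (TT k q)).V) : otFib chi ((p0 k q).l z) = otFib chi z * bf := by
  simp [p0, otFib_inner]

theorem range_π0 (w : TT k q) : (∃ r, π0 r = w) ↔ w * bf = w := by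
  constructor
  · rintro ⟨r, rfl⟩
    rw [π0_apply, ← otFib_p0, p0_i0]
  · intro h
    exact ⟨r0.l (tm (k := k) w 1), by rw [π0_apply, i0_r0, otFib_p0]; simpa using h⟩

theorem otFib_p1 (z : ((OT k (TT k q)).pow 4).V) :
    otFib chi ((ev _ 2).l ((p1 k q).l z)) = otFib chi ((ev _ 2).l z) * be := by
  rw [ev_p1, otFib_inner, el_2, er_2]; simp

theorem range_π1 (w : TT k q) : (∃ r, π1 r = w) ↔ w * be = w := by
  constructor
  · rintro ⟨r, rfl⟩
    rw [π1_apply, ← otFib_p1, p1_i1]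
  · intro h
    exact ⟨r1.l ((sgl _ 2).l (tm (k := k) w 1)), by
      rw [π1_apply, i1_r1, otFib_p1, ev_sgl_same]; simpa using h⟩

theorem π1_dd (r : (P0 k q).V) : π1 (dd.l r) = π0 r * bt := by
  rw [π1_apply, i1_dd, ev_d', map_sub, otFib_inner, otFib_inner, al_2, π0_apply]
  simp

theorem π1_δ1 (a : TT k q) : π1 (δ1 a) = mT a bf' := by
  rw [π1_apply, i1_δ1, ev_δ', otFib_cas _ chi bf' lam_mul_soc, mm_2]

theorem bt_ac : (bt : TT k q) * ac 1 = 0 := by ext <;> simp [ac]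

theorem sg_sg (a : TT k q) : sg (sg a) = a := by ext <;> simp

section
variable (hq0 : q ≠ 0) (hq1 : q ≠ 1)

/-- fibre map on `Ω` -/
noncomputable def πΩ : (Om hq0 hq1).V →ₗ[TT k q] TT k q :=
  (LinearMap.range (dd : Hom (P0 k q) (P1 k q)).l).liftQ
    (LinearMap.mulRight (TT k q) (ac 1) ∘ₗ π1) (by
      rintro _ ⟨r, rfl⟩
      rw [LinearMap.mem_ker, LinearMap.comp_apply, π1_dd, LinearMap.mulRight_apply, mul_assoc,
        bt_ac, mul_zero])

theorem πΩ_pr (z : (P1 k q).V) : πΩ hq0 hq1 ((pr hq0 hq1).l z) = π1 z * ac 1 := rfl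

theorem πΩ_op_smul (a : TT k q) (w : (Om hq0 hq1).V) :
    πΩ hq0 hq1 (op a • w) = chi a • πΩ hq0 hq1 w := by
  obtain ⟨z, rfl⟩ := pr_surj hq0 hq1 w
  rw [← Hom.map_r, πΩ_pr, πΩ_pr, fib_π1.op_smul, smul_mul_assoc]

/-- the bimodule `B` -/
noncomputable def BB : PB k (TT k q) :=
  PB.ext (Om hq0 hq1) sg (δ hq0 hq1) (δ_mul hq0 hq1) sg_sg

/-- coordinates -/
noncomputable def bv0 : (BB hq0 hq1).V ≃ₗ[k] (Om hq0 hq1).V × TT k q :=
  extVal (δ_mul hq0 hq1) sg_sg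

theorem bv0_smul (a : TT k q) (z : (BB hq0 hq1).V) : bv0 hq0 hq1 (a • z)
    = (a • (bv0 hq0 hq1 z).1 + op (bv0 hq0 hq1 z).2 • δ hq0 hq1 a,
      sg a * (bv0 hq0 hq1 z).2) := rfl

theorem bv0_op_smul (a : TT k q) (z : (BB hq0 hq1).V) : bv0 hq0 hq1 (op a • z)
    = (op a • (bv0 hq0 hq1 z).1, (bv0 hq0 hq1 z).2 * a) := rfl

/-- `P1 → B` -/
noncomputable def ιB : Hom (P1 k q) (BB hq0 hq1) :=
  (extIn (δ_mul hq0 hq1) sg_sg).comp (pr hq0 hq1)

theorem bv0_ιB (z : (P1 k q).V) : bv0 hq0 hq1 ((ιB hq0 hq1).l z) = ((pr hq0 hq1).l z, 0) := rfl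

/-- the generator -/
noncomputable def w0 : (BB hq0 hq1).V := (bv0 hq0 hq1).symm (0, q⁻¹ • 1)

theorem bv0_w0 : bv0 hq0 hq1 (w0 hq0 hq1) = (0, q⁻¹ • 1) := rfl

theorem bv0_gen (x y : TT k q) : bv0 hq0 hq1 ((otGen (w0 hq0 hq1)).l (tm (k := k) x y))
    = q⁻¹ • (op y • δ hq0 hq1 x, sg x * y) := by
  rw [otGen_tm, bv0_smul, bv0_op_smul, bv0_w0]
  simp only [smul_zero, zero_add, smul_mul_assoc, one_mul, op_smul, smul_assoc, mul_smul_comm,
    Prod.smul_mk]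

/-- `P0 → B` -/
noncomputable def ρB : Hom (P0 k q) (BB hq0 hq1) := (otGen (w0 hq0 hq1)).comp i0

theorem ρB_apply (z : (P0 k q).V) : (ρB hq0 hq1).l z = (otGen (w0 hq0 hq1)).l (i0.l z) := rfl

theorem gen_cas (H : k) (φ : TT k q →ₗ[k] TT k q) (hφ : ∀ a, φ a = scal H a) :
    (otGen (w0 hq0 hq1)).l (cas (sym k q) φ) = 0 := by
  apply (bv0 hq0 hq1).injective
  rw [cas_apply, map_sum, map_sum, map_zero]
  simp only [bv0_gen, hφ]
  rw [← Finset.smul_sum, smul_eq_zero_of_right]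
  refine Prod.ext ?_ ?_
  · rw [Prod.fst_sum]
    have := congrArg (pr hq0 hq1).l (δ1_cas (q := q) H)
    rw [map_sum, map_zero] at this
    simp only [Hom.map_r] at this
    exact this
  · rw [Prod.snd_sum]
    exact cas_sg H

/-- fibre of `B` -/
noncomputable def πB : (BB hq0 hq1).V →ₗ[TT k q] TT k q where
  toFun z := πΩ hq0 hq1 (bv0 hq0 hq1 z).1 + (q * chi (bv0 hq0 hq1 z).2) • bj
  map_add' x y := by
    simp only [map_add, Prod.fst_add, Prod.snd_add, mul_add, add_smul]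
    abel
  map_smul' a z := by
    have h := mT_soc a
    have h2 : chi (sg a) = chi a := rfl
    rw [bv0_smul]
    simp only [map_add, map_smul, πΩ_op_smul, δ_apply, πΩ_pr, π1_δ1, map_mul, h2,
      RingHom.id_apply, smul_eq_mul, mul_add, mul_smul_comm]
    generalize chi (bv0 hq0 hq1 z).2 = c
    rw [add_assoc, mul_comm q c, mul_smul c q, ← h, smul_add, smul_smul]
    congr 3
    ring

theorem πB_apply (z : (BB hq0 hq1).V) :
    πB hq0 hq1 z = πΩ hq0 hq1 (bv0 hq0 hq1 z).1 + (q * chi (bv0 hq0 hq1 z).2) • bj := rfl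

theorem πB_ιB (z : (P1 k q).V) : πB hq0 hq1 ((ιB hq0 hq1).l z) = π1 z * ac 1 := by
  rw [πB_apply, bv0_ιB, πΩ_pr]; simp

theorem πB_op_smul (a : TT k q) (z : (BB hq0 hq1).V) :
    πB hq0 hq1 (op a • z) = chi a • πB hq0 hq1 z := by
  rw [πB_apply, πB_apply, bv0_op_smul, πΩ_op_smul, map_mul, smul_add, smul_smul]
  congr 2
  ring

theorem πB_gen (z : (OT k (TT k q)).V) :
    πB hq0 hq1 ((otGen (w0 hq0 hq1)).l z) = otFib chi z * bj := by
  induction z using OT_induction with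
  | zero => simp only [map_zero, zero_mul]
  | add x y hx hy => simp only [map_add, hx, hy, add_mul]
  | tmul x y =>
    rw [otGen_tm, map_smul, πB_op_smul, πB_apply, bv0_w0, otFib_tm]
    simp [hq0]

theorem surjB (z : (BB hq0 hq1).V) : ∃ ψ r, z = (ιB hq0 hq1).l ψ + (ρB hq0 hq1).l r := by
  let r : (P0 k q).V := r0.l (tm (k := k) 1 (q • (bv0 hq0 hq1 z).2))
  have h2 : (bv0 hq0 hq1 ((ρB hq0 hq1).l r)).2 = (bv0 hq0 hq1 z).2 := by
    rw [ρB_apply, i0_r0, p0, Hom.add_l, inner_tm, inner_tm, map_add, map_add, bv0_gen, bv0_gen]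
    ext <;> simp [hq0]
  obtain ⟨ψ, hψ⟩ := pr_surj hq0 hq1 ((bv0 hq0 hq1 z).1 - (bv0 hq0 hq1 ((ρB hq0 hq1).l r)).1)
  refine ⟨ψ, r, (bv0 hq0 hq1).injective ?_⟩
  rw [map_add, bv0_ιB, hψ]
  exact Prod.ext (sub_add_cancel _ _).symm (h2.symm.trans (zero_add _).symm)

theorem decompB (z : (BB hq0 hq1).V) :
    ∃ ψ, z = (ιB hq0 hq1).l ψ + op (q • (bv0 hq0 hq1 z).2) • w0 hq0 hq1 := by
  obtain ⟨ψ, hψ⟩ := pr_surj hq0 hq1 (bv0 hq0 hq1 z).1
  refine ⟨ψ, (bv0 hq0 hq1).injective ?_⟩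
  rw [map_add, bv0_ιB, hψ, bv0_op_smul, bv0_w0]
  refine Prod.ext (by simp) ?_
  simp [smul_smul, hq0]

theorem πB_w0 : πB hq0 hq1 (w0 hq0 hq1) = bj := by
  rw [πB_apply, bv0_w0]
  simp [hq0]

theorem ιB_dd (r : (P0 k q).V) : (ιB hq0 hq1).l (dd.l r) = 0 := by
  apply (bv0 hq0 hq1).injective
  rw [bv0_ιB, (pr_eq_zero hq0 hq1 _).2 ⟨r, rfl⟩, map_zero]
  rfl

theorem fib_πB (hq : ∀ n : ℕ, 0 < n → q ^ n ≠ 1) : Fib chi (BB hq0 hq1) (πB hq0 hq1) := by
  intro z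
  constructor
  · intro h
    obtain ⟨ψ, hψ⟩ := decompB hq0 hq1 z
    rw [hψ, map_add, πB_ιB, πB_op_smul, πB_w0] at h
    have h1 : chi (q • (bv0 hq0 hq1 z).2) = 0 := by
      refine bj_not_mem (q := q) (v := -π1 ψ) ?_
      rw [neg_mul]
      exact eq_neg_of_add_eq_zero_right h
    rw [h1, zero_smul, add_zero] at h
    obtain ⟨v, hv⟩ := ker_ac_one hq0 hq ((range_π1 _).1 ⟨ψ, rfl⟩) h
    obtain ⟨r, hr⟩ := (range_π0 (v * bf)).2 (by rw [mul_assoc, bf_bf])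
    have h3 : π1 (ψ - dd.l r) = 0 := by
      have : (bf : TT k q) * bt = bt := by ext <;> simp
      rw [map_sub, π1_dd, hr, mul_assoc, this, hv, sub_self]
    have h4 := (ιB hq0 hq1).map_radR ((fib_π1 _).1 h3)
    rw [map_sub, ιB_dd, sub_zero] at h4
    rw [hψ]
    exact add_mem h4 (op_smul_mem_radR h1 _)
  · refine radR_le_ker ((πB hq0 hq1).restrictScalars k) fun a v ha => ?_
    rw [LinearMap.restrictScalars_apply, πB_op_smul, ha, zero_smul]

theorem range_πB (hq : ∀ n : ℕ, 0 < n → q ^ n ≠ 1) (w : TT k q) :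
    (∃ r, πB hq0 hq1 r = w) ↔ w * be = w ∧ w * ac q⁻¹ = 0 := by
  constructor
  · rintro ⟨z, rfl⟩
    obtain ⟨ψ, hψ⟩ := decompB hq0 hq1 z
    have a1 : (ac 1 : TT k q) * be = ac 1 := by ext <;> simp [ac]
    have a2 : (bj : TT k q) * be = bj := by ext <;> simp
    have a3 : (ac 1 : TT k q) * ac q⁻¹ = 0 := by ext <;> simp [ac, hq0]
    have a4 : (bj : TT k q) * ac q⁻¹ = 0 := by ext <;> simp [ac]
    rw [hψ, map_add, πB_ιB, πB_op_smul, πB_w0]
    simp only [add_mul, mul_assoc, smul_mul_assoc, a1, a2, a3, a4, mul_zero, smul_zero, add_zero,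
      and_self]
  · rintro ⟨h1, h2⟩
    obtain ⟨v, r, rfl⟩ := ker_ac_inv hq0 hq h1 h2
    obtain ⟨ψ, hψ⟩ := (range_π1 (v * be)).2 (by rw [mul_assoc, be_be])
    have a1 : (be : TT k q) * ac 1 = ac 1 := by ext <;> simp [ac]
    refine ⟨(ιB hq0 hq1).l ψ + r • w0 hq0 hq1, ?_⟩
    rw [map_add, πB_ιB, hψ, mul_assoc, a1, LinearMap.map_smul_of_tower, πB_w0]

end

/-- the twisted Casimir element -/
noncomputable def κ2 (hq0 : q ≠ 0) : (P0 k q).V :=
  q⁻¹ • r0.l (cas (sym k q) (hh q hq0).toLinearMap)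

theorem i0_κ2 (hq0 : q ≠ 0) :
    i0.l (κ2 hq0) = q⁻¹ • cas (sym k q) (hh q hq0).toLinearMap := by
  rw [κ2, LinearMap.map_smul_of_tower, i0_r0, p0_cas]
  · intro w; ext <;> simp
  · intro w; ext <;> simp

theorem κ2_c (hq0 : q ≠ 0) (a : TT k q) : hh q hq0 a • κ2 hq0 = op a • κ2 hq0 := by
  apply i0_inj
  rw [map_smul, i0.map_r, i0_κ2, smul_comm, smul_comm (op a), smul_cas, op_smul_cas]
  congr 1
  exact cas_congr _ fun w => (map_mul (hh q hq0) a w).symm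

theorem exists_bdata (hq0 : q ≠ 0) (hq : ∀ n : ℕ, 0 < n → q ^ n ≠ 1) :
    Nonempty (BData (chi : TT k q →ₐ[k] k) bf' (hh q hq0) (eL 0) (eL 1) (eL 2) (dR 0) (dR 1) (dR 2)
      (psi 0 2)) := by
  have hq1 := q_ne_one hq
  have e1 : (dR 1 : TT k q) = ac 1 := by simp [dR]
  have e2 : (dR 2 : TT k q) = ac q⁻¹ := by simp [dR]
  rw [e1, e2]
  exact ⟨{
    P0 := P0 k q
    P1 := P1 k q
    B := BB hq0 hq1
    d := dd
    ι := ιB hq0 hq1
    ρ := ρB hq0 hq1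
    ι_d := ιB_dd hq0 hq1
    surj := surjB hq0 hq1
    π0 := π0
    π1 := π1
    πB := πB hq0 hq1
    fib0 := fib_π0
    fib1 := fib_π1
    fibB := fib_πB hq0 hq1 hq
    range0 := range_π0
    range1 := range_π1
    rangeB := range_πB hq0 hq1 hq
    π_d := π1_dd
    π_ι := πB_ιB hq0 hq1
    π_ρ := fun r => πB_gen hq0 hq1 _
    κ1 := κ1
    κ2 := κ2 hq0
    κ1_c := κ1_c
    κ2_c := κ2_c hq0
    ρ_κ1 := by
      rw [ρB_apply, i0_κ1]
      exact gen_cas hq0 hq1 1 _ fun a => by ext <;> simp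
    ρ_κ2 := by
      rw [ρB_apply, i0_κ2, LinearMap.map_smul_of_tower, gen_cas hq0 hq1 q _ fun a => rfl,
        smul_zero]
    π_κ1 := by rw [π0_apply, i0_κ1, otFib_cas _ chi bf' lam_mul_soc]; rfl
    π_κ2 := by
      rw [π0_apply, i0_κ2, LinearMap.map_smul_of_tower, otFib_cas _ chi bf' lam_mul_soc]
      ext <;> simp [hq0] }⟩

end TT

end Crest.Agent.R186
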