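import Mathlib
import Crest.Prelude.Def_SymmetricAlgebra

/-!
Symmetric algebras through a symmetrising form and a pair of dual bases.
-/

set_option autoImplicit false

open scoped TensorProduct

universe u v w

namespace Crest.Agent.R186

/-- A symmetrising form `lam` together with dual families `a`, `a'`. -/
structure SymData (k : Type v) [Field k] (R : Type u) [Ring R] [Algebra k R] where
  ι : Type
  [fin : Fintype ι]
  a : ι → R
  a' : ι → R
  lam : R →ₗ[k] k
  symm : ∀ x y, lam (x * y) = lam (y * x)
  expand : ∀ w, ∑ i, lam (a' i * w) • a i = w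

attribute [instance] SymData.fin

variable {k : Type v} [Field k] {R : Type u} [Ring R] [Algebra k R]

namespace SymData

variable (S : SymData k R)
include S

theorem nondeg {w : R} (h : ∀ x, S.lam (x * w) = 0) : w = 0 := by
  rw [← S.expand w]; simp [h]

theorem expand' (w : R) : ∑ i, S.lam (S.a i * w) • S.a' i = w := by
  rw [← sub_eq_zero]
  refine S.nondeg fun x => ?_
  have h := congrArg (fun y => S.lam (y * w)) (S.expand x)
  simp only [Finset.sum_mul, smul_mul_assoc, map_sum, map_smul, smul_eq_mul] at h
  simp only [mul_sub, Finset.mul_sum, mul_smul_comm, map_sub, map_sum, map_smul, smul_eq_mul, ← h]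
  rw [sub_eq_zero]
  exact Finset.sum_congr rfl fun i _ => by rw [mul_comm, S.symm x]

theorem fd : FiniteDimensional k R := by
  refine Module.Finite.of_surjective (Fintype.linearCombination k S.a) fun w => ?_
  exact ⟨fun i => S.lam (S.a' i * w), by simpa [Fintype.linearCombination_apply] using S.expand w⟩

/-- Casimir identity, outer form -/
theorem casimir_left {N : Type w} [AddCommGroup N] [Module k N] (f : R →ₗ[k] R →ₗ[k] N) (c : R) :
    ∑ i, f (c * S.a i) (S.a' i) = ∑ i, f (S.a i) (S.a' i * c) := by
  have h1 : ∀ i, f (c * S.a i) (S.a' i)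
      = ∑ j, S.lam (S.a' j * (c * S.a i)) • f (S.a j) (S.a' i) := fun i => by
    conv_lhs => rw [← S.expand (c * S.a i)]
    simp
  have h2 : ∀ j, f (S.a j) (S.a' j * c)
      = ∑ i, S.lam (S.a i * (S.a' j * c)) • f (S.a j) (S.a' i) := fun j => by
    conv_lhs => rw [← S.expand' (S.a' j * c)]
    simp
  simp only [h1, h2]
  rw [Finset.sum_comm]
  refine Finset.sum_congr rfl fun j _ => Finset.sum_congr rfl fun i _ => ?_
  rw [S.symm (S.a i), mul_assoc]

/-- Casimir identity, inner form -/
theorem casimir_right {N : Type w} [AddCommGroup N] [Module k N] (f : R →ₗ[k] R →ₗ[k] N) (c : R) :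
    ∑ i, f (S.a i * c) (S.a' i) = ∑ i, f (S.a i) (c * S.a' i) := by
  have h1 : ∀ i, f (S.a i * c) (S.a' i)
      = ∑ j, S.lam (S.a' j * (S.a i * c)) • f (S.a j) (S.a' i) := fun i => by
    conv_lhs => rw [← S.expand (S.a i * c)]
    simp
  have h2 : ∀ j, f (S.a j) (c * S.a' j)
      = ∑ i, S.lam (S.a i * (c * S.a' j)) • f (S.a j) (S.a' i) := fun j => by
    conv_lhs => rw [← S.expand' (c * S.a' j)]
    simp
  simp only [h1, h2]
  rw [Finset.sum_comm]
  refine Finset.sum_congr rfl fun j _ => Finset.sum_congr rfl fun i _ => ?_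
  rw [S.symm (S.a' j), mul_assoc]

theorem isSymmetric : Crest.AlgebraR.IsSymmetricAlgebra k R := by
  have := S.fd
  let φ : R →ₗ[k] Module.Dual k R := (LinearMap.mul k R).compr₂ S.lam
  have hinj : Function.Injective φ := by
    rw [injective_iff_map_eq_zero]
    intro x hx
    refine S.nondeg fun y => ?_
    rw [S.symm]
    exact LinearMap.congr_fun hx y
  refine ⟨LinearEquiv.ofInjectiveOfFinrankEq φ hinj (Subspace.dual_finrank_eq).symm, ?_⟩
  intro a x b y
  change S.lam (a * x * b * y) = S.lam (x * (b * y * a))
  rw [mul_assoc, mul_assoc, S.symm a]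
  simp only [mul_assoc]

/-- The module map `U → R` attached to a linear form on `U`. -/
noncomputable def toHom {U : Type w} [AddCommGroup U] [Module k U] [Module R U]
    [IsScalarTower k R U] (g : U →ₗ[k] k) : U →ₗ[R] R where
  toFun u := ∑ i, g (S.a' i • u) • S.a i
  map_add' u v := by simp [Finset.sum_add_distrib, add_smul]
  map_smul' c u := by
    let f : R →ₗ[k] R →ₗ[k] R := LinearMap.mk₂ k (fun x y => g (y • u) • x)
      (by intros; simp) (by intros; rw [smul_comm]) (by intros; simp [add_smul])
      (by intros; simp [mul_smul])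
    have := S.casimir_left f c
    simp only [f, LinearMap.mk₂_apply] at this
    simp only [RingHom.id_apply, smul_eq_mul, Finset.mul_sum, mul_smul_comm, ← mul_smul, this]

theorem lam_toHom {U : Type w} [AddCommGroup U] [Module k U] [Module R U]
    [IsScalarTower k R U] (g : U →ₗ[k] k) (u : U) : S.lam (S.toHom g u) = g u := by
  have h := S.expand' 1
  have : g u = g ((∑ i, S.lam (S.a i * 1) • S.a' i) • u) := by rw [h, one_smul]
  rw [this]
  simp [toHom, Finset.sum_smul, mul_comm]

theorem hom_ext {U : Type w} [AddCommGroup U] [Module R U] {φ ψ : U →ₗ[R] R}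
    (h : ∀ u, S.lam (φ u) = S.lam (ψ u)) : φ = ψ := by
  ext u
  rw [← sub_eq_zero]
  refine S.nondeg fun x => ?_
  have := h (x • u)
  simp only [map_smul, smul_eq_mul] at this
  rw [mul_sub, map_sub, this, sub_self]

/-- `R` is self-injective: extension of maps into `R`. -/
theorem exists_extend_ring {U V : Type*} [AddCommGroup U] [Module R U] [AddCommGroup V] [Module R V]
    (f : U →ₗ[R] V) (hf : Function.Injective f) (φ : U →ₗ[R] R) :
    ∃ ψ : V →ₗ[R] R, ψ ∘ₗ f = φ := by
  let _ : Module k U := Module.compHom U (algebraMap k R)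
  let _ : Module k V := Module.compHom V (algebraMap k R)
  have : IsScalarTower k R U := IsScalarTower.of_algebraMap_smul fun _ _ => rfl
  have : IsScalarTower k R V := IsScalarTower.of_algebraMap_smul fun _ _ => rfl
  obtain ⟨r, hr⟩ := (f.restrictScalars k).exists_leftInverse_of_injective
    (LinearMap.ker_eq_bot.mpr hf)
  refine ⟨S.toHom (S.lam ∘ₗ φ.restrictScalars k ∘ₗ r), S.hom_ext fun u => ?_⟩
  have : r (f u) = u := LinearMap.congr_fun hr u
  simp [lam_toHom, this]

/-- Finitely generated projective modules are injective (extension form, any universes). -/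
theorem exists_extend {U V P : Type*} [AddCommGroup U] [Module R U] [AddCommGroup V] [Module R V]
    [AddCommGroup P] [Module R P] [Module.Finite R P] [Module.Projective R P]
    (f : U →ₗ[R] V) (hf : Function.Injective f) (φ : U →ₗ[R] P) :
    ∃ ψ : V →ₗ[R] P, ψ ∘ₗ f = φ := by
  obtain ⟨n, p, i, -, -, hpi⟩ := Module.Finite.exists_comp_eq_id_of_projective R P
  choose ψ hψ using fun j : Fin n => S.exists_extend_ring f hf (LinearMap.proj j ∘ₗ i ∘ₗ φ)
  refine ⟨p ∘ₗ LinearMap.pi ψ, ?_⟩
  ext u
  have h1 : LinearMap.pi ψ (f u) = i (φ u) := funext fun j => LinearMap.congr_fun (hψ j) u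
  have h2 : p (i (φ u)) = φ u := LinearMap.congr_fun hpi _
  simp [h1, h2]

theorem injective_of_projective (P : Type w) [AddCommGroup P] [Module R P] [Module.Finite R P]
    [Module.Projective R P] : Module.Injective R P where
  out _ _ _ _ _ _ f hf g := by
    obtain ⟨ψ, hψ⟩ := S.exists_extend f hf g
    exact ⟨ψ, fun x => LinearMap.congr_fun hψ x⟩

/-- A finite-dimensional module embeds in a finite free module. -/
theorem exists_embedding (U : Type w) [AddCommGroup U] [Module R U] [Module.Finite R U] :
    ∃ (n : ℕ) (f : U →ₗ[R] (Fin n → R)), Function.Injective f := by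
  let _ : Module k U := Module.compHom U (algebraMap k R)
  have : IsScalarTower k R U := IsScalarTower.of_algebraMap_smul fun _ _ => rfl
  have := S.fd
  have : Module.Finite k U := Module.Finite.trans R U
  let b := Module.finBasis k U
  refine ⟨_, LinearMap.pi fun j => S.toHom (b.coord j), ?_⟩
  rw [injective_iff_map_eq_zero]
  intro u hu
  refine b.ext_elem fun j => ?_
  have : S.toHom (b.coord j) u = 0 := congrFun hu j
  have h2 := S.lam_toHom (b.coord j) u
  rw [this, map_zero] at h2
  simpa using h2.symm

/-- The quotient of a projective module by a finitely generated projective submodule is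
projective. -/
theorem projective_of_exact {U V W : Type*} [AddCommGroup U] [Module R U] [AddCommGroup V]
    [Module R V] [AddCommGroup W] [Module R W] [Module.Finite R U] [Module.Projective R U]
    [Module.Projective R V] (f : U →ₗ[R] V) (g : V →ₗ[R] W) (hf : Function.Injective f)
    (hg : Function.Surjective g) (h : Function.Exact f g) : Module.Projective R W := by
  obtain ⟨r, hr⟩ := S.exists_extend f hf LinearMap.id
  have h1 : ∃ l : V →ₗ[R] U, l ∘ₗ f = LinearMap.id := ⟨r, hr⟩
  obtain ⟨s, hs⟩ : ∃ l : W →ₗ[R] V, g ∘ₗ l = LinearMap.id :=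
    ((h.split_tfae hf hg).out 1 0).mp h1
  exact Module.Projective.of_split s g hs

/-- Socle elements: if `lam (x * ς) = χ x`, an element on which `R` acts through `χ` is a
multiple of `ς`. -/
theorem eq_smul_soc (χ : R →ₐ[k] k) (ς : R) (hς : ∀ x, S.lam (x * ς) = χ x) {w : R}
    (hw : ∀ x, x * w = χ x • w) : w = S.lam w • ς := by
  rw [← sub_eq_zero]
  refine S.nondeg fun x => ?_
  rw [mul_sub, hw, mul_smul_comm, map_sub, map_smul, map_smul, hς, smul_eq_mul, smul_eq_mul,
    mul_comm, sub_self]

theorem mul_soc (χ : R →ₐ[k] k) (ς : R) (hς : ∀ x, S.lam (x * ς) = χ x) (x : R) :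
    x * ς = χ x • ς := by
  rw [← sub_eq_zero]
  refine S.nondeg fun y => ?_
  rw [mul_sub, ← mul_assoc, mul_smul_comm, map_sub, map_smul, hς, hς, map_mul, smul_eq_mul,
    mul_comm, sub_self]

theorem soc_mul (χ : R →ₐ[k] k) (ς : R) (hς : ∀ x, S.lam (x * ς) = χ x) (x : R) :
    ς * x = χ x • ς := by
  rw [← sub_eq_zero]
  refine S.nondeg fun y => ?_
  rw [mul_sub, ← mul_assoc, mul_smul_comm, map_sub, map_smul, S.symm, ← mul_assoc, hς, hς,
    map_mul, smul_eq_mul, sub_self]

/-- a socle element cut out by an idempotent outside the character vanishes -/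
theorem soc_eq_zero (χ : R →ₐ[k] k) (ς : R) (hς : ∀ x, S.lam (x * ς) = χ x) {w ε : R}
    (hw : ∀ x, x * w = χ x • w) (hε : w * ε = w) (h0 : χ ε = 0) : w = 0 := by
  have h1 : S.lam w = 0 := by rw [← hε, S.symm, hw, h0, zero_smul, map_zero]
  rw [S.eq_smul_soc χ ς hς hw, h1, zero_smul]

/-- opposite algebra -/
noncomputable def op : SymData k Rᵐᵒᵖ where
  ι := S.ι
  a i := MulOpposite.op (S.a i)
  a' i := MulOpposite.op (S.a' i)
  lam := S.lam ∘ₗ (MulOpposite.opLinearEquiv k).symm.toLinearMap
  symm x y := S.symm _ _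
  expand w := by
    apply MulOpposite.unop_injective
    conv_rhs => rw [← S.expand w.unop]
    simp only [Finset.unop_sum, MulOpposite.unop_smul, MulOpposite.unop_op]
    refine Finset.sum_congr rfl fun i _ => ?_
    rw [S.symm]; rfl

/-- tensor product -/
noncomputable def tensor {R' : Type w} [Ring R'] [Algebra k R'] (S' : SymData k R') :
    SymData k (R ⊗[k] R') where
  ι := S.ι × S'.ι
  a i := S.a i.1 ⊗ₜ S'.a i.2
  a' i := S.a' i.1 ⊗ₜ S'.a' i.2
  lam := LinearMap.mul' k k ∘ₗ TensorProduct.map S.lam S'.lam
  symm x y := by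
    induction x using TensorProduct.induction_on with
    | zero => simp
    | add x x' hx hx' => simp only [add_mul, mul_add, map_add, hx, hx']
    | tmul a b =>
      induction y using TensorProduct.induction_on with
      | zero => simp
      | add y y' hy hy' => simp only [add_mul, mul_add, map_add, hy, hy']
      | tmul c d => simp [S.symm a, S'.symm b]
  expand w := by
    induction w using TensorProduct.induction_on with
    | zero => simp
    | add x x' hx hx' => simp only [mul_add, map_add, add_smul, Finset.sum_add_distrib, hx, hx']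
    | tmul a b =>
      conv_rhs => rw [← S.expand a, ← S'.expand b]
      rw [TensorProduct.sum_tmul]
      simp only [TensorProduct.tmul_sum, TensorProduct.smul_tmul_smul]
      simp [Fintype.sum_prod_type]

@[simp] theorem tensor_lam_tmul {R' : Type w} [Ring R'] [Algebra k R'] (S' : SymData k R')
    (x : R) (y : R') : (S.tensor S').lam (x ⊗ₜ y) = S.lam x * S'.lam y := rfl

end SymData

theorem exists_symData [FiniteDimensional k R] (h : Crest.AlgebraR.IsSymmetricAlgebra k R) :
    Nonempty (SymData k R) := by
  obtain ⟨φ, hφ⟩ := h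
  let b := Module.finBasis k R
  have h1 : ∀ x y, φ x y = φ 1 (x * y) := fun x y => by
    have := hφ 1 1 x y; simpa using this
  have h2 : ∀ x y, φ x y = φ 1 (y * x) := fun x y => by
    have := hφ x 1 1 y; simpa using this
  refine ⟨⟨Fin (Module.finrank k R), b, fun i => φ.symm (b.coord i), φ 1, fun x y => ?_,
    fun w => ?_⟩⟩
  · rw [← h1, h2]
  · simp only [← h1, LinearEquiv.apply_symm_apply]
    simp

end Crest.Agent.R186
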