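import Mathlib
import Crest.Prelude.Def_GorProjVanishing
import Crest.Agent.R186.Tach
import Crest.Agent.R186.Sym

/-!
Finite free resolutions, complete resolutions over a symmetric algebra, the Jacobson radical.
-/

set_option autoImplicit false

open CategoryTheory Crest.AlgebraR

universe u v

namespace Crest.Agent.R186

namespace BC

/-- bundled finitely generated modules -/
structure FM (A : Type u) [Ring A] : Type (u + 1) where
  C : Type u
  [acg : AddCommGroup C]
  [md : Module A C]
  [fin : Module.Finite A C]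

attribute [instance] FM.acg FM.md FM.fin

variable {A : Type u} [Ring A]

/-- `X` is a syzygy of `Y` -/
def Link (X Y : FM A) : Prop :=
  ∃ (r : ℕ) (i : X.C →ₗ[A] (Fin r → A)) (p : (Fin r → A) →ₗ[A] Y.C),
    Function.Injective i ∧ Function.Surjective p ∧ Function.Exact i p

theorem exists_syz [IsNoetherianRing A] (Y : FM A) : ∃ X, Link X Y := by
  obtain ⟨r, p, hp⟩ := Module.Finite.exists_fin' A Y.C
  exact ⟨⟨LinearMap.ker p⟩, r, (LinearMap.ker p).subtype, p, Subtype.val_injective, hp,
    p.exact_subtype_ker_map⟩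

theorem exists_cosyz {K : Type v} [Field K] [Algebra K A] (S : SymData K A) (X : FM A) :
    ∃ Y, Link X Y := by
  obtain ⟨r, i, hi⟩ := S.exists_embedding X.C
  exact ⟨⟨(Fin r → A) ⧸ LinearMap.range i⟩, r, i, (LinearMap.range i).mkQ, hi,
    Submodule.mkQ_surjective _, i.exact_map_mkQ_range⟩

theorem exact_splice {X Y P Q R' : Type*} [AddCommGroup X] [Module A X] [AddCommGroup Y]
    [Module A Y] [AddCommGroup P] [Module A P] [AddCommGroup Q] [Module A Q] [AddCommGroup R']
    [Module A R'] {p : P →ₗ[A] X} {i : X →ₗ[A] Q} {q : Q →ₗ[A] Y} {j : Y →ₗ[A] R'}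
    (hp : Function.Surjective p) (h : Function.Exact i q) (hj : Function.Injective j) :
    Function.Exact (i ∘ₗ p) (j ∘ₗ q) := by
  intro y
  constructor
  · intro hy
    have : q y = 0 := hj (by simpa using hy)
    obtain ⟨x, rfl⟩ := (h y).1 this
    obtain ⟨z, rfl⟩ := hp x
    exact ⟨z, rfl⟩
  · rintro ⟨z, rfl⟩
    have : q (i (p z)) = 0 := h.apply_apply_eq_zero _
    simp [this]

/-- finite free resolutions over a noetherian ring -/
theorem exists_res [IsNoetherianRing A] (M : Type u) [AddCommGroup M] [Module A M]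
    [Module.Finite A M] :
    ∃ (r : ℕ → ℕ) (d : ∀ n, (Fin (r (n + 1)) → A) →ₗ[A] (Fin (r n) → A))
      (ε : (Fin (r 0) → A) →ₗ[A] M), Function.Surjective ε ∧ Function.Exact (d 0) ε ∧
        ∀ n, Function.Exact (d (n + 1)) (d n) := by
  choose Ω hΩ using exists_syz (A := A)
  let Z : ℕ → FM A := fun n => Nat.rec ⟨M⟩ (fun _ X => Ω X) n
  have hZ : ∀ n, Link (Z (n + 1)) (Z n) := fun n => hΩ (Z n)
  choose r i p hi hp hip using hZ
  refine ⟨r, fun n => i n ∘ₗ p (n + 1), p 0, hp 0, ?_, fun n => exact_splice (hp _) (hip _) (hi _)⟩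
  intro y
  constructor
  · intro hy
    obtain ⟨x, rfl⟩ := (hip 0 y).1 hy
    obtain ⟨z, rfl⟩ := hp 1 x
    exact ⟨z, rfl⟩
  · rintro ⟨z, rfl⟩
    exact (hip 0 _).2 ⟨p 1 z, rfl⟩

theorem isGorensteinProjective {K : Type v} [Field K] [Algebra K A] (S : SymData K A)
    (M : Type u) [AddCommGroup M] [Module A M] [Module.Finite A M] :
    IsGorensteinProjective A M := by
  have := S.fd
  have : IsNoetherianRing A := isNoetherian_of_tower K inferInstance
  choose Ω hΩ using exists_syz (A := A)
  choose Sg hSg using exists_cosyz S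
  let Z : ℤ → FM A := fun n => match n with
    | Int.ofNat n => Ω^[n] ⟨M⟩
    | Int.negSucc n => Sg^[n + 1] ⟨M⟩
  have hZ : ∀ n, Link (Z (n + 1)) (Z n) := by
    intro n
    rcases n with n | n
    · have e : Int.ofNat n + 1 = Int.ofNat (n + 1) := rfl
      rw [e]
      simp only [Z, Function.iterate_succ_apply']
      exact hΩ _
    · rcases n with _ | n
      · have e : Int.negSucc 0 + 1 = Int.ofNat 0 := rfl
        rw [e]
        exact hSg _
      · have e : Int.negSucc (n + 1) + 1 = Int.negSucc n := by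
          simp only [Int.negSucc_eq]; push_cast; ring
        rw [e]
        simp only [Z]
        rw [Function.iterate_succ_apply' Sg (n + 1)]
        exact hSg _
  choose r i p hi hp hip using hZ
  refine ⟨fun n => Fin (r n) → A, inferInstance, inferInstance, fun n => i n ∘ₗ p (n + 1),
    fun n => ⟨inferInstance, inferInstance⟩, fun n => exact_splice (hp _) (hip _) (hi _),
    fun n g => ⟨fun hg => ?_, ?_⟩, ⟨?_⟩⟩
  · have hker : LinearMap.ker (p (n + 1)) ≤ LinearMap.ker g := by
      intro y hy
      obtain ⟨x, rfl⟩ := (hip (n + 1) y).1 hy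
      obtain ⟨z, rfl⟩ := hp _ x
      exact LinearMap.congr_fun hg z
    let g' : (Z (n + 1)).C →ₗ[A] A :=
      (LinearMap.ker (p (n + 1))).liftQ g hker ∘ₗ
        (LinearMap.quotKerEquivOfSurjective _ (hp (n + 1))).symm.toLinearMap
    have hg' : ∀ y, g' (p (n + 1) y) = g y := by
      intro y
      have : (LinearMap.quotKerEquivOfSurjective _ (hp (n + 1))).symm (p (n + 1) y) =
          Submodule.Quotient.mk y := by
        rw [LinearEquiv.symm_apply_eq]; rfl
      simp [g', this]
    obtain ⟨f, hf⟩ := S.exists_extend_ring (i n) (hi n) g'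
    refine ⟨f, LinearMap.ext fun y => ?_⟩
    rw [← hg' y, ← hf]; rfl
  · rintro ⟨f, rfl⟩
    refine LinearMap.ext fun y => ?_
    have : p (n + 1) (i (n + 1) (p (n + 1 + 1) y)) = 0 := (hip (n + 1)).apply_apply_eq_zero _
    simp [this]
  · have e : LinearMap.range (i 0 ∘ₗ p (0 + 1)) = LinearMap.ker (p 0) := by
      rw [LinearMap.range_comp, LinearMap.range_eq_top.2 (hp _), Submodule.map_top]
      exact (LinearMap.exact_iff.1 (hip 0)).symm
    exact (LinearMap.quotKerEquivOfSurjective _ (hp 0)).symm ≪≫ₗ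
      (Submodule.quotEquivOfEq _ _ e).symm

theorem jacobson_eq {K : Type v} [Field K] [Algebra K A] {n : ℕ} (π : A →ₐ[K] (Fin n → K))
    (hπ : Function.Surjective π) (hn : IsNilpotent (LinearMap.ker π.toLinearMap : Submodule K A)) :
    Ring.jacobson A = RingHom.ker π := by
  apply le_antisymm
  · have : RingHomSurjective π.toRingHom := ⟨hπ⟩
    have := Ring.le_comap_jacobson (R := A) (R₂ := Fin n → K) (f := π.toRingHom)
    rw [IsSemisimpleRing.jacobson_eq_bot (Fin n → K)] at this
    exact this
  · intro x hx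
    rw [← Ideal.jacobson_bot, Ideal.mem_jacobson_iff]
    intro y
    obtain ⟨m, hm⟩ := hn
    have h1 : y * x ∈ (LinearMap.ker π.toLinearMap : Submodule K A) := by
      have : π x = 0 := hx
      simp [this]
    have h2 : IsNilpotent (y * x) := by
      refine ⟨m, ?_⟩
      have := Submodule.pow_mem_pow _ h1 m
      rw [hm] at this
      simpa using this
    obtain ⟨w, hw⟩ := h2.isUnit_add_one
    refine ⟨(↑w⁻¹ : A), ?_⟩
    have : (↑w⁻¹ : A) * (y * x + 1) = 1 := by rw [← hw]; simp
    rw [Ideal.mem_bot, sub_eq_zero, ← this, mul_add, mul_one, mul_assoc]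

end BC

end Crest.Agent.R186
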