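import Mathlib
import Crest.Agent.R186.BaseChGor
import Crest.Agent.R186.ExtRes

/-!
Base change of `Tach` and `Basic` along a field extension.
-/

set_option autoImplicit false

open CategoryTheory Crest.AlgebraR
open scoped TensorProduct

universe u v w

namespace Crest.Agent.R186

namespace BC

variable (k : Type v) [Field k] (E : Type u) [Field E] [Algebra k E]
  (A : Type w) [Ring A] [Algebra k A]

/-- the module structure on `E ⊗ V` is the base-changed one -/
class IsBC (V : Type*) [AddCommGroup V] [Module k V] [Module A V]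
    [Module (E ⊗[k] A) (E ⊗[k] V)] : Prop where
  smul_tmul : ∀ (a b : E) (r : A) (z : V), (a ⊗ₜ[k] r) • (b ⊗ₜ[k] z) = (a * b) ⊗ₜ[k] (r • z)

instance isBC_self : IsBC k E A A := ⟨fun a b r z => by simp⟩

/-- the base-changed module structure -/
@[reducible] noncomputable def bcModule (V : Type*) [AddCommGroup V] [Module k V] [Module A V]
    [IsScalarTower k A V] : Module (E ⊗[k] A) (E ⊗[k] V) :=
  Module.compHom (E ⊗[k] V)
    (((Module.endTensorEndAlgHom (R := k) (S := k) (A := k) (M := E) (N := V)).comp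
      (Algebra.TensorProduct.map (Algebra.lmul k E) (Algebra.lsmul k k V))).toRingHom)

theorem isBC_bcModule (V : Type*) [AddCommGroup V] [Module k V] [Module A V]
    [IsScalarTower k A V] : @IsBC k _ E _ _ A _ _ V _ _ _ (bcModule k E A V) :=
  @IsBC.mk k _ E _ _ A _ _ V _ _ _ (bcModule k E A V) fun _ _ _ _ => rfl

variable {k E A}

section maps

variable {U V W : Type*}
  [AddCommGroup U] [Module k U] [Module A U] [IsScalarTower k A U]
  [Module (E ⊗[k] A) (E ⊗[k] U)] [IsBC k E A U]
  [AddCommGroup V] [Module k V] [Module A V] [IsScalarTower k A V]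
  [Module (E ⊗[k] A) (E ⊗[k] V)] [IsBC k E A V]
  [AddCommGroup W] [Module k W] [Module A W] [IsScalarTower k A W]
  [Module (E ⊗[k] A) (E ⊗[k] W)] [IsBC k E A W]

/-- base change of a linear map, times a scalar -/
noncomputable def bcs (e : E) (f : U →ₗ[A] V) : E ⊗[k] U →ₗ[E ⊗[k] A] E ⊗[k] V where
  toFun := TensorProduct.map (LinearMap.mulLeft k e) (f.restrictScalars k)
  map_add' := map_add _
  map_smul' c y := by
    induction c using TensorProduct.induction_on with
    | zero => simp
    | add c c' hc hc' => simp only [add_smul, map_add, hc, hc', RingHom.id_apply]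
    | tmul a r =>
      induction y using TensorProduct.induction_on with
      | zero => simp
      | add y y' hy hy' => simp only [smul_add, map_add, hy, hy', RingHom.id_apply]
      | tmul b z => simp [IsBC.smul_tmul, mul_left_comm]

@[simp] theorem bcs_tmul (e : E) (f : U →ₗ[A] V) (a : E) (x : U) :
    bcs (k := k) e f (a ⊗ₜ[k] x) = (e * a) ⊗ₜ[k] f x := rfl

theorem bcs_one_coe (f : U →ₗ[A] V) :
    ⇑(bcs (k := k) (1 : E) f) = ⇑((f.restrictScalars k).lTensor E) := by
  funext y
  induction y using TensorProduct.induction_on with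
  | zero => simp
  | add y y' hy hy' => simp only [map_add, hy, hy']
  | tmul b z => simp

omit [IsScalarTower k A U] in
theorem bc_ext {N : Type*} [AddCommGroup N] [Module (E ⊗[k] A) N]
    {φ ψ : E ⊗[k] U →ₗ[E ⊗[k] A] N} (h : ∀ x, φ (1 ⊗ₜ[k] x) = ψ (1 ⊗ₜ[k] x)) : φ = ψ := by
  refine LinearMap.ext fun y => ?_
  induction y using TensorProduct.induction_on with
  | zero => simp
  | add y y' hy hy' => simp only [map_add, hy, hy']
  | tmul b z =>
    have : b ⊗ₜ[k] z = (b ⊗ₜ[k] (1 : A)) • ((1 : E) ⊗ₜ[k] z) := by simp [IsBC.smul_tmul]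
    rw [this, map_smul, map_smul, h]

/-- contraction with a linear form on `E` -/
noncomputable def ctr (c : E →ₗ[k] k) (V : Type*) [AddCommGroup V] [Module k V] :
    E ⊗[k] V →ₗ[k] V := (TensorProduct.lid k V).toLinearMap ∘ₗ c.rTensor V

omit [Module A V] [IsScalarTower k A V] [Module (E ⊗[k] A) (E ⊗[k] V)] [IsBC k E A V] in
@[simp] theorem ctr_tmul (c : E →ₗ[k] k) (a : E) (x : V) : ctr c V (a ⊗ₜ[k] x) = c a • x := by
  simp [ctr]

theorem ctr_smul (c : E →ₗ[k] k) (r : A) (y : E ⊗[k] V) :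
    ctr c V (((1 : E) ⊗ₜ[k] r) • y) = r • ctr c V y := by
  induction y using TensorProduct.induction_on with
  | zero => simp
  | add y y' hy hy' => simp only [smul_add, map_add, hy, hy']
  | tmul b z => simp [IsBC.smul_tmul, smul_comm r]

theorem ctr_bcs (c : E →ₗ[k] k) (f : U →ₗ[A] V) (y : E ⊗[k] U) :
    ctr c V (bcs (k := k) (1 : E) f y) = f (ctr c U y) := by
  induction y using TensorProduct.induction_on with
  | zero => simp
  | add y y' hy hy' => simp only [map_add, hy, hy']
  | tmul b z => simp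

/-- a coordinate of a linear map between base-changed modules -/
noncomputable def coord (c : E →ₗ[k] k) (φ : E ⊗[k] U →ₗ[E ⊗[k] A] E ⊗[k] V) : U →ₗ[A] V where
  toFun x := ctr c V (φ (1 ⊗ₜ[k] x))
  map_add' x y := by simp [TensorProduct.tmul_add]
  map_smul' r x := by
    have : (1 : E) ⊗ₜ[k] (r • x) = ((1 : E) ⊗ₜ[k] r) • ((1 : E) ⊗ₜ[k] x) := by
      simp [IsBC.smul_tmul]
    rw [this, map_smul, ctr_smul]; rfl

omit [IsScalarTower k A U] in
theorem coord_apply (c : E →ₗ[k] k) (φ : E ⊗[k] U →ₗ[E ⊗[k] A] E ⊗[k] V) (x : U) :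
    coord c φ x = ctr c V (φ (1 ⊗ₜ[k] x)) := rfl

omit [Module A V] [IsScalarTower k A V] [Module (E ⊗[k] A) (E ⊗[k] V)] [IsBC k E A V] in
theorem exists_expand {ι : Type*} (b : Module.Basis ι k E) (y : E ⊗[k] V) :
    ∃ s : Finset ι, ∀ t : Finset ι, s ⊆ t → y = ∑ i ∈ t, b i ⊗ₜ[k] ctr (b.coord i) V y := by
  classical
  induction y using TensorProduct.induction_on with
  | zero => exact ⟨∅, fun t _ => by simp⟩
  | add y y' hy hy' =>
    obtain ⟨s, hs⟩ := hy
    obtain ⟨s', hs'⟩ := hy'
    refine ⟨s ∪ s', fun t ht => ?_⟩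
    simp only [map_add, TensorProduct.tmul_add, Finset.sum_add_distrib]
    rw [← hs t (Finset.union_subset_left ht), ← hs' t (Finset.union_subset_right ht)]
  | tmul a z =>
    refine ⟨(b.repr a).support, fun t ht => ?_⟩
    simp only [ctr_tmul, ← TensorProduct.smul_tmul, ← TensorProduct.sum_tmul]
    congr 1
    conv_lhs => rw [← b.linearCombination_repr a, Finsupp.linearCombination_apply,
      Finsupp.sum_of_support_subset _ ht _ (by simp)]
    rfl

theorem exists_expand_hom [Module.Finite A U] {ι : Type*} (b : Module.Basis ι k E)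
    (φ : E ⊗[k] U →ₗ[E ⊗[k] A] E ⊗[k] V) :
    ∃ t : Finset ι, φ = ∑ i ∈ t, bcs (b i) (coord (b.coord i) φ) := by
  classical
  obtain ⟨G, hG⟩ := Module.Finite.fg_top (R := A) (M := U)
  choose s hs using fun x : U => exists_expand b (φ (1 ⊗ₜ[k] x))
  refine ⟨G.biUnion s, bc_ext fun x => ?_⟩
  have hx : x ∈ Submodule.span A (G : Set U) := by rw [hG]; trivial
  induction hx using Submodule.span_induction with
  | mem x hx =>
    rw [LinearMap.sum_apply]
    simp only [bcs_tmul, mul_one, coord_apply]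
    exact hs x _ (Finset.subset_biUnion_of_mem s hx)
  | zero => simp
  | add x y _ _ hx hy => simp only [TensorProduct.tmul_add, map_add, hx, hy]
  | smul r x _ hx =>
    have : (1 : E) ⊗ₜ[k] (r • x) = ((1 : E) ⊗ₜ[k] r) • ((1 : E) ⊗ₜ[k] x) := by
      simp [IsBC.smul_tmul]
    rw [this, map_smul, map_smul, hx]

theorem hom_exact_bc {N : Type*} [AddCommGroup N] [Module k N] [Module A N] [IsScalarTower k A N]
    [Module (E ⊗[k] A) (E ⊗[k] N)] [IsBC k E A N] [Module.Finite A V]
    (f : U →ₗ[A] V) (g : V →ₗ[A] W)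
    (h : ∀ φ : V →ₗ[A] N, φ ∘ₗ f = 0 → ∃ ψ : W →ₗ[A] N, ψ ∘ₗ g = φ)
    (φ : E ⊗[k] V →ₗ[E ⊗[k] A] E ⊗[k] N) (hφ : φ ∘ₗ bcs (1 : E) f = 0) :
    ∃ ψ : E ⊗[k] W →ₗ[E ⊗[k] A] E ⊗[k] N, ψ ∘ₗ bcs (1 : E) g = φ := by
  let b := Module.Basis.ofVectorSpace k E
  obtain ⟨t, ht⟩ := exists_expand_hom b φ
  have h1 : ∀ c : E →ₗ[k] k, coord c φ ∘ₗ f = 0 := by
    intro c
    ext x
    have := LinearMap.congr_fun hφ (1 ⊗ₜ[k] x)
    simp only [LinearMap.comp_apply, bcs_tmul, mul_one, LinearMap.zero_apply] at this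
    simp [coord_apply, this]
  choose ψ hψ using fun c : E →ₗ[k] k => h _ (h1 c)
  refine ⟨∑ i ∈ t, bcs (b i) (ψ (b.coord i)), ?_⟩
  rw [ht]
  refine bc_ext fun x => ?_
  simp only [LinearMap.comp_apply, bcs_tmul, mul_one, LinearMap.sum_apply]
  refine Finset.sum_congr rfl fun i _ => ?_
  rw [← hψ (b.coord i)]; rfl

end maps

section free

variable (r : ℕ) [Module (E ⊗[k] A) (E ⊗[k] (Fin r → A))] [IsBC k E A (Fin r → A)]

theorem free_split : ∃ (i : E ⊗[k] (Fin r → A) →ₗ[E ⊗[k] A] (Fin r → E ⊗[k] A))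
    (s : (Fin r → E ⊗[k] A) →ₗ[E ⊗[k] A] E ⊗[k] (Fin r → A)), s ∘ₗ i = LinearMap.id := by
  refine ⟨LinearMap.pi fun j => bcs (1 : E) (LinearMap.proj j),
    Fintype.linearCombination (E ⊗[k] A) fun j => (1 : E) ⊗ₜ[k] (Pi.single j (1 : A) : Fin r → A),
    bc_ext fun x => ?_⟩
  simp only [LinearMap.comp_apply, Fintype.linearCombination_apply, LinearMap.pi_apply, bcs_tmul,
    mul_one, IsBC.smul_tmul, LinearMap.id_apply, ← TensorProduct.tmul_sum, LinearMap.proj_apply]
  congr 1
  ext j
  simp [Pi.single_apply]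

theorem free_projective : Module.Projective (E ⊗[k] A) (E ⊗[k] (Fin r → A)) := by
  obtain ⟨i, s, h⟩ := free_split (k := k) (E := E) (A := A) r
  exact Module.Projective.of_split i s h

theorem free_finite : Module.Finite (E ⊗[k] A) (E ⊗[k] (Fin r → A)) := by
  obtain ⟨i, s, h⟩ := free_split (k := k) (E := E) (A := A) r
  exact Module.Finite.of_surjective s fun y => ⟨i y, LinearMap.congr_fun h y⟩

end free

/-- base change of the symmetrising data -/
noncomputable def symBC (S : SymData k A) (E : Type u) [Field E] [Algebra k E] :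
    SymData E (E ⊗[k] A) where
  ι := S.ι
  a i := 1 ⊗ₜ S.a i
  a' i := 1 ⊗ₜ S.a' i
  lam := (TensorProduct.AlgebraTensorModule.rid k E E).toLinearMap ∘ₗ S.lam.baseChange E
  symm x y := by
    induction x using TensorProduct.induction_on with
    | zero => simp
    | add x x' hx hx' => simp only [add_mul, mul_add, map_add, hx, hx']
    | tmul a b =>
      induction y using TensorProduct.induction_on with
      | zero => simp
      | add y y' hy hy' => simp only [add_mul, mul_add, map_add, hy, hy']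
      | tmul c d => simp [S.symm b, mul_comm a]
  expand w := by
    induction w using TensorProduct.induction_on with
    | zero => simp
    | add x x' hx hx' => simp only [mul_add, map_add, add_smul, Finset.sum_add_distrib, hx, hx']
    | tmul a b =>
      conv_rhs => rw [← S.expand b]
      rw [TensorProduct.tmul_sum]
      refine Finset.sum_congr rfl fun i _ => ?_
      simp [TensorProduct.smul_tmul']

theorem exists_retr (k : Type v) [Field k] (E : Type u) [Field E] [Algebra k E] :
    ∃ c : E →ₗ[k] k, c 1 = 1 := by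
  obtain ⟨c, hc⟩ := (Algebra.linearMap k E).exists_leftInverse_of_injective
    (LinearMap.ker_eq_bot.2 (algebraMap k E).injective)
  exact ⟨c, by simpa using LinearMap.congr_fun hc 1⟩

theorem tach_bc {M : Type w} [AddCommGroup M] [Module k M] [Module A M] [IsScalarTower k A M]
    [Module (E ⊗[k] A) (E ⊗[k] M)] [IsBC k E A M] (h : Tach k A M) :
    Tach E (E ⊗[k] A) (E ⊗[k] M) := by
  have := h.fd
  have := h.fin
  obtain ⟨S⟩ := exists_symData h.symm
  have : IsNoetherianRing A := isNoetherian_of_tower k inferInstance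
  obtain ⟨r, d, ε, hε, h0, hd⟩ := exists_res (A := A) M
  let _ : ∀ n, Module (E ⊗[k] A) (E ⊗[k] (Fin (r n) → A)) := fun n => bcModule k E A _
  have : ∀ n, IsBC k E A (Fin (r n) → A) := fun n => isBC_bcModule k E A _
  have hε' : Function.Surjective (bcs (k := k) (1 : E) ε) := by
    rw [bcs_one_coe]; exact LinearMap.lTensor_surjective E hε
  refine ⟨(symBC S E).fd, (symBC S E).isSymmetric, ?_, fun hp => h.nproj ?_, fun i hi => ?_⟩
  · have := free_finite (k := k) (E := E) (A := A) (r 0)
    exact Module.Finite.of_surjective _ hε'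
  · obtain ⟨s, hs⟩ := Module.projective_lifting_property _ LinearMap.id hε'
    obtain ⟨c, hc⟩ := exists_retr k E
    refine Module.Projective.of_split (coord c s) ε (LinearMap.ext fun x => ?_)
    have h1 := LinearMap.congr_fun hs (1 ⊗ₜ[k] x)
    simp only [LinearMap.comp_apply, LinearMap.id_apply] at h1 ⊢
    rw [coord_apply, ← ctr_bcs, h1, ctr_tmul, hc, one_smul]
  · obtain ⟨n, rfl⟩ : ∃ n, i = n + 1 := ⟨i - 1, by omega⟩
    rw [ext_subsingleton_iff_of_res (fun n => E ⊗[k] (Fin (r n) → A))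
      (fun n => free_projective (r n)) (fun n => bcs (1 : E) (d n)) (bcs (1 : E) ε) hε'
      (by rw [bcs_one_coe, bcs_one_coe]; exact Module.Flat.lTensor_exact E h0)
      (fun n => by rw [bcs_one_coe, bcs_one_coe]; exact Module.Flat.lTensor_exact E (hd n))]
    exact hom_exact_bc _ _ ((ext_subsingleton_iff_of_res (fun n => Fin (r n) → A)
      (fun n => inferInstance) d ε hε h0 hd n).1 (h.ext _ hi))

theorem basic_bc {n : ℕ} (h : Basic k A (Fin n)) : Basic E (E ⊗[k] A) (Fin n) := by
  obtain ⟨π, hπ, ⟨m, hm⟩, a, b, c, d, ha, hb, hc, hd, habcd⟩ := h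
  let π' : A →ₐ[k] (Fin n → E) :=
    AlgHom.pi fun j => (Algebra.ofId k E).comp ((Pi.evalAlgHom k (fun _ => k) j).comp π)
  let πE : E ⊗[k] A →ₐ[E] (Fin n → E) :=
    Algebra.TensorProduct.lift (Algebra.ofId E (Fin n → E)) π' fun _ _ => Commute.all _ _
  have hπE : ∀ (e : E) (x : A) (j : Fin n), πE (e ⊗ₜ[k] x) j = e * algebraMap k E (π x j) :=
    fun _ _ _ => rfl
  choose x hx using fun j : Fin n => hπ (Pi.single j 1)
  let I : Submodule k A := LinearMap.ker π.toLinearMap
  let sp : Submodule k A → Submodule E (E ⊗[k] A) := fun J =>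
    Submodule.span E ((fun y : A => (1 : E) ⊗ₜ[k] y) '' (J : Set A))
  have hdec : ∀ w : E ⊗[k] A, w - ∑ j, πE w j ⊗ₜ[k] x j ∈ sp I := by
    intro w
    induction w using TensorProduct.induction_on with
    | zero => simp
    | add w w' hw hw' =>
      have := Submodule.add_mem _ hw hw'
      convert this using 1
      simp only [map_add, Pi.add_apply, TensorProduct.add_tmul, Finset.sum_add_distrib]
      abel
    | tmul e y =>
      have h1 : y - ∑ j, π y j • x j ∈ I := by
        simp only [I, LinearMap.mem_ker, AlgHom.toLinearMap_apply, map_sub, map_sum, map_smul, hx]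
        ext j
        simp [Pi.single_apply]
      have h2 : e ⊗ₜ[k] y - ∑ j, πE (e ⊗ₜ[k] y) j ⊗ₜ[k] x j =
          e • ((1 : E) ⊗ₜ[k] (y - ∑ j, π y j • x j)) := by
        rw [TensorProduct.smul_tmul', smul_eq_mul, mul_one, TensorProduct.tmul_sub,
          TensorProduct.tmul_sum]
        congr 1
        refine Finset.sum_congr rfl fun j _ => ?_
        rw [hπE, ← TensorProduct.smul_tmul, Algebra.smul_def, mul_comm]
      rw [h2]
      exact Submodule.smul_mem _ _ (Submodule.subset_span ⟨_, h1, rfl⟩)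
  have hker : (LinearMap.ker πE.toLinearMap : Submodule E (E ⊗[k] A)) ≤ sp I := by
    intro w hw
    have h0 : πE w = 0 := hw
    simpa [h0] using hdec w
  have hpow : ∀ p : ℕ, (LinearMap.ker πE.toLinearMap : Submodule E (E ⊗[k] A)) ^ p ≤ sp (I ^ p) := by
    intro p
    induction p with
    | zero =>
      rw [pow_zero, pow_zero, Submodule.one_le]
      exact Submodule.subset_span ⟨1, Submodule.one_le.1 le_rfl, rfl⟩
    | succ p ih =>
      rw [pow_succ, pow_succ]
      refine (mul_le_mul' ih hker).trans ?_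
      simp only [sp]
      rw [Submodule.span_mul_span, Submodule.span_le]
      rintro _ ⟨_, ⟨y, hy, rfl⟩, _, ⟨z, hz, rfl⟩, rfl⟩
      exact Submodule.subset_span ⟨y * z, Submodule.mul_mem_mul hy hz, by simp⟩
  have hz : ∀ y : A, π y = 0 → πE (1 ⊗ₜ[k] y) = 0 := by
    intro y hy
    ext j
    rw [hπE, hy]; simp
  refine ⟨πE, fun y => ⟨∑ j, y j ⊗ₜ[k] x j, ?_⟩, ⟨m, ?_⟩, 1 ⊗ₜ a, 1 ⊗ₜ b, 1 ⊗ₜ c, 1 ⊗ₜ d,
    hz _ ha, hz _ hb, hz _ hc, hz _ hd, fun h0 => habcd ?_⟩
  · ext i
    simp only [map_sum, Finset.sum_apply, hπE, hx]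
    simp [Pi.single_apply, apply_ite]
  · have := hpow m
    rw [hm] at this
    simpa [sp] using this
  · obtain ⟨f, hf⟩ := exists_retr k E
    have := congrArg (ctr f A) h0
    simpa [hf] using this

end BC

end Crest.Agent.R186
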