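import Mathlib
import Crest.Prelude.Def_GorProjVanishing
import Crest.Agent.R186.Tach
import Crest.Agent.R186.ExtRes
import Crest.Agent.R186.BaseChTen

/-!
S0281 from `Tach` + `Basic`: Gorenstein projectivity over a symmetric algebra, the Jacobson
radical, and base change.
-/

set_option autoImplicit false

open CategoryTheory Crest.AlgebraR
open scoped TensorProduct

universe u v

namespace Crest.Agent.R186

/-- Over a finite-dimensional symmetric algebra `Tach` and `Basic` give the data of S0281. -/
theorem Tach.gorProjVanishingData {K : Type v} [Field K] {A : Type u} [Ring A] [Algebra K A]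
    {M : Type u} [AddCommGroup M] [Module A M] (h : Tach K A M) (hb : Basic K A (Fin 8)) :
    GorProjVanishingData K A M := by
  have := h.fd
  have := h.fin
  obtain ⟨S⟩ := exists_symData h.symm
  obtain ⟨π, hπ, hn, a, b, c, d, ha, hb', hc, hd, habcd⟩ := hb
  have hJ := BC.jacobson_eq π hπ hn
  refine ⟨h.fd, ⟨(Ideal.quotientEquivAlgOfEq K hJ).trans
    (Ideal.quotientKerAlgEquivOfSurjective hπ)⟩, fun h0 => habcd ?_, h.fin, h.nproj,
    BC.isGorensteinProjective S M, h.ext, fun i hi => ?_⟩
  · have hm : ∀ x, π x = 0 → x ∈ Ring.jacobson A := fun x hx => by rw [hJ]; exact hx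
    have h4 : a * b * c * d ∈ Ring.jacobson A ^ 4 := by
      rw [Submodule.pow_succ, Submodule.pow_succ, Submodule.pow_succ, Submodule.pow_one]
      exact Ideal.mul_mem_mul (Ideal.mul_mem_mul (Ideal.mul_mem_mul (hm a ha) (hm b hb')) (hm c hc))
        (hm d hd)
    rw [h0] at h4
    exact h4
  · obtain ⟨n, rfl⟩ : ∃ n, i = n + 1 := ⟨i - 1, by omega⟩
    have := S.injective_of_projective A
    have : Injective (ModuleCat.of A A) := Module.injective_object_of_injective_module A A
    exact Abelian.Ext.subsingleton_of_injective _ _ n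

theorem s0281_of_main {k : Type} [Field k] (h : MainStmt k) :
    ∃ (Λ : Type) (_ : Ring Λ) (_ : Algebra k Λ) (Z : Type) (_ : AddCommGroup Z)
      (_ : Module Λ Z) (_ : Module k Z) (_ : IsScalarTower k Λ Z),
      GorProjVanishingData k Λ Z ∧
      ∀ (E : Type u) [Field E] [Algebra k E],
        ∃ (_ : Module (E ⊗[k] Λ) (E ⊗[k] Z)),
          (∀ (a b : E) (r : Λ) (z : Z),
            (a ⊗ₜ[k] r) • (b ⊗ₜ[k] z) = (a * b) ⊗ₜ[k] (r • z)) ∧
          GorProjVanishingData E (E ⊗[k] Λ) (E ⊗[k] Z) := by
  obtain ⟨A, _, _, M, _, _, hT, hB⟩ := h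
  let _ : Module k M := Module.compHom M (algebraMap k A)
  have : IsScalarTower k A M := IsScalarTower.of_algebraMap_smul fun _ _ => rfl
  refine ⟨A, inferInstance, inferInstance, M, inferInstance, inferInstance, inferInstance,
    inferInstance, hT.gorProjVanishingData hB, fun E _ _ => ?_⟩
  let _ : Module (E ⊗[k] A) (E ⊗[k] M) := BC.bcModule k E A M
  have hbc : BC.IsBC k E A M := BC.isBC_bcModule k E A M
  exact ⟨inferInstance, hbc.smul_tmul, (BC.tach_bc hT).gorProjVanishingData (BC.basic_bc hB)⟩

end Crest.Agent.R186
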