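import Mathlib
import Crest.Agent.R186.Tach

/-!
Closure properties of `Basic`.
-/

set_option autoImplicit false

open scoped TensorProduct

universe u v

namespace Crest.Agent.R186

variable {k : Type v} [Field k] {A B : Type u} [Ring A] [Algebra k A] [Ring B] [Algebra k B]

theorem nil_comp {A : Type*} {B : Type*} {C : Type*} [Ring A] [Algebra k A] [Ring B] [Algebra k B]
    [Ring C] [Algebra k C] (f : A →ₐ[k] B) (g : B →ₐ[k] C)
    (hf : IsNilpotent (LinearMap.ker f.toLinearMap : Submodule k A))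
    (hg : IsNilpotent (LinearMap.ker g.toLinearMap : Submodule k B)) :
    IsNilpotent (LinearMap.ker (g.comp f).toLinearMap : Submodule k A) := by
  obtain ⟨m, hm⟩ := hf
  obtain ⟨n, hn⟩ := hg
  refine ⟨n * m, ?_⟩
  have h1 : (LinearMap.ker (g.comp f).toLinearMap : Submodule k A).map f.toLinearMap ≤
      LinearMap.ker g.toLinearMap := by
    rintro _ ⟨x, hx, rfl⟩; exact hx
  have h2 : (LinearMap.ker (g.comp f).toLinearMap : Submodule k A) ^ n ≤
      LinearMap.ker f.toLinearMap := by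
    rw [LinearMap.le_ker_iff_map, Submodule.map_pow, eq_bot_iff]
    exact (pow_le_pow_left' h1 n).trans (le_of_eq hn)
  rw [pow_mul]
  exact eq_bot_iff.2 ((pow_le_pow_left' h2 m).trans (le_of_eq hm))

theorem nil_of_injective {A : Type*} {B : Type*} [Ring A] [Algebra k A] [Ring B] [Algebra k B]
    (f : A →ₐ[k] B) (hf : Function.Injective f) :
    IsNilpotent (LinearMap.ker f.toLinearMap : Submodule k A) :=
  ⟨1, by rw [pow_one]; exact LinearMap.ker_eq_bot.2 hf⟩

theorem map₂_mul_le {A : Type*} {B : Type*} [Ring A] [Algebra k A] [Ring B] [Algebra k B]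
    (P P' : Submodule k A) (Q Q' : Submodule k B) :
    Submodule.map₂ (TensorProduct.mk k A B) P Q * Submodule.map₂ (TensorProduct.mk k A B) P' Q' ≤
      Submodule.map₂ (TensorProduct.mk k A B) (P * P') (Q * Q') := by
  rw [Submodule.map₂_eq_span_image2 _ P Q, Submodule.map₂_eq_span_image2 _ P' Q',
    Submodule.span_mul_span, Submodule.span_le]
  rintro _ ⟨_, ⟨a, ha, b, hb, rfl⟩, _, ⟨a', ha', b', hb', rfl⟩, rfl⟩
  simp only [TensorProduct.mk_apply, Algebra.TensorProduct.tmul_mul_tmul]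
  exact Submodule.apply_mem_map₂ (TensorProduct.mk k A B) (Submodule.mul_mem_mul ha ha')
    (Submodule.mul_mem_mul hb hb')

theorem map₂_pow_le {A : Type*} {B : Type*} [Ring A] [Algebra k A] [Ring B] [Algebra k B]
    (P : Submodule k A) (Q : Submodule k B) (n : ℕ) :
    Submodule.map₂ (TensorProduct.mk k A B) P Q ^ n ≤
      Submodule.map₂ (TensorProduct.mk k A B) (P ^ n) (Q ^ n) := by
  induction n with
  | zero =>
    simp only [pow_zero]
    rw [Submodule.one_le]
    exact Submodule.apply_mem_map₂ (TensorProduct.mk k A B) (Submodule.one_le.1 le_rfl)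
      (Submodule.one_le.1 le_rfl)
  | succ n ih =>
    simp only [pow_succ]
    exact (mul_le_mul_left ih _).trans (map₂_mul_le _ _ _ _)

theorem nil_tensor_left {A : Type*} {B : Type*} {C : Type*} [Ring A] [Algebra k A] [Ring B]
    [Algebra k B] [Ring C] [Algebra k C] (f : A →ₐ[k] C) (hs : Function.Surjective f)
    (hf : IsNilpotent (LinearMap.ker f.toLinearMap : Submodule k A)) :
    IsNilpotent (LinearMap.ker (Algebra.TensorProduct.map f (AlgHom.id k B)).toLinearMap :
      Submodule k (A ⊗[k] B)) := by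
  obtain ⟨n, hn⟩ := hf
  refine ⟨n, eq_bot_iff.2 ?_⟩
  have h1 : (LinearMap.ker (Algebra.TensorProduct.map f (AlgHom.id k B)).toLinearMap :
      Submodule k (A ⊗[k] B)) ≤
      Submodule.map₂ (TensorProduct.mk k A B) (LinearMap.ker f.toLinearMap) ⊤ := by
    intro x hx
    obtain ⟨y, rfl⟩ := (rTensor_exact B (LinearMap.exact_subtype_ker_map f.toLinearMap) hs x).1 hx
    clear hx
    induction y using TensorProduct.induction_on with
    | zero => simp
    | tmul a b => exact Submodule.apply_mem_map₂ (TensorProduct.mk k A B) a.2 Submodule.mem_top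
    | add x y hx hy => rw [map_add]; exact Submodule.add_mem _ hx hy
  refine (pow_le_pow_left' h1 n).trans ((map₂_pow_le _ _ n).trans (le_of_eq ?_))
  rw [hn]; exact Submodule.map₂_bot_left _ _

theorem nil_tensor_right {A : Type*} {B : Type*} {C : Type*} [Ring A] [Algebra k A] [Ring B]
    [Algebra k B] [Ring C] [Algebra k C] (f : B →ₐ[k] C) (hs : Function.Surjective f)
    (hf : IsNilpotent (LinearMap.ker f.toLinearMap : Submodule k B)) :
    IsNilpotent (LinearMap.ker (Algebra.TensorProduct.map (AlgHom.id k A) f).toLinearMap :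
      Submodule k (A ⊗[k] B)) := by
  obtain ⟨n, hn⟩ := hf
  refine ⟨n, eq_bot_iff.2 ?_⟩
  have h1 : (LinearMap.ker (Algebra.TensorProduct.map (AlgHom.id k A) f).toLinearMap :
      Submodule k (A ⊗[k] B)) ≤
      Submodule.map₂ (TensorProduct.mk k A B) ⊤ (LinearMap.ker f.toLinearMap) := by
    intro x hx
    obtain ⟨y, rfl⟩ := (lTensor_exact A (LinearMap.exact_subtype_ker_map f.toLinearMap) hs x).1 hx
    clear hx
    induction y using TensorProduct.induction_on with
    | zero => simp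
    | tmul a b => exact Submodule.apply_mem_map₂ (TensorProduct.mk k A B) Submodule.mem_top b.2
    | add x y hx hy => rw [map_add]; exact Submodule.add_mem _ hx hy
  refine (pow_le_pow_left' h1 n).trans ((map₂_pow_le _ _ n).trans (le_of_eq ?_))
  rw [hn]; exact Submodule.map₂_bot_right _ _

theorem Basic.reindex {ι κ : Type} (h : Basic k A ι) (e : ι ≃ κ) : Basic k A κ := by
  obtain ⟨π, hs, hn, a, b, c, d, ha, hb, hc, hd, h⟩ := h
  let E : (ι → k) ≃ₐ[k] (κ → k) := AlgEquiv.piCongrLeft' k (fun _ => k) e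
  refine ⟨(E : (ι → k) →ₐ[k] (κ → k)).comp π, E.surjective.comp hs,
    nil_comp _ _ hn (nil_of_injective _ E.injective), a, b, c, d, ?_, ?_, ?_, ?_, h⟩ <;>
  simp [*]

theorem Basic.tensor {ι κ : Type} [Finite ι] [Finite κ] (hA : Basic k A ι) (hB : Basic k B κ) :
    Basic k (A ⊗[k] B) (ι × κ) := by
  classical
  obtain ⟨π, hs, hn, a, b, c, d, ha, hb, hc, hd, h⟩ := hA
  obtain ⟨ρ, hs', hn', a', b', c', d', -, -, -, -, h'⟩ := hB
  have := Fintype.ofFinite ι
  have := Fintype.ofFinite κ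
  let l1 : (ι → k) →ₐ[k] (ι × κ → k) := Pi.algHom k _ fun p => Pi.evalAlgHom k (fun _ => k) p.1
  let l2 : (κ → k) →ₐ[k] (ι × κ → k) := Pi.algHom k _ fun p => Pi.evalAlgHom k (fun _ => k) p.2
  let E : (ι → k) ⊗[k] (κ → k) →ₐ[k] (ι × κ → k) :=
    Algebra.TensorProduct.lift l1 l2 fun _ _ => Commute.all _ _
  have hE : Function.Surjective E := by
    intro x
    refine ⟨∑ p : ι × κ, x p • (Pi.single p.1 (1 : k) ⊗ₜ Pi.single p.2 (1 : k)), ?_⟩
    ext ⟨i, j⟩
    simp only [map_sum, map_smul, Finset.sum_apply, Pi.smul_apply, smul_eq_mul]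
    rw [Finset.sum_eq_single (i, j)]
    · simp [E, l1, l2]
    · rintro ⟨i', j'⟩ _ hne
      by_cases hi : i = i'
      · have hj : j ≠ j' := fun hj => hne (by rw [hi, hj])
        simp [E, l1, l2, hj]
      · simp [E, l1, l2, hi]
    · simp
  have hE' : Function.Injective E :=
    (LinearMap.injective_iff_surjective_of_finrank_eq_finrank (f := E.toLinearMap)
      (by simp [Module.finrank_tensorProduct])).2 hE
  let f1 := Algebra.TensorProduct.map π (AlgHom.id k B)
  let f2 := Algebra.TensorProduct.map (AlgHom.id k (ι → k)) ρ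
  have s1 : Function.Surjective f1 :=
    Algebra.TensorProduct.map_surjective _ _ hs Function.surjective_id
  have s2 : Function.Surjective f2 :=
    Algebra.TensorProduct.map_surjective _ _ Function.surjective_id hs'
  have nt : Nontrivial B := ⟨⟨_, _, h'⟩⟩
  refine ⟨E.comp (f2.comp f1), hE.comp (s2.comp s1),
    nil_comp _ _ (nil_comp _ _ (nil_tensor_left π hs hn) (nil_tensor_right ρ hs' hn'))
      (nil_of_injective _ hE'), a ⊗ₜ 1, b ⊗ₜ 1, c ⊗ₜ 1, d ⊗ₜ 1, ?_, ?_, ?_, ?_, ?_⟩
  · simp [f1, f2, ha]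
  · simp [f1, f2, hb]
  · simp [f1, f2, hc]
  · simp [f1, f2, hd]
  · simp only [Algebra.TensorProduct.tmul_mul_tmul, mul_one]
    intro h0
    apply h
    apply Algebra.TensorProduct.includeLeft_injective (R := k) (S := k) (B := B)
      (algebraMap k B).injective
    rw [map_zero]
    exact h0

theorem Basic.prod {ι κ : Type} (hA : Basic k A ι) (hB : Basic k B κ) :
    Basic k (A × B) (ι ⊕ κ) := by
  obtain ⟨π, hs, ⟨n, hn⟩, a, b, c, d, ha, hb, hc, hd, h⟩ := hA
  obtain ⟨ρ, hs', ⟨m, hm⟩, -⟩ := hB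
  let σ : (A × B) →ₐ[k] (ι ⊕ κ → k) := Pi.algHom k _ fun p => Sum.elim
    (fun i => (Pi.evalAlgHom k (fun _ => k) i).comp (π.comp (AlgHom.fst k A B)))
    (fun j => (Pi.evalAlgHom k (fun _ => k) j).comp (ρ.comp (AlgHom.snd k A B))) p
  have s1 : ∀ x i, σ x (Sum.inl i) = π x.1 i := fun _ _ => rfl
  have s2 : ∀ x j, σ x (Sum.inr j) = ρ x.2 j := fun _ _ => rfl
  have z : ∀ x : A, π x = 0 → σ (x, 0) = 0 := fun x hx => by
    ext (i | j)
    · rw [s1, hx]; rfl
    · rw [s2, map_zero]; rfl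
  refine ⟨σ, fun y => ?_, ⟨n + m, eq_bot_iff.2 fun x hx => ?_⟩, (a, 0), (b, 0), (c, 0), (d, 0),
    z a ha, z b hb, z c hc, z d hd, fun h0 => h (congrArg Prod.fst h0)⟩
  · obtain ⟨x1, h1⟩ := hs fun i => y (Sum.inl i)
    obtain ⟨x2, h2⟩ := hs' fun j => y (Sum.inr j)
    refine ⟨(x1, x2), ?_⟩
    ext (i | j)
    · rw [s1, h1]
    · rw [s2, h2]
  · have h1 : (LinearMap.ker σ.toLinearMap : Submodule k (A × B)).map
        (AlgHom.fst k A B).toLinearMap ≤ LinearMap.ker π.toLinearMap := by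
      rintro _ ⟨x, hx, rfl⟩
      ext i
      exact congrFun hx (Sum.inl i)
    have h2 : (LinearMap.ker σ.toLinearMap : Submodule k (A × B)).map
        (AlgHom.snd k A B).toLinearMap ≤ LinearMap.ker ρ.toLinearMap := by
      rintro _ ⟨x, hx, rfl⟩
      ext j
      exact congrFun hx (Sum.inr j)
    have h3 := Submodule.mem_map_of_mem (f := (AlgHom.fst k A B).toLinearMap) hx
    have h4 := Submodule.mem_map_of_mem (f := (AlgHom.snd k A B).toLinearMap) hx
    rw [Submodule.map_pow] at h3 h4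
    have h5 := pow_le_pow_left' h1 (n + m) h3
    have h6 := pow_le_pow_left' h2 (n + m) h4
    rw [pow_add, hn, zero_mul] at h5
    rw [pow_add, hm, mul_zero] at h6
    exact Prod.ext h5 h6

theorem Basic.tsze {ι : Type} (hA : Basic k A ι) (V : Type u) [AddCommGroup V] [Module k V]
    [Module A V] [Module Aᵐᵒᵖ V] [SMulCommClass A Aᵐᵒᵖ V] [IsScalarTower k A V]
    [IsScalarTower k Aᵐᵒᵖ V] : Basic k (TrivSqZeroExt A V) ι := by
  obtain ⟨π, hs, hn, a, b, c, d, ha, hb, hc, hd, h⟩ := hA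
  have h2 : IsNilpotent (LinearMap.ker (TrivSqZeroExt.fstHom k A V).toLinearMap :
      Submodule k (TrivSqZeroExt A V)) := by
    refine ⟨2, eq_bot_iff.2 ?_⟩
    rw [pow_two, Submodule.mul_le]
    intro x hx y hy
    have hx' : x.fst = 0 := hx
    have hy' : y.fst = 0 := hy
    rw [Submodule.mem_bot]
    ext
    · simp [hx']
    · simp [hx', hy']
  refine ⟨π.comp (TrivSqZeroExt.fstHom k A V), hs.comp fun x => ⟨TrivSqZeroExt.inl x, rfl⟩,
    nil_comp _ _ h2 hn, TrivSqZeroExt.inl a, TrivSqZeroExt.inl b, TrivSqZeroExt.inl c,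
    TrivSqZeroExt.inl d, ha, hb, hc, hd, fun h0 => h ?_⟩
  simpa using congrArg TrivSqZeroExt.fst h0

/-- elements of infinite multiplicative order in the fields of the statements -/
theorem exists_infinite_order (K : Type u) [Field K]
    [Algebra (FractionRing (MvPolynomial (Fin 3) (ZMod 2))) K] :
    ∃ q : K, q ≠ 0 ∧ ∀ n : ℕ, 0 < n → q ^ n ≠ 1 := by
  let φ : MvPolynomial (Fin 3) (ZMod 2) →+* K :=
    (algebraMap (FractionRing (MvPolynomial (Fin 3) (ZMod 2))) K).comp (algebraMap _ _)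
  have hφ : Function.Injective φ :=
    (algebraMap (FractionRing (MvPolynomial (Fin 3) (ZMod 2))) K).injective.comp
      (IsFractionRing.injective _ _)
  refine ⟨φ (MvPolynomial.X 0), fun h => MvPolynomial.X_ne_zero (0 : Fin 3)
    (hφ (h.trans (map_zero φ).symm)), fun n hn h => ?_⟩
  rw [← map_pow, ← map_one φ] at h
  have := congrArg (MvPolynomial.eval fun _ => (0 : ZMod 2)) (hφ h)
  simp [hn.ne'] at this

theorem exists_infinite_order_complex : ∃ q : ℂ, q ≠ 0 ∧ ∀ n : ℕ, 0 < n → q ^ n ≠ 1 := by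
  refine ⟨2, two_ne_zero, fun n hn h => ?_⟩
  have h1 : ((2 ^ n : ℕ) : ℂ) = ((1 : ℕ) : ℂ) := by push_cast; exact h
  have h2 : 2 ^ n = 1 := by exact_mod_cast h1
  have := Nat.one_lt_two_pow hn.ne'
  omega

end Crest.Agent.R186
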