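import Mathlib
import Crest.Prelude.Def_Tilting
import Crest.Agent.R186.ExtRes

/-!
Abstract consequences of a coresolution of a non-injective module by projective-injective modules.
-/

set_option autoImplicit false

open CategoryTheory Crest.AlgebraR

universe u

namespace Crest.Agent.R186.ConsAux

variable {R : Type u} [Ring R]

theorem injective_of_retract {X Y : Type u} [AddCommGroup X] [Module R X] [AddCommGroup Y]
    [Module R Y] (hY : Module.Injective R Y) (i : X →ₗ[R] Y) (r : Y →ₗ[R] X)
    (h : ∀ x, r (i x) = x) : Module.Injective R X where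
  out P Q _ _ _ _ f hf g := by
    obtain ⟨l, hl⟩ := hY.out f hf (i ∘ₗ g)
    exact ⟨r ∘ₗ l, fun x => by simp [hl, h]⟩

theorem projective_pi {W : Type u} [AddCommGroup W] [Module R W] [Module.Projective R W] (n : ℕ) :
    Module.Projective R (Fin n → W) :=
  Module.Projective.of_equiv' (M := Π₀ _ : Fin n, W) (DFinsupp.linearEquivFunOnFintype)

theorem inAdd_retract {W X : Type u} [AddCommGroup W] [Module R W] [AddCommGroup X] [Module R X]
    (h : InAdd R W X) :
    ∃ (n : ℕ) (i : X →ₗ[R] (Fin n → W)) (r : (Fin n → W) →ₗ[R] X), ∀ x, r (i x) = x := by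
  obtain ⟨n, Y, _, _, ⟨e⟩⟩ := h
  exact ⟨n, e.toLinearMap ∘ₗ LinearMap.inl R X Y, LinearMap.fst R X Y ∘ₗ e.symm.toLinearMap,
    fun x => by simp⟩

theorem inAdd_projective {W X : Type u} [AddCommGroup W] [Module R W] [AddCommGroup X] [Module R X]
    (hW : Module.Projective R W) (h : InAdd R W X) : Module.Projective R X := by
  obtain ⟨n, i, r, hr⟩ := inAdd_retract h
  have := projective_pi (R := R) (W := W) n
  exact Module.Projective.of_split i r (LinearMap.ext hr)

theorem inAdd_injective {W X : Type u} [AddCommGroup W] [Module R W] [AddCommGroup X] [Module R X]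
    (hW : Module.Injective R W) (h : InAdd R W X) : Module.Injective R X := by
  obtain ⟨n, i, r, hr⟩ := inAdd_retract h
  have : Module.Injective R (Fin n → W) := Module.Injective.pi R (fun _ : Fin n => W)
  exact injective_of_retract this i r hr

theorem inAdd_finite {W X : Type u} [AddCommGroup W] [Module R W] [AddCommGroup X] [Module R X]
    (hW : Module.Finite R W) (h : InAdd R W X) : Module.Finite R X := by
  obtain ⟨n, i, r, hr⟩ := inAdd_retract h
  exact Module.Finite.of_surjective r fun x => ⟨i x, hr x⟩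

theorem inAdd_of_equiv {W X : Type u} [AddCommGroup W] [Module R W] [AddCommGroup X] [Module R X]
    {n : ℕ} (e : X ≃ₗ[R] (Fin n → W)) : InAdd R W X :=
  ⟨n, PUnit, inferInstance, inferInstance, ⟨(LinearEquiv.prodUnique).trans e⟩⟩

section Cores

variable {X : Type u} [AddCommGroup X] [Module R X]
  {C : ℕ → Type u} [∀ j, AddCommGroup (C j)] [∀ j, Module R (C j)]
  {ε : X →ₗ[R] C 0} {d : ∀ j : ℕ, C j →ₗ[R] C (j + 1)}

/-- the corestriction of `d n` to the next kernel -/
def cod (hd : ∀ j, Function.Exact (d j) (d (j + 1))) (n : ℕ) :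
    C n →ₗ[R] LinearMap.ker (d (n + 1)) :=
  (d n).codRestrict _ fun c => (hd n).apply_apply_eq_zero c

theorem cod_surjective (hd : ∀ j, Function.Exact (d j) (d (j + 1))) (n : ℕ) :
    Function.Surjective (cod hd n) := fun z => by
  obtain ⟨c, hc⟩ := ((hd n) z.1).1 z.2
  exact ⟨c, Subtype.ext hc⟩

theorem cod_exact (hd : ∀ j, Function.Exact (d j) (d (j + 1))) (n : ℕ) :
    Function.Exact (LinearMap.ker (d n)).subtype (cod hd n) := fun c => by
  constructor
  · intro h
    exact ⟨⟨c, congrArg Subtype.val h⟩, rfl⟩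
  · rintro ⟨z, rfl⟩
    exact Subtype.ext z.2

/-- the zeroth kernel -/
noncomputable def ker0 (hε : Function.Injective ε) (h0 : Function.Exact ε (d 0)) :
    X ≃ₗ[R] LinearMap.ker (d 0) :=
  LinearEquiv.ofBijective (ε.codRestrict _ fun c => h0.apply_apply_eq_zero c)
    ⟨fun _ _ h => hε (congrArg Subtype.val h), fun z => by
      obtain ⟨c, hc⟩ := (h0 z.1).1 z.2
      exact ⟨c, Subtype.ext hc⟩⟩

theorem inj_ker_of_split (hI : ∀ j, Module.Injective R (C j))
    (hd : ∀ j, Function.Exact (d j) (d (j + 1))) (n : ℕ)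
    (ψ : LinearMap.ker (d (n + 1)) →ₗ[R] C n) (hψ : ∀ z, d n (ψ z) = z) :
    Module.Injective R (LinearMap.ker (d n)) := by
  refine injective_of_retract (hI n) (LinearMap.ker (d n)).subtype
    ((LinearMap.id - ψ ∘ₗ cod hd n).codRestrict _ fun c => ?_) fun z => Subtype.ext ?_
  · have : cod hd n z.1 = 0 := Subtype.ext z.2
    simp [this]
  · have : d n (ψ (cod hd n c)) = d n c := hψ _
    simp [this]

theorem split_of_proj (hd : ∀ j, Function.Exact (d j) (d (j + 1))) (n : ℕ)
    (h : Module.Projective R (LinearMap.ker (d (n + 1)))) :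
    ∃ ψ : LinearMap.ker (d (n + 1)) →ₗ[R] C n, ∀ z, d n (ψ z) = z := by
  obtain ⟨ψ, hψ⟩ := Module.projective_lifting_property (cod hd n) LinearMap.id (cod_surjective hd n)
  exact ⟨ψ, fun z => congrArg Subtype.val (LinearMap.congr_fun hψ z)⟩

theorem proj_ker_of_inj (hP : ∀ j, Module.Projective R (C j)) (n : ℕ)
    (h : Module.Injective R (LinearMap.ker (d n))) : Module.Projective R (LinearMap.ker (d n)) := by
  obtain ⟨r, hr⟩ := h.out (LinearMap.ker (d n)).subtype (LinearMap.ker (d n)).injective_subtype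
    LinearMap.id
  exact Module.Projective.of_split (LinearMap.ker (d n)).subtype r (LinearMap.ext hr)

theorem descend (hP : ∀ j, Module.Projective R (C j)) (hI : ∀ j, Module.Injective R (C j))
    (hε : Function.Injective ε) (h0 : Function.Exact ε (d 0))
    (hd : ∀ j, Function.Exact (d j) (d (j + 1))) (n : ℕ)
    (h : Module.Injective R (LinearMap.ker (d n))) : Module.Injective R X := by
  induction n with
  | zero =>
    exact injective_of_retract h (ker0 hε h0).toLinearMap (ker0 hε h0).symm.toLinearMap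
      fun x => by simp
  | succ n ih =>
    obtain ⟨ψ, hψ⟩ := split_of_proj hd n (proj_ker_of_inj hP _ h)
    exact ih (inj_ker_of_split hI hd n ψ hψ)

theorem not_injDim (hP : ∀ j, Module.Projective R (C j)) (hI : ∀ j, Module.Injective R (C j))
    (hε : Function.Injective ε) (h0 : Function.Exact ε (d 0))
    (hd : ∀ j, Function.Exact (d j) (d (j + 1))) (hX : ¬ Module.Injective R X) (n : ℕ) :
    ¬ HasInjectiveDimensionLT (ModuleCat.of R X) n := by
  intro h
  have h1 := HasInjectiveDimensionLT.subsingleton (ModuleCat.of R X) n (n + 1) (Nat.le_succ n)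
    (ModuleCat.of R (LinearMap.ker (d (n + 1))))
  obtain ⟨ψ, hψ⟩ := (ext_subsingleton_iff_of_cores C hI d ε hε h0 hd n).1 h1
    (LinearMap.ker (d (n + 1))).subtype (by ext z; simp)
  exact hX (descend hP hI hε h0 hd n
    (inj_ker_of_split hI hd n ψ fun z => LinearMap.congr_fun hψ z))

theorem shift (hP : ∀ j, Module.Projective R (C j))
    (hd : ∀ j, Function.Exact (d j) (d (j + 1))) (n k : ℕ) :
    HasProjectiveDimensionLT (ModuleCat.of R (LinearMap.ker (d (n + 1)))) (k + 2) ↔
      HasProjectiveDimensionLT (ModuleCat.of R (LinearMap.ker (d n))) (k + 1) := by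
  have hS : (ModuleCat.shortComplexOfCompEqZero (LinearMap.ker (d n)).subtype (cod hd n)
      (cod_exact hd n).linearMap_comp_eq_zero).ShortExact :=
    ModuleCat.shortComplex_shortExact _ (cod_exact hd n) (LinearMap.ker (d n)).injective_subtype
      (cod_surjective hd n)
  have := hP n
  exact hS.hasProjectiveDimensionLT_X₃_iff k ((IsProjective.iff_projective (C n)).1 (hP n))

theorem pd_le (hP : ∀ j, Module.Projective R (C j))
    (hε : Function.Injective ε) (h0 : Function.Exact ε (d 0))
    (hd : ∀ j, Function.Exact (d j) (d (j + 1))) (hX : Module.Projective R X) (n : ℕ) :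
    HasProjectiveDimensionLT (ModuleCat.of R (LinearMap.ker (d n))) (n + 1) := by
  induction n with
  | zero =>
    have : Module.Projective R (LinearMap.ker (d 0)) := Module.Projective.of_equiv' (ker0 hε h0)
    have := (IsProjective.iff_projective (R := R) (LinearMap.ker (d 0))).1 this
    exact projective_iff_hasProjectiveDimensionLT_one.1 this
  | succ n ih => exact (shift hP hd n n).2 ih

theorem pd_ge (hP : ∀ j, Module.Projective R (C j)) (hI : ∀ j, Module.Injective R (C j))
    (hε : Function.Injective ε) (h0 : Function.Exact ε (d 0))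
    (hd : ∀ j, Function.Exact (d j) (d (j + 1))) (hX : ¬ Module.Injective R X) (n : ℕ) :
    ¬ HasProjectiveDimensionLT (ModuleCat.of R (LinearMap.ker (d (n + 1)))) (n + 1) := by
  induction n with
  | zero =>
    intro h
    have h1 := projective_iff_hasProjectiveDimensionLT_one.2 h
    have h2 := (IsProjective.iff_projective (R := R) (LinearMap.ker (d (0 + 1)))).2 h1
    obtain ⟨ψ, hψ⟩ := split_of_proj hd 0 h2
    exact hX (descend hP hI hε h0 hd 0 (inj_ker_of_split hI hd 0 ψ hψ))
  | succ n ih => exact fun h => ih ((shift hP hd (n + 1) n).1 h)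

theorem finite_ker (hF : ∀ j, Module.Finite R (C j))
    (hd : ∀ j, Function.Exact (d j) (d (j + 1))) (n : ℕ) :
    Module.Finite R (LinearMap.ker (d (n + 1))) :=
  have := hF n
  Module.Finite.of_surjective (cod hd n) (cod_surjective hd n)

theorem ext_vanish {S : Type u} [AddCommGroup S] [Module R S] (hI : ∀ j, Module.Injective R (C j))
    (hε : Function.Injective ε) (h0 : Function.Exact ε (d 0))
    (hd : ∀ j, Function.Exact (d j) (d (j + 1))) (hS : ∀ j, ∀ φ : S →ₗ[R] C j, φ = 0) (i : ℕ) :
    Subsingleton (Abelian.Ext (ModuleCat.of R S) (ModuleCat.of R X) i) := by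
  cases i with
  | zero =>
    refine ext_zero_subsingleton_iff.2 fun φ => ?_
    ext s
    apply hε
    simpa using LinearMap.congr_fun (hS 0 (ε ∘ₗ φ)) s
  | succ n =>
    refine (ext_subsingleton_iff_of_cores C hI d ε hε h0 hd n).2 fun φ _ => ⟨0, ?_⟩
    rw [hS _ φ]; simp

end Cores

theorem hom_exact {W U V T : Type u} [AddCommGroup W] [Module R W] [AddCommGroup U] [Module R U]
    [AddCommGroup V] [Module R V] [AddCommGroup T] [Module R T] (hW : Module.Injective R W)
    {f : U →ₗ[R] V} {g : V →ₗ[R] T} (h : Function.Exact f g) :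
    Function.Exact (fun φ : T →ₗ[R] W => φ ∘ₗ g) (fun φ : V →ₗ[R] W => φ ∘ₗ f) := by
  intro φ
  constructor
  · intro hφ
    have hk : LinearMap.ker g ≤ LinearMap.ker φ := fun v hv => by
      obtain ⟨x, rfl⟩ := (h v).1 hv
      exact LinearMap.congr_fun hφ x
    obtain ⟨l, hl⟩ := hW.out ((LinearMap.ker g).liftQ g le_rfl)
      (LinearMap.ker_eq_bot.1 (Submodule.ker_liftQ_eq_bot _ _ _ le_rfl))
      ((LinearMap.ker g).liftQ φ hk)
    refine ⟨l, LinearMap.ext fun v => ?_⟩
    simpa using hl (Submodule.Quotient.mk v)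
  · rintro ⟨l, rfl⟩
    ext x
    simp [h.apply_apply_eq_zero]

theorem wakamatsu {W : Type u} [AddCommGroup W] [Module R W] (hWp : Module.Projective R W)
    (hWi : Module.Injective R W)
    {C : ℕ → Type u} [∀ j, AddCommGroup (C j)] [∀ j, Module R (C j)]
    {ε : R →ₗ[R] C 0} {d : ∀ j : ℕ, C j →ₗ[R] C (j + 1)} (h : IsAddCoresolution R W C ε d) :
    IsWakamatsuTilting R W := by
  refine ⟨fun i hi => ?_, C, inferInstance, inferInstance, ε, d, h, fun φ => ?_,
    hom_exact hWi h.2.2.1, fun j => hom_exact hWi (h.2.2.2 j)⟩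
  · have := (IsProjective.iff_projective (R := R) W).1 hWp
    exact HasProjectiveDimensionLT.subsingleton (ModuleCat.of R W) 1 i hi _
  · obtain ⟨l, hl⟩ := hWi.out ε h.2.1 φ
    exact ⟨l, LinearMap.ext hl⟩

theorem not_tilting {W : Type u} [AddCommGroup W] [Module R W] (hWp : Module.Projective R W)
    (hWi : Module.Injective R W) (hR : ¬ Module.Injective R R) : ¬ IsTilting R W := by
  rintro ⟨-, -, C, _, _, ε, d, r, ⟨hA, hε, h0, hd⟩, hr⟩
  refine hR (descend (fun j => inAdd_projective hWp (hA j)) (fun j => inAdd_injective hWi (hA j))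
    hε h0 hd (r + 1) ⟨fun X Y _ _ _ _ f _ g => ⟨0, fun x => ?_⟩⟩)
  have := hr (r + 1) (Nat.lt_succ_self r)
  exact Subsingleton.elim _ _

end Crest.Agent.R186.ConsAux
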