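import Mathlib
import Crest.Agent.R186.Sym
import Crest.Agent.R186.ConsAbs

/-!
The functor `Hom_A (N, -)` to left modules over `(End_A N)ᵐᵒᵖ`, for `N` having `A` as a summand.
-/

set_option autoImplicit false

open CategoryTheory Crest.AlgebraR

universe u

namespace Crest.Agent.R186.ConsAux

/-- `Hom_A (N, V)` as a left module over `(End_A N)ᵐᵒᵖ` -/
def G (A N V : Type u) [Ring A] [AddCommGroup N] [Module A N] [AddCommGroup V] [Module A V] :
    Type u := N →ₗ[A] V

section Basic

variable {A N : Type u} [Ring A] [AddCommGroup N] [Module A N]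
  {V : Type u} [AddCommGroup V] [Module A V] {V' : Type u} [AddCommGroup V'] [Module A V']

instance : AddCommGroup (G A N V) := inferInstanceAs (AddCommGroup (N →ₗ[A] V))

/-- underlying linear map -/
def G.hom (f : G A N V) : N →ₗ[A] V := f

/-- constructor -/
def G.mk (f : N →ₗ[A] V) : G A N V := f

@[simp] theorem G.hom_mk (f : N →ₗ[A] V) : (G.mk f).hom = f := rfl
@[simp] theorem G.hom_add (f g : G A N V) : (f + g).hom = f.hom + g.hom := rfl
@[simp] theorem G.hom_zero : (0 : G A N V).hom = 0 := rfl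

@[ext] theorem G.ext {f g : G A N V} (h : f.hom = g.hom) : f = g := h

instance : Module (Module.End A N)ᵐᵒᵖ (G A N V) where
  smul γ f := G.mk (f.hom ∘ₗ γ.unop)
  one_smul _ := rfl
  mul_smul _ _ _ := rfl
  smul_zero _ := rfl
  smul_add _ _ _ := rfl
  add_smul γ δ f := LinearMap.comp_add γ.unop δ.unop f.hom
  zero_smul f := LinearMap.comp_zero f.hom

@[simp] theorem G.hom_smul (γ : (Module.End A N)ᵐᵒᵖ) (f : G A N V) :
    (γ • f).hom = f.hom ∘ₗ γ.unop := rfl

/-- functoriality -/
def G.map (N : Type u) [AddCommGroup N] [Module A N] (φ : V →ₗ[A] V') :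
    G A N V →ₗ[(Module.End A N)ᵐᵒᵖ] G A N V' where
  toFun f := G.mk (φ ∘ₗ f.hom)
  map_add' f g := LinearMap.comp_add f.hom g.hom φ
  map_smul' _ _ := rfl

@[simp] theorem G.hom_map (φ : V →ₗ[A] V') (f : G A N V) : (G.map N φ f).hom = φ ∘ₗ f.hom := rfl

/-- `G N` is the regular module -/
def G.self (A N : Type u) [Ring A] [AddCommGroup N] [Module A N] :
    (Module.End A N)ᵐᵒᵖ ≃ₗ[(Module.End A N)ᵐᵒᵖ] G A N N where
  toFun γ := G.mk γ.unop
  invFun f := MulOpposite.op f.hom
  map_add' _ _ := rfl
  map_smul' _ _ := rfl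
  left_inv _ := rfl
  right_inv _ := rfl

@[simp] theorem G.hom_self (γ : (Module.End A N)ᵐᵒᵖ) : (G.self A N γ).hom = γ.unop := rfl

/-- `G` commutes with finite powers -/
def G.pi (A N : Type u) [Ring A] [AddCommGroup N] [Module A N] (n : ℕ) :
    G A N (Fin n → A) ≃ₗ[(Module.End A N)ᵐᵒᵖ] (Fin n → G A N A) where
  toFun f j := G.mk (LinearMap.proj j ∘ₗ f.hom)
  invFun f := G.mk (LinearMap.pi fun j => (f j).hom)
  map_add' _ _ := rfl
  map_smul' _ _ := rfl
  left_inv _ := rfl
  right_inv _ := rfl

/-- the map `n ↦ p n • v` -/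
def gam (p : N →ₗ[A] A) (v : V) : N →ₗ[A] V := LinearMap.toSpanSingleton A V v ∘ₗ p

@[simp] theorem gam_apply (p : N →ₗ[A] A) (v : V) (n : N) : gam p v n = p n • v := rfl

theorem G.map_injective {φ : V →ₗ[A] V'} (h : Function.Injective φ) :
    Function.Injective (G.map N φ) := fun _ _ hfg =>
  G.ext (LinearMap.ext fun n => h (LinearMap.congr_fun (congrArg G.hom hfg) n))

theorem G.exact_left {V'' : Type u} [AddCommGroup V''] [Module A V''] {φ : V →ₗ[A] V'}
    {ψ : V' →ₗ[A] V''} (h : Function.Injective φ) (he : Function.Exact φ ψ) :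
    Function.Exact (G.map N φ) (G.map N ψ) := by
  intro f
  constructor
  · intro hf
    have h1 : ∀ n, f.hom n ∈ LinearMap.range φ := fun n =>
      (he _).1 (LinearMap.congr_fun (congrArg G.hom hf) n)
    refine ⟨G.mk ((LinearEquiv.ofInjective φ h).symm.toLinearMap ∘ₗ f.hom.codRestrict _ h1), ?_⟩
    refine G.ext (LinearMap.ext fun n => ?_)
    have := (LinearEquiv.ofInjective φ h).apply_symm_apply ⟨f.hom n, h1 n⟩
    exact congrArg Subtype.val this
  · rintro ⟨g, rfl⟩
    exact G.ext (LinearMap.ext fun n => he.apply_apply_eq_zero _)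

variable (i : A →ₗ[A] N) (p : N →ₗ[A] A) (hpi : ∀ a, p (i a) = a)
include hpi

theorem G.projective_ring : Module.Projective (Module.End A N)ᵐᵒᵖ (G A N A) := by
  have : Module.Projective (Module.End A N)ᵐᵒᵖ (G A N N) := Module.Projective.of_equiv' (G.self A N)
  refine Module.Projective.of_split (G.map N i) (G.map N p) (LinearMap.ext fun f => ?_)
  exact G.ext (LinearMap.ext fun n => hpi _)

theorem G.finite_ring : Module.Finite (Module.End A N)ᵐᵒᵖ (G A N A) := by
  refine Module.Finite.of_surjective (G.map N p ∘ₗ (G.self A N).toLinearMap) fun f => ?_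
  exact ⟨MulOpposite.op (i ∘ₗ f.hom), G.ext (LinearMap.ext fun n => hpi _)⟩

/-- full faithfulness, in the form needed: a retraction after applying `G` descends -/
theorem G.retract {η : N →ₗ[A] V} (r : G A N V →ₗ[(Module.End A N)ᵐᵒᵖ] G A N N)
    (hr : ∀ f, r (G.map N η f) = f) : ∃ ρ : V →ₗ[A] N, ∀ n, ρ (η n) = n := by
  refine ⟨⟨⟨fun v => (r (G.mk (gam p v))).hom (i 1), fun v w => ?_⟩, fun a v => ?_⟩, fun n => ?_⟩
  · have : G.mk (gam p (v + w)) = G.mk (gam p v) + G.mk (gam p w) :=
      G.ext (LinearMap.ext fun n => by simp)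
    rw [this, map_add]; rfl
  · have : G.mk (gam p (a • v)) = MulOpposite.op (gam p (a • i 1)) • G.mk (gam p v) :=
      G.ext (LinearMap.ext fun n => by simp [hpi])
    simp only [this, map_smul]
    simp [hpi]
  · have : G.mk (gam p (η n)) = G.map N η (G.mk (gam p n)) :=
      G.ext (LinearMap.ext fun m => by simp)
    change (r (G.mk (gam p (η n)))).hom (i 1) = n
    rw [this, hr]
    simp [hpi]

theorem G.not_injective [Module.Projective A V] {η : N →ₗ[A] V} (hη : Function.Injective η)
    (hN : ¬ Module.Projective A N) :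
    ¬ Module.Injective (Module.End A N)ᵐᵒᵖ (Module.End A N)ᵐᵒᵖ := by
  intro h
  obtain ⟨r, hr⟩ := h.out (G.map N η) (G.map_injective hη) (G.self A N).symm.toLinearMap
  obtain ⟨ρ, hρ⟩ := G.retract i p hpi (η := η) ((G.self A N).toLinearMap ∘ₗ r)
    (fun f => by simp [hr])
  exact hN (Module.Projective.of_split η ρ (LinearMap.ext hρ))

theorem G.exists_simple (hN : ¬ Module.Projective A N) :
    ∃ (S : Type u) (_ : AddCommGroup S) (_ : Module (Module.End A N)ᵐᵒᵖ S),
      IsSimpleModule (Module.End A N)ᵐᵒᵖ S ∧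
      ∀ (V : Type u) [AddCommGroup V] [Module A V] (φ : S →ₗ[(Module.End A N)ᵐᵒᵖ] G A N V),
        φ = 0 := by
  let J : Ideal (Module.End A N)ᵐᵒᵖ :=
    { carrier := {γ | ∃ (P : Type u) (_ : AddCommGroup P) (_ : Module A P) (_ : Module.Projective A P)
        (a : N →ₗ[A] P) (b : P →ₗ[A] N), γ.unop = b ∘ₗ a}
      add_mem' := by
        rintro γ δ ⟨P, _, _, _, a, b, h⟩ ⟨Q, _, _, _, a', b', h'⟩
        refine ⟨P × Q, inferInstance, inferInstance, inferInstance, a.prod a', b.coprod b', ?_⟩
        rw [MulOpposite.unop_add, h, h', LinearMap.coprod_comp_prod]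
      zero_mem' := ⟨A, inferInstance, inferInstance, inferInstance, 0, 0, by simp⟩
      smul_mem' := by
        rintro c γ ⟨P, _, _, _, a, b, h⟩
        refine ⟨P, inferInstance, inferInstance, inferInstance, a ∘ₗ c.unop, b, ?_⟩
        rw [smul_eq_mul, MulOpposite.unop_mul, h]; rfl }
  have hJ : J ≠ ⊤ := by
    intro h
    obtain ⟨P, _, _, _, a, b, h1⟩ : (1 : (Module.End A N)ᵐᵒᵖ) ∈ J := h ▸ Submodule.mem_top
    exact hN (Module.Projective.of_split a b h1.symm)
  obtain ⟨m, hm, hJm⟩ := Ideal.exists_le_maximal J hJ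
  refine ⟨(Module.End A N)ᵐᵒᵖ ⧸ m, inferInstance, inferInstance,
    isSimpleModule_iff_isCoatom.2 hm.out, fun V _ _ φ => ?_⟩
  refine LinearMap.ext fun s => G.ext (LinearMap.ext fun n => ?_)
  obtain ⟨γ, rfl⟩ := Submodule.Quotient.mk_surjective m s
  have h1 : MulOpposite.op (gam p n) • (Submodule.Quotient.mk γ : (Module.End A N)ᵐᵒᵖ ⧸ m) = 0 := by
    rw [← Submodule.Quotient.mk_smul, Submodule.Quotient.mk_eq_zero]
    exact hJm ⟨A, inferInstance, inferInstance, inferInstance, p,
      γ.unop ∘ₗ LinearMap.toSpanSingleton A N n, rfl⟩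
  have h2 := congrArg (fun f => (φ f).hom (i 1)) h1
  simp only [map_smul, map_zero] at h2
  simpa [hpi] using h2

theorem G.injective_ring {K : Type u} [Field K] [Algebra K A] [Module K N] [IsScalarTower K A N]
    (S : SymData K A) : Module.Injective (Module.End A N)ᵐᵒᵖ (G A N A) where
  out X Y _ _ _ _ f hf φ := by
    let _ : Module K X := Module.compHom X (algebraMap K (Module.End A N)ᵐᵒᵖ)
    let _ : Module K Y := Module.compHom Y (algebraMap K (Module.End A N)ᵐᵒᵖ)
    have : IsScalarTower K (Module.End A N)ᵐᵒᵖ X := IsScalarTower.of_algebraMap_smul fun _ _ => rfl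
    have : IsScalarTower K (Module.End A N)ᵐᵒᵖ Y := IsScalarTower.of_algebraMap_smul fun _ _ => rfl
    obtain ⟨r, hr⟩ := (f.restrictScalars K).exists_leftInverse_of_injective
      (LinearMap.ker_eq_bot.mpr hf)
    have hr' : ∀ x, r (f x) = x := fun x => LinearMap.congr_fun hr x
    let g : X →ₗ[K] K :=
      { toFun := fun x => S.lam ((φ x).hom (i 1))
        map_add' := fun x y => by simp
        map_smul' := fun c x => by
          have : c • x = algebraMap K (Module.End A N)ᵐᵒᵖ c • x := rfl
          rw [this, map_smul]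
          simp [Algebra.algebraMap_eq_smul_one] }
    let g' : Y →ₗ[K] K := g ∘ₗ r
    let F : Y → (N →ₗ[K] K) := fun y =>
      { toFun := fun n => g' (MulOpposite.op (gam p n) • y)
        map_add' := fun n m => by
          have : gam p (n + m) = gam p n + gam p m := LinearMap.ext fun _ => by simp
          rw [this, MulOpposite.op_add, add_smul, map_add]
        map_smul' := fun c n => by
          have : gam p (c • n) = c • gam p n := LinearMap.ext fun x => by
            simp [smul_comm (p x) c n]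
          rw [this, MulOpposite.op_smul, smul_assoc, map_smul]; rfl }
    have hF : ∀ y n, F y n = g' (MulOpposite.op (gam p n) • y) := fun _ _ => rfl
    refine ⟨⟨⟨fun y => G.mk (S.toHom (F y)), fun y z => ?_⟩, fun γ y => ?_⟩, fun x => ?_⟩
    · refine G.ext (S.hom_ext fun n => ?_)
      simp [S.lam_toHom, hF]
    · refine G.ext (S.hom_ext fun n => ?_)
      have : MulOpposite.op (gam p n) * γ = MulOpposite.op (gam p (γ.unop n)) := by
        apply MulOpposite.unop_injective
        exact LinearMap.ext fun x => by simp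
      simp [S.lam_toHom, hF, ← mul_smul, this]
    · refine G.ext (S.hom_ext fun n => ?_)
      change S.lam (S.toHom (F (f x)) n) = _
      rw [S.lam_toHom, hF, ← map_smul]
      change g (r (f _)) = _
      rw [hr']
      change S.lam ((φ (MulOpposite.op (gam p n) • x)).hom (i 1)) = _
      rw [map_smul]
      simp [hpi]

end Basic

section Cores

variable {K : Type u} [Field K] {A : Type u} [Ring A] [Algebra K A]

/-- finitely generated modules, bundled -/
structure FMod (A : Type u) [Ring A] where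
  X : Type u
  [g : AddCommGroup X]
  [m : Module A X]
  [f : Module.Finite A X]

attribute [instance] FMod.g FMod.m FMod.f

/-- rank of the chosen free hull -/
noncomputable def rk (S : SymData K A) (Z : FMod A) : ℕ := (S.exists_embedding Z.X).choose

/-- chosen embedding in a free module -/
noncomputable def emb (S : SymData K A) (Z : FMod A) : Z.X →ₗ[A] (Fin (rk S Z) → A) :=
  (S.exists_embedding Z.X).choose_spec.choose

theorem emb_injective (S : SymData K A) (Z : FMod A) : Function.Injective (emb S Z) :=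
  (S.exists_embedding Z.X).choose_spec.choose_spec

/-- cosyzygies -/
noncomputable def cosyz (S : SymData K A) (Z : FMod A) : ℕ → FMod A
  | 0 => Z
  | n + 1 => ⟨(Fin (rk S (cosyz S Z n)) → A) ⧸ LinearMap.range (emb S (cosyz S Z n))⟩

/-- Every finite module over a symmetric algebra has a coresolution by finite free modules. -/
theorem exists_cores (S : SymData K A) (N : Type u) [AddCommGroup N] [Module A N]
    [Module.Finite A N] :
    ∃ (r : ℕ → ℕ) (η : N →ₗ[A] (Fin (r 0) → A))
      (d : ∀ j, (Fin (r j) → A) →ₗ[A] (Fin (r (j + 1)) → A)),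
      Function.Injective η ∧ Function.Exact η (d 0) ∧ ∀ j, Function.Exact (d j) (d (j + 1)) := by
  let Z : FMod A := ⟨N⟩
  have key : ∀ j, Function.Exact (emb S (cosyz S Z j))
      (emb S (cosyz S Z (j + 1)) ∘ₗ (LinearMap.range (emb S (cosyz S Z j))).mkQ) := by
    intro j v
    exact (map_eq_zero_iff _ (emb_injective S (cosyz S Z (j + 1)))).trans
      (Submodule.Quotient.mk_eq_zero _)
  refine ⟨fun j => rk S (cosyz S Z j), emb S Z,
    fun j => emb S (cosyz S Z (j + 1)) ∘ₗ (LinearMap.range (emb S (cosyz S Z j))).mkQ,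
    emb_injective S Z, key 0, fun j v => ?_⟩
  rw [key (j + 1) v]
  constructor
  · rintro ⟨z, rfl⟩
    obtain ⟨w, rfl⟩ := Submodule.mkQ_surjective _ z
    exact ⟨w, rfl⟩
  · rintro ⟨w, rfl⟩
    exact ⟨_, rfl⟩

end Cores

end Crest.Agent.R186.ConsAux
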