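import Mathlib
import Crest.Prelude.Def_Tilting
import Crest.Agent.R186.Tach
import Crest.Agent.R186.ExtRes
import Crest.Agent.R186.ConsG

/-!
Consequences of a Tachikawa counterexample `Tach K A M` (S0282–S0285 and S0268), through
`Γ = (End_A (A ⊕ M))ᵐᵒᵖ` and the functor `Hom_A (A ⊕ M, -)`.
-/

set_option autoImplicit false

open CategoryTheory Crest.AlgebraR

universe u

namespace Crest.Agent.R186

variable {K : Type u} [Field K] {A : Type u} [Ring A] [Algebra K A]
  {M : Type u} [AddCommGroup M] [Module A M]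

namespace ConsAux

theorem ext_prod_left {R : Type u} [Ring R] {X Y Z : Type u} [AddCommGroup X] [Module R X]
    [AddCommGroup Y] [Module R Y] [AddCommGroup Z] [Module R Z] (n : ℕ)
    (h1 : Subsingleton (Abelian.Ext (ModuleCat.of R X) (ModuleCat.of R Z) n))
    (h2 : Subsingleton (Abelian.Ext (ModuleCat.of R Y) (ModuleCat.of R Z) n)) :
    Subsingleton (Abelian.Ext (ModuleCat.of R (X × Y)) (ModuleCat.of R Z) n) := by
  refine subsingleton_of_forall_eq 0 fun x => ?_
  have e : 𝟙 (ModuleCat.of R (X × Y)) =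
      ModuleCat.ofHom (LinearMap.fst R X Y) ≫ ModuleCat.ofHom (LinearMap.inl R X Y) +
      ModuleCat.ofHom (LinearMap.snd R X Y) ≫ ModuleCat.ofHom (LinearMap.inr R X Y) := by
    ext <;> simp
  rw [← Abelian.Ext.mk₀_id_comp x, e, Abelian.Ext.mk₀_add, Abelian.Ext.add_comp,
    ← Abelian.Ext.mk₀_comp_mk₀_assoc, ← Abelian.Ext.mk₀_comp_mk₀_assoc,
    Subsingleton.elim ((Abelian.Ext.mk₀ (ModuleCat.ofHom (LinearMap.inl R X Y))).comp x _) 0,
    Subsingleton.elim ((Abelian.Ext.mk₀ (ModuleCat.ofHom (LinearMap.inr R X Y))).comp x _) 0]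
  simp

theorem ext_prod_right {R : Type u} [Ring R] {X Y Z : Type u} [AddCommGroup X] [Module R X]
    [AddCommGroup Y] [Module R Y] [AddCommGroup Z] [Module R Z] (n : ℕ)
    (h1 : Subsingleton (Abelian.Ext (ModuleCat.of R Z) (ModuleCat.of R X) n))
    (h2 : Subsingleton (Abelian.Ext (ModuleCat.of R Z) (ModuleCat.of R Y) n)) :
    Subsingleton (Abelian.Ext (ModuleCat.of R Z) (ModuleCat.of R (X × Y)) n) := by
  refine subsingleton_of_forall_eq 0 fun x => ?_
  have e : 𝟙 (ModuleCat.of R (X × Y)) =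
      ModuleCat.ofHom (LinearMap.fst R X Y) ≫ ModuleCat.ofHom (LinearMap.inl R X Y) +
      ModuleCat.ofHom (LinearMap.snd R X Y) ≫ ModuleCat.ofHom (LinearMap.inr R X Y) := by
    ext <;> simp
  rw [← Abelian.Ext.comp_mk₀_id x, e, Abelian.Ext.mk₀_add, Abelian.Ext.comp_add,
    ← Abelian.Ext.mk₀_comp_mk₀, ← Abelian.Ext.mk₀_comp_mk₀,
    ← Abelian.Ext.comp_assoc_of_second_deg_zero, ← Abelian.Ext.comp_assoc_of_second_deg_zero,
    Subsingleton.elim (x.comp (Abelian.Ext.mk₀ (ModuleCat.ofHom (LinearMap.fst R X Y))) _) 0,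
    Subsingleton.elim (x.comp (Abelian.Ext.mk₀ (ModuleCat.ofHom (LinearMap.snd R X Y))) _) 0]
  simp

/-- the common core: a non-self-injective algebra of infinite dominant dimension -/
theorem core (h : Tach K A M) :
    ∃ (Γ : Type u) (_ : Ring Γ) (_ : Algebra K Γ), FiniteDimensional K Γ ∧
      ¬ Module.Injective Γ Γ ∧
      ∃ (W : Type u) (_ : AddCommGroup W) (_ : Module Γ W), Module.Finite Γ W ∧
        Module.Projective Γ W ∧ Module.Injective Γ W ∧
        ∃ (C : ℕ → Type u) (_ : ∀ j, AddCommGroup (C j)) (_ : ∀ j, Module Γ (C j))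
          (ε : Γ →ₗ[Γ] C 0) (d : ∀ j : ℕ, C j →ₗ[Γ] C (j + 1)), IsAddCoresolution Γ W C ε d ∧
          ∃ (S : Type u) (_ : AddCommGroup S) (_ : Module Γ S), IsSimpleModule Γ S ∧
            ∀ j, ∀ φ : S →ₗ[Γ] C j, φ = 0 := by
  have := h.fd
  have := h.fin
  obtain ⟨S⟩ := exists_symData h.symm
  let _ : Module K M := Module.compHom M (algebraMap K A)
  have : IsScalarTower K A M := IsScalarTower.of_algebraMap_smul fun _ _ => rfl
  have : Module.Finite K M := Module.Finite.trans A M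
  have hN : ¬ Module.Projective A (A × M) := fun hp =>
    h.nproj (Module.Projective.of_split (LinearMap.inr A A M) (LinearMap.snd A A M)
      (LinearMap.ext fun _ => rfl))
  have hpi : ∀ a, LinearMap.fst A A M (LinearMap.inl A A M a) = a := fun _ => rfl
  obtain ⟨r, η, d, hη, h0, hd⟩ := exists_cores S (A × M)
  have hAinj : Module.Injective A A := S.injective_of_projective A
  have hext : ∀ n, Subsingleton
      (Abelian.Ext (ModuleCat.of A (A × M)) (ModuleCat.of A (A × M)) (n + 1)) := by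
    intro n
    refine ext_prod_left _ ?_ (ext_prod_right _ ?_ (h.ext _ n.succ_pos))
    · have := (IsProjective.iff_projective (R := A) A).1 inferInstance
      exact HasProjectiveDimensionLT.subsingleton (ModuleCat.of A A) 1 _ (by omega) _
    · have := Module.injective_object_of_injective_module A A
      exact HasInjectiveDimensionLT.subsingleton (ModuleCat.of A A) 1 _ (by omega) _
  have hfd : FiniteDimensional K (Module.End A (A × M)) :=
    Module.Finite.of_injective (LinearMap.restrictScalarsₗ K A (A × M) (A × M) K)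
      (LinearMap.restrictScalars_injective K)
  obtain ⟨T, _, _, hT, hT0⟩ := G.exists_simple _ _ hpi hN
  refine ⟨(Module.End A (A × M))ᵐᵒᵖ, inferInstance, inferInstance, inferInstance,
    G.not_injective _ _ hpi hη hN, G A (A × M) A, inferInstance, inferInstance,
    G.finite_ring _ _ hpi, G.projective_ring _ _ hpi, G.injective_ring _ _ hpi S,
    fun j => G A (A × M) (Fin (r j) → A), inferInstance, inferInstance,
    G.map _ η ∘ₗ (G.self A (A × M)).toLinearMap, fun j => G.map _ (d j),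
    ⟨fun j => inAdd_of_equiv (G.pi A _ (r j)), ?_, ?_, fun j => ?_⟩,
    T, inferInstance, inferInstance, hT, fun j φ => hT0 _ φ⟩
  · exact (G.map_injective hη).comp (G.self A (A × M)).injective
  · exact (LinearEquiv.precomp_exact_iff_exact (e := G.self A (A × M))).2 (G.exact_left hη h0)
  · intro f
    constructor
    · intro hf
      obtain ⟨ψ, hψ⟩ := (ext_subsingleton_iff_of_cores (fun j => Fin (r j) → A)
        (fun j => S.injective_of_projective _) d η hη h0 hd j).1 (hext j) f.hom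
        (congrArg G.hom hf)
      exact ⟨G.mk ψ, G.ext hψ⟩
    · rintro ⟨g, rfl⟩
      exact G.ext (LinearMap.ext fun n => (hd j).apply_apply_eq_zero _)

end ConsAux

open ConsAux

theorem Tach.s0282 (h : Tach K A M) :
    ∃ (Γ : Type u) (_ : Ring Γ) (_ : Algebra K Γ), FiniteDimensional K Γ ∧
      ∃ S : ModuleCat.{u} Γ, IsSimpleModule Γ S ∧
        ∀ i : ℕ, Subsingleton (Abelian.Ext S (ModuleCat.of Γ Γ) i) := by
  obtain ⟨Γ, _, _, hfd, -, W, _, _, -, -, hWi, C, _, _, ε, d, ⟨hA, hε, h0, hd⟩, S, _, _, hS, hS0⟩ :=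
    core h
  exact ⟨Γ, inferInstance, inferInstance, hfd, ModuleCat.of Γ S, hS,
    ext_vanish (fun j => inAdd_injective hWi (hA j)) hε h0 hd hS0⟩

theorem Tach.s0283 (h : Tach K A M) :
    ∃ (Γ : Type u) (_ : Ring Γ) (_ : Algebra K Γ), FiniteDimensional K Γ ∧
      ∀ n : ℕ, 1 ≤ n → ∃ C : ModuleCat.{u} Γ, Module.Finite Γ C ∧
        projectiveDimension C = (n : WithBot ℕ∞) := by
  obtain ⟨Γ, _, _, hfd, hΓ, W, _, _, hWf, hWp, hWi, C, _, _, ε, d, ⟨hA, hε, h0, hd⟩, -⟩ := core h
  refine ⟨Γ, inferInstance, inferInstance, hfd, fun n hn => ?_⟩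
  obtain ⟨n, rfl⟩ : ∃ m, n = m + 1 := ⟨n - 1, by omega⟩
  refine ⟨ModuleCat.of Γ (LinearMap.ker (d (n + 1))),
    finite_ker (fun j => inAdd_finite hWf (hA j)) hd n, le_antisymm ?_ ?_⟩
  · exact (projectiveDimension_le_iff _ _).2
      (pd_le (fun j => inAdd_projective hWp (hA j)) hε h0 hd inferInstance (n + 1))
  · exact (projectiveDimension_ge_iff _ _).2
      (pd_ge (fun j => inAdd_projective hWp (hA j)) (fun j => inAdd_injective hWi (hA j))
        hε h0 hd hΓ n)

theorem Tach.s0284 (h : Tach K A M) :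
    ∃ (Γ : Type u) (_ : Ring Γ) (_ : Algebra K Γ), FiniteDimensional K Γ ∧
      (∃ (I : ℕ → ModuleCat.{u} Γ) (ε : Γ →ₗ[Γ] I 0) (d : ∀ j : ℕ, I j →ₗ[Γ] I (j + 1)),
        Function.Injective ε ∧ Function.Exact ε (d 0) ∧ (∀ j, Function.Exact (d j) (d (j + 1))) ∧
        ∀ j, Module.Projective Γ (I j) ∧ Module.Injective Γ (I j)) ∧
      ∀ n : ℕ, ¬ HasInjectiveDimensionLT (ModuleCat.of Γ Γ) n := by
  obtain ⟨Γ, _, _, hfd, hΓ, W, _, _, -, hWp, hWi, C, _, _, ε, d, ⟨hA, hε, h0, hd⟩, -⟩ := core h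
  exact ⟨Γ, inferInstance, inferInstance, hfd, ⟨fun j => ModuleCat.of Γ (C j), ε, d, hε, h0, hd,
    fun j => ⟨inAdd_projective hWp (hA j), inAdd_injective hWi (hA j)⟩⟩,
    not_injDim (fun j => inAdd_projective hWp (hA j)) (fun j => inAdd_injective hWi (hA j))
      hε h0 hd hΓ⟩

theorem Tach.s0285 (h : Tach K A M) :
    ∃ (Γ : Type u) (_ : Ring Γ) (_ : Algebra K Γ), FiniteDimensional K Γ ∧
      ∃ (W : Type u) (_ : AddCommGroup W) (_ : Module Γ W), Module.Finite Γ W ∧
        Module.Projective Γ W ∧ Module.Injective Γ W ∧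
        IsWakamatsuTilting Γ W ∧ ¬ IsTilting Γ W := by
  obtain ⟨Γ, _, _, hfd, hΓ, W, _, _, hWf, hWp, hWi, C, _, _, ε, d, hC, -⟩ := core h
  exact ⟨Γ, inferInstance, inferInstance, hfd, W, inferInstance, inferInstance, hWf, hWp, hWi,
    wakamatsu hWp hWi hC, not_tilting hWp hWi hΓ⟩

theorem Tach.s0268 (h : Tach K A M) :
    ∃ (Γ : Type u) (_ : Ring Γ) (_ : Algebra K Γ), FiniteDimensional K Γ ∧
      ∀ k : ℕ, ∃ N : ModuleCat.{u} Γ, Module.Finite Γ N ∧
        ¬ CategoryTheory.HasProjectiveDimensionLT N k ∧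
        ∃ n : ℕ, CategoryTheory.HasProjectiveDimensionLT N n := by
  obtain ⟨Γ, _, _, hfd, hΓ, W, _, _, hWf, hWp, hWi, C, _, _, ε, d, ⟨hA, hε, h0, hd⟩, -⟩ := core h
  refine ⟨Γ, inferInstance, inferInstance, hfd, fun n => ?_⟩
  refine ⟨ModuleCat.of Γ (LinearMap.ker (d (n + 1))),
    finite_ker (fun j => inAdd_finite hWf (hA j)) hd n, fun hn => ?_, n + 2,
    pd_le (fun j => inAdd_projective hWp (hA j)) hε h0 hd inferInstance (n + 1)⟩
  exact pd_ge (fun j => inAdd_projective hWp (hA j)) (fun j => inAdd_injective hWi (hA j))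
    hε h0 hd hΓ n (hasProjectiveDimensionLT_of_ge _ n (n + 1) (Nat.le_succ n))

end Crest.Agent.R186
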