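import Crest.Agent.R186.ELevelF

/-!
The bimodule `F = ker (K² ⊕ E ⊕ E_h ⊕ Π → W)` and its properties.
-/

set_option autoImplicit false
set_option linter.unusedSectionVars false

open MulOpposite
open scoped TensorProduct

universe u

namespace Crest.Agent.R186

open PB

variable {k : Type u} [Field k] {T : Type u} [Ring T] [Algebra k T] [FiniteDimensional k T]
  {Y : TData k T} {h : T ≃ₐ[k] T}

namespace TData.BD

variable (B : Y.BD h) {N : ℕ} (w : Fin N → B.W.V)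

omit [FiniteDimensional k T] in
theorem κκ1_c (a : T ⊗[k] T) :
    (AlgEquiv.refl : T ⊗[k] T ≃ₐ[k] T ⊗[k] T) a • bx B.κ1 B.κ1 = op a • bx B.κ1 B.κ1 := by
  induction a using TensorProduct.induction_on with
  | zero => simp
  | add x y hx hy => simp only [map_add, op_add, add_smul, hx, hy]
  | tmul x y => simp [B.κ1_c]

omit [FiniteDimensional k T] in
theorem κκ2_c (a : T ⊗[k] T) : aut2 h a • bx B.κ2 B.κ2 = op a • bx B.κ2 B.κ2 := by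
  induction a using TensorProduct.induction_on with
  | zero => simp
  | add x y hx hy => simp only [map_add, op_add, add_smul, hx, hy]
  | tmul x y => simp [B.κ2_c]

variable (k T) in
/-- the regular bimodule -/
noncomputable abbrev E1 : PB k (T ⊗[k] T) := reg (AlgEquiv.refl : T ⊗[k] T ≃ₐ[k] T ⊗[k] T)

variable (N) in
/-- `K² ⊕ E ⊕ E_h ⊕ Π` -/
noncomputable def V2 : PB k (T ⊗[k] T) :=
  B.K2.prod ((E1 k T).prod ((reg (aut2 h)).prod ((OT k (T ⊗[k] T)).pow N)))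

variable (N) in
/-- components -/
noncomputable def v1 : Hom (B.V2 N) B.K2 := fst _ _
variable (N) in
/-- components -/
noncomputable def v2 : Hom (B.V2 N) (E1 k T) := (fst _ _).comp (snd _ _)
variable (N) in
/-- components -/
noncomputable def v3 : Hom (B.V2 N) (reg (aut2 h)) := ((fst _ _).comp (snd _ _)).comp (snd _ _)
variable (N) in
/-- components -/
noncomputable def v4 : Hom (B.V2 N) ((OT k (T ⊗[k] T)).pow N) :=
  ((snd _ _).comp (snd _ _)).comp (snd _ _)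

/-- elements of `V2` -/
noncomputable def mkV (a : B.K2.V) (b : (E1 k T).V) (c : (reg (aut2 h)).V)
    (d : ((OT k (T ⊗[k] T)).pow N).V) : (B.V2 N).V := mkp a (mkp b (mkp c d))

@[simp] theorem v1_mkV (a b c d) : (B.v1 N).l (B.mkV a b c d) = a := rfl
@[simp] theorem v2_mkV (a b c d) : (B.v2 N).l (B.mkV a b c d) = b := rfl
@[simp] theorem v3_mkV (a b c d) : (B.v3 N).l (B.mkV a b c d) = c := rfl
@[simp] theorem v4_mkV (a b c d) : (B.v4 N).l (B.mkV a b c d) = d := rfl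

/-- inclusion of `R₀₀` -/
noncomputable def in3 : Hom (B.P0.box B.P0) B.K3 := (inr _ _).comp (inr _ _)

omit [FiniteDimensional k T] in
theorem in3_l (r : (B.P0.box B.P0).V) : B.in3.l r = B.mk3 0 0 r := rfl

/-- the covering map -/
noncomputable def cov : Hom ((OT k (T ⊗[k] T)).pow N) B.W := Hom.copow fun i => otGen (w i)

/-- the differential `V2 → K³ ⊕ R₀₀` -/
noncomputable def g2' : Hom (B.V2 N) B.K3 :=
  (((B.d2.comp (B.v1 N)).add (B.in3.comp ((regGen _ _ B.κκ1_c).comp (B.v2 N)))).add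
    (B.in3.comp ((regGen _ _ B.κκ2_c).comp (B.v3 N)))).add (B.ιW.comp ((B.cov w).comp (B.v4 N)))

theorem g2'_l (v : (B.V2 N).V) : (B.g2' w).l v = B.d2.l ((B.v1 N).l v)
    + B.mk3 0 0 (regVal _ ((B.v2 N).l v) • bx B.κ1 B.κ1)
    + B.mk3 0 0 (regVal _ ((B.v3 N).l v) • bx B.κ2 B.κ2)
    + B.ιW.l ((B.cov w).l ((B.v4 N).l v)) := rfl

theorem g3_g2' (v : (B.V2 N).V) : B.g3.l ((B.g2' w).l v) = 0 := by
  rw [g2'_l, map_add, map_add, map_add, g3_d2, show B.g3.l (B.ιW.l _) = 0 from g_kerι _ _ _,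
    g3_l, g3_l]
  simp only [k31_mk3, k32_mk3, k33_mk3, map_zero, map_smul, Hom.box_bx, B.ρ_κ1, B.ρ_κ2,
    smul_zero, add_zero]
  exact add_zero _

/-- the differential `V2 → W` -/
noncomputable def g2 : Hom (B.V2 N) B.W := kerLift _ _ (B.g2' w) (B.g3_g2' w)

theorem ιW_g2 (v : (B.V2 N).V) : B.ιW.l ((B.g2 w).l v) = (B.g2' w).l v := rfl

theorem mk3_zero : B.mk3 0 0 0 = 0 := rfl

theorem g2_mkV_cov (d : ((OT k (T ⊗[k] T)).pow N).V) :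
    (B.g2 w).l (B.mkV 0 0 0 d) = (B.cov w).l d := by
  apply kerι_injective B.g3 B.g3_surjective
  change B.ιW.l _ = B.ιW.l _
  rw [ιW_g2, g2'_l]
  simp [mk3_zero]

theorem g2_surjective (hw : Function.Surjective (B.cov w).l) : Function.Surjective (B.g2 w).l :=
  fun v => by
    obtain ⟨d, rfl⟩ := hw v
    exact ⟨_, B.g2_mkV_cov w d⟩

variable (Y N) in
/-- ambient module of the fibre of `V2` -/
abbrev _root_.Crest.Agent.R186.TData.U2 : Type u :=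
  (Y.J.ι → T ⊗[k] T) × T ⊗[k] T × T ⊗[k] T × (Fin N → T ⊗[k] T)

/-- the fibre of the free part -/
noncomputable def πO (χ : T ⊗[k] T →ₐ[k] k) (N : ℕ) :
    ((OT k (T ⊗[k] T)).pow N).V →ₗ[T ⊗[k] T] (Fin N → T ⊗[k] T) :=
  LinearMap.pi fun i : Fin N => otFib χ ∘ₗ ((OT k (T ⊗[k] T)).ev i).l

theorem πO_surjective (χ : T ⊗[k] T →ₐ[k] k) (N : ℕ) : Function.Surjective (πO χ N) := fun a =>
  ⟨fun i => tm (k := k) (a i) 1, funext fun i => by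
    change otFib χ (tm (k := k) (a i) 1) = a i
    simp⟩

/-- the fibre of a regular bimodule -/
noncomputable def πR (ς : T ⊗[k] T) (h : T ⊗[k] T ≃ₐ[k] T ⊗[k] T) :
    (reg h).V →ₗ[T ⊗[k] T] T ⊗[k] T :=
  LinearMap.toSpanSingleton _ _ ς ∘ₗ (regVal h).toLinearMap

theorem _root_.Crest.Agent.R186.TData.mul_soc2 (Y : TData k T) (a : T ⊗[k] T) :
    a * (Y.ς ⊗ₜ Y.ς) = chi2 Y.χ a • (Y.ς ⊗ₜ[k] Y.ς) :=
  (Y.S.tensor Y.S).mul_soc _ _ (lam_mul_soc2 Y.S Y.χ Y.ς Y.hς) a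

theorem _root_.Crest.Agent.R186.TData.smul_soc2_inj (Y : TData k T) {c c' : k}
    (hc : c • (Y.ς ⊗ₜ[k] Y.ς) = c' • (Y.ς ⊗ₜ[k] Y.ς)) : c = c' := by
  have h1 : (Y.S.tensor Y.S).lam (Y.ς ⊗ₜ[k] Y.ς) = 1 := by
    simpa using lam_mul_soc2 Y.S Y.χ Y.ς Y.hς 1
  have := congrArg (Y.S.tensor Y.S).lam hc
  rwa [map_smul, map_smul, h1, smul_eq_mul, smul_eq_mul, mul_one, mul_one] at this

theorem πR_apply (h : T ⊗[k] T ≃ₐ[k] T ⊗[k] T) (x : (reg h).V) :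
    πR (Y.ς ⊗ₜ Y.ς) h x = chi2 Y.χ (regVal h x) • (Y.ς ⊗ₜ[k] Y.ς) := Y.mul_soc2 _

theorem fibR (h : T ⊗[k] T ≃ₐ[k] T ⊗[k] T) (hχ : ∀ a, chi2 Y.χ (h a) = chi2 Y.χ a) :
    Fib (chi2 Y.χ) (reg h) (πR (Y.ς ⊗ₜ Y.ς) h) := fun x => by
  rw [mem_radR_reg h hχ, πR_apply]
  exact ⟨fun hx => Y.smul_soc2_inj (by rw [hx, zero_smul]), fun hx => by rw [hx, zero_smul]⟩

variable (N) in
/-- the fibre of `V2` -/
noncomputable def πV : (B.V2 N).V →ₗ[T ⊗[k] T] Y.U2 N :=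
  (B.π2 ∘ₗ (B.v1 N).l).prod ((πR (Y.ς ⊗ₜ Y.ς) _ ∘ₗ (B.v2 N).l).prod
    ((πR (Y.ς ⊗ₜ Y.ς) _ ∘ₗ (B.v3 N).l).prod (πO (chi2 Y.χ) N ∘ₗ (B.v4 N).l)))

theorem πV_apply (v : (B.V2 N).V) : B.πV N v = (B.π2 ((B.v1 N).l v),
    chi2 Y.χ (regVal _ ((B.v2 N).l v)) • (Y.ς ⊗ₜ[k] Y.ς),
    chi2 Y.χ (regVal _ ((B.v3 N).l v)) • (Y.ς ⊗ₜ[k] Y.ς), πO (chi2 Y.χ) N ((B.v4 N).l v)) := by
  rw [← πR_apply, ← πR_apply]; rfl

theorem fibV (hχ : ∀ a, Y.χ (h a) = Y.χ a) : Fib (chi2 Y.χ) (B.V2 N) (B.πV N) :=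
  B.fib2.prod ((fibR _ fun _ => rfl).prod ((fibR _ (chi2_aut2 _ _ hχ)).prod
    ((fib_OT (chi2 Y.χ)).pow N)))

/-- the fibre of the covering map -/
noncomputable def β : (Fin N → T ⊗[k] T) →ₗ[T ⊗[k] T] (Y.J.ι → T ⊗[k] T) :=
  Fintype.linearCombination _ fun i => B.π3 (B.ιW.l (w i))

theorem β_πO (d : ((OT k (T ⊗[k] T)).pow N).V) :
    B.β w (πO (chi2 Y.χ) N d) = B.π3 (B.ιW.l ((B.cov w).l d)) := by
  rw [β, Fintype.linearCombination_apply, cov, Hom.copow_l, map_sum, map_sum]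
  refine Finset.sum_congr rfl fun i _ => ?_
  change otFib (chi2 Y.χ) (((OT k (T ⊗[k] T)).ev i).l d) • _ = _
  induction ((OT k (T ⊗[k] T)).ev i).l d using OT_induction with
  | zero => simp
  | add x y hx hy => simp only [map_add, add_smul, hx, hy]
  | tmul x y =>
    have := B.fibW.op_smul y (w i)
    simp only [LinearMap.comp_apply] at this
    rw [otFib_tm, otGen_tm, map_smul, map_smul, this, smul_assoc, smul_comm]

theorem exists_β (a : Fin N → T ⊗[k] T) : ∃ v, B.β w a = B.π3 (B.ιW.l v) := by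
  obtain ⟨d, rfl⟩ := πO_surjective (chi2 Y.χ) N a
  exact ⟨_, B.β_πO w d⟩

/-- the differential on fibres -/
noncomputable def bd : Y.U2 N →ₗ[T ⊗[k] T] (Y.J.ι → T ⊗[k] T) :=
  (Y.J.rowL _).coprod ((Y.sg (Y.il 0 0)).coprod ((Y.sg (Y.il 0 0)).coprod (B.β w)))

theorem bd_apply (u : Y.U2 N) : B.bd w u = Y.J.rowD u.1 + (Y.sg (Y.il 0 0) u.2.1
    + (Y.sg (Y.il 0 0) u.2.2.1 + B.β w u.2.2.2)) := rfl

theorem bd_πV (v : (B.V2 N).V) : B.bd w (B.πV N v) = B.π3 ((B.g2' w).l v) := by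
  have h1 : ∀ r, B.π3 (B.mk3 0 0 r) = Y.sg (Y.il 0 0) (boxFib B.π0 B.π0 r) := fun r => by
    simp [π3_apply]
  rw [πV_apply, bd_apply, g2'_l, map_add, map_add, map_add, rowD_π2, β_πO, h1, h1,
    map_smul (boxFib _ _), map_smul (boxFib _ _), boxFib_bx, boxFib_bx, B.π_κ1, B.π_κ2, smul_eq_mul, smul_eq_mul, Y.mul_soc2,
    Y.mul_soc2]
  abel

variable (hw : Function.Surjective (B.cov w).l)

/-- the bimodule `F` -/
noncomputable def F : PB k (T ⊗[k] T) := ker (B.g2 w) (B.g2_surjective w hw)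

/-- inclusion of `F` -/
noncomputable def ιF : Hom (B.F w hw) (B.V2 N) := kerι (B.g2 w) (B.g2_surjective w hw)

/-- the fibre of `F` -/
noncomputable def πF : (B.F w hw).V →ₗ[T ⊗[k] T] Y.U2 N := B.πV N ∘ₗ (B.ιF w hw).l

theorem fibF (hχ : ∀ a, Y.χ (h a) = Y.χ a) : Fib (chi2 Y.χ) (B.F w hw) (B.πF w hw) :=
  (B.fibV hχ).ker _ _

theorem bd_πF (y : (B.F w hw).V) : B.bd w (B.πF w hw y) = 0 := by
  rw [πF, LinearMap.comp_apply, bd_πV, ← ιW_g2,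
    show (B.g2 w).l ((B.ιF w hw).l y) = 0 from g_kerι _ _ y, map_zero, map_zero]

theorem exists_πF (hχ : ∀ a, Y.χ (h a) = Y.χ a) {ρ : Y.J.ι → T ⊗[k] T} (hρ : Y.P2 ρ = ρ)
    (c1 c2 : k) (a : Fin N → T ⊗[k] T)
    (h0 : B.bd w (ρ, c1 • (Y.ς ⊗ₜ[k] Y.ς), c2 • (Y.ς ⊗ₜ[k] Y.ς), a) = 0) :
    ∃ y, B.πF w hw y = (ρ, c1 • (Y.ς ⊗ₜ[k] Y.ς), c2 • (Y.ς ⊗ₜ[k] Y.ς), a) := by
  obtain ⟨x, hx⟩ := B.exists_β w a
  obtain ⟨z, hz⟩ := B.exists_π2 hρ
    (by simpa [bd_apply, hx, π3_03, TData.sg_apply] using congrFun h0 (Y.ir 0 3))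
    (by simpa [bd_apply, hx, π3_30, TData.sg_apply] using congrFun h0 (Y.ir 3 0))
  obtain ⟨d, rfl⟩ := πO_surjective (chi2 Y.χ) N a
  let v := B.mkV z ((regVal _).symm (algebraMap k _ c1)) ((regVal _).symm (algebraMap k _ c2)) d
  have hv : B.πV N v = (ρ, c1 • (Y.ς ⊗ₜ[k] Y.ς), c2 • (Y.ς ⊗ₜ[k] Y.ς), πO (chi2 Y.χ) N d) := by
    rw [πV_apply]
    simp only [v, v1_mkV, v2_mkV, v3_mkV, v4_mkV, LinearEquiv.apply_symm_apply, AlgHom.commutes,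
      hz]
    rfl
  obtain ⟨y, hy⟩ := (B.fibV hχ).exists_ker (B.g2 w) (B.g2_surjective w hw) (v := v)
    ((B.fibW _).1 (by rw [LinearMap.comp_apply, ιW_g2, ← bd_πV, hv, h0]))
  exact ⟨y, hy.trans hv⟩

/-- first projection -/
noncomputable def p1 : (B.F w hw).V →ₗ[T ⊗[k] T] T ⊗[k] T :=
  (regVal _).toLinearMap ∘ₗ (B.v2 N).l ∘ₗ (B.ιF w hw).l
/-- second projection -/
noncomputable def p2 : (B.F w hw).V →ₗ[T ⊗[k] T] T ⊗[k] T :=
  (regVal _).toLinearMap ∘ₗ (B.v3 N).l ∘ₗ (B.ιF w hw).l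

theorem πF_21 (y : (B.F w hw).V) :
    (B.πF w hw y).2.1 = chi2 Y.χ (B.p1 w hw y) • (Y.ς ⊗ₜ[k] Y.ς) := by
  rw [πF, LinearMap.comp_apply, πV_apply]; rfl
theorem πF_221 (y : (B.F w hw).V) :
    (B.πF w hw y).2.2.1 = chi2 Y.χ (B.p2 w hw y) • (Y.ς ⊗ₜ[k] Y.ς) := by
  rw [πF, LinearMap.comp_apply, πV_apply]; rfl
theorem P2_πF (y : (B.F w hw).V) : Y.P2 (B.πF w hw y).1 = (B.πF w hw y).1 := B.P2_π2 _

theorem p_surj (a b : T ⊗[k] T) : ∃ y, B.p1 w hw y = a ∧ B.p2 w hw y = b := by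
  let v := B.mkV (N := N) 0 ((regVal _).symm a) ((regVal _).symm b) 0
  obtain ⟨d, hd⟩ := hw ((B.g2 w).l v)
  obtain ⟨y, hy⟩ := exists_kerι (B.g2 w) (B.g2_surjective w hw) (v := v - B.mkV 0 0 0 d)
    (by rw [map_sub, g2_mkV_cov, hd, sub_self])
  refine ⟨y, ?_, ?_⟩
  · change regVal _ ((B.v2 N).l ((kerι _ _).l y)) = a
    rw [hy]; simp [v]
  · change regVal _ ((B.v3 N).l ((kerι _ _).l y)) = b
    rw [hy]; simp [v]

variable (X : QData k (T ⊗[k] T) (chi2 Y.χ) (aut2 h))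

theorem isMat_β {m : ℤ} {a : X.Q.ι → Fin N → T ⊗[k] T} (ha : X.Q.IsCol m a) :
    X.Q.IsMat Y.J m 0 fun i => B.β w (a i) :=
  ⟨ha.comp (B.β w), fun i => by
    obtain ⟨v, hv⟩ := B.exists_β w (a i)
    simpa only [hv] using B.isRow_π3 _⟩

theorem rD_β (a : X.Q.ι → Fin N → T ⊗[k] T) : X.Q.rD Y.J (fun i => B.β w (a i)) = 0 := by
  ext i : 1
  obtain ⟨v, hv⟩ := B.exists_β w (a i)
  rw [MC.rD_apply, hv, rowD_π3_ιW]; rfl

/-- projections of the ambient module -/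
def u1 : Y.U2 N →ₗ[T ⊗[k] T] (Y.J.ι → T ⊗[k] T) := LinearMap.fst _ _ _
/-- projections of the ambient module -/
def u4 : Y.U2 N →ₗ[T ⊗[k] T] (Fin N → T ⊗[k] T) :=
  LinearMap.snd _ _ _ ∘ₗ LinearMap.snd _ _ _ ∘ₗ LinearMap.snd _ _ _

theorem colD_U2 (ρ : X.Q.ι → Y.J.ι → T ⊗[k] T) (s s' : X.Q.ι → T ⊗[k] T)
    (a : X.Q.ι → Fin N → T ⊗[k] T) (i : X.Q.ι) :
    X.Q.colD (fun i => ((ρ i, s i, s' i, a i) : Y.U2 N)) i
      = (X.Q.colD ρ i, X.Q.colD s i, X.Q.colD s' i, X.Q.colD a i) := by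
  simp only [MC.colD_apply, Prod.smul_mk, ← prod_mk_sum]

theorem inj (hχ : ∀ a, Y.χ (h a) = Y.χ a) (m : ℤ) (hm : 0 ≤ m ∨ m ≤ -3)
    (y : X.Q.ι → (B.F w hw).V) (hy : X.Q.IsCol m y)
    (h0 : ∀ i, X.Q.colD y i ∈ radR (chi2 Y.χ) (B.F w hw).V)
    (hp : ∀ i, chi2 Y.χ (B.p1 w hw (y i)) = 0 ∧ chi2 Y.χ (B.p2 w hw (y i)) = 0) :
    ∃ y' : X.Q.ι → (B.F w hw).V, ∀ i, y i - X.Q.colD y' i ∈ radR (chi2 Y.χ) (B.F w hw).V := by
  have hu := hy.comp (B.πF w hw)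
  have hu0 : X.Q.colD (fun i => B.πF w hw (y i)) = 0 := by
    rw [MC.colD_comp]; exact funext fun i => (B.fibF w hw hχ _).2 (h0 i)
  obtain ⟨ρ0, hρ0c, hρ0⟩ := (MC.ColEx.pi (W := fun _ : Y.J.ι => T ⊗[k] T)
    fun _ => X.colE m).exists_isCol (hu.comp u1) (by rw [MC.colD_comp, hu0]; rfl)
  obtain ⟨a, hac, ha⟩ := (MC.ColEx.pi (W := fun _ : Fin N => T ⊗[k] T)
    fun _ => X.colE m).exists_isCol (hu.comp u4) (by rw [MC.colD_comp, hu0]; rfl)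
  have hρ : X.Q.colD (fun i => Y.P2 (ρ0 i)) = fun i => (B.πF w hw (y i)).1 := by
    rw [MC.colD_comp, hρ0]; exact funext fun i => B.P2_πF w hw _
  have hρm : X.Q.IsMat Y.J (m - 1) (0 + 1) fun i => Y.P2 (ρ0 i) :=
    ⟨hρ0c.comp _, fun i => Y.isRow_P2 _⟩
  obtain ⟨z, c, hz1, hz2, hz⟩ := Y.cycles_coh X (m := m - 1) (by omega)
    (hρm.rD.add (B.isMat_β w X hac))
    (by rw [map_add, MC.rD_rD, rD_β, add_zero])
    (by
      rw [map_add, MC.colD_rD, hρ, MC.colD_comp, ha]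
      ext i : 1
      have := B.bd_πF w hw (y i)
      rw [bd_apply, πF_21, πF_221, (hp i).1, (hp i).2] at this
      simp only [zero_smul, map_zero, zero_add] at this
      exact this)
  choose ρ1 v hρ1 hv using fun i => B.exists_cycle (hz1 i) (congrFun hz2 i)
  choose d hd using fun i => hw (v i)
  let a1 := fun i => πO (chi2 Y.χ) N (d i)
  have hzz : z = X.Q.rD Y.J ρ1 + fun i => B.β w (a1 i) := funext fun i => by
    rw [hv i, Pi.add_apply, MC.rD_apply, β_πO, hd]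
  have key : ∀ i, ∃ y', B.πF w hw y' = (Y.P2 (ρ0 i) - X.Q.colD ρ1 i, (-c i) • (Y.ς ⊗ₜ[k] Y.ς),
      (0 : k) • (Y.ς ⊗ₜ[k] Y.ς), a i - X.Q.colD a1 i) := fun i => by
    refine B.exists_πF w hw hχ ?_ _ _ _ ?_
    · rw [map_sub, Y.P2_P2, ← congrFun (X.Q.colD_comp Y.P2 ρ1) i, funext hρ1]
    · have h1 := congrFun hz i
      rw [hzz, map_add, MC.colD_rD, MC.colD_comp] at h1
      simp only [Pi.add_apply, MC.rD_apply] at h1
      rw [bd_apply]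
      simp only [map_sub, neg_smul, map_neg, zero_smul, map_zero, zero_add]
      rw [← sub_eq_zero] at h1
      rw [← h1]; abel
  choose y' hy' using key
  refine ⟨y', fun i => (B.fibF w hw hχ _).1 ?_⟩
  rw [map_sub, ← congrFun (X.Q.colD_comp (B.πF w hw) y') i, funext hy', colD_U2,
    X.colD_soc _ _ (lam_mul_soc2 Y.S Y.χ Y.ς Y.hς), X.colD_soc _ _ (lam_mul_soc2 Y.S Y.χ Y.ς Y.hς),
    sub_eq_zero]
  refine Prod.ext ?_ (Prod.ext ?_ (Prod.ext ?_ ?_))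
  · change _ = X.Q.colD ((fun i => Y.P2 (ρ0 i)) - X.Q.colD ρ1) i
    rw [map_sub, MC.colD_colD, sub_zero, hρ]
  · rw [πF_21, (hp i).1, zero_smul]; rfl
  · rw [πF_221, (hp i).2, zero_smul]; rfl
  · change _ = X.Q.colD (a - X.Q.colD a1) i
    rw [map_sub, MC.colD_colD, sub_zero, ha]; rfl

theorem img0 (hχ : ∀ a, Y.χ (h a) = Y.χ a) (y : X.Q.ι → (B.F w hw).V) (hy : X.Q.IsCol 0 y)
    (h0 : ∀ i, X.Q.colD y i ∈ radR (chi2 Y.χ) (B.F w hw).V) :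
    chi2 Y.χ (B.p1 w hw (y X.i0)) + chi2 Y.χ (B.p2 w hw (y X.i0)) = 0 := by
  have hu := hy.comp (B.πF w hw)
  have hu0 : X.Q.colD (fun i => B.πF w hw (y i)) = 0 := by
    rw [MC.colD_comp]; exact funext fun i => (B.fibF w hw hχ _).2 (h0 i)
  obtain ⟨a, hac, ha⟩ := (MC.ColEx.pi (W := fun _ : Fin N => T ⊗[k] T)
    fun _ => X.colE 0).exists_isCol (hu.comp u4) (by rw [MC.colD_comp, hu0]; rfl)
  have h1 : (B.πF w hw (y X.i0)).1 = 0 := by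
    ext l
    refine X.mat_entry_zero _ _ (lam_mul_soc2 Y.S Y.χ Y.ς Y.hς) (j := 1)
      (N := fun i => u1 (B.πF w hw (y i))) ⟨hu.comp u1, fun i => ?_⟩
      (by rw [MC.colD_comp, hu0]; rfl) X.i0 fun hd => Y.chi2_e ?_ (by omega)
    · change Y.J.IsRow 1 (B.πF w hw (y i)).1
      rw [← P2_πF]; exact Y.isRow_P2 _
    · rintro rfl
      simp at hd
  have h2 : B.β w (B.πF w hw (y X.i0)).2.2.2 = 0 := by
    have := Y.colD_cycle_eq_zero X (B.isMat_β w X hac) (B.rD_β w X a)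
    rw [MC.colD_comp, ha] at this
    exact congrFun this X.i0
  have h3 := B.bd_πF w hw (y X.i0)
  rw [bd_apply, h1, h2, πF_21, πF_221, map_zero, zero_add, add_zero, ← map_add, ← add_smul] at h3
  have h4 := congrFun h3 (Y.il 0 0)
  rw [TData.sg_apply, if_pos rfl] at h4
  exact Y.smul_soc2_inj (by rw [h4, zero_smul]; rfl)

theorem exists_fdata (hχ : ∀ a, Y.χ (h a) = Y.χ a) :
    Nonempty (FData X (B.F w hw).V) := by
  obtain ⟨φ0, hφ0⟩ := B.exists_πF w hw hχ (map_zero Y.P2) 1 (-1) 0 (by simp [bd_apply])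
  refine ⟨{
    p1 := B.p1 w hw
    p2 := B.p2 w hw
    p1_r := fun a y => ?_
    p2_r := fun a y => ?_
    p_surj := B.p_surj w hw
    rowF := fun n => (X.rowE n).of_projective _
    colF := fun n => (X.colE n).of_projective _
    φ0 := φ0
    φ0_soc := fun a => (B.fibF w hw hχ _).1 ?_
    φ0_1 := Y.smul_soc2_inj (by rw [← πF_21, hφ0])
    φ0_2 := Y.smul_soc2_inj (by rw [← πF_221, hφ0])
    inj := B.inj w hw X hχ
    img0 := B.img0 w hw X hχ }⟩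
  · change regVal _ ((B.v2 N).l ((B.ιF w hw).l _)) = _
    rw [Hom.map_r, Hom.map_r, regVal_op_smul]; rfl
  · change regVal _ ((B.v3 N).l ((B.ιF w hw).l _)) = _
    rw [Hom.map_r, Hom.map_r, regVal_op_smul]; rfl
  · rw [map_sub, map_smul, (B.πF w hw).map_smul_of_tower, hφ0, sub_eq_zero]
    simp [Y.mul_soc2]

end TData.BD

theorem TData.exists_F (B : Y.BD h) (hχ : ∀ a, Y.χ (h a) = Y.χ a)
    (X : QData k (T ⊗[k] T) (chi2 Y.χ) (aut2 h)) :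
    ∃ F : PB k (T ⊗[k] T), Nonempty (FData X F.V) := by
  obtain ⟨N, w, hw⟩ := exists_cover B.W
  exact ⟨_, B.exists_fdata w hw X hχ⟩

end Crest.Agent.R186
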