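import Crest.Agent.R186.ELevelJ
import Crest.Agent.R186.BData

/-!
The bimodule `F` over `E = T ⊗ T`.
-/

set_option autoImplicit false

open MulOpposite
open scoped TensorProduct

universe u

namespace Crest.Agent.R186

open PB

variable {k : Type u} [Field k] {T : Type u} [Ring T] [Algebra k T] {Y : TData k T}
  {h : T ≃ₐ[k] T}

/-- the bimodule data matching `Y` -/
abbrev TData.BD (Y : TData k T) (h : T ≃ₐ[k] T) :=
  BData Y.χ Y.ς h (Y.e 0) (Y.e 1) (Y.e 2) (Y.dR 0) (Y.dR 1) (Y.dR 2) (Y.Ψ.f (0 : ℕ) (2 : ℕ))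

namespace TData.BD

variable (B : Y.BD h)

theorem π0_e (r : B.P0.V) : B.π0 r * Y.e 0 = B.π0 r := (B.range0 _).1 ⟨r, rfl⟩
theorem π1_e (r : B.P1.V) : B.π1 r * Y.e 1 = B.π1 r := (B.range1 _).1 ⟨r, rfl⟩
theorem πB_e (r : B.B.V) : B.πB r * Y.e 2 = B.πB r := ((B.rangeB _).1 ⟨r, rfl⟩).1
theorem πB_d (r : B.B.V) : B.πB r * Y.dR 2 = 0 := ((B.rangeB _).1 ⟨r, rfl⟩).2

theorem ex0 (w : T) (hw : w * (1 - Y.e 0) = 0) : ∃ r, B.π0 r = w :=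
  (B.range0 w).2 (by rw [mul_sub, mul_one, sub_eq_zero] at hw; exact hw.symm)
theorem ex1 (w : T) (hw : w * (1 - Y.e 1) = 0) : ∃ r, B.π1 r = w :=
  (B.range1 w).2 (by rw [mul_sub, mul_one, sub_eq_zero] at hw; exact hw.symm)
theorem _root_.Crest.Agent.R186.TData.dR2_e2 (Y : TData k T) : Y.dR 2 * Y.e 2 = Y.dR 2 := by
  rw [Y.he1 1, ← Y.he1 2, Y.hR2]
theorem exB (w : T) (hw : w * (1 - Y.e 2 + Y.dR 2) = 0) : ∃ r, B.πB r = w :=
  (B.rangeB w).2 ((mul_idem_add_iff (Y.he 2) Y.dR2_e2).1 hw)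
theorem c0 (r : B.P0.V) : B.π0 r * (1 - Y.e 0) = 0 := by rw [mul_sub, mul_one, π0_e, sub_self]
theorem c1 (r : B.P1.V) : B.π1 r * (1 - Y.e 1) = 0 := by rw [mul_sub, mul_one, π1_e, sub_self]
theorem cB (r : B.B.V) : B.πB r * (1 - Y.e 2 + Y.dR 2) = 0 :=
  (mul_idem_add_iff (Y.he 2) Y.dR2_e2).2 ⟨B.πB_e r, B.πB_d r⟩

theorem _root_.Crest.Agent.R186.tmul_kill_left {z : T ⊗[k] T} {ε ε' c : T}
    (hz : z * (ε ⊗ₜ ε') = z) (h0 : z * ((ε * c) ⊗ₜ ε') = 0) : z * (c ⊗ₜ 1) = 0 := by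
  rw [← hz, mul_assoc, ← h0]; simp

theorem _root_.Crest.Agent.R186.tmul_kill_right {z : T ⊗[k] T} {ε ε' c : T}
    (hz : z * (ε ⊗ₜ ε') = z) (h0 : z * (ε ⊗ₜ (ε' * c)) = 0) : z * (1 ⊗ₜ c) = 0 := by
  rw [← hz, mul_assoc, ← h0]; simp

theorem _root_.Crest.Agent.R186.TData.e_c (Y : TData k T) (n : ℕ) : Y.e n * (1 - Y.e n) = 0 := by
  rw [mul_sub, mul_one, Y.he, sub_self]
theorem _root_.Crest.Agent.R186.TData.e_cB (Y : TData k T) :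
    Y.e 2 * (1 - Y.e 2 + Y.dR 2) = Y.dR 2 := by
  rw [mul_add, Y.e_c, zero_add, Y.hR1]

/-- `K⁴` -/
noncomputable def K4 : PB k (T ⊗[k] T) := B.B.box B.B
/-- `K³ ⊕ R₀₀` -/
noncomputable def K3 : PB k (T ⊗[k] T) :=
  (B.P1.box B.B).prod ((B.B.box B.P1).prod (B.P0.box B.P0))
/-- `K²` -/
noncomputable def K2 : PB k (T ⊗[k] T) :=
  (B.P0.box B.B).prod ((B.P1.box B.P1).prod (B.B.box B.P0))

/-- components -/
noncomputable def k31 : Hom B.K3 (B.P1.box B.B) := fst _ _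
/-- components -/
noncomputable def k32 : Hom B.K3 (B.B.box B.P1) := (fst _ _).comp (snd _ _)
/-- components -/
noncomputable def k33 : Hom B.K3 (B.P0.box B.P0) := (snd _ _).comp (snd _ _)
/-- components -/
noncomputable def k21 : Hom B.K2 (B.P0.box B.B) := fst _ _
/-- components -/
noncomputable def k22 : Hom B.K2 (B.P1.box B.P1) := (fst _ _).comp (snd _ _)
/-- components -/
noncomputable def k23 : Hom B.K2 (B.B.box B.P0) := (snd _ _).comp (snd _ _)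

/-- elements of `K3` -/
noncomputable def mk3 (a : (B.P1.box B.B).V) (b : (B.B.box B.P1).V) (c : (B.P0.box B.P0).V) : B.K3.V :=
  mkp a (mkp b c)
/-- elements of `K2` -/
noncomputable def mk2 (a : (B.P0.box B.B).V) (b : (B.P1.box B.P1).V) (c : (B.B.box B.P0).V) : B.K2.V :=
  mkp a (mkp b c)

@[simp] theorem k31_mk3 (a b c) : B.k31.l (B.mk3 a b c) = a := rfl
@[simp] theorem k32_mk3 (a b c) : B.k32.l (B.mk3 a b c) = b := rfl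
@[simp] theorem k33_mk3 (a b c) : B.k33.l (B.mk3 a b c) = c := rfl
@[simp] theorem k21_mk2 (a b c) : B.k21.l (B.mk2 a b c) = a := rfl
@[simp] theorem k22_mk2 (a b c) : B.k22.l (B.mk2 a b c) = b := rfl
@[simp] theorem k23_mk2 (a b c) : B.k23.l (B.mk2 a b c) = c := rfl

/-- `K³ ⊕ R₀₀ → K⁴` -/
noncomputable def g3 : Hom B.K3 B.K4 :=
  (((B.ι.box (Hom.id _)).comp B.k31).add (((Hom.id _).box B.ι).comp B.k32)).add
    ((B.ρ.box B.ρ).comp B.k33)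

theorem g3_l (v : B.K3.V) : B.g3.l v = (B.ι.box (Hom.id _)).l (B.k31.l v)
    + ((Hom.id _).box B.ι).l (B.k32.l v) + (B.ρ.box B.ρ).l (B.k33.l v) := rfl

theorem g3_surjective : Function.Surjective B.g3.l := by
  intro z
  induction z using box_induction with
  | zero => exact ⟨0, map_zero _⟩
  | add x y hx hy =>
    obtain ⟨a, rfl⟩ := hx
    obtain ⟨b, rfl⟩ := hy
    exact ⟨a + b, map_add _ _ _⟩
  | tmul x y =>
    obtain ⟨ψ, r, rfl⟩ := B.surj x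
    refine ⟨B.mk3 (bx ψ y) (bx (B.ρ.l r) (B.surj y).choose) (bx r (B.surj y).choose_spec.choose), ?_⟩
    rw [g3_l]
    simp only [k31_mk3, k32_mk3, k33_mk3, Hom.box_bx, Hom.id_l]
    rw [add_assoc, ← map_add, ← (B.surj y).choose_spec.choose_spec, map_add, LinearMap.add_apply]

/-- `K² → K³` -/
noncomputable def d2 : Hom B.K2 B.K3 :=
  (((B.d.box (Hom.id _)).comp B.k21).sub (((Hom.id _).box B.ι).comp B.k22)).pair
    ((((B.ι.box (Hom.id _)).comp B.k22).add (((Hom.id _).box B.d).comp B.k23)).pair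
      ⟨0, fun _ _ => by simp⟩)

theorem d2_l (v : B.K2.V) : B.d2.l v = B.mk3
    ((B.d.box (Hom.id _)).l (B.k21.l v) - ((Hom.id _).box B.ι).l (B.k22.l v))
    ((B.ι.box (Hom.id _)).l (B.k22.l v) + ((Hom.id _).box B.d).l (B.k23.l v)) 0 := rfl

theorem g3_d2 (v : B.K2.V) : B.g3.l (B.d2.l v) = 0 := by
  have h1 : ∀ z, (B.ι.box (Hom.id B.B)).l ((B.d.box (Hom.id _)).l z) = 0 := fun z => by
    induction z using box_induction with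
    | zero => simp
    | add x y hx hy => simp only [map_add, hx, hy, add_zero]
    | tmul x y => simp [B.ι_d]
  have h2 : ∀ z, ((Hom.id B.B).box B.ι).l (((Hom.id _).box B.d).l z) = 0 := fun z => by
    induction z using box_induction with
    | zero => simp
    | add x y hx hy => simp only [map_add, hx, hy, add_zero]
    | tmul x y => simp [B.ι_d]
  have h3 : ∀ z, ((Hom.id B.B).box B.ι).l ((B.ι.box (Hom.id _)).l z)
      = (B.ι.box (Hom.id B.B)).l (((Hom.id _).box B.ι).l z) := fun z => by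
    induction z using box_induction with
    | zero => simp
    | add x y hx hy => simp only [map_add, hx, hy]
    | tmul x y => simp
  rw [g3_l, d2_l]
  simp only [k31_mk3, k32_mk3, k33_mk3, map_sub, map_add, map_zero, h1, h2, h3]
  abel

/-- fibre of `K⁴` -/
noncomputable def π4 : B.K4.V →ₗ[T ⊗[k] T] (Y.J.ι → T ⊗[k] T) :=
  Y.sg (Y.ir 2 2) ∘ₗ boxFib B.πB B.πB

/-- fibre of `K³ ⊕ R₀₀` -/
noncomputable def π3 : B.K3.V →ₗ[T ⊗[k] T] (Y.J.ι → T ⊗[k] T) :=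
  Y.sg (Y.ir 1 2) ∘ₗ boxFib B.π1 B.πB ∘ₗ B.k31.l + Y.sg (Y.ir 2 1) ∘ₗ boxFib B.πB B.π1 ∘ₗ B.k32.l
    + Y.sg (Y.il 0 0) ∘ₗ boxFib B.π0 B.π0 ∘ₗ B.k33.l

/-- fibre of `K²` -/
noncomputable def π2 : B.K2.V →ₗ[T ⊗[k] T] (Y.J.ι → T ⊗[k] T) :=
  Y.sg (Y.ir 0 2) ∘ₗ boxFib B.π0 B.πB ∘ₗ B.k21.l + Y.sg (Y.ir 1 1) ∘ₗ boxFib B.π1 B.π1 ∘ₗ B.k22.l
    + Y.sg (Y.ir 2 0) ∘ₗ boxFib B.πB B.π0 ∘ₗ B.k23.l

theorem π3_apply (v : B.K3.V) : B.π3 v = Y.sg (Y.ir 1 2) (boxFib B.π1 B.πB (B.k31.l v))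
    + Y.sg (Y.ir 2 1) (boxFib B.πB B.π1 (B.k32.l v))
    + Y.sg (Y.il 0 0) (boxFib B.π0 B.π0 (B.k33.l v)) := rfl

theorem π2_apply (v : B.K2.V) : B.π2 v = Y.sg (Y.ir 0 2) (boxFib B.π0 B.πB (B.k21.l v))
    + Y.sg (Y.ir 1 1) (boxFib B.π1 B.π1 (B.k22.l v))
    + Y.sg (Y.ir 2 0) (boxFib B.πB B.π0 (B.k23.l v)) := rfl

theorem fib4 : Fib (chi2 Y.χ) B.K4 B.π4 :=
  (B.fibB.box B.fibB).comp_injective _ fun a b hab => by
    simpa [TData.sg_apply] using congrFun hab (Y.ir 2 2)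

theorem fib3 : Fib (chi2 Y.χ) B.K3 B.π3 := fun v => by
  refine Iff.trans ?_ (((B.fib1.box B.fibB).prod
    ((B.fibB.box B.fib1).prod (B.fib0.box B.fib0))) v)
  change _ ↔ (boxFib B.π1 B.πB (B.k31.l v), boxFib B.πB B.π1 (B.k32.l v),
    boxFib B.π0 B.π0 (B.k33.l v)) = 0
  rw [π3_apply]
  refine ⟨fun hv => Prod.ext ?_ (Prod.ext ?_ ?_), fun hv => ?_⟩
  · simpa [TData.sg_apply] using congrFun hv (Y.ir 1 2)
  · simpa [TData.sg_apply] using congrFun hv (Y.ir 2 1)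
  · simpa [TData.sg_apply] using congrFun hv (Y.il 0 0)
  · simp only [Prod.mk_eq_zero] at hv
    simp [hv]

theorem fib2 : Fib (chi2 Y.χ) B.K2 B.π2 := fun v => by
  refine Iff.trans ?_ (((B.fib0.box B.fibB).prod
    ((B.fib1.box B.fib1).prod (B.fibB.box B.fib0))) v)
  change _ ↔ (boxFib B.π0 B.πB (B.k21.l v), boxFib B.π1 B.π1 (B.k22.l v),
    boxFib B.πB B.π0 (B.k23.l v)) = 0
  rw [π2_apply]
  refine ⟨fun hv => Prod.ext ?_ (Prod.ext ?_ ?_), fun hv => ?_⟩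
  · simpa [TData.sg_apply] using congrFun hv (Y.ir 0 2)
  · simpa [TData.sg_apply] using congrFun hv (Y.ir 1 1)
  · simpa [TData.sg_apply] using congrFun hv (Y.ir 2 0)
  · simp only [Prod.mk_eq_zero] at hv
    simp [hv]

theorem _root_.Crest.Agent.R186.PB.boxFib_mul_zero_left {V W : PB k T} {π : V.V →ₗ[T] T}
    {π' : W.V →ₗ[T] T} {a : T} (b : T) (hf : ∀ r, π r * a = 0) (z : (V.box W).V) :
    boxFib π π' z * (a ⊗ₜ b) = 0 := by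
  rw [boxFib_mul_self (a' := 0) (b' := b) (by simpa using hf) (fun _ => rfl)]; simp

theorem _root_.Crest.Agent.R186.PB.boxFib_mul_zero_right {V W : PB k T} {π : V.V →ₗ[T] T}
    {π' : W.V →ₗ[T] T} (a : T) {b : T} (hf : ∀ r, π' r * b = 0) (z : (V.box W).V) :
    boxFib π π' z * (a ⊗ₜ b) = 0 := by
  rw [boxFib_mul_self (a' := a) (b' := 0) (fun _ => rfl) (by simpa using hf)]; simp

theorem _root_.Crest.Agent.R186.PB.boxFib_mul_one {V W : PB k T} {π : V.V →ₗ[T] T}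
    {π' : W.V →ₗ[T] T} {a b : T} (hf : ∀ r, π r * a = π r) (hg : ∀ r, π' r * b = π' r)
    (z : (V.box W).V) : boxFib π π' z * (a ⊗ₜ b) = boxFib π π' z := by
  rw [boxFib_mul_self (a' := 1) (b' := 1) (by simpa using hf) (by simpa using hg),
    ← Algebra.TensorProduct.one_def, mul_one]

theorem sign0 : ((2 - (0 : ℕ) : ℤ).negOnePow : ℤ) = 1 := rfl
theorem sign1 : ((2 - (1 : ℕ) : ℤ).negOnePow : ℤ) = -1 := rfl
theorem sign2 : ((2 - (2 : ℕ) : ℤ).negOnePow : ℤ) = 1 := rfl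
theorem sign3 : ((2 - (3 : ℕ) : ℤ).negOnePow : ℤ) = -1 := rfl

theorem rowD_π3 (v : B.K3.V) : Y.J.rowD (B.π3 v) = B.π4 (B.g3.l v) := by
  rw [π3_apply, g3_l, map_add, map_add, TData.rowD_sg_ir, TData.rowD_sg_ir, TData.rowD_sg_il,
    boxFib_mul_zero_right _ B.πB_d, boxFib_mul_zero_left _ B.πB_d, sign2]
  change _ = Y.sg (Y.ir 2 2) (boxFib B.πB B.πB (_ + _ + _))
  rw [map_add (boxFib _ _), map_add (boxFib _ _),
    boxFib_mul B.ι (Hom.id _) B.π_ι (fun r => (B.πB_e r).symm),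
    boxFib_mul (Hom.id _) B.ι (fun r => (B.πB_e r).symm) B.π_ι, boxFib_mul B.ρ B.ρ B.π_ρ B.π_ρ]
  simp

theorem rowD_π2 (v : B.K2.V) : Y.J.rowD (B.π2 v) = B.π3 (B.d2.l v) := by
  rw [π2_apply, d2_l, π3_apply, map_add, map_add, TData.rowD_sg_ir, TData.rowD_sg_ir,
    TData.rowD_sg_ir, boxFib_mul_zero_right _ B.πB_d, boxFib_mul_zero_left _ B.πB_d, sign2, sign1,
    k31_mk3, k32_mk3, k33_mk3, map_sub, map_add,
    boxFib_mul B.d (Hom.id _) B.π_d (fun r => (B.πB_e r).symm),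
    boxFib_mul (Hom.id _) B.ι (fun r => (B.π1_e r).symm) B.π_ι,
    boxFib_mul B.ι (Hom.id _) B.π_ι (fun r => (B.π1_e r).symm),
    boxFib_mul (Hom.id _) B.d (fun r => (B.πB_e r).symm) B.π_d]
  simp only [smul_zero, map_zero, add_zero, zero_add, neg_smul, one_smul, map_neg, map_sub, map_add]
  abel

theorem isRow_π3 (v : B.K3.V) : Y.J.IsRow 0 (B.π3 v) :=
  ((Y.isRow_sg (by simp) (boxFib_mul_one B.π1_e B.πB_e _)).add
    (Y.isRow_sg (by simp) (boxFib_mul_one B.πB_e B.π1_e _))).add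
    (Y.isRow_sg (by simp) (boxFib_mul_one B.π0_e B.π0_e _))

theorem π3_03 (v : B.K3.V) : B.π3 v (Y.ir 0 3) = 0 := by simp [π3_apply, TData.sg_apply]
theorem π3_30 (v : B.K3.V) : B.π3 v (Y.ir 3 0) = 0 := by simp [π3_apply, TData.sg_apply]

/-- projection on `(R ⊗ R)²` -/
noncomputable def _root_.Crest.Agent.R186.TData.P2 (Y : TData k T) :
    (Y.J.ι → T ⊗[k] T) →ₗ[T ⊗[k] T] (Y.J.ι → T ⊗[k] T) :=
  (Y.sg (Y.ir 0 2) ∘ₗ LinearMap.proj (Y.ir 0 2) + Y.sg (Y.ir 1 1) ∘ₗ LinearMap.proj (Y.ir 1 1)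
    + Y.sg (Y.ir 2 0) ∘ₗ LinearMap.proj (Y.ir 2 0)) ∘ₗ Y.J.rprojL (T ⊗[k] T) 1

theorem _root_.Crest.Agent.R186.TData.P2_apply (Y : TData k T) (w : Y.J.ι → T ⊗[k] T) :
    Y.P2 w = Y.sg (Y.ir 0 2) (w (Y.ir 0 2) * (Y.e 0 ⊗ₜ Y.e 2))
      + Y.sg (Y.ir 1 1) (w (Y.ir 1 1) * (Y.e 1 ⊗ₜ Y.e 1))
      + Y.sg (Y.ir 2 0) (w (Y.ir 2 0) * (Y.e 2 ⊗ₜ Y.e 0)) := by
  simp [TData.P2, MC.rproj_apply]

theorem _root_.Crest.Agent.R186.TData.P2_P2 (Y : TData k T) (w : Y.J.ι → T ⊗[k] T) :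
    Y.P2 (Y.P2 w) = Y.P2 w := by
  simp [TData.P2_apply, TData.sg_apply, mul_assoc, Y.he]

theorem _root_.Crest.Agent.R186.TData.isRow_P2 (Y : TData k T) (w : Y.J.ι → T ⊗[k] T) :
    Y.J.IsRow 1 (Y.P2 w) := by
  rw [TData.P2_apply]
  exact ((Y.isRow_sg (by simp) (by simp [mul_assoc, Y.he])).add
    (Y.isRow_sg (by simp) (by simp [mul_assoc, Y.he]))).add
    (Y.isRow_sg (by simp) (by simp [mul_assoc, Y.he]))

theorem P2_π2 (v : B.K2.V) : Y.P2 (B.π2 v) = B.π2 v := by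
  simp [TData.P2_apply, π2_apply, TData.sg_apply, boxFib_mul_one B.π0_e B.πB_e,
    boxFib_mul_one B.π1_e B.π1_e, boxFib_mul_one B.πB_e B.π0_e]

theorem exists_π2 {ρ : Y.J.ι → T ⊗[k] T} (hρ : Y.P2 ρ = ρ) (h03 : Y.J.rowD ρ (Y.ir 0 3) = 0)
    (h30 : Y.J.rowD ρ (Y.ir 3 0) = 0) : ∃ v, B.π2 v = ρ := by
  rw [← hρ, TData.P2_apply, map_add, map_add, TData.rowD_sg_ir, TData.rowD_sg_ir,
    TData.rowD_sg_ir] at h03 h30
  simp only [Pi.add_apply, TData.sg_apply, TData.ir_inj, sign0, one_smul] at h03 h30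
  norm_num at h03 h30
  have i1 : ∀ (z : T ⊗[k] T) (p q : ℕ), z * (Y.e p ⊗ₜ Y.e q) * (Y.e p ⊗ₜ Y.e q)
      = z * (Y.e p ⊗ₜ Y.e q) := fun z p q => by simp [mul_assoc, Y.he]
  obtain ⟨a, ha⟩ := exists_boxFib B.ex0 B.exB B.c0 B.cB (z := ρ (Y.ir 0 2) * (Y.e 0 ⊗ₜ Y.e 2))
    (tmul_kill_left (i1 _ _ _) (by simp [Y.e_c])) (tmul_kill_right (i1 _ _ _) (by rwa [Y.e_cB]))
  obtain ⟨b, hb⟩ := exists_boxFib B.ex1 B.ex1 B.c1 B.c1 (z := ρ (Y.ir 1 1) * (Y.e 1 ⊗ₜ Y.e 1))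
    (tmul_kill_left (i1 _ _ _) (by simp [Y.e_c])) (tmul_kill_right (i1 _ _ _) (by simp [Y.e_c]))
  obtain ⟨c, hc⟩ := exists_boxFib B.exB B.ex0 B.cB B.c0 (z := ρ (Y.ir 2 0) * (Y.e 2 ⊗ₜ Y.e 0))
    (tmul_kill_left (i1 _ _ _) (by rwa [Y.e_cB])) (tmul_kill_right (i1 _ _ _) (by simp [Y.e_c]))
  refine ⟨B.mk2 a b c, ?_⟩
  rw [π2_apply, k21_mk2, k22_mk2, k23_mk2, ha, hb, hc, ← TData.P2_apply, hρ]

theorem exists_π3 {w : Y.J.ι → T ⊗[k] T} (hw : Y.J.IsRow 0 w) (h0 : Y.J.rowD w = 0)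
    (h03 : w (Y.ir 0 3) = 0) (h30 : w (Y.ir 3 0) = 0) : ∃ v, B.π3 v = w := by
  have hw' := Y.row_zero_eq hw
  rw [h03, h30, map_zero, map_zero, add_zero, add_zero] at hw'
  have h1 := h0
  rw [hw', map_add, map_add, TData.rowD_sg_ir, TData.rowD_sg_ir, TData.rowD_sg_il] at h1
  have h13 := congrFun h1 (Y.ir 1 3)
  have h31 := congrFun h1 (Y.ir 3 1)
  simp only [Pi.add_apply, TData.sg_apply, TData.ir_inj, sign1] at h13 h31
  norm_num at h13 h31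
  have e12 : w (Y.ir 1 2) * (Y.e 1 ⊗ₜ Y.e 2) = w (Y.ir 1 2) := hw.e_smul _
  have e21 : w (Y.ir 2 1) * (Y.e 2 ⊗ₜ Y.e 1) = w (Y.ir 2 1) := hw.e_smul _
  have e00 : w (Y.il 0 0) * (Y.e 0 ⊗ₜ Y.e 0) = w (Y.il 0 0) := hw.e_smul _
  obtain ⟨a, ha⟩ := exists_boxFib B.ex1 B.exB B.c1 B.cB (z := w (Y.ir 1 2))
    (tmul_kill_left e12 (by simp [Y.e_c])) (tmul_kill_right e12 (by rwa [Y.e_cB]))
  obtain ⟨b, hb⟩ := exists_boxFib B.exB B.ex1 B.cB B.c1 (z := w (Y.ir 2 1))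
    (tmul_kill_left e21 (by rwa [Y.e_cB])) (tmul_kill_right e21 (by simp [Y.e_c]))
  obtain ⟨c, hc⟩ := exists_boxFib B.ex0 B.ex0 B.c0 B.c0 (z := w (Y.il 0 0))
    (tmul_kill_left e00 (by simp [Y.e_c])) (tmul_kill_right e00 (by simp [Y.e_c]))
  refine ⟨B.mk3 a b c, ?_⟩
  rw [π3_apply, k31_mk3, k32_mk3, k33_mk3, ha, hb, hc]
  conv_rhs => rw [hw']
  abel

/-- `W = ker (K³ ⊕ R₀₀ → K⁴)` -/
noncomputable def W : PB k (T ⊗[k] T) := ker B.g3 B.g3_surjective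

/-- inclusion of `W` -/
noncomputable def ιW : Hom B.W B.K3 := kerι B.g3 B.g3_surjective

theorem rowD_π3_ιW (v : B.W.V) : Y.J.rowD (B.π3 (B.ιW.l v)) = 0 := by
  rw [rowD_π3, show B.g3.l (B.ιW.l v) = 0 from g_kerι _ _ v, map_zero]

theorem fibW : Fib (chi2 Y.χ) B.W (B.π3 ∘ₗ B.ιW.l) := B.fib3.ker _ _

/-- every cycle of degree `0` of `J` comes from `(R ⊗ R)²` and the fibre of `W` -/
theorem exists_cycle {w : Y.J.ι → T ⊗[k] T} (hw : Y.J.IsRow 0 w) (h0 : Y.J.rowD w = 0) :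
    ∃ ρ v, Y.P2 ρ = ρ ∧ w = Y.J.rowD ρ + B.π3 (B.ιW.l v) := by
  have h1 := h0
  rw [Y.row_zero_eq hw, map_add, map_add, map_add, map_add, TData.rowD_sg_ir, TData.rowD_sg_ir,
    TData.rowD_sg_ir, TData.rowD_sg_ir, TData.rowD_sg_il] at h1
  have h04 := congrFun h1 (Y.ir 0 4)
  have h40 := congrFun h1 (Y.ir 4 0)
  simp only [Pi.add_apply, TData.sg_apply, TData.ir_inj, sign0] at h04 h40
  norm_num at h04 h40
  obtain ⟨a, ha⟩ := Y.exists_dR2_right (hw.e_smul (Y.ir 0 3)) h04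
  obtain ⟨b, hb⟩ := Y.exists_dR2_left (hw.e_smul (Y.ir 3 0)) h40
  let ρ := Y.P2 (Y.sg (Y.ir 0 2) a + Y.sg (Y.ir 2 0) b)
  have hρ : Y.J.rowD ρ (Y.ir 0 3) = w (Y.ir 0 3) ∧ Y.J.rowD ρ (Y.ir 3 0) = w (Y.ir 3 0) := by
    simp only [ρ]
    rw [TData.P2_apply, map_add, map_add, TData.rowD_sg_ir, TData.rowD_sg_ir, TData.rowD_sg_ir,
      ← ha, ← hb]
    simp [TData.sg_apply, sign0, mul_assoc, Y.he, Y.hR1]
  obtain ⟨v, hv⟩ := B.exists_π3 (w := w - Y.J.rowD ρ)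
    (hw.sub (MC.IsRow.rowD (n := 0) (Y.isRow_P2 _))) (by rw [map_sub, h0, MC.rowD_rowD, sub_zero])
    (by simp [hρ.1]) (by simp [hρ.2])
  obtain ⟨y, hy⟩ := B.fib3.exists_ker B.g3 B.g3_surjective (v := v) ((B.fib4 _).1 (by
    rw [← rowD_π3, hv, map_sub, h0, MC.rowD_rowD, sub_zero]))
  exact ⟨ρ, y, Y.P2_P2 _, by rw [show B.π3 (B.ιW.l y) = _ from hy, hv]; abel⟩

end TData.BD

end Crest.Agent.R186
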