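import Mathlib

/-!
Differential vector spaces with a projector and a sign operator; the Künneth argument.
-/

set_option autoImplicit false

open scoped TensorProduct

namespace Crest.Agent.R186

variable (k : Type*) [Field k]

/-- differential `d`, projector `π` on the part that counts, sign operator `ε` -/
structure DG (M : Type*) [AddCommGroup M] [Module k M] where
  d : M →ₗ[k] M
  π : M →ₗ[k] M
  ε : M →ₗ[k] M
  dd : ∀ x, d (d x) = 0
  πd : ∀ x, π (d x) = d x
  dπ : ∀ x, d (π x) = d x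
  ππ : ∀ x, π (π x) = π x
  πε : ∀ x, π (ε x) = ε x
  επ : ∀ x, ε (π x) = ε x
  εε : ∀ x, ε (ε x) = π x
  εd : ∀ x, ε (d x) = -d (ε x)

attribute [simp] DG.dd DG.πd DG.dπ DG.ππ DG.πε DG.επ DG.εε DG.εd

namespace DG

variable {k} {M N P M' N' : Type*} [AddCommGroup M] [Module k M] [AddCommGroup N] [Module k N]
  [AddCommGroup P] [Module k P] [AddCommGroup M'] [Module k M'] [AddCommGroup N'] [Module k N']

structure Hom (X : DG k M) (Y : DG k N) where
  f : M →ₗ[k] N
  πf : ∀ x, Y.π (f x) = f x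
  fπ : ∀ x, f (X.π x) = f x
  fd : ∀ x, f (X.d x) = Y.d (f x)
  fε : ∀ x, f (X.ε x) = Y.ε (f x)

attribute [simp] Hom.πf Hom.fπ Hom.fd Hom.fε

def Ex (X : DG k M) : Prop := ∀ v, X.π v = v → X.d v = 0 → ∃ w, X.d w = v

/-- exactness of the cone of a linear map -/
def QI (X : DG k M) (Y : DG k N) (f : M →ₗ[k] N) : Prop :=
  ∀ u v, X.π u = u → Y.π v = v → X.d u = 0 → f u + Y.d v = 0 →
    ∃ u' v', -X.d u' = u ∧ f u' + Y.d v' = v

theorem QI.comp {X : DG k M} {Y : DG k N} {Z : DG k P} (f : Hom X Y) (g : Hom Y Z)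
    (hf : QI X Y f.f) (hg : QI Y Z g.f) : QI X Z (g.f ∘ₗ f.f) := by
  intro u w hu hw h0 h1
  obtain ⟨v', w', a, b⟩ := hg (f.f u) w (by simp) hw (by rw [← f.fd, h0, map_zero]) h1
  obtain ⟨u', v'', c, e⟩ := hf u (Y.π v') hu (by simp) h0 (by simp [← a])
  refine ⟨u', g.f v'' + w', c, ?_⟩
  have := congrArg g.f e
  simp only [map_add, Hom.fd, Hom.fπ] at this
  simp only [LinearMap.comp_apply, map_add]
  rw [← add_assoc, this, b]

theorem Ex.contraction {X : DG k M} (h : X.Ex) :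
    ∃ σ : M →ₗ[k] M, ∀ x, X.d (σ x) + σ (X.d x) = X.π x := by
  obtain ⟨g, hg⟩ := X.d.rangeRestrict.exists_rightInverse_of_surjective X.d.range_rangeRestrict
  obtain ⟨p, hp⟩ := (LinearMap.range X.d).subtype.exists_leftInverse_of_injective
    (Submodule.ker_subtype _)
  have hs : ∀ x, X.d (g (p (X.d x))) = X.d x := fun x => by
    have h1 : p (X.d x) = ⟨X.d x, x, rfl⟩ := LinearMap.congr_fun hp ⟨X.d x, x, rfl⟩
    rw [h1]
    exact congrArg Subtype.val (LinearMap.congr_fun hg ⟨X.d x, x, rfl⟩)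
  refine ⟨X.π ∘ₗ g ∘ₗ p ∘ₗ (X.π - X.π ∘ₗ g ∘ₗ p ∘ₗ X.d), fun x => ?_⟩
  obtain ⟨w, hw⟩ := h (X.π x - X.π (g (p (X.d x)))) (by simp) (by simp [hs])
  simp only [LinearMap.comp_apply, LinearMap.sub_apply, X.dπ, X.πd, X.dd, map_zero, sub_zero]
  rw [← hw, hs, hw]
  abel

noncomputable def tensor (X : DG k M) (Y : DG k M') : DG k (M ⊗[k] M') where
  d := TensorProduct.map X.d Y.π + TensorProduct.map X.ε Y.d
  π := TensorProduct.map X.π Y.π
  ε := TensorProduct.map X.ε Y.ε
  dd x := by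
    induction x with
    | zero => simp
    | tmul a b => simp [TensorProduct.neg_tmul]
    | add a b ha hb => simp only [map_add, ha, hb, add_zero]
  πd x := by
    induction x with
    | zero => simp
    | tmul a b => simp
    | add a b ha hb => simp only [map_add, ha, hb]
  dπ x := by
    induction x with
    | zero => simp
    | tmul a b => simp
    | add a b ha hb => simp only [map_add, ha, hb]
  ππ x := by
    induction x with
    | zero => simp
    | tmul a b => simp
    | add a b ha hb => simp only [map_add, ha, hb]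
  πε x := by
    induction x with
    | zero => simp
    | tmul a b => simp
    | add a b ha hb => simp only [map_add, ha, hb]
  επ x := by
    induction x with
    | zero => simp
    | tmul a b => simp
    | add a b ha hb => simp only [map_add, ha, hb]
  εε x := by
    induction x with
    | zero => simp
    | tmul a b => simp
    | add a b ha hb => simp only [map_add, ha, hb]
  εd x := by
    induction x with
    | zero => simp
    | tmul a b => simp [TensorProduct.neg_tmul, TensorProduct.tmul_neg, add_comm]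
    | add a b ha hb => simp only [map_add, ha, hb, neg_add]

@[simp] theorem tensor_d (X : DG k M) (Y : DG k M') (a : M) (b : M') :
    (X.tensor Y).d (a ⊗ₜ b) = X.d a ⊗ₜ Y.π b + X.ε a ⊗ₜ Y.d b := rfl
@[simp] theorem tensor_π (X : DG k M) (Y : DG k M') (a : M) (b : M') :
    (X.tensor Y).π (a ⊗ₜ b) = X.π a ⊗ₜ Y.π b := rfl
@[simp] theorem tensor_ε (X : DG k M) (Y : DG k M') (a : M) (b : M') :
    (X.tensor Y).ε (a ⊗ₜ b) = X.ε a ⊗ₜ Y.ε b := rfl

theorem tens_ext {F G : M ⊗[k] M' →ₗ[k] N} (h : ∀ a b, F (a ⊗ₜ b) = G (a ⊗ₜ b)) (x : M ⊗[k] M') :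
    F x = G x := LinearMap.congr_fun (TensorProduct.ext' h) x

theorem Ex.tensor_left {X : DG k M} (h : X.Ex) (Y : DG k M') : (X.tensor Y).Ex := by
  obtain ⟨σ, hσ⟩ := h.contraction
  intro v hv h0
  let T := TensorProduct.map σ Y.π
  let Nn := TensorProduct.map (X.ε ∘ₗ σ + σ ∘ₗ X.ε) Y.d
  have h1 : ∀ x, (X.tensor Y).d (T x) + T ((X.tensor Y).d x) = (X.tensor Y).π x + Nn x :=
    tens_ext (F := (X.tensor Y).d ∘ₗ T + T ∘ₗ (X.tensor Y).d) (G := (X.tensor Y).π + Nn)
      fun a b => by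
        simp [T, Nn, ← hσ, TensorProduct.add_tmul]
        abel
  have h2 : ∀ x, Nn (Nn x) = 0 := tens_ext (F := Nn ∘ₗ Nn) (G := 0) fun a b => by simp [Nn]
  have h3 : Nn v = (X.tensor Y).d (T v) - v := by
    have := h1 v
    rw [h0, map_zero, add_zero, hv] at this
    rw [this]; abel
  have h4 := h1 (Nn v)
  rw [h2, h3] at h4
  simp only [map_sub, dd, h0, map_zero, sub_zero, add_zero, πd, hv] at h4
  refine ⟨T v - (T ((X.tensor Y).d (T v)) - T v), ?_⟩
  simp only [map_sub]
  rw [h4]; abel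

theorem Ex.tensor_right (X : DG k M) {Y : DG k M'} (h : Y.Ex) : (X.tensor Y).Ex := by
  obtain ⟨σ, hσ⟩ := h.contraction
  intro v hv h0
  let T := TensorProduct.map X.ε (Y.π ∘ₗ σ ∘ₗ Y.π)
  have hσ' : ∀ x, Y.d (σ (Y.π x)) + Y.π (σ (Y.d x)) = Y.π x := fun x => by
    have := congrArg Y.π (hσ (Y.π x))
    simpa using this
  have h1 : ∀ x, (X.tensor Y).d (T x) + T ((X.tensor Y).d x) = (X.tensor Y).π x :=
    tens_ext (F := (X.tensor Y).d ∘ₗ T + T ∘ₗ (X.tensor Y).d) (G := (X.tensor Y).π)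
      fun a b => by
        simp only [T, LinearMap.add_apply, LinearMap.comp_apply, TensorProduct.map_tmul, tensor_d,
          map_add, ππ, dπ, πd, εε, εd, tensor_π, TensorProduct.neg_tmul]
        conv_rhs => rw [← hσ' b, TensorProduct.tmul_add]
        abel
  refine ⟨T v, ?_⟩
  have := h1 v
  rwa [h0, map_zero, add_zero, hv] at this

def cone {X : DG k M} {Y : DG k N} (f : Hom X Y) : DG k (M × N) where
  d := (-X.d ∘ₗ LinearMap.fst k M N).prod
    (f.f ∘ₗ LinearMap.fst k M N + Y.d ∘ₗ LinearMap.snd k M N)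
  π := X.π.prodMap Y.π
  ε := (-X.ε).prodMap Y.ε
  dd x := by simp
  πd x := by simp
  dπ x := by simp
  ππ x := by simp
  πε x := by simp
  επ x := by simp
  εε x := by simp
  εd x := by simp [add_comm]

@[simp] theorem cone_d {X : DG k M} {Y : DG k N} (f : Hom X Y) (x : M × N) :
    (cone f).d x = (-X.d x.1, f.f x.1 + Y.d x.2) := rfl
@[simp] theorem cone_π {X : DG k M} {Y : DG k N} (f : Hom X Y) (x : M × N) :
    (cone f).π x = (X.π x.1, Y.π x.2) := rfl
@[simp] theorem cone_ε {X : DG k M} {Y : DG k N} (f : Hom X Y) (x : M × N) :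
    (cone f).ε x = (-X.ε x.1, Y.ε x.2) := rfl

theorem QI.ex {X : DG k M} {Y : DG k N} {f : Hom X Y} (h : QI X Y f.f) : (cone f).Ex := by
  rintro ⟨u, v⟩ h1 h2
  simp only [cone_π, cone_d, Prod.mk.injEq, Prod.mk_eq_zero, neg_eq_zero] at h1 h2
  obtain ⟨u', v', a, b⟩ := h u v h1.1 h1.2 h2.1 h2.2
  exact ⟨(u', v'), by simp [a, b]⟩

/-- a model of the cone that is exact gives a quasi-isomorphism -/
theorem QI.of_model {X : DG k M} {Y : DG k N} {f : M →ₗ[k] N} {C : DG k P} (h : C.Ex)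
    (i : M →ₗ[k] P) (j : N →ₗ[k] P) (p : P →ₗ[k] M) (q : P →ₗ[k] N)
    (hi : ∀ u, C.d (i u) = -i (X.d u) + j (f u)) (hj : ∀ v, C.d (j v) = j (Y.d v))
    (hi' : ∀ u, C.π (i u) = i (X.π u)) (hj' : ∀ v, C.π (j v) = j (Y.π v))
    (hp : ∀ x, p (C.d x) = -X.d (p x)) (hq : ∀ x, q (C.d x) = f (p x) + Y.d (q x))
    (pi : ∀ u, p (i u) = X.π u) (pj : ∀ v, p (j v) = 0) (qi : ∀ u, q (i u) = 0)
    (qj : ∀ v, q (j v) = Y.π v) : QI X Y f := by
  intro u v hu hv h0 h1
  obtain ⟨w, hw⟩ := h (i u + j v) (by rw [map_add, hi', hj', hu, hv])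
    (by rw [map_add, hi, hj, h0, map_zero, neg_zero, zero_add, ← map_add, h1, map_zero])
  refine ⟨p w, q w, ?_, ?_⟩
  · rw [← hp, hw, map_add, pi, pj, add_zero, hu]
  · rw [← hq, hw, map_add, qi, qj, zero_add, hv]

theorem QI.tensor_left {X : DG k M} {Y : DG k N} {f : Hom X Y} (h : QI X Y f.f) (Z : DG k M') :
    QI (X.tensor Z) (Y.tensor Z) (TensorProduct.map f.f Z.π) := by
  refine QI.of_model (h.ex.tensor_left Z)
    (TensorProduct.map (LinearMap.inl k M N ∘ₗ X.π) Z.π)
    (TensorProduct.map (LinearMap.inr k M N ∘ₗ Y.π) Z.π)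
    (TensorProduct.map (X.π ∘ₗ LinearMap.fst k M N) Z.π)
    (TensorProduct.map (Y.π ∘ₗ LinearMap.snd k M N) Z.π) ?_ ?_ ?_ ?_ ?_ ?_ ?_ ?_ ?_ ?_
  all_goals
    intro x
    induction x with
    | zero => simp
    | add a b ha hb => simp only [map_add, ha, hb] <;> abel
    | tmul a b => ?_
  · have e1 : (-X.d a, f.f a) = -(X.d a, (0 : N)) + (0, f.f a) := by simp
    have e2 : (-X.ε a, (0 : N)) = -(X.ε a, (0 : N)) := by simp
    simp [e1, e2, TensorProduct.add_tmul, TensorProduct.neg_tmul, -Prod.mk_add_mk, -Prod.neg_mk]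
    abel
  · simp
  · simp
  · simp
  · simp [TensorProduct.neg_tmul, add_comm]
  · simp [TensorProduct.add_tmul, add_assoc]
  · simp
  · simp
  · simp
  · simp

theorem QI.tensor_right (Z : DG k M') {X : DG k M} {Y : DG k N} {f : Hom X Y} (h : QI X Y f.f) :
    QI (Z.tensor X) (Z.tensor Y) (TensorProduct.map Z.π f.f) := by
  refine QI.of_model (h.ex.tensor_right Z)
    (TensorProduct.map Z.ε (LinearMap.inl k M N ∘ₗ X.π))
    (TensorProduct.map Z.π (LinearMap.inr k M N ∘ₗ Y.π))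
    (TensorProduct.map Z.ε (X.π ∘ₗ LinearMap.fst k M N))
    (TensorProduct.map Z.π (Y.π ∘ₗ LinearMap.snd k M N)) ?_ ?_ ?_ ?_ ?_ ?_ ?_ ?_ ?_ ?_
  all_goals
    intro x
    induction x with
    | zero => simp
    | add a b ha hb => simp only [map_add, ha, hb] <;> abel
    | tmul a b => ?_
  · have e1 : (-X.d b, f.f b) = -(X.d b, (0 : N)) + (0, f.f b) := by simp
    simp [e1, TensorProduct.tmul_add, TensorProduct.neg_tmul, TensorProduct.tmul_neg,
      -Prod.mk_add_mk, -Prod.neg_mk]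
    abel
  · simp
  · simp
  · simp
  · simp [TensorProduct.neg_tmul, TensorProduct.tmul_neg, add_comm]
  · simp [TensorProduct.tmul_add]
    abel
  · simp
  · simp
  · simp
  · simp

noncomputable def Hom.tensor {X : DG k M} {Y : DG k N} {X' : DG k M'} {Y' : DG k N'}
    (f : Hom X Y) (g : Hom X' Y') : Hom (X.tensor X') (Y.tensor Y') where
  f := TensorProduct.map f.f g.f
  πf x := by
    induction x with
    | zero => simp
    | tmul a b => simp
    | add a b ha hb => simp only [map_add, ha, hb]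
  fπ x := by
    induction x with
    | zero => simp
    | tmul a b => simp
    | add a b ha hb => simp only [map_add, ha, hb]
  fd x := by
    induction x with
    | zero => simp
    | tmul a b => simp
    | add a b ha hb => simp only [map_add, ha, hb]
  fε x := by
    induction x with
    | zero => simp
    | tmul a b => simp
    | add a b ha hb => simp only [map_add, ha, hb]

def Hom.one (X : DG k M) : Hom X X where
  f := X.π
  πf := by simp
  fπ := by simp
  fd := by simp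
  fε := by simp

theorem QI.tensor {X : DG k M} {Y : DG k N} {X' : DG k M'} {Y' : DG k N'}
    {f : Hom X Y} {g : Hom X' Y'} (hf : QI X Y f.f) (hg : QI X' Y' g.f) :
    QI (X.tensor X') (Y.tensor Y') (TensorProduct.map f.f g.f) := by
  have := QI.comp (f.tensor (Hom.one X')) ((Hom.one Y).tensor g) (hf.tensor_left X')
    (hg.tensor_right Y)
  convert this using 1
  refine TensorProduct.ext' fun a b => ?_
  simp [Hom.tensor, Hom.one]

theorem QI.of_equiv {X : DG k M} {Y : DG k N} {X' : DG k M'} {Y' : DG k N'} {f : M →ₗ[k] N}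
    {g : M' →ₗ[k] N'} (h : QI X Y f) (E : M ≃ₗ[k] M') (F : N ≃ₗ[k] N')
    (h1 : ∀ x, X'.d (E x) = E (X.d x)) (h2 : ∀ x, X'.π (E x) = E (X.π x))
    (h3 : ∀ x, Y'.d (F x) = F (Y.d x)) (h4 : ∀ x, Y'.π (F x) = F (Y.π x))
    (h5 : ∀ x, g (E x) = F (f x)) : QI X' Y' g := by
  intro u v hu hv h0 h6
  obtain ⟨u, rfl⟩ := E.surjective u
  obtain ⟨v, rfl⟩ := F.surjective v
  rw [h2, E.injective.eq_iff] at hu
  rw [h4, F.injective.eq_iff] at hv
  rw [h1, E.map_eq_zero_iff] at h0
  rw [h5, h3, ← map_add, F.map_eq_zero_iff] at h6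
  obtain ⟨u', v', a, b⟩ := h u v hu hv h0 h6
  exact ⟨E u', F v', by rw [h1, ← map_neg, a], by rw [h5, h3, ← map_add, b]⟩

end DG

end Crest.Agent.R186
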