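import Crest.Agent.R186.MC2
import Crest.Agent.R186.KunDG

/-!
Tensor products of matrix complexes and the Künneth type statement: if the cones of `ψ` and `ψ'`
are exact, so is the cone of `ψ ⊗ ψ'`.
-/

set_option autoImplicit false

open MulOpposite
open scoped TensorProduct

universe u u' v w

namespace Crest.Agent.R186

namespace MC

variable (k : Type w) [Field k] {A : Type u} [Ring A] [Algebra k A] {B : Type u'} [Ring B]
  [Algebra k B]

/-- the total degree has finite fibres -/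
def TensFin (U : MC A) (V : MC B) : Prop :=
  ∀ n : ℤ, {p : U.ι × V.ι | U.deg p.1 + V.deg p.2 = n}.Finite

theorem tensFin_of_bddBelow (U : MC A) (V : MC B) (a b : ℤ) (ha : ∀ i, a ≤ U.deg i)
    (hb : ∀ j, b ≤ V.deg j) : TensFin U V := by
  intro n
  refine ((Finset.Icc a (n - b)).biUnion fun m => U.fib m ×ˢ V.fib (n - m)).finite_toSet.subset ?_
  rintro ⟨i, j⟩ hp
  have h1 := ha i
  have h2 := hb j
  simp only [Set.mem_ofPred_eq] at hp
  simp only [Finset.coe_biUnion, Set.mem_iUnion, Finset.mem_coe, Finset.mem_product, U.mem_fib,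
    V.mem_fib, Finset.mem_Icc]
  exact ⟨U.deg i, ⟨h1, by omega⟩, rfl, by omega⟩

theorem tensFin_of_bddAbove (U : MC A) (V : MC B) (a b : ℤ) (ha : ∀ i, U.deg i ≤ a)
    (hb : ∀ j, V.deg j ≤ b) : TensFin U V := by
  intro n
  refine ((Finset.Icc (n - b) a).biUnion fun m => U.fib m ×ˢ V.fib (n - m)).finite_toSet.subset ?_
  rintro ⟨i, j⟩ hp
  have h1 := ha i
  have h2 := hb j
  simp only [Set.mem_ofPred_eq] at hp
  simp only [Finset.coe_biUnion, Set.mem_iUnion, Finset.mem_coe, Finset.mem_product, U.mem_fib,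
    V.mem_fib, Finset.mem_Icc]
  exact ⟨U.deg i, ⟨by omega, h1⟩, rfl, by omega⟩

theorem sum_tensor_D (U : MC A) (V : MC B) (h : TensFin U V) {W : Type v} [AddCommGroup W]
    (φ : U.ι × V.ι → (A ⊗[k] B →+ W)) (i : U.ι) (j : V.ι) :
    ∑ q ∈ (h (U.deg i + V.deg j + 1)).toFinset,
      φ q ((if q.2 = j then U.D q.1 i ⊗ₜ V.e q.2 else 0)
        + (if q.1 = i then (U.deg q.1).negOnePow • (U.e q.1 ⊗ₜ[k] V.D q.2 j) else 0))
    = ∑ i' ∈ U.fib (U.deg i + 1), φ (i', j) (U.D i' i ⊗ₜ V.e j)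
      + ∑ j' ∈ V.fib (V.deg j + 1), φ (i, j') ((U.deg i).negOnePow • (U.e i ⊗ₜ[k] V.D j' j)) := by
  simp only [map_add, Finset.sum_add_distrib]
  congr 1
  · symm
    refine Finset.sum_bij_ne_zero (fun i' _ _ => (i', j)) ?_ ?_ ?_ ?_
    · intro a ha _
      rw [U.mem_fib] at ha
      simp only [Set.Finite.mem_toFinset, Set.mem_ofPred_eq]; omega
    · intro a _ _ b _ _ hab
      exact congrArg Prod.fst hab
    · rintro ⟨a, b⟩ hb h0
      have : b = j := by
        by_contra hne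
        simp [hne] at h0
      subst this
      simp only [Set.Finite.mem_toFinset, Set.mem_ofPred_eq] at hb
      exact ⟨a, by rw [U.mem_fib]; omega, by simpa using h0, rfl⟩
    · intro a _ _
      simp
  · symm
    refine Finset.sum_bij_ne_zero (fun j' _ _ => (i, j')) ?_ ?_ ?_ ?_
    · intro a ha _
      rw [V.mem_fib] at ha
      simp only [Set.Finite.mem_toFinset, Set.mem_ofPred_eq]; omega
    · intro a _ _ b _ _ hab
      exact congrArg Prod.snd hab
    · rintro ⟨a, b⟩ hb h0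
      have : a = i := by
        by_contra hne
        simp [hne] at h0
      subst this
      simp only [Set.Finite.mem_toFinset, Set.mem_ofPred_eq] at hb
      exact ⟨b, by rw [V.mem_fib]; omega, by simpa using h0, rfl⟩
    · intro a _ _
      simp

theorem negOnePow_D (U : MC A) (i j : U.ι) :
    (U.deg i).negOnePow • U.D i j = -((U.deg j).negOnePow • U.D i j) := by
  by_cases h : U.deg i = U.deg j + 1
  · rw [h, Int.negOnePow_succ, Units.neg_smul]
  · simp [U.D_deg i j h]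

theorem sum_ite_D (U : MC A) (i l : U.ι) {W : Type v} [AddCommGroup W] (φ : U.ι → (A →+ W)) :
    ∑ i' ∈ U.fib (U.deg l + 1), (if i = i' then φ i' (U.D i' l) else 0) = φ i (U.D i l) := by
  rw [Finset.sum_ite_eq]
  split_ifs with h
  · rfl
  · rw [U.D_deg i l (by rwa [U.mem_fib] at h), map_zero]

/-- tensor product, with differential `D ⊗ 1 + (-1)^deg 1 ⊗ D` -/
noncomputable def tensor (U : MC A) (V : MC B) (h : TensFin U V) : MC (A ⊗[k] B) where
  ι := U.ι × V.ι
  deg p := U.deg p.1 + V.deg p.2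
  fib n := (h n).toFinset
  mem_fib n p := by simp
  e p := U.e p.1 ⊗ₜ V.e p.2
  D p p' := (if p.2 = p'.2 then U.D p.1 p'.1 ⊗ₜ V.e p.2 else 0)
    + (if p.1 = p'.1 then (U.deg p.1).negOnePow • (U.e p.1 ⊗ₜ[k] V.D p.2 p'.2) else 0)
  e_idem p := by simp [U.e_idem, V.e_idem]
  e_D p p' := by
    rw [mul_add]
    congr 1 <;> split_ifs <;>
      simp [mul_smul_comm, U.e_D, V.e_D, U.e_idem, V.e_idem]
  D_e p p' := by
    rw [add_mul]
    congr 1 <;> split_ifs with h <;>
      simp [smul_mul_assoc, U.D_e, V.D_e, U.e_idem, V.e_idem, h]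
  D_deg p p' hp := by
    have h1 : p.2 = p'.2 → U.D p.1 p'.1 = 0 := fun h => U.D_deg _ _ (by rw [h] at hp; omega)
    have h2 : p.1 = p'.1 → V.D p.2 p'.2 = 0 := fun h => V.D_deg _ _ (by rw [h] at hp; omega)
    split_ifs with a b b
    · rw [h1 a, h2 b]; simp
    · rw [h1 a]; simp
    · rw [h2 b]; simp
    · simp
  D_sq := by
    rintro ⟨i, j⟩ ⟨i', j'⟩
    refine (sum_tensor_D k U V h (fun q => AddMonoidHom.mulLeft
      ((if j = q.2 then U.D i q.1 ⊗ₜ V.e j else 0)
        + (if i = q.1 then (U.deg i).negOnePow • (U.e i ⊗ₜ[k] V.D j q.2) else 0))) i' j').trans ?_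
    simp only [AddMonoidHom.coe_mulLeft, add_mul, Finset.sum_add_distrib]
    have a1 : ∑ x ∈ U.fib (U.deg i' + 1),
        (if j = j' then U.D i x ⊗ₜ[k] V.e j else 0) * U.D x i' ⊗ₜ[k] V.e j' = 0 := by
      split_ifs
      · simp [← TensorProduct.sum_tmul, U.D_sq]
      · simp
    have a2 : ∑ x ∈ V.fib (V.deg j' + 1),
        (if i = i' then (U.deg i).negOnePow • U.e i ⊗ₜ[k] V.D j x else 0) *
          (U.deg i').negOnePow • U.e i' ⊗ₜ[k] V.D x j' = 0 := by
      split_ifs
      · simp [smul_mul_assoc, mul_smul_comm, ← Finset.smul_sum, ← TensorProduct.tmul_sum, V.D_sq]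
      · simp
    have a3 : ∑ x ∈ U.fib (U.deg i' + 1),
        (if i = x then (U.deg i).negOnePow • U.e i ⊗ₜ[k] V.D j j' else 0) * U.D x i' ⊗ₜ[k] V.e j'
          = ((U.deg i).negOnePow • U.D i i') ⊗ₜ[k] V.D j j' := by
      simp only [ite_mul, zero_mul, Finset.sum_ite_eq, U.mem_fib]
      split_ifs with hh
      · simp [Units.smul_def, U.e_D, V.D_e, ← TensorProduct.smul_tmul', -zsmul_eq_mul]
      · simp [U.D_deg i i' hh]
    have a4 : ∑ x ∈ V.fib (V.deg j' + 1),
        (if j = x then U.D i i' ⊗ₜ[k] V.e j else 0) * (U.deg i').negOnePow • U.e i' ⊗ₜ[k] V.D x j'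
          = ((U.deg i').negOnePow • U.D i i') ⊗ₜ[k] V.D j j' := by
      simp only [ite_mul, zero_mul, Finset.sum_ite_eq, V.mem_fib]
      split_ifs with hh
      · simp [Units.smul_def, U.D_e, V.e_D, ← TensorProduct.smul_tmul', -zsmul_eq_mul]
      · simp [V.D_deg j j' hh]
    rw [a1, a2, a3, a4, negOnePow_D U i i', TensorProduct.neg_tmul]
    abel

section
variable {k} (U : MC A) (V : MC B) (h : TensFin U V)

@[simp] theorem tensor_deg (p : U.ι × V.ι) : (tensor k U V h).deg p = U.deg p.1 + V.deg p.2 := rfl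
@[simp] theorem tensor_e (p : U.ι × V.ι) : (tensor k U V h).e p = U.e p.1 ⊗ₜ V.e p.2 := rfl
theorem tensor_D (p p' : U.ι × V.ι) : (tensor k U V h).D p p' =
    (if p.2 = p'.2 then U.D p.1 p'.1 ⊗ₜ V.e p.2 else 0)
    + (if p.1 = p'.1 then (U.deg p.1).negOnePow • (U.e p.1 ⊗ₜ[k] V.D p.2 p'.2) else 0) := rfl

theorem tensor_rowD {W : Type v} [AddCommGroup W] [Module (A ⊗[k] B)ᵐᵒᵖ W]
    (v : U.ι × V.ι → W) (i : U.ι) (j : V.ι) :
    (tensor k U V h).rowD v (i, j) =
      ∑ i' ∈ U.fib (U.deg i + 1), MulOpposite.op (U.D i' i ⊗ₜ[k] V.e j) • v (i', j)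
      + (U.deg i).negOnePow •
        ∑ j' ∈ V.fib (V.deg j + 1), MulOpposite.op (U.e i ⊗ₜ[k] V.D j' j) • v (i, j') := by
  rw [rowD_apply]
  refine (sum_tensor_D k U V h (fun q => ((smulAddHom (A ⊗[k] B)ᵐᵒᵖ W).flip (v q)).comp
    (opAddEquiv : A ⊗[k] B ≃+ _).toAddMonoidHom) i j).trans ?_
  simp [Units.smul_def, Finset.smul_sum, smul_assoc, -zsmul_eq_mul]

end

/-- tensor product of chain maps -/
noncomputable def Hom.tensor {U V : MC A} {U' V' : MC B} (ψ : Hom U V) (ψ' : Hom U' V')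
    (hU : TensFin U U') (hV : TensFin V V') : Hom (MC.tensor k U U' hU) (MC.tensor k V V' hV) where
  f p p' := ψ.f p.1 p'.1 ⊗ₜ ψ'.f p.2 p'.2
  e_f p p' := by simp [ψ.e_f, ψ'.e_f]
  f_e p p' := by simp [ψ.f_e, ψ'.f_e]
  f_deg p p' hp := by
    simp only [tensor_deg] at hp
    by_cases h : U.deg p.1 = V.deg p'.1
    · rw [ψ'.f_deg _ _ (by omega)]; simp
    · rw [ψ.f_deg _ _ h]; simp
  comm := by
    rintro ⟨i, j⟩ ⟨i', j'⟩
    refine Eq.trans ?_ (sum_tensor_D k V V' hV
      (fun q => AddMonoidHom.mulLeft (ψ.f i q.1 ⊗ₜ[k] ψ'.f j q.2)) i' j').symm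
    refine ((MC.tensor k U U' hU).sum_fib_eq _ (U.fib (V.deg i') ×ˢ U'.fib (V'.deg j')) (by
      rintro ⟨a, b⟩ hab
      have hab' : U.deg a + U'.deg b ≠ V.deg i' + V'.deg j' := hab
      by_cases h : U.deg a = V.deg i'
      · rw [ψ'.f_deg _ _ (show U'.deg b ≠ V'.deg j' by omega)]; simp
      · rw [ψ.f_deg _ _ h]; simp) (by
      rintro ⟨a, b⟩ hab
      have hab' : (a, b) ∉ U.fib (V.deg i') ×ˢ U'.fib (V'.deg j') := hab
      simp only [Finset.mem_product, U.mem_fib, U'.mem_fib, not_and_or] at hab'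
      rcases hab' with h | h
      · rw [ψ.f_deg _ _ h]; simp
      · rw [ψ'.f_deg _ _ h]; simp)).trans ?_
    change ∑ q ∈ U.fib (V.deg i') ×ˢ U'.fib (V'.deg j'),
      ((if j = q.2 then U.D i q.1 ⊗ₜ U'.e j else 0)
        + (if i = q.1 then (U.deg i).negOnePow • (U.e i ⊗ₜ[k] U'.D j q.2) else 0))
        * (ψ.f q.1 i' ⊗ₜ[k] ψ'.f q.2 j') = _
    simp only [add_mul, Finset.sum_add_distrib, AddMonoidHom.coe_mulLeft]
    congr 1
    · rw [Finset.sum_product]
      simp only [ite_mul, zero_mul, Finset.sum_ite_eq, U'.mem_fib,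
        Algebra.TensorProduct.tmul_mul_tmul, ψ'.e_f, ψ'.f_e]
      split_ifs with hh
      · rw [← TensorProduct.sum_tmul, ← TensorProduct.sum_tmul, ψ.comm]
      · simp [ψ'.f_deg _ _ hh]
    · rw [Finset.sum_product_right]
      simp only [ite_mul, zero_mul, Finset.sum_ite_eq, U.mem_fib, Units.smul_def, smul_mul_assoc,
        mul_smul_comm, Algebra.TensorProduct.tmul_mul_tmul, ψ.e_f, ψ.f_e]
      split_ifs with hh
      · rw [← Finset.smul_sum, ← Finset.smul_sum, ← TensorProduct.tmul_sum,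
          ← TensorProduct.tmul_sum, ψ'.comm, hh]
      · simp [ψ.f_deg _ _ hh]

@[simp] theorem Hom.tensor_f {U V : MC A} {U' V' : MC B} (ψ : Hom U V) (ψ' : Hom U' V')
    (hU : TensFin U U') (hV : TensFin V V') (p : U.ι × U'.ι) (p' : V.ι × V'.ι) :
    (ψ.tensor k ψ' hU hV).f p p' = ψ.f p.1 p'.1 ⊗ₜ ψ'.f p.2 p'.2 := rfl

section Fin

variable {R : Type u} [Ring R] [Algebra k R]

/-- right multiplication of finitely supported rows by a matrix -/
noncomputable def fmat {ι κ : Type} (s : ι → Finset κ) (X : ι → κ → R) :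
    (ι →₀ R) →ₗ[k] (κ →₀ R) :=
  Finsupp.lsum k fun i => ∑ j ∈ s i, Finsupp.lsingle j ∘ₗ LinearMap.mulRight k (X i j)

theorem fmat_single {ι κ : Type} (s : ι → Finset κ) (X : ι → κ → R)
    (h : ∀ i j, j ∉ s i → X i j = 0) (i : ι) (a : R) (j : κ) :
    fmat k s X (Finsupp.single i a) j = a * X i j := by
  classical
  simp only [fmat, Finsupp.lsum_single, LinearMap.coe_sum, Finset.sum_apply, LinearMap.comp_apply,
    Finsupp.lsingle_apply, LinearMap.mulRight_apply, Finsupp.coe_finsetSum, Finsupp.single_apply,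
    Finset.sum_ite_eq']
  split_ifs with hh
  · rfl
  · rw [h i j hh, mul_zero]

theorem fmat_apply {ι κ : Type} (s : ι → Finset κ) (X : ι → κ → R)
    (h : ∀ i j, j ∉ s i → X i j = 0) (v : ι →₀ R) (j : κ) (t : Finset ι)
    (ht : ∀ i, i ∉ t → X i j = 0) : fmat k s X v j = ∑ i ∈ t, v i * X i j := by
  classical
  induction v using Finsupp.induction_linear with
  | zero => simp
  | add a b ha hb => simp [ha, hb, add_mul, Finset.sum_add_distrib]
  | single i a =>
    rw [fmat_single k s X h]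
    simp only [Finsupp.single_apply, ite_mul, zero_mul, Finset.sum_ite_eq]
    split_ifs with hh
    · rfl
    · rw [ht i hh, mul_zero]

/-- right multiplication by a diagonal matrix -/
noncomputable def fdiag {ι : Type} (x : ι → R) : (ι →₀ R) →ₗ[k] (ι →₀ R) :=
  Finsupp.lsum k fun i => Finsupp.lsingle i ∘ₗ LinearMap.mulRight k (x i)

theorem fdiag_apply {ι : Type} (x : ι → R) (v : ι →₀ R) (i : ι) : fdiag k x v i = v i * x i := by
  classical
  induction v using Finsupp.induction_linear with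
  | zero => simp
  | add a b ha hb => simp [ha, hb, add_mul]
  | single j a =>
    simp only [fdiag, Finsupp.lsum_single, LinearMap.comp_apply, Finsupp.lsingle_apply,
      LinearMap.mulRight_apply, Finsupp.single_apply]
    split_ifs with hh
    · rw [hh]
    · simp

noncomputable def fd (Q : MC R) : (Q.ι →₀ R) →ₗ[k] (Q.ι →₀ R) :=
  fmat k (fun i => Q.fib (Q.deg i - 1)) Q.D

theorem fd_apply (Q : MC R) (v : Q.ι →₀ R) (j : Q.ι) :
    fd k Q v j = ∑ i ∈ Q.fib (Q.deg j + 1), v i * Q.D i j :=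
  fmat_apply k _ _ (fun i j h => Q.D_deg i j (by rw [Q.mem_fib] at h; omega)) v j _
    fun i h => Q.D_deg i j (by rwa [Q.mem_fib] at h)

theorem coe_fd (Q : MC R) (v : Q.ι →₀ R) : ⇑(fd k Q v) = Q.rowD ⇑v := by
  ext j; rw [fd_apply, rowD_apply]; rfl

/-- finitely supported rows of a matrix complex -/
noncomputable def dg (Q : MC R) : DG k (Q.ι →₀ R) where
  d := fd k Q
  π := fdiag k Q.e
  ε := fdiag k fun i => (Q.deg i).negOnePow • Q.e i
  dd x := by
    apply DFunLike.coe_injective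
    simp only [coe_fd, rowD_rowD, Finsupp.coe_zero]
  πd x := by ext j; simp [fdiag_apply, fd_apply, Finset.sum_mul, mul_assoc, Q.D_e]
  dπ x := by ext j; simp [fdiag_apply, fd_apply, mul_assoc, Q.e_D]
  ππ x := by ext j; simp [fdiag_apply, mul_assoc, Q.e_idem]
  πε x := by ext j; simp [fdiag_apply, mul_assoc, Q.e_idem, smul_mul_assoc, mul_smul_comm]
  επ x := by ext j; simp [fdiag_apply, mul_assoc, Q.e_idem, smul_mul_assoc, mul_smul_comm]
  εε x := by
    ext j
    simp only [fdiag_apply, Units.smul_def, mul_smul_comm, smul_mul_assoc, mul_assoc, Q.e_idem,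
      smul_smul, ← Units.val_mul, Int.units_mul_self, Units.val_one, one_smul]
  εd x := by
    ext j
    simp only [fdiag_apply, fd_apply, Finset.sum_mul, Finsupp.neg_apply, ← Finset.sum_neg_distrib]
    refine Finset.sum_congr rfl fun i hi => ?_
    rw [(Q.mem_fib _ _).1 hi, Int.negOnePow_succ]
    simp [smul_mul_assoc, mul_smul_comm, mul_assoc, Q.D_e, Q.e_D]

theorem dg_d (Q : MC R) (v : Q.ι →₀ R) : ⇑((dg k Q).d v) = Q.rowD ⇑v := coe_fd k Q v

theorem dg_π (Q : MC R) (v : Q.ι →₀ R) (i : Q.ι) : (dg k Q).π v i = v i * Q.e i :=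
  fdiag_apply k _ v i

theorem dg_ε (Q : MC R) (v : Q.ι →₀ R) (i : Q.ι) :
    (dg k Q).ε v i = v i * (Q.deg i).negOnePow • Q.e i := fdiag_apply k _ v i

/-- a row of one degree as a finitely supported function -/
noncomputable def IsRow.fin {Q : MC R} {n : ℤ} {v : Q.ι → R} (h : Q.IsRow n v) : Q.ι →₀ R :=
  Finsupp.onFinset (Q.fib n) v fun i hi => (Q.mem_fib _ _).2 (by
    by_contra hne
    exact hi (h.eq_zero hne))

theorem ex_dg (Q : MC R) (h : ∀ n, Q.RowEx R n) : (dg k Q).Ex := by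
  intro v hv h0
  have h0' : Q.rowD ⇑v = 0 := by rw [← dg_d k, h0]; rfl
  have h1 : ∀ n, ∃ w, Q.IsRow (n + 1) w ∧ Q.rowD w = Q.rproj n ⇑v := fun n =>
    (h n).exists_isRow (Q.isRow_rproj n ⇑v) (by
      have := Q.rowD_rproj (n - 1) ⇑v
      rwa [sub_add_cancel, h0', map_zero] at this)
  choose w hw hw' using h1
  refine ⟨∑ n ∈ v.support.image Q.deg, (hw n).fin, ?_⟩
  ext i
  rw [map_sum, Finsupp.finsetSum_apply]
  have : ∀ n, (dg k Q).d (hw n).fin i = if Q.deg i = n then v i else 0 := fun n => by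
    rw [dg_d]
    change Q.rowD (w n) i = _
    rw [hw', rproj_apply]
    split_ifs
    · conv_rhs => rw [← hv, dg_π]
      rfl
    · rfl
  simp only [this, Finset.sum_ite_eq]
  split_ifs with hh
  · rfl
  · by_contra hne
    exact hh (Finset.mem_image_of_mem _ (Finsupp.mem_support_iff.2 (Ne.symm hne)))

noncomputable def Hom.fin {U V : MC R} (ψ : Hom U V) : (U.ι →₀ R) →ₗ[k] (V.ι →₀ R) :=
  fmat k (fun i => V.fib (U.deg i)) ψ.f

theorem Hom.fin_apply {U V : MC R} (ψ : Hom U V) (v : U.ι →₀ R) (j : V.ι) :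
    ψ.fin k v j = ∑ i ∈ U.fib (V.deg j), v i * ψ.f i j :=
  fmat_apply k _ _ (fun i j h => ψ.f_deg i j (by rw [V.mem_fib] at h; omega)) v j _
    fun i h => ψ.f_deg i j (by rwa [U.mem_fib] at h)

theorem Hom.fin_single {U V : MC R} (ψ : Hom U V) (i : U.ι) (a : R) (j : V.ι) :
    ψ.fin k (Finsupp.single i a) j = a * ψ.f i j :=
  fmat_single k _ _ (fun i j h => ψ.f_deg i j (by rw [V.mem_fib] at h; omega)) i a j

noncomputable def Hom.dg {U V : MC R} (ψ : Hom U V) : DG.Hom (dg k U) (dg k V) where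
  f := ψ.fin k
  πf x := by ext j; simp [dg_π, Hom.fin_apply, Finset.sum_mul, mul_assoc, ψ.f_e]
  fπ x := by ext j; simp [dg_π, Hom.fin_apply, mul_assoc, ψ.e_f]
  fd x := by
    ext l
    change ψ.fin k (fd k U x) l = fd k V (ψ.fin k x) l
    rw [Hom.fin_apply, fd_apply]
    have h1 : ∀ j ∈ U.fib (V.deg l), fd k U x j * ψ.f j l
        = ∑ i ∈ U.fib (V.deg l + 1), x i * (U.D i j * ψ.f j l) := fun j hj => by
      rw [fd_apply, (U.mem_fib _ _).1 hj, Finset.sum_mul]; simp only [mul_assoc]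
    have h2 : ∀ j ∈ V.fib (V.deg l + 1), ψ.fin k x j * V.D j l
        = ∑ i ∈ U.fib (V.deg l + 1), x i * (ψ.f i j * V.D j l) := fun j hj => by
      rw [Hom.fin_apply, (V.mem_fib _ _).1 hj, Finset.sum_mul]; simp only [mul_assoc]
    rw [Finset.sum_congr rfl h1, Finset.sum_congr rfl h2, Finset.sum_comm,
      Finset.sum_comm (s := V.fib _)]
    simp only [← Finset.mul_sum, ψ.comm]
  fε x := by
    ext j
    simp only [dg_ε, Hom.fin_apply, Finset.sum_mul]
    refine Finset.sum_congr rfl fun i hi => ?_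
    rw [(U.mem_fib _ _).1 hi]
    simp [smul_mul_assoc, mul_smul_comm, mul_assoc, ψ.e_f, ψ.f_e]

theorem qi_of_rowEx {U V : MC R} (ψ : Hom U V) (h : ∀ n, (cone ψ).RowEx R n) :
    DG.QI (dg k U) (dg k V) (ψ.fin k) := by
  intro u v hu hv h0 h1
  obtain ⟨w, hw⟩ := ex_dg k (cone ψ) h (Finsupp.sumElim u v) (by
      ext i
      rw [dg_π]
      rcases i with i | i
      · exact (dg_π k U u i).symm.trans (DFunLike.congr_fun hu i)
      · exact (dg_π k V v i).symm.trans (DFunLike.congr_fun hv i)) (by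
      ext i
      rw [dg_d]
      rcases i with i | i
      · rw [cone_rowD_inl]
        change -U.rowD ⇑u i = 0
        rw [← dg_d k, h0]; simp
      · rw [cone_rowD_inr]
        have := DFunLike.congr_fun h1 i
        rw [Finsupp.add_apply, dg_d, Hom.fin_apply] at this
        exact this)
  refine ⟨w.comapDomain Sum.inl Sum.inl_injective.injOn,
    w.comapDomain Sum.inr Sum.inr_injective.injOn, ?_, ?_⟩
  · ext i
    have := DFunLike.congr_fun hw (.inl i)
    rw [dg_d, cone_rowD_inl] at this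
    rw [Finsupp.neg_apply, dg_d]
    exact this
  · ext i
    have := DFunLike.congr_fun hw (.inr i)
    rw [dg_d, cone_rowD_inr] at this
    rw [Finsupp.add_apply, dg_d, Hom.fin_apply]
    exact this

theorem rowEx_of_qi {U V : MC R} (ψ : Hom U V) (h : DG.QI (dg k U) (dg k V) (ψ.fin k)) (n : ℤ) :
    (cone ψ).RowEx R n := by
  intro x hx h0
  obtain ⟨u, v, a, b⟩ := h (hx.fin.comapDomain Sum.inl Sum.inl_injective.injOn)
    (hx.fin.comapDomain Sum.inr Sum.inr_injective.injOn)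
    (by ext i; rw [dg_π]; exact hx.e_smul (.inl i))
    (by ext i; rw [dg_π]; exact hx.e_smul (.inr i))
    (by
      ext i
      have := congrFun h0 (.inl i)
      rw [cone_rowD_inl] at this
      rw [dg_d]
      exact neg_eq_zero.1 this)
    (by
      ext i
      have := congrFun h0 (.inr i)
      rw [cone_rowD_inr] at this
      rw [Finsupp.add_apply, dg_d, Hom.fin_apply]
      exact this)
  refine ⟨Sum.elim u v, ?_⟩
  ext i
  rcases i with i | i
  · have := DFunLike.congr_fun a i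
    rw [Finsupp.neg_apply, dg_d] at this
    rw [cone_rowD_inl]
    exact this
  · have := DFunLike.congr_fun b i
    rw [Finsupp.add_apply, dg_d, Hom.fin_apply] at this
    rw [cone_rowD_inr]
    exact this

end Fin

/-- rows of a tensor product -/
noncomputable def tE (U : MC A) (V : MC B) (h : TensFin U V) :
    (U.ι →₀ A) ⊗[k] (V.ι →₀ B) ≃ₗ[k] ((tensor k U V h).ι →₀ A ⊗[k] B) :=
  finsuppTensorFinsupp k k A B U.ι V.ι

theorem tE_tmul (U : MC A) (V : MC B) (h : TensFin U V) (a : U.ι →₀ A) (b : V.ι →₀ B)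
    (p : (tensor k U V h).ι) : tE k U V h (a ⊗ₜ b) p = a p.1 ⊗ₜ b p.2 :=
  finsuppTensorFinsupp_apply k k A B U.ι V.ι a b p.1 p.2

theorem tE_single (U : MC A) (V : MC B) (h : TensFin U V) (i : U.ι) (j : V.ι) (a : A) (b : B) :
    tE k U V h (Finsupp.single i a ⊗ₜ Finsupp.single j b)
      = Finsupp.single (α := (tensor k U V h).ι) (i, j) (a ⊗ₜ b) :=
  finsuppTensorFinsupp_single k k A B U.ι V.ι i a j b

theorem tensor_dg_d (U : MC A) (V : MC B) (h : TensFin U V) (x : (U.ι →₀ A) ⊗[k] (V.ι →₀ B)) :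
    (dg k (tensor k U V h)).d (tE k U V h x)
      = tE k U V h (((dg k U).tensor (dg k V)).d x) := by
  induction x with
  | zero => simp
  | add a b ha hb => simp only [map_add, ha, hb]
  | tmul a b =>
    ext p
    rw [dg_d]
    have e : ⇑(tE k U V h (a ⊗ₜ b)) = fun q : U.ι × V.ι => a q.1 ⊗ₜ[k] b q.2 :=
      funext fun q => tE_tmul k U V h a b q
    rw [e]
    refine (tensor_rowD (k := k) U V h (fun q => a q.1 ⊗ₜ[k] b q.2) p.1 p.2).trans ?_
    simp only [DG.tensor_d, map_add, Finsupp.add_apply, tE_tmul, dg_d, dg_π,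
      dg_ε, rowD_apply, op_smul_eq_mul, Algebra.TensorProduct.tmul_mul_tmul,
      TensorProduct.sum_tmul, TensorProduct.tmul_sum, Units.smul_def, mul_smul_comm,
      Finset.smul_sum, TensorProduct.smul_tmul']

theorem tensor_dg_π (U : MC A) (V : MC B) (h : TensFin U V) (x : (U.ι →₀ A) ⊗[k] (V.ι →₀ B)) :
    (dg k (tensor k U V h)).π (tE k U V h x)
      = tE k U V h (((dg k U).tensor (dg k V)).π x) := by
  induction x with
  | zero => simp
  | add a b ha hb => simp only [map_add, ha, hb]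
  | tmul a b =>
    ext p
    rw [dg_π, DG.tensor_π, tE_tmul, tE_tmul, dg_π, dg_π]
    exact Algebra.TensorProduct.tmul_mul_tmul _ _ _ _

theorem tensor_fin {U V : MC A} {U' V' : MC B} (ψ : Hom U V) (ψ' : Hom U' V')
    (hU : TensFin U U') (hV : TensFin V V') (x : (U.ι →₀ A) ⊗[k] (U'.ι →₀ B)) :
    (ψ.tensor k ψ' hU hV).fin k (tE k U U' hU x)
      = tE k V V' hV (TensorProduct.map (ψ.fin k) (ψ'.fin k) x) := by
  induction x with
  | zero => simp
  | add a b ha hb => simp only [map_add, ha, hb]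
  | tmul a b =>
    induction a using Finsupp.induction_linear with
    | zero => simp
    | add a a' ha ha' => simp only [TensorProduct.add_tmul, map_add, ha, ha']
    | single i a =>
      induction b using Finsupp.induction_linear with
      | zero => simp
      | add b b' hb hb' => simp only [TensorProduct.tmul_add, map_add, hb, hb']
      | single j b =>
        ext p
        rw [tE_single, TensorProduct.map_tmul, tE_tmul, Hom.fin_single, Hom.fin_single,
          Hom.fin_single]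
        exact Algebra.TensorProduct.tmul_mul_tmul _ _ _ _

/-- Künneth: a tensor product of quasi-isomorphisms is a quasi-isomorphism -/
theorem rowEx_cone_tensor {U V : MC A} {U' V' : MC B} (ψ : Hom U V) (ψ' : Hom U' V')
    (hU : TensFin U U') (hV : TensFin V V') (hψ : ∀ n, (cone ψ).RowEx A n)
    (hψ' : ∀ n, (cone ψ').RowEx B n) (n : ℤ) :
    (cone (ψ.tensor k ψ' hU hV)).RowEx (A ⊗[k] B) n :=
  rowEx_of_qi k _ (DG.QI.of_equiv (DG.QI.tensor (f := ψ.dg k) (g := ψ'.dg k) (qi_of_rowEx k ψ hψ)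
    (qi_of_rowEx k ψ' hψ')) (tE k U U' hU) (tE k V V' hV) (tensor_dg_d k U U' hU)
    (tensor_dg_π k U U' hU) (tensor_dg_d k V V' hV) (tensor_dg_π k V V' hV)
    (tensor_fin k ψ ψ' hU hV)) n

end MC

end Crest.Agent.R186
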