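import Crest.Agent.R186.MC2
import Crest.Agent.R186.DualBi

/-!
The triangular algebra `Lam E F` and the cone of a chain map `Φ : Q → F ⊗ Q`.
-/

set_option autoImplicit false

open MulOpposite

universe u

namespace Crest.Agent.R186

/-- a minimal complete resolution `Q` of the one-dimensional module given by `χ`, equivariant for
the automorphism `h` -/
structure QData (k : Type u) [Field k] (E : Type u) [Ring E] [Algebra k E] (χ : E →ₐ[k] k)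
    (h : E ≃ₐ[k] E) where
  Q : MC E
  i0 : Q.ι
  deg_i0 : Q.deg i0 = 0
  uniq : ∀ i, Q.deg i = 0 → i = i0
  χ_e0 : χ (Q.e i0) = 1
  χ_D : ∀ i j, χ (Q.D i j) = 0
  rowE : ∀ n, Q.RowEx E n
  colE : ∀ n, Q.ColEx E n
  ker0 : ∀ a : E, a * Q.e i0 = a → χ a = 0 → ∃ v : Q.ι → E, Q.rowD v = Pi.single i0 a
  G : Q.ι → kˣ
  h_e : ∀ i, h (Q.e i) = Q.e i
  h_D : ∀ i j, (G i : k) • h (Q.D i j) = (G j : k) • Q.D i j
  G_i0 : G i0 = 1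
  G_ne : ∀ i, Q.deg i ≠ 0 → χ (Q.e i) ≠ 0 → G i ≠ 1

/-- the bimodule `F` with its two projections -/
structure FData {k : Type u} [Field k] {E : Type u} [Ring E] [Algebra k E] {χ : E →ₐ[k] k}
    {h : E ≃ₐ[k] E} (X : QData k E χ h) (F : Type u) [AddCommGroup F] [Module k F] [Module E F]
    [Module Eᵐᵒᵖ F] where
  p1 : F →ₗ[E] E
  p2 : F →ₗ[E] E
  p1_r : ∀ (a : E) y, p1 (op a • y) = p1 y * a
  p2_r : ∀ (a : E) y, p2 (op a • y) = p2 y * h a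
  p_surj : ∀ a b, ∃ y, p1 y = a ∧ p2 y = b
  rowF : ∀ n, X.Q.RowEx F n
  colF : ∀ n, X.Q.ColEx F n
  φ0 : F
  φ0_soc : ∀ a : E, a • φ0 - χ a • φ0 ∈ radR χ F
  φ0_1 : χ (p1 φ0) = 1
  φ0_2 : χ (p2 φ0) = -1
  inj : ∀ m : ℤ, 0 ≤ m ∨ m ≤ -3 → ∀ y : X.Q.ι → F, X.Q.IsCol m y →
    (∀ i, X.Q.colD y i ∈ radR χ F) → (∀ i, χ (p1 (y i)) = 0 ∧ χ (p2 (y i)) = 0) →
    ∃ y' : X.Q.ι → F, ∀ i, y i - X.Q.colD y' i ∈ radR χ F
  img0 : ∀ y : X.Q.ι → F, X.Q.IsCol 0 y → (∀ i, X.Q.colD y i ∈ radR χ F) →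
    χ (p1 (y X.i0)) + χ (p2 (y X.i0)) = 0

end Crest.Agent.R186
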