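import Crest.Agent.R186.PB3
import Crest.Agent.R186.Kunneth
import Crest.Agent.R186.LLevelDefs

/-!
The acyclic complex `J = cone (Ψ ⊗ Ψ)` over `E = T ⊗ T` and the Tate cohomology of its cycles.
-/

set_option autoImplicit false

open MulOpposite
open scoped TensorProduct

universe u

namespace Crest.Agent.R186

theorem MC.rowD_single {R : Type u} [Ring R] (Q : MC R) (i : Q.ι) (a : R) (j : Q.ι) :
    Q.rowD (Pi.single i a : Q.ι → R) j = a * Q.D i j := by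
  rw [Q.rowD_eq_sum _ j {i} (fun l hl => by
    rw [Pi.single_eq_of_ne (by simpa using hl), smul_zero])]
  simp

theorem MC.isRow_single {R : Type u} [Ring R] (Q : MC R) {n : ℤ} {i : Q.ι} {a : R}
    (hi : Q.deg i = n) (ha : a * Q.e i = a) : Q.IsRow n (Pi.single i a : Q.ι → R) := by
  refine Q.isRow_iff.2 ⟨fun l hl => Pi.single_eq_of_ne (fun h : l = i => hl (h ▸ hi)) _, fun l => ?_⟩
  by_cases h : l = i
  · subst h; simpa using ha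
  · simp [Pi.single_eq_of_ne h]

theorem mul_idem_add_iff {T : Type u} [Ring T] {ε a w : T} (hε : ε * ε = ε) (ha : a * ε = a) :
    w * (1 - ε + a) = 0 ↔ w * ε = w ∧ w * a = 0 := by
  constructor
  · intro h
    have h1 : w * a = 0 := by
      have := congrArg (· * ε) h
      simpa [mul_assoc, add_mul, sub_mul, hε, ha] using this
    refine ⟨?_, h1⟩
    rw [mul_add, h1, add_zero, mul_sub, mul_one, sub_eq_zero] at h
    exact h.symm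
  · rintro ⟨h1, h2⟩
    rw [mul_add, h2, mul_sub, h1]; simp

section QData

variable {k : Type u} [Field k] {E : Type u} [Ring E] [Algebra k E] {χ : E →ₐ[k] k}
  {h : E ≃ₐ[k] E} (X : QData k E χ h)

/-- a cocycle of degree `0` is a socle element -/
theorem QData.smul_eq_of_cocycle {U : Type u} [AddCommGroup U] [Module E U] [Module k U]
    [IsScalarTower k E U] {w : X.Q.ι → U} (hw : X.Q.IsCol 0 w) (h0 : X.Q.colD w = 0) (a : E) :
    a • w X.i0 = χ a • w X.i0 := by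
  obtain ⟨v, hv⟩ := X.ker0 ((a - algebraMap k E (χ a)) * X.Q.e X.i0)
    (by rw [mul_assoc, X.Q.e_idem]) (by simp)
  have h1 := congrFun hv X.i0
  rw [Pi.single_eq_same, MC.rowD_apply] at h1
  have h2 : ∀ j, X.Q.D j X.i0 • w X.i0 = 0 := fun j => by
    have := congrFun h0 j
    rw [X.Q.colD_eq_sum w j {X.i0} (fun l hl => by
      rw [hw.eq_zero (fun h => hl (Finset.mem_singleton.2 (X.uniq l h))), smul_zero])] at this
    simpa using this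
  have h3 : ((a - algebraMap k E (χ a)) * X.Q.e X.i0) • w X.i0 = 0 := by
    rw [← h1, Finset.sum_smul]
    exact Finset.sum_eq_zero fun j _ => by simp [mul_smul, h2]
  rwa [mul_smul, hw.e_smul, sub_smul, algebraMap_smul, sub_eq_zero] at h3

theorem QData.mat_entry_soc {J : MC E} {j : ℤ} {N : X.Q.ι → J.ι → E} (hN : X.Q.IsMat J 0 j N)
    (h0 : X.Q.colD N = 0) (i : X.Q.ι) (l : J.ι) (a : E) : a * N i l = χ a • N i l := by
  by_cases hi : i = X.i0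
  · subst hi
    exact congrFun (X.smul_eq_of_cocycle hN.1 h0 a) l
  · rw [hN.1.eq_zero fun h => hi (X.uniq i h)]; simp

theorem QData.mat_entry_zero (S : SymData k E) (ς : E) (hς : ∀ x, S.lam (x * ς) = χ x)
    {J : MC E} {j : ℤ} {N : X.Q.ι → J.ι → E} (hN : X.Q.IsMat J 0 j N)
    (h0 : X.Q.colD N = 0) (i : X.Q.ι) {l : J.ι} (hl : J.deg l = j → χ (J.e l) = 0) :
    N i l = 0 := by
  by_cases hd : J.deg l = j
  · exact S.soc_eq_zero χ ς hς (X.mat_entry_soc hN h0 i l) ((hN.2 i).e_smul l) (hl hd)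
  · exact (hN.2 i).eq_zero hd

theorem QData.van_zero (S : SymData k E) (ς : E) (hς : ∀ x, S.lam (x * ς) = χ x)
    {J : MC E} {j : ℤ} (hr : J.RowEx E j) (hl : ∀ l, J.deg l = j - 1 → χ (J.e l) = 0) :
    X.Q.Van J E 0 j := by
  intro M hM h0
  have : X.Q.rD J M = 0 := by
    ext i l
    exact X.mat_entry_zero S ς hς hM.rD' h0 i (hl l)
  obtain ⟨S', -, hS'⟩ := hM.exists_rD hr this
  exact ⟨0, S', by simp [hS']⟩

theorem QData.colD_soc (S : SymData k E) (ς : E) (hς : ∀ x, S.lam (x * ς) = χ x)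
    (c : X.Q.ι → k) : X.Q.colD (fun i => c i • ς) = 0 := by
  ext i
  rw [MC.colD_apply]
  exact Finset.sum_eq_zero fun j _ => by simp [S.mul_soc χ ς hς, X.χ_D]

end QData

/-- the data over `T` used at the level of `T ⊗ T` -/
structure TData (k : Type u) [Field k] (T : Type u) [Ring T] [Algebra k T] where
  S : SymData k T
  χ : T →ₐ[k] k
  ς : T
  hς : ∀ x, S.lam (x * ς) = χ x
  e : ℕ → T
  dL : ℕ → T
  dR : ℕ → T
  he : ∀ n, e n * e n = e n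
  hL1 : ∀ n, e (n + 1) * dL n = dL n
  hL2 : ∀ n, dL n * e n = dL n
  hL3 : ∀ n, dL (n + 1) * dL n = 0
  hR1 : ∀ n, e n * dR n = dR n
  hR2 : ∀ n, dR n * e (n + 1) = dR n
  hR3 : ∀ n, dR n * dR (n + 1) = 0
  Ψ : MC.Hom (MC.chainDown e dL he hL1 hL2 hL3) (MC.chainUp 2 e dR he hR1 hR2 hR3)
  exΨ : ∀ n, (MC.cone Ψ).RowEx T n
  he1 : ∀ n, e (n + 1) = e 1
  χe : χ (e 1) = 0
  ex3 : ∀ w, w * e 3 = w → w * dR 3 = 0 → ∃ v, v * dR 2 = w

namespace TData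

variable {k : Type u} [Field k] {T : Type u} [Ring T] [Algebra k T] (Y : TData k T)

/-- the complex `L` -/
abbrev L : MC T := MC.chainDown Y.e Y.dL Y.he Y.hL1 Y.hL2 Y.hL3
/-- the complex `R` -/
abbrev R : MC T := MC.chainUp 2 Y.e Y.dR Y.he Y.hR1 Y.hR2 Y.hR3

theorem finL : MC.TensFin Y.L Y.L :=
  MC.tensFin_of_bddBelow _ _ 0 0 (fun i => by simp) (fun i => by simp)
theorem finR : MC.TensFin Y.R Y.R :=
  MC.tensFin_of_bddAbove _ _ 2 2 (fun i => by simp) (fun i => by simp)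

/-- the acyclic complex `J` -/
noncomputable def J : MC (T ⊗[k] T) := MC.cone (Y.Ψ.tensor k Y.Ψ Y.finL Y.finR)

theorem J_rowEx (n : ℤ) : Y.J.RowEx (T ⊗[k] T) n :=
  MC.rowEx_cone_tensor k Y.Ψ Y.Ψ Y.finL Y.finR Y.exΨ Y.exΨ n

/-- indices of `L ⊗ L` -/
def il (p q : ℕ) : Y.J.ι := Sum.inl (p, q)
/-- indices of `R ⊗ R` -/
def ir (p q : ℕ) : Y.J.ι := Sum.inr (p, q)

theorem J_cases (l : Y.J.ι) : (∃ p q, l = Y.il p q) ∨ ∃ p q, l = Y.ir p q := by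
  rcases l with ⟨p, q⟩ | ⟨p, q⟩
  exacts [.inl ⟨p, q, rfl⟩, .inr ⟨p, q, rfl⟩]

@[simp] theorem il_inj {p q p' q' : ℕ} : Y.il p q = Y.il p' q' ↔ p = p' ∧ q = q' :=
  ⟨fun h => Prod.ext_iff.1 (Sum.inl_injective h), by rintro ⟨rfl, rfl⟩; rfl⟩
@[simp] theorem ir_inj {p q p' q' : ℕ} : Y.ir p q = Y.ir p' q' ↔ p = p' ∧ q = q' :=
  ⟨fun h => Prod.ext_iff.1 (Sum.inr_injective h), by rintro ⟨rfl, rfl⟩; rfl⟩
@[simp] theorem il_ne_ir {p q p' q' : ℕ} : Y.il p q ≠ Y.ir p' q' := Sum.inl_ne_inr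
@[simp] theorem ir_ne_il {p q p' q' : ℕ} : Y.ir p q ≠ Y.il p' q' := Sum.inr_ne_inl

@[simp] theorem deg_il (p q : ℕ) : Y.J.deg (Y.il p q) = p + q := rfl
@[simp] theorem deg_ir (p q : ℕ) : Y.J.deg (Y.ir p q) = 3 - p - q := by
  change (2 - (p : ℤ)) + (2 - q) - 1 = _; ring
@[simp] theorem e_il (p q : ℕ) : Y.J.e (Y.il p q) = Y.e p ⊗ₜ Y.e q := rfl
@[simp] theorem e_ir (p q : ℕ) : Y.J.e (Y.ir p q) = Y.e p ⊗ₜ Y.e q := rfl

theorem D_ir_ir (p q p' q' : ℕ) : Y.J.D (Y.ir p q) (Y.ir p' q') =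
    (if q = q' then (if p' = p + 1 then Y.dR p else 0) ⊗ₜ Y.e q else 0)
    + (if p = p' then (2 - p : ℤ).negOnePow • (Y.e p ⊗ₜ[k] if q' = q + 1 then Y.dR q else 0)
      else 0) := rfl

theorem χe_succ (n : ℕ) : Y.χ (Y.e (n + 1)) = 0 := by rw [Y.he1, Y.χe]

theorem chi2_e {l : Y.J.ι} (h0 : l ≠ Y.il 0 0) (h3 : Y.J.deg l ≠ 3) : chi2 Y.χ (Y.J.e l) = 0 := by
  rcases Y.J_cases l with ⟨p, q, rfl⟩ | ⟨p, q, rfl⟩
  · rcases p with _ | p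
    · rcases q with _ | q
      · exact (h0 rfl).elim
      · simp [χe_succ]
    · simp [χe_succ]
  · rcases p with _ | p
    · rcases q with _ | q
      · simp at h3
      · simp [χe_succ]
    · simp [χe_succ]

/-- a row with a single entry -/
noncomputable def sg (l : Y.J.ι) : T ⊗[k] T →ₗ[T ⊗[k] T] (Y.J.ι → T ⊗[k] T) :=
  LinearMap.single _ (fun _ => T ⊗[k] T) l

theorem sg_apply (l : Y.J.ι) (a : T ⊗[k] T) (l' : Y.J.ι) :
    Y.sg l a l' = if l' = l then a else 0 := Pi.single_apply _ _ _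

theorem rowD_sg_ir (p q : ℕ) (a : T ⊗[k] T) : Y.J.rowD (Y.sg (Y.ir p q) a) =
    Y.sg (Y.ir (p + 1) q) (a * (Y.dR p ⊗ₜ Y.e q))
      + Y.sg (Y.ir p (q + 1)) (((2 - p : ℤ).negOnePow : ℤ) • (a * (Y.e p ⊗ₜ Y.dR q))) := by
  ext l
  refine (Y.J.rowD_single _ _ _).trans ?_
  rcases Y.J_cases l with ⟨p', q', rfl⟩ | ⟨p', q', rfl⟩
  · simp only [Pi.add_apply, sg_apply, il_ne_ir, if_false, add_zero]
    exact mul_zero a
  · rw [D_ir_ir, mul_add, Pi.add_apply, sg_apply, sg_apply]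
    congr 1
    · by_cases h1 : q = q' <;> by_cases h2 : p' = p + 1 <;> simp [h1, h2, eq_comm]
    · by_cases h1 : p = p' <;> by_cases h2 : q' = q + 1 <;>
        simp [h1, h2, eq_comm, Units.smul_def, -zsmul_eq_mul]

theorem rowD_sg_il (a : T ⊗[k] T) : Y.J.rowD (Y.sg (Y.il 0 0) a) =
    Y.sg (Y.ir 2 2) (a * (Y.Ψ.f (0 : ℕ) (2 : ℕ) ⊗ₜ Y.Ψ.f (0 : ℕ) (2 : ℕ))) := by
  ext l
  refine (Y.J.rowD_single _ _ _).trans ?_
  rcases Y.J_cases l with ⟨p', q', rfl⟩ | ⟨p', q', rfl⟩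
  · rw [Y.J.D_deg _ _ (by simp; omega)]
    simp [sg_apply]
  · rw [sg_apply]
    split_ifs with h
    · obtain ⟨rfl, rfl⟩ := Y.ir_inj.1 h; rfl
    · change a * (Y.Ψ.f (0 : ℕ) p' ⊗ₜ Y.Ψ.f (0 : ℕ) q') = 0
      by_cases hp : p' = 2
      · have hq : q' ≠ 2 := fun hq => h (by rw [hp, hq])
        rw [Y.Ψ.f_deg _ q' (by simp; omega)]; simp
      · rw [Y.Ψ.f_deg _ p' (by simp; omega)]; simp

theorem isRow_sg {n : ℤ} {l : Y.J.ι} {a : T ⊗[k] T} (hl : Y.J.deg l = n) (ha : a * Y.J.e l = a) :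
    Y.J.IsRow n (Y.sg l a) := Y.J.isRow_single hl ha

theorem row_zero_eq {w : Y.J.ι → T ⊗[k] T} (hw : Y.J.IsRow 0 w) :
    w = Y.sg (Y.il 0 0) (w (Y.il 0 0)) + Y.sg (Y.ir 0 3) (w (Y.ir 0 3))
      + Y.sg (Y.ir 1 2) (w (Y.ir 1 2)) + Y.sg (Y.ir 2 1) (w (Y.ir 2 1))
      + Y.sg (Y.ir 3 0) (w (Y.ir 3 0)) := by
  ext l
  by_cases hd : Y.J.deg l = 0
  · rcases Y.J_cases l with ⟨p, q, rfl⟩ | ⟨p, q, rfl⟩
    · obtain ⟨rfl, rfl⟩ : p = 0 ∧ q = 0 := by simp at hd; omega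
      simp [sg_apply]
    · have : (p = 0 ∧ q = 3) ∨ (p = 1 ∧ q = 2) ∨ (p = 2 ∧ q = 1) ∨ (p = 3 ∧ q = 0) := by
        simp at hd; omega
      rcases this with ⟨rfl, rfl⟩ | ⟨rfl, rfl⟩ | ⟨rfl, rfl⟩ | ⟨rfl, rfl⟩ <;> simp [sg_apply]
  · rw [hw.eq_zero hd]
    simp only [Pi.add_apply, sg_apply]
    rw [if_neg, if_neg, if_neg, if_neg, if_neg]
    · simp
    all_goals rintro rfl; simp at hd

variable {h : T ≃ₐ[k] T} (X : QData k (T ⊗[k] T) (chi2 Y.χ) (aut2 h))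

theorem van (m : ℤ) (h0 : m ≠ 0) (h3 : m ≠ -3) : X.Q.Van Y.J (T ⊗[k] T) m 1 := by
  refine (X.van_zero (Y.S.tensor Y.S) (Y.ς ⊗ₜ Y.ς) (lam_mul_soc2 Y.S Y.χ Y.ς Y.hς)
    (j := 1 - m) (Y.J_rowEx _) fun l hl => Y.chi2_e ?_ (by omega)).shift X.colE Y.J_rowEx
    (by ring)
  rintro rfl
  simp at hl; omega

/-- Tate cohomology of the cycles `Z_0(J)` -/
theorem cycles_coh {m : ℤ} (h3 : m ≠ -3) {w : X.Q.ι → Y.J.ι → T ⊗[k] T}
    (hw : X.Q.IsMat Y.J m 0 w) (hz : X.Q.rD Y.J w = 0) (h0 : X.Q.colD w = 0) :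
    ∃ (w' : X.Q.ι → Y.J.ι → T ⊗[k] T) (c : X.Q.ι → k), (∀ i, Y.J.IsRow 0 (w' i)) ∧
      X.Q.rD Y.J w' = 0 ∧ w = X.Q.colD w' + fun i => Y.sg (Y.il 0 0) (c i • (Y.ς ⊗ₜ Y.ς)) := by
  by_cases hm : m = 0
  · subst hm
    refine ⟨0, fun i => (Y.S.tensor Y.S).lam (w i (Y.il 0 0)), fun _ => Y.J.isRow_zero _,
      map_zero _, ?_⟩
    ext i l
    simp only [map_zero, zero_add, sg_apply]
    split_ifs with hl
    · subst hl
      exact (Y.S.tensor Y.S).eq_smul_soc _ _ (lam_mul_soc2 Y.S Y.χ Y.ς Y.hς)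
        (X.mat_entry_soc hw h0 i _)
    · exact X.mat_entry_zero _ _ (lam_mul_soc2 Y.S Y.χ Y.ς Y.hς) hw h0 i
        fun hd => Y.chi2_e hl (by omega)
  · obtain ⟨M, hM, hMw⟩ := hw.exists_rD (Y.J_rowEx 0) hz
    obtain ⟨S, S', hS, -, hMS⟩ := (Y.van X m hm h3).exists_isMat hM (by rw [hMw, h0])
    refine ⟨X.Q.rD Y.J S, 0, (MC.IsMat.rD (j := 0) hS).2, X.Q.rD_rD _ _, ?_⟩
    rw [← hMw, hMS, map_add, MC.rD_rD, MC.colD_rD]
    congr 1
    ext i l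
    simp

/-- the socle class in `Z_0(J)` is not a coboundary -/
theorem colD_cycle_eq_zero {w : X.Q.ι → Y.J.ι → T ⊗[k] T} (hw : X.Q.IsMat Y.J (-1) 0 w)
    (hz : X.Q.rD Y.J w = 0) : X.Q.colD w = 0 := by
  obtain ⟨M, hM, hMw⟩ := hw.exists_rD (Y.J_rowEx 0) hz
  have : X.Q.colD M = 0 := by
    ext i l
    refine X.mat_entry_zero _ _ (lam_mul_soc2 Y.S Y.χ Y.ς Y.hς) (j := 1) hM.colD
      (X.Q.colD_colD _) i fun hd => Y.chi2_e ?_ (by omega)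
    rintro rfl
    simp at hd
  rw [← hMw, MC.colD_rD, this, map_zero]

theorem exists_dR2_right {z : T ⊗[k] T} {ε : T} (h1 : z * (ε ⊗ₜ Y.e 3) = z)
    (h2 : z * (ε ⊗ₜ Y.dR 3) = 0) : ∃ ρ, ρ * (ε ⊗ₜ Y.dR 2) = z := by
  have hex : Function.Exact (LinearMap.mulRight k (Y.dR 2))
      (LinearMap.mulRight k (1 - Y.e 3 + Y.dR 3)) := fun w => by
    have h34 : Y.dR 3 * Y.e 3 = Y.dR 3 := by rw [Y.he1 2, ← Y.he1 3, Y.hR2]
    rw [LinearMap.mulRight_apply, mul_idem_add_iff (Y.he 3) h34]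
    refine ⟨fun h => Y.ex3 w h.1 h.2, ?_⟩
    rintro ⟨v, rfl⟩
    simp [mul_assoc, Y.hR2, Y.hR3]
  obtain ⟨ρ, hρ⟩ := (Module.Flat.lTensor_exact T hex z).1 (by
    have : z * (1 ⊗ₜ (1 - Y.e 3 + Y.dR 3)) = 0 := by
      rw [← h1, mul_assoc, ← h2]
      simp [mul_add, mul_sub, Y.he, Y.hR1]
    rw [PB.mul_tmul_eq_map, LinearMap.mulRight_one] at this
    exact this)
  have h3 : ρ * (1 ⊗ₜ Y.dR 2) = z := by
    rw [PB.mul_tmul_eq_map, LinearMap.mulRight_one]; exact hρ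
  refine ⟨ρ, ?_⟩
  rw [← h1, ← h3, mul_assoc]
  simp [Y.hR2]

theorem exists_dR2_left {z : T ⊗[k] T} {ε : T} (h1 : z * (Y.e 3 ⊗ₜ ε) = z)
    (h2 : z * (Y.dR 3 ⊗ₜ ε) = 0) : ∃ ρ, ρ * (Y.dR 2 ⊗ₜ ε) = z := by
  let c := Algebra.TensorProduct.comm k T T
  obtain ⟨ρ, hρ⟩ := Y.exists_dR2_right (z := c z) (ε := ε)
    (by conv_rhs => rw [← h1]
        simp [c]) (by rw [← map_zero c, ← h2]; simp [c])
  refine ⟨c.symm ρ, c.injective ?_⟩
  rw [← hρ]; simp [c]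

end TData

end Crest.Agent.R186
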