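import Crest.Agent.R186.LLevelC

/-!
The triangular algebra `Lam E F` and the cone of a chain map `Φ : Q → F ⊗ Q`.
(The structures `QData` and `FData` are in `LLevelDefs`.)
-/

set_option autoImplicit false
set_option linter.unusedSectionVars false

open MulOpposite TrivSqZeroExt

universe u

namespace Crest.Agent.R186

section Lam

variable {E : Type u} [Ring E] {F : Type u} [AddCommGroup F] [Module E F] [Module Eᵐᵒᵖ F]
  [SMulCommClass E Eᵐᵒᵖ F]

/-- the element `[[a, y], [0, b]]` -/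
def lamMk : E × F × E →+ Lam E F where
  toFun x := inl (x.1, x.2.2) + inr (Fab.val.symm x.2.1)
  map_zero' := by ext <;> simp
  map_add' _ _ := by ext <;> simp

/-- the three entries -/
def lamUn : Lam E F →+ E × F × E where
  toFun x := (x.fst.1, Fab.val x.snd, x.fst.2)
  map_zero' := by simp
  map_add' _ _ := by simp

@[simp] theorem lamUn_lamMk (x : E × F × E) : lamUn (lamMk x) = x := by
  simp [lamUn, lamMk]

@[simp] theorem lamMk_lamUn (x : Lam E F) : lamMk (lamUn x) = x := by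
  ext <;> simp [lamUn, lamMk]

theorem lamMk_mul (a : E) (y : F) (b : E) (a' : E) (y' : F) (b' : E) :
    lamMk (a, y, b) * lamMk (a', y', b') = lamMk (a * a', a • y' + op b' • y, b * b') := by
  ext
  · simp [lamMk]
  · simp [lamMk]
  · apply Fab.val.injective
    simp [lamMk]

@[simp] theorem lamMk_zero : lamMk ((0 : E), (0 : F), (0 : E)) = 0 := map_zero lamMk

theorem lamMk_inj {x y : E × F × E} (h : lamMk x = lamMk y) : x = y := by
  rw [← lamUn_lamMk x, h, lamUn_lamMk]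

theorem lamMk_surj (x : Lam E F) : ∃ a y b, x = lamMk (a, y, b) :=
  ⟨_, _, _, (lamMk_lamUn x).symm⟩

variable (E F) in
/-- upper left corner -/
def inA : E →ₙ+* Lam E F where
  toFun a := lamMk (a, 0, 0)
  map_zero' := map_zero lamMk
  map_add' _ _ := by rw [← map_add]; simp
  map_mul' _ _ := by rw [lamMk_mul]; simp

variable (E F) in
/-- lower right corner -/
def inB : E →ₙ+* Lam E F where
  toFun a := lamMk (0, 0, a)
  map_zero' := map_zero lamMk
  map_add' _ _ := by rw [← map_add]; simp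
  map_mul' _ _ := by rw [lamMk_mul]; simp

theorem inA_apply (a : E) : inA E F a = lamMk (a, 0, 0) := rfl
theorem inB_apply (a : E) : inB E F a = lamMk (0, 0, a) := rfl

theorem lamMk_sum {ι : Type*} (s : Finset ι) (a : ι → E) (y : ι → F) (b : ι → E) :
    ∑ i ∈ s, lamMk (a i, y i, b i) = lamMk (∑ i ∈ s, a i, ∑ i ∈ s, y i, ∑ i ∈ s, b i) := by
  rw [← map_sum]
  congr 1
  ext <;> simp [Prod.fst_sum, Prod.snd_sum]

theorem lamMk_add (a : E) (y : F) (b : E) (a' : E) (y' : F) (b' : E) :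
    lamMk (a, y, b) + lamMk (a', y', b') = lamMk (a + a', y + y', b + b') := by
  rw [← map_add]; rfl

theorem lamMk_neg (a : E) (y : F) (b : E) : -lamMk (a, y, b) = lamMk (-a, -y, -b) := by
  rw [← map_neg]; rfl

variable (Q : MC E)

theorem rowEx_inA {n : ℤ} (h : Q.RowEx E n) : (Q.map (inA E F)).RowEx (Lam E F) n := by
  refine Q.map_rowEx (inA E F) (inA E F) ((AddMonoidHom.fst _ _).comp lamUn) ?_ ?_ ?_ h
  · intro a x; simp
  · intro a x
    obtain ⟨c, y, b, rfl⟩ := lamMk_surj x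
    simp [inA_apply, lamMk_mul]
  · intro a x
    obtain ⟨c, y, b, rfl⟩ := lamMk_surj x
    simp [inA_apply, lamMk_mul]

theorem colEx_inB {n : ℤ} (h : Q.ColEx E n) : (Q.map (inB E F)).ColEx (Lam E F) n := by
  refine Q.map_colEx (inB E F) (inB E F)
    (((AddMonoidHom.snd _ _).comp (AddMonoidHom.snd _ _)).comp lamUn) ?_ ?_ ?_ h
  · intro a x; simp
  · intro a x
    obtain ⟨c, y, b, rfl⟩ := lamMk_surj x
    simp [inB_apply, lamMk_mul]
  · intro a x
    obtain ⟨c, y, b, rfl⟩ := lamMk_surj x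
    simp [inB_apply, lamMk_mul]

theorem rowEx_inB {n : ℤ} (h : Q.RowEx E n) (h' : Q.RowEx F n) :
    (Q.map (inB E F)).RowEx (Lam E F) n := by
  refine Q.map_rowEx (inB E F) (lamMk.comp (AddMonoidHom.inr E (F × E)))
    ((AddMonoidHom.snd _ _).comp lamUn) ?_ ?_ ?_ (h'.prod h)
  · rintro a ⟨y, b⟩; simp [inB_apply, lamMk_mul]
  · intro a x
    obtain ⟨c, y, b, rfl⟩ := lamMk_surj x
    simp [inB_apply, lamMk_mul]
  · intro a x
    obtain ⟨c, y, b, rfl⟩ := lamMk_surj x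
    simp [inB_apply, lamMk_mul]

theorem colEx_inA {n : ℤ} (h : Q.ColEx E n) (h' : Q.ColEx F n) :
    (Q.map (inA E F)).ColEx (Lam E F) n := by
  refine Q.map_colEx (inA E F)
    (lamMk.comp ((AddMonoidHom.id E).prodMap (AddMonoidHom.inl F E)))
    (((AddMonoidHom.id E).prodMap (AddMonoidHom.fst F E)).comp lamUn) ?_ ?_ ?_ (h.prod h')
  · rintro a ⟨b, y⟩; simp [inA_apply, lamMk_mul]
  · intro a x
    obtain ⟨c, y, b, rfl⟩ := lamMk_surj x
    simp [inA_apply, lamMk_mul]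
  · intro a x
    obtain ⟨c, y, b, rfl⟩ := lamMk_surj x
    simp [inA_apply, lamMk_mul]

end Lam

variable {k : Type u} [Field k] {E : Type u} [Ring E] [Algebra k E] {χ : E →ₐ[k] k}
  {h : E ≃ₐ[k] E} {X : QData k E χ h} {F : Type u} [AddCommGroup F]
  [Module k F] [Module E F] [Module Eᵐᵒᵖ F] [SMulCommClass E Eᵐᵒᵖ F] {Y : FData X F}
  (P : PhiData Y)

namespace PhiData

/-- the chain map over `Lam` -/
def hom : MC.Hom (X.Q.map (inA E F)) (X.Q.map (inB E F)) where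
  f i j := lamMk (0, P.Φ i j, 0)
  e_f i j := by
    change lamMk (X.Q.e i, 0, 0) * _ = _
    simp [lamMk_mul, P.e_Φ]
  f_e i j := by
    change _ * lamMk (0, 0, X.Q.e j) = _
    simp [lamMk_mul, P.Φ_e]
  f_deg i j hij := by rw [P.Φ_deg i j hij]; exact map_zero lamMk
  comm i l := by
    change ∑ j ∈ X.Q.fib (X.Q.deg l), lamMk (X.Q.D i j, 0, 0) * lamMk (0, P.Φ j l, 0)
      = ∑ j ∈ X.Q.fib (X.Q.deg l + 1), lamMk (0, P.Φ i j, 0) * lamMk (0, 0, X.Q.D j l)
    simp only [lamMk_mul, lamMk_sum, mul_zero, zero_mul, smul_zero, add_zero, zero_add,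
      Finset.sum_const_zero]
    rw [← P.comm_apply]
    congr 3
    exact X.Q.sum_fib_eq _ _ (fun j hj => by rw [P.Φ_deg j l hj, smul_zero])
      (fun j hj => by rw [X.Q.D_deg i j (by rw [X.Q.mem_fib] at hj; omega), zero_smul])

/-- block matrices -/
def blk (A : X.Q.ι → X.Q.ι → E) (C : X.Q.ι → X.Q.ι → F) (B : X.Q.ι → X.Q.ι → E) :
    (MC.cone P.hom).ι → (MC.cone P.hom).ι → Lam E F
  | .inl i, .inl l => lamMk (A i l, 0, 0)
  | .inl i, .inr l => lamMk (0, C i l, 0)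
  | .inr _, .inl _ => lamMk (0, 0, 0)
  | .inr i, .inr l => lamMk (0, 0, B i l)

theorem blk_add (A A' : X.Q.ι → X.Q.ι → E) (C C' : X.Q.ι → X.Q.ι → F)
    (B B' : X.Q.ι → X.Q.ι → E) :
    P.blk A C B + P.blk A' C' B' = P.blk (A + A') (C + C') (B + B') := by
  ext i l : 2
  rcases i with i | i <;> rcases l with l | l <;> simp [blk, lamMk_add]

theorem blk_eq_zero {A : X.Q.ι → X.Q.ι → E} {C : X.Q.ι → X.Q.ι → F} {B : X.Q.ι → X.Q.ι → E}
    (h0 : P.blk A C B = 0) : A = 0 ∧ C = 0 := by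
  constructor
  · ext i l
    exact congrArg Prod.fst (lamMk_inj
      ((congrFun (congrFun h0 (.inl i)) (.inl l)).trans lamMk_zero.symm))
  · ext i l
    exact congrArg (fun x => x.2.1) (lamMk_inj
      ((congrFun (congrFun h0 (.inl i)) (.inr l)).trans lamMk_zero.symm))

theorem colD_blk (A : X.Q.ι → X.Q.ι → E) (C : X.Q.ι → X.Q.ι → F) (B : X.Q.ι → X.Q.ι → E) :
    (MC.cone P.hom).colD (P.blk A C B)
      = P.blk (-X.Q.colD A) (-X.Q.colD C + P.L B) (X.Q.colD B) := by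
  ext i l : 2
  rcases i with i | i
  · rw [MC.cone_colD_inl, MC.colD_apply]
    change (-∑ j ∈ X.Q.fib (X.Q.deg i - 1), lamMk (X.Q.D i j, 0, 0) • P.blk A C B (.inl j)
      + ∑ j ∈ X.Q.fib (X.Q.deg i), lamMk (0, P.Φ i j, 0) • P.blk A C B (.inr j)) l = _
    rcases l with l | l <;>
      simp [blk, Finset.sum_apply, lamMk_mul, lamMk_sum, lamMk_add, lamMk_neg, MC.colD_apply,
        L_apply]
  · rw [MC.cone_colD_inr, MC.colD_apply]
    change (∑ j ∈ X.Q.fib (X.Q.deg i - 1), lamMk (0, 0, X.Q.D i j) • P.blk A C B (.inr j)) l = _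
    rcases l with l | l <;>
      simp [blk, Finset.sum_apply, lamMk_mul, lamMk_sum, MC.colD_apply]

theorem rD_blk (A : X.Q.ι → X.Q.ι → E) (C : X.Q.ι → X.Q.ι → F) (B : X.Q.ι → X.Q.ι → E) :
    (MC.cone P.hom).rD (MC.cone P.hom) (P.blk A C B)
      = P.blk (-X.Q.rD X.Q A) (P.R A + X.Q.rD X.Q C) (X.Q.rD X.Q B) := by
  ext i l : 2
  rw [MC.rD_apply]
  rcases l with l | l
  · rw [MC.cone_rowD_inl, MC.rowD_apply]
    change -∑ j ∈ X.Q.fib (X.Q.deg l + 1), P.blk A C B i (.inl j) * lamMk (X.Q.D j l, 0, 0) = _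
    rcases i with i | i <;>
      simp [blk, lamMk_mul, lamMk_sum, lamMk_neg, MC.rD_apply, MC.rowD_apply]
  · rw [MC.cone_rowD_inr, MC.rowD_apply]
    change ∑ j ∈ X.Q.fib (X.Q.deg l), P.blk A C B i (.inl j) * lamMk (0, P.Φ j l, 0)
      + ∑ j ∈ X.Q.fib (X.Q.deg l + 1), P.blk A C B i (.inr j) * lamMk (0, 0, X.Q.D j l) = _
    rcases i with i | i <;>
      simp [blk, lamMk_mul, lamMk_sum, lamMk_add, MC.rD_apply, MC.rowD_apply, R_apply]

theorem exists_blk {n j : ℤ} {M : (MC.cone P.hom).ι → (MC.cone P.hom).ι → Lam E F}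
    (hM : (MC.cone P.hom).IsMat (MC.cone P.hom) n j M) :
    ∃ A C B, X.Q.IsMat X.Q n j A ∧ X.Q.IsMat X.Q n (j + 1) C ∧ X.Q.IsMat X.Q (n + 1) (j + 1) B ∧
      M = P.blk A C B := by
  refine ⟨X.Q.mproj X.Q _ _ fun i l => (lamUn (M (.inl i) (.inl l))).1,
    X.Q.mproj X.Q _ _ fun i l => (lamUn (M (.inl i) (.inr l))).2.1,
    X.Q.mproj X.Q _ _ fun i l => (lamUn (M (.inr i) (.inr l))).2.2,
    X.Q.isMat_mproj X.Q _ _ _, X.Q.isMat_mproj X.Q _ _ _, X.Q.isMat_mproj X.Q _ _ _, ?_⟩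
  conv_lhs => rw [← ((MC.cone P.hom).isMat_iff_mproj _).1 hM]
  ext i l : 2
  rw [MC.mproj_apply]
  obtain ⟨a, y, b, e⟩ := lamMk_surj (M i l)
  rcases i with i | i <;> rcases l with l | l
  · change (if X.Q.deg i = n ∧ X.Q.deg l = j then
      lamMk (X.Q.e i, 0, 0) * (M _ _ * lamMk (X.Q.e l, 0, 0)) else 0) = _
    simp only [blk, MC.mproj_apply, e, lamUn_lamMk, lamMk_mul]
    split_ifs
    · simp
    · exact (map_zero lamMk).symm
  · change (if X.Q.deg i = n ∧ X.Q.deg l - 1 = j then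
      lamMk (X.Q.e i, 0, 0) * (M _ _ * lamMk (0, 0, X.Q.e l)) else 0) = _
    simp only [blk, MC.mproj_apply, e, lamUn_lamMk, lamMk_mul, sub_eq_iff_eq_add]
    split_ifs
    · simp
    · exact (map_zero lamMk).symm
  · change (if X.Q.deg i - 1 = n ∧ X.Q.deg l = j then
      lamMk (0, 0, X.Q.e i) * (M _ _ * lamMk (X.Q.e l, 0, 0)) else 0) = _
    simp only [blk, e, lamMk_mul]
    split_ifs
    · simp
    · exact (map_zero lamMk).symm
  · change (if X.Q.deg i - 1 = n ∧ X.Q.deg l - 1 = j then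
      lamMk (0, 0, X.Q.e i) * (M _ _ * lamMk (0, 0, X.Q.e l)) else 0) = _
    simp only [blk, MC.mproj_apply, e, lamUn_lamMk, lamMk_mul, sub_eq_iff_eq_add]
    split_ifs
    · simp
    · exact (map_zero lamMk).symm

end PhiData

theorem lambda_mc {k : Type u} [Field k] {E : Type u} [Ring E] [Algebra k E] {χ : E →ₐ[k] k}
    {h : E ≃ₐ[k] E} (hχ : ∀ a, χ (h a) = χ a) (X : QData k E χ h) {F : Type u} [AddCommGroup F]
    [Module k F] [Module E F] [Module Eᵐᵒᵖ F] [SMulCommClass E Eᵐᵒᵖ F] [IsScalarTower k E F]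
    [IsScalarTower k Eᵐᵒᵖ F] (Y : FData X F) :
    ∃ (P : MC (Lam E F)) (χ' : Lam E F →ₐ[k] k) (i0 : P.ι),
      (∀ n, P.RowEx (Lam E F) n) ∧ (∀ n, P.ColEx (Lam E F) n) ∧
      (∀ n j : ℤ, 1 ≤ n - j ∨ n - j ≤ -2 → P.Van P (Lam E F) n j) ∧
      (∀ i j, χ' (P.D i j) = 0) ∧ χ' (P.e i0) ≠ 0 := by
  obtain ⟨P⟩ := Y.exists_phi hχ
  have hr : ∀ n, (MC.cone P.hom).RowEx (Lam E F) n := fun n =>
    MC.cone_rowEx _ (rowEx_inA X.Q (X.rowE _)) (rowEx_inB X.Q (X.rowE _) (Y.rowF _))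
  have hc : ∀ n, (MC.cone P.hom).ColEx (Lam E F) n := fun n =>
    MC.cone_colEx _ (colEx_inA X.Q (X.colE _) (Y.colF _)) (colEx_inB X.Q (X.colE _))
  let χ' : Lam E F →ₐ[k] k := χ.comp ((AlgHom.snd k E E).comp (fstHom k (E × E) (Fab E F)))
  have hχ' : ∀ a y b, χ' (lamMk (a, y, b)) = χ b := fun a y b => by simp [χ', lamMk]
  refine ⟨MC.cone P.hom, χ', .inr X.i0, hr, hc, fun n j hnj => ?_, fun i j => ?_, ?_⟩
  · refine MC.Van.shift hc hr (n := n - j - 1) (j := -1) ?_ (by ring)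
    intro M hM h0
    obtain ⟨A, C, B, hA, hC, hB, rfl⟩ := P.exists_blk hM
    rw [MC.colD_rD, P.colD_blk, P.rD_blk] at h0
    obtain ⟨h1, h2⟩ := P.blk_eq_zero h0
    obtain ⟨S1, S3, T1, T3, S2, T2, e1, e2, e3⟩ := P.van_block hχ (by omega) hA hC hB
      (by simpa using h1) h2
    exact ⟨P.blk S1 S2 S3, P.blk T1 T2 T3, by
      rw [P.colD_blk, P.rD_blk, P.blk_add, ← e1, ← e2, ← e3]⟩
  · rcases i with i | i <;> rcases j with j | j
    · change χ' (-lamMk (X.Q.D i j, 0, 0)) = 0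
      rw [map_neg, hχ']; simp
    · exact (hχ' _ _ _).trans (map_zero χ)
    · exact map_zero χ'
    · exact (hχ' _ _ _).trans (X.χ_D i j)
  · change χ' (lamMk (0, 0, X.Q.e X.i0)) ≠ 0
    rw [hχ', X.χ_e0]
    exact one_ne_zero

end Crest.Agent.R186
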