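import Crest.Agent.R186.MC2

/-!
General lemmas: exactness of cones and of complexes after a change of rings; a two-sided recursion.
-/

set_option autoImplicit false

open MulOpposite

universe u u' v w

namespace Crest.Agent.R186

theorem exists_int_chain {α : Type*} (P : ℤ → α → Prop) (R : α → α → Prop) (a0 : α) (h0 : P 0 a0)
    (up : ∀ n a, P n a → ∃ b, P (n + 1) b ∧ R a b)
    (down : ∀ n b, P (n + 1) b → ∃ a, P n a ∧ R a b) :
    ∃ f : ℤ → α, ∀ n, P n (f n) ∧ R (f n) (f (n + 1)) := by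
  choose u hu hu' using up
  choose d hd hd' using down
  let g : (n : ℕ) → {a // P n a} := fun n => Nat.rec ⟨a0, h0⟩
    (fun n x => ⟨u n x.1 x.2, by simpa using hu n x.1 x.2⟩) n
  let g' : (n : ℕ) → {a // P (-(n : ℤ)) a} := fun n => Nat.rec ⟨a0, h0⟩
    (fun n x => ⟨d (-((n + 1 : ℕ) : ℤ)) x.1 (by simpa using x.2), hd _ _ _⟩) n
  refine ⟨fun n => match n with
    | Int.ofNat n => (g n).1
    | Int.negSucc n => (g' (n + 1)).1, fun n => ?_⟩
  rcases n with n | n
  · exact ⟨(g n).2, hu' n (g n).1 (g n).2⟩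
  · refine ⟨(g' (n + 1)).2, ?_⟩
    rcases n with _ | n
    · exact hd' _ (g' 0).1 _
    · exact hd' _ (g' (n + 1)).1 _

namespace MC

variable {R : Type u} [Ring R] {R' : Type u'} [Ring R']

section cone

variable {U V : MC R} (ψ : Hom U V) {W : Type v} [AddCommGroup W]

theorem Hom.comm' (i : U.ι) (l : V.ι) : ∑ j ∈ U.fib (U.deg i - 1), U.D i j * ψ.f j l
    = ∑ j ∈ V.fib (U.deg i), ψ.f i j * V.D j l := by
  have h1 : ∑ j ∈ U.fib (U.deg i - 1), U.D i j * ψ.f j l
      = ∑ j ∈ U.fib (V.deg l), U.D i j * ψ.f j l :=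
    U.sum_fib_eq _ _ (fun j hj => by rw [U.D_deg i j (by omega), zero_mul])
      (fun j hj => by rw [ψ.f_deg j l (by rwa [U.mem_fib] at hj), mul_zero])
  have h2 : ∑ j ∈ V.fib (U.deg i), ψ.f i j * V.D j l
      = ∑ j ∈ V.fib (V.deg l + 1), ψ.f i j * V.D j l :=
    V.sum_fib_eq _ _ (fun j hj => by rw [ψ.f_deg i j (Ne.symm hj), zero_mul])
      (fun j hj => by rw [V.D_deg j l (by rwa [V.mem_fib] at hj), mul_zero])
  rw [h1, h2, ψ.comm]

theorem cone_colEx [Module R W] {n : ℤ} (hU : U.ColEx W n) (hV : V.ColEx W (n + 1)) :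
    (cone ψ).ColEx W n := by
  intro w hw h0
  have hw' := (cone ψ).isCol_iff.1 hw
  have hb : V.IsCol (n + 1) fun j => w (.inr j) :=
    V.isCol_iff.2 ⟨fun j hj => hw'.1 _ (by simp only [cone_deg_inr]; omega), fun j => hw'.2 (.inr j)⟩
  have ha : U.IsCol n fun j => w (.inl j) :=
    U.isCol_iff.2 ⟨fun j hj => hw'.1 _ hj, fun j => hw'.2 (.inl j)⟩
  obtain ⟨b, hb1, hb2⟩ := hV.exists_isCol hb (funext fun i => by
    rw [← cone_colD_inr ψ, h0]; rfl)
  rw [add_sub_cancel_right] at hb1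
  let c : U.ι → W := fun i => ∑ j ∈ V.fib (U.deg i), ψ.f i j • b j
  have hc : U.IsCol n c := U.isCol_iff.2 ⟨fun i hi => Finset.sum_eq_zero fun j hj => by
      rw [hb1.eq_zero (by rw [V.mem_fib] at hj; omega), smul_zero],
    fun i => by simp only [c, Finset.smul_sum, ← mul_smul, ψ.e_f]⟩
  have hDc : ∀ i, U.colD c i = ∑ j ∈ V.fib (U.deg i), ψ.f i j • V.colD b j := by
    intro i
    have h1 : ∀ j ∈ U.fib (U.deg i - 1), U.D i j • c j
        = ∑ l ∈ V.fib (U.deg i - 1), (U.D i j * ψ.f j l) • b l := fun j hj => by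
      simp only [c, (U.mem_fib _ _).1 hj, Finset.smul_sum, mul_smul]
    have h2 : ∀ j ∈ V.fib (U.deg i), ψ.f i j • V.colD b j
        = ∑ l ∈ V.fib (U.deg i - 1), (ψ.f i j * V.D j l) • b l := fun j hj => by
      simp only [colD_apply, (V.mem_fib _ _).1 hj, Finset.smul_sum, mul_smul]
    rw [colD_apply, Finset.sum_congr rfl h1, Finset.sum_congr rfl h2, Finset.sum_comm,
      Finset.sum_comm (s := V.fib (U.deg i))]
    refine Finset.sum_congr rfl fun l _ => ?_
    rw [← Finset.sum_smul, ← Finset.sum_smul, ψ.comm']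
  obtain ⟨a, ha2⟩ := hU _ (hc.sub ha) (funext fun i => by
    have := congrFun h0 (.inl i)
    rw [cone_colD_inl] at this
    rw [map_sub, Pi.sub_apply, hDc, hb2, sub_eq_neg_add]
    exact this)
  refine ⟨Sum.elim a b, funext fun i => ?_⟩
  rcases i with i | i
  · rw [cone_colD_inl]
    simp only [Sum.elim_inl, Sum.elim_inr]
    rw [ha2]
    simp [c]
  · rw [cone_colD_inr]
    exact congrFun hb2 i

theorem cone_rowEx [Module Rᵐᵒᵖ W] {n : ℤ} (hU : U.RowEx W n) (hV : V.RowEx W (n + 1)) :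
    (cone ψ).RowEx W n := by
  intro w hw h0
  have hw' := (cone ψ).isRow_iff.1 hw
  have hb : V.IsRow (n + 1) fun j => w (.inr j) :=
    V.isRow_iff.2 ⟨fun j hj => hw'.1 _ (by simp only [cone_deg_inr]; omega), fun j => hw'.2 (.inr j)⟩
  have ha : U.IsRow n fun j => w (.inl j) :=
    U.isRow_iff.2 ⟨fun j hj => hw'.1 _ hj, fun j => hw'.2 (.inl j)⟩
  obtain ⟨a, ha1, ha2⟩ := hU.exists_isRow ha (funext fun i => by
    have := congrFun h0 (.inl i)
    rw [cone_rowD_inl] at this
    exact neg_eq_zero.1 this)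
  let c : V.ι → W := fun j => ∑ i ∈ U.fib (V.deg j), MulOpposite.op (ψ.f i j) • a i
  have hc : V.IsRow (n + 1) c := V.isRow_iff.2 ⟨fun i hi => Finset.sum_eq_zero fun j hj => by
      rw [ha1.eq_zero (by rw [U.mem_fib] at hj; omega), smul_zero],
    fun i => by simp only [c, Finset.smul_sum, ← mul_smul, ← op_mul, ψ.f_e]⟩
  have hDc : ∀ l, V.rowD c l = ∑ j ∈ U.fib (V.deg l), MulOpposite.op (ψ.f j l) • U.rowD a j := by
    intro l
    have h1 : ∀ j ∈ V.fib (V.deg l + 1), MulOpposite.op (V.D j l) • c j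
        = ∑ i ∈ U.fib (V.deg l + 1), MulOpposite.op (ψ.f i j * V.D j l) • a i := fun j hj => by
      simp only [c, (V.mem_fib _ _).1 hj, Finset.smul_sum, op_mul, mul_smul]
    have h2 : ∀ j ∈ U.fib (V.deg l), MulOpposite.op (ψ.f j l) • U.rowD a j
        = ∑ i ∈ U.fib (V.deg l + 1), MulOpposite.op (U.D i j * ψ.f j l) • a i := fun j hj => by
      simp only [rowD_apply, (U.mem_fib _ _).1 hj, Finset.smul_sum, op_mul, mul_smul]
    rw [rowD_apply, Finset.sum_congr rfl h1, Finset.sum_congr rfl h2, Finset.sum_comm,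
      Finset.sum_comm (s := U.fib (V.deg l))]
    refine Finset.sum_congr rfl fun i _ => ?_
    rw [← Finset.sum_smul, ← Finset.sum_smul, ← Finset.op_sum, ← Finset.op_sum, ψ.comm]
  obtain ⟨b, hb2⟩ := hV _ (hc.add hb) (funext fun i => by
    have := congrFun h0 (.inr i)
    rw [cone_rowD_inr] at this
    rw [map_add, Pi.add_apply, hDc, ha2]
    exact this)
  refine ⟨Sum.elim (-a) b, funext fun i => ?_⟩
  rcases i with i | i
  · rw [cone_rowD_inl]
    simp only [Sum.elim_inl]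
    have : (fun i => (-a) i) = -a := rfl
    rw [this, map_neg, ha2]
    simp
  · rw [cone_rowD_inr]
    simp only [Sum.elim_inl, Sum.elim_inr]
    rw [hb2]
    simp [c]

end cone

theorem map_colEx (Q : MC R) (f : R →ₙ+* R') {W : Type v} [AddCommGroup W] [Module R' W]
    {W₀ : Type w} [AddCommGroup W₀] [Module R W₀] (i : W₀ →+ W) (p : W →+ W₀)
    (hi : ∀ (a : R) x, i (a • x) = f a • i x) (hp : ∀ (a : R) x, p (f a • x) = a • p x)
    (hip : ∀ (a : R) x, i (p (f a • x)) = f a • x) {n : ℤ} (h : Q.ColEx W₀ n) :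
    (Q.map f).ColEx W n := by
  intro w hw h0
  have hw' := (Q.map f).isCol_iff.1 hw
  obtain ⟨x, hx⟩ := h (fun j => p (w j)) (Q.isCol_iff.2 ⟨fun j hj => by rw [hw'.1 j hj, map_zero],
    fun j => by rw [← hp]; exact congrArg p (hw'.2 j)⟩) (funext fun j => by
      have := congrArg p (congrFun h0 j)
      rw [colD_apply, map_sum] at this
      rw [colD_apply]
      simp only [← hp]
      exact this.trans (map_zero p))
  refine ⟨fun j => i (x j), funext fun j => ?_⟩
  have := congrArg i (congrFun hx j)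
  rw [colD_apply, map_sum, ← hw'.2 j] at this
  simp only [hi] at this
  rw [← hw'.2 j]
  exact this.trans (hip _ _)

theorem map_rowEx (Q : MC R) (f : R →ₙ+* R') {W : Type v} [AddCommGroup W] [Module R'ᵐᵒᵖ W]
    {W₀ : Type w} [AddCommGroup W₀] [Module Rᵐᵒᵖ W₀] (i : W₀ →+ W) (p : W →+ W₀)
    (hi : ∀ (a : R) x, i (MulOpposite.op a • x) = MulOpposite.op (f a) • i x)
    (hp : ∀ (a : R) x, p (MulOpposite.op (f a) • x) = MulOpposite.op a • p x)
    (hip : ∀ (a : R) x, i (p (MulOpposite.op (f a) • x)) = MulOpposite.op (f a) • x) {n : ℤ}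
    (h : Q.RowEx W₀ n) : (Q.map f).RowEx W n := by
  intro w hw h0
  have hw' := (Q.map f).isRow_iff.1 hw
  obtain ⟨x, hx⟩ := h (fun j => p (w j)) (Q.isRow_iff.2 ⟨fun j hj => by rw [hw'.1 j hj, map_zero],
    fun j => by rw [← hp]; exact congrArg p (hw'.2 j)⟩) (funext fun j => by
      have := congrArg p (congrFun h0 j)
      rw [rowD_apply, map_sum] at this
      rw [rowD_apply]
      simp only [← hp]
      exact this.trans (map_zero p))
  refine ⟨fun j => i (x j), funext fun j => ?_⟩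
  have := congrArg i (congrFun hx j)
  rw [rowD_apply, map_sum, ← hw'.2 j] at this
  simp only [hi] at this
  rw [← hw'.2 j, rowD_apply]
  exact this.trans (hip _ _)

end MC

end Crest.Agent.R186
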