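import Crest.Agent.R186.LLevelA
import Crest.Agent.R186.LLevelDefs

/-!
Construction of the chain map `Φ : Q → F ⊗ Q`.
-/

set_option autoImplicit false

open MulOpposite

universe u

namespace Crest.Agent.R186

section rad

variable {k : Type u} [Field k] {E : Type u} [Ring E] [Algebra k E] {χ : E →ₐ[k] k}
  {F : Type u} [AddCommGroup F] [Module k F] [Module Eᵐᵒᵖ F]

theorem op_smul_mem_radR {a : E} (ha : χ a = 0) (y : F) : op a • y ∈ radR χ F :=
  Submodule.subset_span ⟨a, y, ha, rfl⟩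

theorem radR_op_smul [IsScalarTower k Eᵐᵒᵖ F] (c : E) {y : F} (hy : y ∈ radR χ F) :
    op c • y ∈ radR χ F := by
  induction hy using Submodule.span_induction with
  | mem x hx =>
    obtain ⟨a, z, ha, rfl⟩ := hx
    rw [← mul_smul, ← op_mul]
    exact op_smul_mem_radR (by rw [map_mul, ha, zero_mul]) _
  | zero => simp
  | add x y _ _ hx hy => rw [smul_add]; exact add_mem hx hy
  | smul t x _ hx => rw [smul_comm]; exact Submodule.smul_mem _ _ hx

theorem radR_smul [Module E F] [SMulCommClass E Eᵐᵒᵖ F] [IsScalarTower k E F] (c : E) {y : F}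
    (hy : y ∈ radR χ F) : c • y ∈ radR χ F := by
  induction hy using Submodule.span_induction with
  | mem x hx =>
    obtain ⟨a, z, ha, rfl⟩ := hx
    rw [smul_comm]
    exact op_smul_mem_radR ha _
  | zero => simp
  | add x y _ _ hx hy => rw [smul_add]; exact add_mem hx hy
  | smul t x _ hx => rw [smul_comm]; exact Submodule.smul_mem _ _ hx

end rad

variable {k : Type u} [Field k] {E : Type u} [Ring E] [Algebra k E] {χ : E →ₐ[k] k}
  {h : E ≃ₐ[k] E} (X : QData k E χ h) {F : Type u} [AddCommGroup F]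
  [Module k F] [Module E F] [Module Eᵐᵒᵖ F] [SMulCommClass E Eᵐᵒᵖ F] [IsScalarTower k E F]
  [IsScalarTower k Eᵐᵒᵖ F]

omit [Module E F] [SMulCommClass E Eᵐᵒᵖ F] [IsScalarTower k E F] [IsScalarTower k Eᵐᵒᵖ F] in
theorem QData.rowD_mem_radR (v : X.Q.ι → F) (j : X.Q.ι) : X.Q.rowD v j ∈ radR χ F := by
  rw [MC.rowD_apply]
  exact sum_mem fun i _ => op_smul_mem_radR (X.χ_D _ _) _

omit [Module E F] [SMulCommClass E Eᵐᵒᵖ F] [IsScalarTower k E F] in
theorem QData.single_rad {y : F} (hy : y ∈ radR χ F) :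
    ∃ w : X.Q.ι → F, X.Q.rowD w = Pi.single X.i0 (op (X.Q.e X.i0) • y) := by
  induction hy using Submodule.span_induction with
  | mem x hx =>
    obtain ⟨a, z, ha, rfl⟩ := hx
    obtain ⟨v, hv⟩ := X.ker0 (a * X.Q.e X.i0) (by rw [mul_assoc, X.Q.e_idem])
      (by rw [map_mul, ha, zero_mul])
    let f : E →ₗ[Eᵐᵒᵖ] F :=
      { toFun := fun c => op c • z
        map_add' := fun _ _ => by rw [op_add, add_smul]
        map_smul' := fun c d => by
          simp only [RingHom.id_apply, ← mul_smul]; rfl }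
    refine ⟨fun i => f (v i), ?_⟩
    rw [MC.rowD_comp, hv]
    ext i
    by_cases hi : i = X.i0
    · subst hi
      simp [f, mul_smul]
    · simp [Pi.single_eq_of_ne hi]
  | zero => exact ⟨0, by simp⟩
  | add x y _ _ hx hy =>
    obtain ⟨w, hw⟩ := hx
    obtain ⟨w', hw'⟩ := hy
    exact ⟨w + w', by rw [map_add, hw, hw', smul_add, Pi.single_add]⟩
  | smul t x _ hx =>
    obtain ⟨w, hw⟩ := hx
    refine ⟨t • w, ?_⟩
    have := (X.Q.rowL (V := F) k).map_smul t w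
    simp only [MC.rowL_apply] at this
    rw [this, hw, smul_comm (op (X.Q.e X.i0)) t, Pi.single_smul X.i0 t]

theorem QData.row0_eq {V : Type*} [AddCommGroup V] [Module Eᵐᵒᵖ V] {v : X.Q.ι → V}
    (hv : X.Q.IsRow 0 v) : v = Pi.single X.i0 (op (X.Q.e X.i0) • v X.i0) := by
  ext i
  by_cases hi : i = X.i0
  · subst hi
    rw [Pi.single_eq_same, hv.e_smul]
  · rw [Pi.single_eq_of_ne hi, hv.eq_zero fun h => hi (X.uniq i h)]

omit [SMulCommClass E Eᵐᵒᵖ F] [IsScalarTower k E F] in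
/-- a matrix with columns in degree `0` and entries in the radical is a right multiple of `D` -/
theorem QData.exists_rD_F {n : ℤ} {M : X.Q.ι → X.Q.ι → F} (hM : X.Q.IsMat X.Q n 0 M)
    (hr : ∀ i, M i X.i0 ∈ radR χ F) : ∃ S, X.Q.rD X.Q S = M := by
  choose S hS using fun i => X.single_rad (hr i)
  exact ⟨S, funext fun i => (hS i).trans (X.row0_eq (hM.2 i)).symm⟩

theorem QData.exists_rD_E {n : ℤ} {M : X.Q.ι → X.Q.ι → E} (hM : X.Q.IsMat X.Q n 0 M)
    (hr : ∀ i, χ (M i X.i0) = 0) : ∃ S, X.Q.rD X.Q S = M := by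
  choose S hS using fun i => X.ker0 (M i X.i0) ((hM.2 i).e_smul X.i0) (hr i)
  refine ⟨S, funext fun i => (hS i).trans ?_⟩
  conv_rhs => rw [X.row0_eq (hM.2 i), (hM.2 i).e_smul]

theorem QData.χ_colD (w : X.Q.ι → E) (i : X.Q.ι) : χ (X.Q.colD w i) = 0 := by
  rw [MC.colD_apply, map_sum]
  exact Finset.sum_eq_zero fun j _ => by rw [smul_eq_mul, map_mul, X.χ_D, zero_mul]

variable {X} (Y : FData X F)

omit [SMulCommClass E Eᵐᵒᵖ F] [IsScalarTower k Eᵐᵒᵖ F] in
theorem FData.χ_p1_rad {y : F} (hy : y ∈ radR χ F) : χ (Y.p1 y) = 0 := by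
  induction hy using Submodule.span_induction with
  | mem x hx =>
    obtain ⟨a, z, ha, rfl⟩ := hx
    rw [Y.p1_r, map_mul, ha, mul_zero]
  | zero => simp
  | add x y _ _ hx hy => rw [map_add, map_add, hx, hy, add_zero]
  | smul t x _ hx => rw [LinearMap.map_smul_of_tower, map_smul, hx, smul_zero]

omit [SMulCommClass E Eᵐᵒᵖ F] [IsScalarTower k Eᵐᵒᵖ F] in
theorem FData.χ_p2_rad (hχ : ∀ a, χ (h a) = χ a) {y : F} (hy : y ∈ radR χ F) :
    χ (Y.p2 y) = 0 := by
  induction hy using Submodule.span_induction with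
  | mem x hx =>
    obtain ⟨a, z, ha, rfl⟩ := hx
    rw [Y.p2_r, map_mul, hχ, ha, mul_zero]
  | zero => simp
  | add x y _ _ hx hy => rw [map_add, map_add, hx, hy, add_zero]
  | smul t x _ hx => rw [LinearMap.map_smul_of_tower, map_smul, hx, smul_zero]

/-- entries killed by both projections -/
def FData.InY (M : X.Q.ι → X.Q.ι → F) : Prop := ∀ i j, Y.p1 (M i j) = 0 ∧ Y.p2 (M i j) = 0

omit [SMulCommClass E Eᵐᵒᵖ F] [IsScalarTower k E F] [IsScalarTower k Eᵐᵒᵖ F] in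
theorem FData.InY.mproj {M : X.Q.ι → X.Q.ι → F} (hM : Y.InY M) (n j : ℤ) :
    Y.InY (X.Q.mproj X.Q n j M) := by
  intro i l
  rw [MC.mproj_apply]
  split_ifs
  · simp [Y.p1_r, Y.p2_r, (hM i l).1, (hM i l).2]
  · simp

omit [IsScalarTower k E F] [IsScalarTower k Eᵐᵒᵖ F] in
theorem FData.InY.exists_rD {M : X.Q.ι → X.Q.ι → F} (hM : Y.InY M) {n j : ℤ}
    (hm : X.Q.IsMat X.Q n j M) (h0 : X.Q.rD X.Q M = 0) :
    ∃ S, X.Q.IsMat X.Q n (j + 1) S ∧ Y.InY S ∧ X.Q.rD X.Q S = M := by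
  obtain ⟨S, -, hS⟩ := hm.exists_rD (Y.rowF j) h0
  obtain ⟨y1, h11, h12⟩ := Y.p_surj 1 0
  obtain ⟨y2, h21, h22⟩ := Y.p_surj 0 1
  let r : F →ₗ[Eᵐᵒᵖ] F :=
    { toFun := fun v => v - op (Y.p1 v) • y1 - op (h.symm (Y.p2 v)) • y2
      map_add' := fun _ _ => by simp only [map_add, op_add, add_smul]; abel
      map_smul' := fun c v => by
        obtain ⟨c, rfl⟩ := op_surjective c
        simp only [RingHom.id_apply, Y.p1_r, Y.p2_r, map_mul, AlgEquiv.symm_apply_apply, op_mul,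
          mul_smul, smul_sub] }
  have hr : Y.InY fun i l => r (S i l) := fun i l => by
    simp [r, Y.p1_r, Y.p2_r, h11, h12, h21, h22]
  refine ⟨_, X.Q.isMat_mproj X.Q _ _ _, hr.mproj Y _ _, ?_⟩
  have : X.Q.rD X.Q (fun i l => r (S i l)) = M := by
    ext i : 1
    rw [MC.rD_apply, MC.rowD_comp, ← MC.rD_apply, hS]
    ext l
    simp [r, (hM i l).1, (hM i l).2]
  rw [MC.rD_mproj, this, (X.Q.isMat_iff_mproj X.Q).1 hm]

omit [IsScalarTower k E F] [IsScalarTower k Eᵐᵒᵖ F] in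
theorem FData.InY.exists_colD {M : X.Q.ι → X.Q.ι → F} (hM : Y.InY M) {n j : ℤ}
    (hm : X.Q.IsMat X.Q (n + 1) j M) (h0 : X.Q.colD M = 0) :
    ∃ S, X.Q.IsMat X.Q n j S ∧ Y.InY S ∧ X.Q.colD S = M := by
  obtain ⟨S, -, hS⟩ := hm.exists_colD (Y.colF _) h0
  obtain ⟨y1, h11, h12⟩ := Y.p_surj 1 0
  obtain ⟨y2, h21, h22⟩ := Y.p_surj 0 1
  let r : F →ₗ[E] F := LinearMap.id - Y.p1.smulRight y1 - Y.p2.smulRight y2
  have hr : Y.InY fun i l => r (S i l) := fun i l => by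
    simp [r, h11, h12, h21, h22]
  refine ⟨_, X.Q.isMat_mproj X.Q _ _ _, hr.mproj Y _ _, ?_⟩
  have : X.Q.colD (fun i l => r (S i l)) = M := by
    have := X.Q.colD_comp (r.compLeft X.Q.ι) S
    refine this.trans ?_
    rw [hS]
    ext i l
    simp [r, (hM i l).1, (hM i l).2]
  rw [MC.colD_mproj, this, (X.Q.isMat_iff_mproj X.Q).1 hm]

/-- the chain map -/
structure PhiData where
  Φ : X.Q.ι → X.Q.ι → F
  e_Φ : ∀ i j, X.Q.e i • Φ i j = Φ i j
  Φ_e : ∀ i j, op (X.Q.e j) • Φ i j = Φ i j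
  Φ_deg : ∀ i j, X.Q.deg i ≠ X.Q.deg j → Φ i j = 0
  comm : X.Q.colD Φ = X.Q.rD X.Q Φ
  p1_Φ : ∀ i j, Y.p1 (Φ i j) = if i = j then X.Q.e i else 0
  p2_Φ : ∀ i j, Y.p2 (Φ i j) = if i = j then -((X.G i : k) • X.Q.e i) else 0

theorem FData.exists_phi (hχ : ∀ a, χ (h a) = χ a) : Nonempty (PhiData Y) := by
  obtain ⟨y1, h11, h12⟩ := Y.p_surj 1 0
  obtain ⟨y2, h21, h22⟩ := Y.p_surj 0 1
  let z0 : F := Y.φ0 + op (1 - Y.p1 Y.φ0) • y1 + op (h.symm (-1 - Y.p2 Y.φ0)) • y2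
  have hz0 : z0 - Y.φ0 ∈ radR χ F := by
    have : z0 - Y.φ0 = op (1 - Y.p1 Y.φ0) • y1 + op (h.symm (-1 - Y.p2 Y.φ0)) • y2 := by
      simp only [z0]; abel
    rw [this]
    refine add_mem (op_smul_mem_radR ?_ _) (op_smul_mem_radR ?_ _)
    · simp [Y.φ0_1]
    · rw [← hχ, AlgEquiv.apply_symm_apply]; simp [Y.φ0_2]
  let z : X.Q.ι → F := fun i => if i = X.i0 then z0 else y1 - (X.G i : k) • y2
  have hz1 : ∀ i, Y.p1 (z i) = 1 := fun i => by
    simp only [z]
    split_ifs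
    · simp only [z0, map_add, Y.p1_r, h11, h21]; simp
    · simp [h11, h21]
  have hz2 : ∀ i, Y.p2 (z i) = -((X.G i : k) • (1 : E)) := fun i => by
    simp only [z]
    split_ifs with hi
    · simp only [z0, map_add, Y.p2_r, h12, h22, hi, X.G_i0, AlgEquiv.apply_symm_apply]; simp
    · simp [h12, h22]
  let Z : X.Q.ι → X.Q.ι → F := fun i j => if i = j then z i else 0
  let N : ℤ → X.Q.ι → X.Q.ι → F := fun n => X.Q.mproj X.Q n n Z
  have hN : ∀ n, X.Q.IsMat X.Q n n (N n) := fun n => X.Q.isMat_mproj X.Q _ _ _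
  have hN1 : ∀ n i j, Y.p1 (N n i j) = if i = j ∧ X.Q.deg i = n then X.Q.e i else 0 := by
    intro n i j
    simp only [N, MC.mproj_apply, Z]
    by_cases hij : i = j
    · subst hij
      by_cases hi : X.Q.deg i = n <;> simp [hi, Y.p1_r, hz1, X.Q.e_idem]
    · simp [hij]
  have hN2 : ∀ n i j, Y.p2 (N n i j)
      = if i = j ∧ X.Q.deg i = n then -((X.G i : k) • X.Q.e i) else 0 := by
    intro n i j
    simp only [N, MC.mproj_apply, Z]
    by_cases hij : i = j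
    · subst hij
      by_cases hi : X.Q.deg i = n <;> simp [hi, Y.p2_r, hz2, X.Q.e_idem, X.h_e]
    · simp [hij]
  have hcol : ∀ {S}, Y.InY S → Y.InY (X.Q.colD S) := fun {S} hS i l => by
    simp [MC.colD_apply, Finset.sum_apply, (hS _ _).1, (hS _ _).2]
  have hrow : ∀ {S}, Y.InY S → Y.InY (X.Q.rD X.Q S) := fun {S} hS i l => by
    simp [MC.rD_apply, MC.rowD_apply, Y.p1_r, Y.p2_r, (hS _ _).1, (hS _ _).2]
  have hadd : ∀ {S S'}, Y.InY S → Y.InY S' → Y.InY (S + S') := fun {S S'} hS hS' i l => by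
    simp [(hS _ _).1, (hS _ _).2, (hS' _ _).1, (hS' _ _).2]
  have hsub : ∀ {S S'}, Y.InY S → Y.InY S' → Y.InY (S - S') := fun {S S'} hS hS' i l => by
    simp [(hS _ _).1, (hS _ _).2, (hS' _ _).1, (hS' _ _).2]
  have hΞ : ∀ n, Y.InY (X.Q.colD (N n) - X.Q.rD X.Q (N (n + 1))) := by
    intro n i l
    simp only [Pi.sub_apply, MC.colD_apply, MC.rD_apply, MC.rowD_apply, Finset.sum_apply,
      Pi.smul_apply, map_sub, map_sum, map_smul, Y.p1_r, Y.p2_r, hN1, hN2, smul_eq_mul]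
    rw [Finset.sum_eq_single l (fun j _ hj => by simp [hj]) (fun hl => by
        rw [X.Q.D_deg i l (by rw [X.Q.mem_fib] at hl; omega), zero_mul]),
      Finset.sum_eq_single i (fun j _ hj => by simp [hj.symm]) (fun hl => by
        rw [X.Q.D_deg i l (by rw [X.Q.mem_fib] at hl; omega), mul_zero]),
      Finset.sum_eq_single l (fun j _ hj => by simp [hj]) (fun hl => by
        rw [X.Q.D_deg i l (by rw [X.Q.mem_fib] at hl; omega), zero_mul]),
      Finset.sum_eq_single i (fun j _ hj => by simp [hj.symm]) (fun hl => by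
        rw [X.Q.D_deg i l (by rw [X.Q.mem_fib] at hl; omega), map_zero, mul_zero])]
    by_cases hd : X.Q.deg i = X.Q.deg l + 1
    · by_cases hl : X.Q.deg l = n
      · have hi : X.Q.deg i = n + 1 := by omega
        have e3 : X.Q.e i * h (X.Q.D i l) = h (X.Q.D i l) := by
          rw [← X.h_e i, ← map_mul, X.Q.e_D]
        simp [hl, hi, X.Q.D_e, X.Q.e_D, e3, X.h_D]
      · have hi : X.Q.deg i ≠ n + 1 := by omega
        simp [hl, hi]
    · simp [X.Q.D_deg i l hd]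
  have h0 : X.Q.colD (X.Q.rD X.Q (N 0)) = 0 := by
    obtain ⟨S, hS⟩ := X.exists_rD_F (hN 0).colD (fun i => by
      rw [MC.colD_apply, Finset.sum_apply]
      refine sum_mem fun j _ => ?_
      simp only [N, Pi.smul_apply, MC.mproj_apply, Z]
      split_ifs with h1 h2
      · subst h2
        simp only [z, if_true]
        rw [← mul_smul, X.Q.D_e, smul_comm]
        refine radR_op_smul _ ?_
        have : X.Q.D i X.i0 • z0 = X.Q.D i X.i0 • (z0 - Y.φ0)
            + (X.Q.D i X.i0 • Y.φ0 - χ (X.Q.D i X.i0) • Y.φ0) := by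
          rw [X.χ_D, zero_smul, sub_zero, ← smul_add, sub_add_cancel]
        rw [this]
        exact add_mem (radR_smul _ hz0) (Y.φ0_soc _)
      · simp
      · simp)
    rw [MC.colD_rD, ← hS, MC.rD_rD]
  obtain ⟨f, hf⟩ := exists_int_chain
    (fun n M => X.Q.IsMat X.Q n n M ∧ Y.InY (M - N n) ∧ X.Q.colD (X.Q.rD X.Q M) = 0)
    (fun M M' => X.Q.colD M = X.Q.rD X.Q M') (N 0) ⟨hN 0, fun i j => by simp, h0⟩
    (fun n M ⟨hM1, hM2, hM3⟩ => by
      have hy : Y.InY (X.Q.colD M - X.Q.rD X.Q (N (n + 1))) := by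
        have := hadd (hcol hM2) (hΞ n)
        rwa [map_sub, sub_add_sub_cancel] at this
      obtain ⟨S, hS1, hS2, hS3⟩ := hy.exists_rD Y (hM1.colD.sub (hN _).rD)
        (by rw [map_sub, MC.rD_rD, sub_zero, ← MC.colD_rD, hM3])
      have e : X.Q.colD M = X.Q.rD X.Q (N (n + 1) + S) := by rw [map_add, hS3]; abel
      exact ⟨N (n + 1) + S, ⟨(hN _).add hS1, by simpa using hS2, by rw [← e, MC.colD_colD]⟩, e⟩)
    (fun n M ⟨hM1, hM2, hM3⟩ => by
      have hy : Y.InY (X.Q.rD X.Q M - X.Q.colD (N n)) := by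
        have := hsub (hrow hM2) (hΞ n)
        rwa [map_sub, show ∀ a b c : X.Q.ι → X.Q.ι → F, a - b - (c - b) = a - c from
          fun a b c => by abel] at this
      obtain ⟨S, hS1, hS2, hS3⟩ := hy.exists_colD Y (hM1.rD.sub (hN _).colD)
        (by rw [map_sub, MC.colD_colD, sub_zero, hM3])
      have e : X.Q.colD (N n + S) = X.Q.rD X.Q M := by rw [map_add, hS3]; abel
      exact ⟨N n + S, ⟨(hN _).add hS1, by simpa using hS2, by rw [MC.colD_rD, e, MC.rD_rD]⟩, e⟩)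
  refine ⟨⟨fun i => f (X.Q.deg i) i, fun i j => congrFun ((hf _).1.1.1.e_smul i) j,
    fun i j => ((hf _).1.1.2 i).e_smul j, fun i j hij => ((hf _).1.1.2 i).eq_zero hij.symm, ?_,
    fun i j => ?_, fun i j => ?_⟩⟩
  · ext i : 1
    have := congrFun (hf (X.Q.deg i - 1)).2 i
    rw [sub_add_cancel] at this
    rw [MC.rD_apply, ← MC.rD_apply, ← this, MC.colD_apply, MC.colD_apply]
    exact Finset.sum_congr rfl fun j hj => by rw [(X.Q.mem_fib _ _).1 hj]
  · have := ((hf (X.Q.deg i)).1.2.1 i j).1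
    rw [Pi.sub_apply, Pi.sub_apply, map_sub, sub_eq_zero, hN1] at this
    simpa using this
  · have := ((hf (X.Q.deg i)).1.2.1 i j).2
    rw [Pi.sub_apply, Pi.sub_apply, map_sub, sub_eq_zero, hN2] at this
    simpa using this

end Crest.Agent.R186
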