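import Crest.Agent.R186.LLevelB

/-!
The vanishing statement in block form.
-/

set_option autoImplicit false

open MulOpposite

universe u

namespace Crest.Agent.R186

variable {k : Type u} [Field k] {E : Type u} [Ring E] [Algebra k E] {χ : E →ₐ[k] k}
  {h : E ≃ₐ[k] E} {X : QData k E χ h} {F : Type u} [AddCommGroup F]
  [Module k F] [Module E F] [Module Eᵐᵒᵖ F] {Y : FData X F} (P : PhiData Y)

namespace PhiData

/-- left multiplication by `Φ` -/
def L : (X.Q.ι → X.Q.ι → E) →+ (X.Q.ι → X.Q.ι → F) where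
  toFun M i l := ∑ j ∈ X.Q.fib (X.Q.deg i), op (M j l) • P.Φ i j
  map_zero' := by ext; simp
  map_add' _ _ := by ext; simp [add_smul, Finset.sum_add_distrib]

/-- right multiplication by `Φ` -/
def R : (X.Q.ι → X.Q.ι → E) →+ (X.Q.ι → X.Q.ι → F) where
  toFun M i l := ∑ j ∈ X.Q.fib (X.Q.deg l), M i j • P.Φ j l
  map_zero' := by ext; simp
  map_add' _ _ := by ext; simp [add_smul, Finset.sum_add_distrib]

theorem L_apply (M : X.Q.ι → X.Q.ι → E) (i l : X.Q.ι) :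
    P.L M i l = ∑ j ∈ X.Q.fib (X.Q.deg i), op (M j l) • P.Φ i j := rfl

theorem R_apply (M : X.Q.ι → X.Q.ι → E) (i l : X.Q.ι) :
    P.R M i l = ∑ j ∈ X.Q.fib (X.Q.deg l), M i j • P.Φ j l := rfl

theorem comm_apply (i t : X.Q.ι) : ∑ j ∈ X.Q.fib (X.Q.deg i - 1), X.Q.D i j • P.Φ j t
    = ∑ j ∈ X.Q.fib (X.Q.deg t + 1), op (X.Q.D j t) • P.Φ i j := by
  have := congrFun (congrFun P.comm i) t
  rwa [MC.colD_apply, Finset.sum_apply, MC.rD_apply, MC.rowD_apply] at this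

theorem L_rD (M : X.Q.ι → X.Q.ι → E) : P.L (X.Q.rD X.Q M) = X.Q.rD X.Q (P.L M) := by
  ext i l
  simp only [L_apply, MC.rD_apply, MC.rowD_apply, Finset.op_sum, Finset.sum_smul, Finset.smul_sum,
    op_smul_eq_mul, op_mul, mul_smul]
  exact Finset.sum_comm

theorem R_colD (M : X.Q.ι → X.Q.ι → E) : P.R (X.Q.colD M) = X.Q.colD (P.R M) := by
  ext i l
  simp only [R_apply, MC.colD_apply, Finset.sum_apply, Pi.smul_apply, Finset.sum_smul,
    Finset.smul_sum, smul_eq_mul, mul_smul]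
  exact Finset.sum_comm

theorem p1_L (M : X.Q.ι → X.Q.ι → E) (i l : X.Q.ι) : Y.p1 (P.L M i l) = X.Q.e i * M i l := by
  rw [L_apply, map_sum, Finset.sum_eq_single i (fun j _ hj => by simp [Y.p1_r, P.p1_Φ, hj.symm])
    (fun hi => (hi ((X.Q.mem_fib _ _).2 rfl)).elim), Y.p1_r, P.p1_Φ, if_pos rfl]

theorem p2_L (M : X.Q.ι → X.Q.ι → E) (i l : X.Q.ι) :
    Y.p2 (P.L M i l) = -((X.G i : k) • X.Q.e i) * h (M i l) := by
  rw [L_apply, map_sum, Finset.sum_eq_single i (fun j _ hj => by simp [Y.p2_r, P.p2_Φ, hj.symm])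
    (fun hi => (hi ((X.Q.mem_fib _ _).2 rfl)).elim), Y.p2_r, P.p2_Φ, if_pos rfl]

theorem p1_R (M : X.Q.ι → X.Q.ι → E) (i l : X.Q.ι) : Y.p1 (P.R M i l) = M i l * X.Q.e l := by
  rw [R_apply, map_sum, Finset.sum_eq_single l (fun j _ hj => by simp [P.p1_Φ, hj])
    (fun hi => (hi ((X.Q.mem_fib _ _).2 rfl)).elim), map_smul, P.p1_Φ, if_pos rfl, smul_eq_mul]

theorem p2_R (M : X.Q.ι → X.Q.ι → E) (i l : X.Q.ι) :
    Y.p2 (P.R M i l) = M i l * -((X.G l : k) • X.Q.e l) := by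
  rw [R_apply, map_sum, Finset.sum_eq_single l (fun j _ hj => by simp [P.p2_Φ, hj])
    (fun hi => (hi ((X.Q.mem_fib _ _).2 rfl)).elim), map_smul, P.p2_Φ, if_pos rfl, smul_eq_mul]

variable [SMulCommClass E Eᵐᵒᵖ F]

theorem L_colD (M : X.Q.ι → X.Q.ι → E) : P.L (X.Q.colD M) = X.Q.colD (P.L M) := by
  ext i l
  have h1 : ∀ j ∈ X.Q.fib (X.Q.deg i), op (X.Q.colD M j l) • P.Φ i j
      = ∑ t ∈ X.Q.fib (X.Q.deg i - 1), op (M t l) • op (X.Q.D j t) • P.Φ i j := fun j hj => by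
    simp only [MC.colD_apply, (X.Q.mem_fib _ _).1 hj, Finset.sum_apply, Pi.smul_apply,
      Finset.op_sum, Finset.sum_smul, smul_eq_mul, op_mul, mul_smul]
  have h2 : ∀ j ∈ X.Q.fib (X.Q.deg i - 1), (X.Q.D i j • P.L M j) l
      = ∑ t ∈ X.Q.fib (X.Q.deg i - 1), op (M t l) • X.Q.D i j • P.Φ j t := fun j hj => by
    simp only [Pi.smul_apply, L_apply, (X.Q.mem_fib _ _).1 hj, Finset.smul_sum,
      smul_comm (X.Q.D i j)]
  rw [L_apply, Finset.sum_congr rfl h1, MC.colD_apply, Finset.sum_apply, Finset.sum_congr rfl h2,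
    Finset.sum_comm]
  conv_rhs => rw [Finset.sum_comm]
  refine Finset.sum_congr rfl fun t ht => ?_
  rw [← Finset.smul_sum, ← Finset.smul_sum, comm_apply, (X.Q.mem_fib _ _).1 ht, sub_add_cancel]

theorem R_rD (M : X.Q.ι → X.Q.ι → E) : P.R (X.Q.rD X.Q M) = X.Q.rD X.Q (P.R M) := by
  ext i l
  have h1 : ∀ j ∈ X.Q.fib (X.Q.deg l), X.Q.rD X.Q M i j • P.Φ j l
      = ∑ t ∈ X.Q.fib (X.Q.deg l + 1), M i t • X.Q.D t j • P.Φ j l := fun j hj => by
    simp only [MC.rD_apply, MC.rowD_apply, (X.Q.mem_fib _ _).1 hj,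
      Finset.sum_smul, op_smul_eq_mul, mul_smul]
  have h2 : ∀ j ∈ X.Q.fib (X.Q.deg l + 1), op (X.Q.D j l) • P.R M i j
      = ∑ t ∈ X.Q.fib (X.Q.deg l + 1), M i t • op (X.Q.D j l) • P.Φ t j := fun j hj => by
    simp only [R_apply, (X.Q.mem_fib _ _).1 hj, Finset.smul_sum]
    exact Finset.sum_congr rfl fun t _ => (smul_comm _ _ _).symm
  rw [R_apply, Finset.sum_congr rfl h1, MC.rD_apply, MC.rowD_apply, Finset.sum_congr rfl h2,
    Finset.sum_comm]
  conv_rhs => rw [Finset.sum_comm]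
  refine Finset.sum_congr rfl fun t ht => ?_
  rw [← Finset.smul_sum, ← Finset.smul_sum, ← comm_apply, (X.Q.mem_fib _ _).1 ht,
    add_sub_cancel_right]

theorem isMat_L {n j : ℤ} {M : X.Q.ι → X.Q.ι → E} (hM : X.Q.IsMat X.Q n j M) :
    X.Q.IsMat X.Q n j (P.L M) := by
  refine ⟨X.Q.isCol_iff.2 ⟨fun i hi => ?_, fun i => ?_⟩, fun i => X.Q.isRow_iff.2
    ⟨fun l hl => ?_, fun l => ?_⟩⟩
  · ext l
    refine Finset.sum_eq_zero fun t ht => ?_
    rw [hM.1.eq_zero (by rw [X.Q.mem_fib] at ht; omega)]; simp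
  · ext l
    simp only [Pi.smul_apply, L_apply, Finset.smul_sum, smul_comm (X.Q.e i), P.e_Φ]
  · refine Finset.sum_eq_zero fun t _ => ?_
    rw [(hM.2 t).eq_zero hl]; simp
  · simp only [L_apply, Finset.smul_sum, ← mul_smul, ← op_mul]
    refine Finset.sum_congr rfl fun t _ => ?_
    rw [← op_smul_eq_mul, (hM.2 t).e_smul]

theorem isMat_R {n j : ℤ} {M : X.Q.ι → X.Q.ι → E} (hM : X.Q.IsMat X.Q n j M) :
    X.Q.IsMat X.Q n j (P.R M) := by
  refine ⟨X.Q.isCol_iff.2 ⟨fun i hi => ?_, fun i => ?_⟩, fun i => X.Q.isRow_iff.2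
    ⟨fun l hl => ?_, fun l => ?_⟩⟩
  · ext l
    refine Finset.sum_eq_zero fun t _ => ?_
    rw [hM.1.eq_zero hi]; simp
  · ext l
    simp only [Pi.smul_apply, R_apply, Finset.smul_sum, ← mul_smul]
    refine Finset.sum_congr rfl fun t _ => ?_
    rw [show X.Q.e i * M i t = M i t from congrFun (hM.1.e_smul i) t]
  · refine Finset.sum_eq_zero fun t ht => ?_
    rw [(hM.2 i).eq_zero (by rw [X.Q.mem_fib] at ht; omega)]; simp
  · simp only [R_apply, Finset.smul_sum]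
    exact Finset.sum_congr rfl fun t _ => by rw [← smul_comm, P.Φ_e]

variable [IsScalarTower k E F] [IsScalarTower k Eᵐᵒᵖ F]

theorem van_block (hχ : ∀ a, χ (h a) = χ a) {m : ℤ} (hm : 0 ≤ m ∨ m ≤ -3)
    {A B : X.Q.ι → X.Q.ι → E} {C : X.Q.ι → X.Q.ι → F} (hA : X.Q.IsMat X.Q m (-1) A)
    (hC : X.Q.IsMat X.Q m 0 C) (hB : X.Q.IsMat X.Q (m + 1) 0 B)
    (h1 : X.Q.rD X.Q (X.Q.colD A) = 0)
    (h2 : P.R (-X.Q.colD A) + X.Q.rD X.Q (-X.Q.colD C + P.L B) = 0) :
    ∃ (S1 S3 T1 T3 : X.Q.ι → X.Q.ι → E) (S2 T2 : X.Q.ι → X.Q.ι → F),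
      A = -X.Q.colD S1 + -X.Q.rD X.Q T1 ∧ B = X.Q.colD S3 + X.Q.rD X.Q T3 ∧
      C = (-X.Q.colD S2 + P.L S3) + (P.R T1 + X.Q.rD X.Q T2) := by
  obtain ⟨N, hN, hN2⟩ := hA.colD.exists_rD (X.rowE _) h1
  rw [neg_add_cancel] at hN
  have hZ : X.Q.IsMat X.Q (m + 1) 0 (P.R N + X.Q.colD C - P.L B) :=
    ((P.isMat_R hN).add hC.colD).sub (P.isMat_L hB)
  obtain ⟨W, -, hW⟩ := hZ.exists_rD (Y.rowF _) (by
    rw [← hN2, map_neg, R_rD, ← map_neg, ← map_add] at h2
    rw [← neg_eq_zero, ← map_neg, ← h2]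
    congr 1; abel)
  have hZr : ∀ i l, (P.R N + X.Q.colD C - P.L B) i l ∈ radR χ F := fun i l => by
    rw [← hW]; exact X.rowD_mem_radR _ _
  have hp1D : ∀ (M : X.Q.ι → X.Q.ι → F) i l, χ (Y.p1 (X.Q.colD M i l)) = 0 := fun M i l => by
    simp [MC.colD_apply, Finset.sum_apply, X.χ_D]
  have hp2D : ∀ (M : X.Q.ι → X.Q.ι → F) i l, χ (Y.p2 (X.Q.colD M i l)) = 0 := fun M i l => by
    simp [MC.colD_apply, Finset.sum_apply, X.χ_D]
  have hNB : ∀ i, χ (N i X.i0) = 0 ∧ χ (B i X.i0) = 0 := fun i => by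
    have e1 := Y.χ_p1_rad (hZr i X.i0)
    have e2 := Y.χ_p2_rad hχ (hZr i X.i0)
    have e3 : χ (X.Q.e i) * χ (B i X.i0) = χ (B i X.i0) := by
      rw [← map_mul]; exact congrArg χ (congrFun (hB.1.e_smul i) X.i0)
    simp only [Pi.sub_apply, Pi.add_apply, map_sub, map_add, hp1D, hp2D, p1_L, p2_L, p1_R, p2_R,
      map_mul, map_neg, map_smul, X.χ_e0, X.G_i0, hχ, smul_eq_mul, Units.val_one, e3] at e1 e2
    have e4 : χ (B i X.i0) = 0 := by
      by_contra hne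
      have hd : X.Q.deg i = m + 1 := by
        by_contra hd
        exact hne (by rw [hB.1.eq_zero hd]; simp)
      have he : χ (X.Q.e i) ≠ 0 := fun he => hne (by rw [← e3, he, zero_mul])
      refine X.G_ne i (by omega) he (Units.ext ?_)
      refine mul_right_cancel₀ hne ?_
      rw [Units.val_one]
      linear_combination e1 + e2 - (X.G i : k) * e3
    exact ⟨by linear_combination e1 + e4, e4⟩
  obtain ⟨N', hN'⟩ := X.exists_rD_E hN fun i => (hNB i).1
  obtain ⟨B', hB'⟩ := X.exists_rD_E hB fun i => (hNB i).2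
  obtain ⟨A', -, hA'⟩ := hA.exists_colD (X.colE _) (by rw [← hN2, ← hN', MC.rD_rD])
  have hDC : ∀ i, X.Q.colD C i X.i0 ∈ radR χ F := fun i => by
    have e : X.Q.colD C = (P.R N + X.Q.colD C - P.L B) - P.R N + P.L B := by abel
    rw [e]
    refine add_mem (sub_mem (hZr _ _) ?_) ?_
    · rw [← hN', R_rD]; exact X.rowD_mem_radR _ _
    · rw [← hB', L_rD]; exact X.rowD_mem_radR _ _
  have hcolD : ∀ (M : X.Q.ι → X.Q.ι → F) i, X.Q.colD (fun j => M j X.i0) i = X.Q.colD M i X.i0 :=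
    fun M i => congrFun (X.Q.colD_comp (LinearMap.proj (R := E) (φ := fun _ => F) X.i0) M) i
  have hcol : ∀ {M : X.Q.ι → X.Q.ι → F}, X.Q.IsMat X.Q m 0 M → X.Q.IsCol m fun j => M j X.i0 :=
    fun hM => hM.1.comp (LinearMap.proj (R := E) (φ := fun _ => F) X.i0)
  let u : X.Q.ι → k := fun i => χ (Y.p1 (C i X.i0))
  let v : X.Q.ι → k := fun i => χ (Y.p2 (C i X.i0))
  let b : X.Q.ι → k := fun i => (u i + v i) / (1 - X.G i)
  let S3 := X.Q.mproj X.Q m 0 fun i _ => algebraMap k E (b i)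
  let T1 := X.Q.mproj X.Q m 0 fun i _ => algebraMap k E (u i - b i)
  have hS3 : X.Q.IsMat X.Q m 0 S3 := X.Q.isMat_mproj X.Q _ _ _
  have hT1 : X.Q.IsMat X.Q m 0 T1 := X.Q.isMat_mproj X.Q _ _ _
  obtain ⟨S', hS'⟩ := X.exists_rD_E hS3.colD fun i => by
    simp [MC.colD_apply, Finset.sum_apply, X.χ_D]
  obtain ⟨T', hT'⟩ := X.exists_rD_E hT1.colD fun i => by
    simp [MC.colD_apply, Finset.sum_apply, X.χ_D]
  have hC' : X.Q.IsMat X.Q m 0 (C - P.L S3 - P.R T1) := (hC.sub (P.isMat_L hS3)).sub (P.isMat_R hT1)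
  obtain ⟨y, hy⟩ := Y.inj m hm _ (hcol hC') (fun i => by
      rw [hcolD, map_sub, map_sub, ← L_colD, ← R_colD, ← hS', ← hT', L_rD, R_rD]
      exact sub_mem (sub_mem (hDC i) (X.rowD_mem_radR _ _)) (X.rowD_mem_radR _ _))
    (fun i => by
      by_cases hd : X.Q.deg i = m
      · have e0 : X.Q.e i • C i X.i0 = C i X.i0 := congrFun (hC.1.e_smul i) X.i0
        have eu : χ (X.Q.e i) * u i = u i := by
          simp only [u]; rw [← map_mul, ← smul_eq_mul, ← map_smul, e0]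
        have ev : χ (X.Q.e i) * v i = v i := by
          simp only [v]; rw [← map_mul, ← smul_eq_mul, ← map_smul, e0]
        have ee : χ (X.Q.e i) * χ (X.Q.e i) = χ (X.Q.e i) := by rw [← map_mul, X.Q.e_idem]
        have eb : χ (X.Q.e i) * ((1 - X.G i) * b i) = u i + v i := by
          by_cases he : χ (X.Q.e i) = 0
          · rw [← eu, ← ev, he]; simp
          · by_cases hm0 : m = 0
            · subst hm0
              obtain rfl := X.uniq i hd
              have := Y.img0 _ (hcol hC) fun i => by rw [hcolD]; exact hDC i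
              simp only [X.G_i0, Units.val_one, sub_self, zero_mul, mul_zero]
              exact this.symm
            · have hG : (1 : k) - X.G i ≠ 0 := fun hG =>
                X.G_ne i (by omega) he (Units.ext (by rw [Units.val_one]; linear_combination -hG))
              simp only [b]
              rw [mul_div_cancel₀ _ hG, mul_add, eu, ev]
        simp only [Pi.sub_apply, map_sub, p1_L, p2_L, p1_R, p2_R, S3, T1, MC.mproj_apply, hd,
          X.deg_i0, and_self, if_true, smul_eq_mul, op_smul_eq_mul, map_mul, map_neg, map_smul, hχ,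
          AlgHom.commutes, X.χ_e0, X.G_i0, Units.val_one, Algebra.algebraMap_self, RingHom.id_apply]
        constructor
        · change u i - _ - _ = 0
          linear_combination -eu - b i * ee
        · change v i - _ - _ = 0
          linear_combination eu - eb + (X.G i : k) * b i * ee
      · rw [(hcol hC').eq_zero hd]; simp)
  let S2 : X.Q.ι → X.Q.ι → F := X.Q.mproj X.Q (m - 1) 0 fun i _ => y i
  have hS2 : X.Q.IsMat X.Q m 0 (X.Q.colD S2) := by
    have := (X.Q.isMat_mproj X.Q (m - 1) 0 fun i _ => y i).colD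
    rwa [sub_add_cancel] at this
  obtain ⟨T2, hT2⟩ := X.exists_rD_F (hC'.sub hS2) fun i => by
    have e : C - P.L S3 - P.R T1 - X.Q.colD S2
        = X.Q.mproj X.Q m 0 (C - P.L S3 - P.R T1 - X.Q.colD fun i _ => y i) := by
      rw [map_sub, (X.Q.isMat_iff_mproj X.Q).1 hC', MC.colD_mproj, sub_add_cancel]
    rw [e, MC.mproj_apply]
    split_ifs
    · refine radR_smul _ (radR_op_smul _ ?_)
      have := hy i
      rw [Pi.sub_apply, Pi.sub_apply, ← hcolD]
      exact this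
    · simp
  obtain ⟨T'', -, hT''⟩ := (show X.Q.IsMat X.Q m (-1) (X.Q.rD X.Q T1) from hT1.rD').exists_colD
    (X.colE _) (by rw [MC.colD_rD, ← hT', MC.rD_rD])
  refine ⟨-A' - T'', S3, T1, B' - S', -S2, T2, ?_, ?_, ?_⟩
  · rw [map_sub, map_neg, hA', hT'']; abel
  · rw [map_sub, hB', hS']; abel
  · rw [map_neg, hT2]; abel

end PhiData

end Crest.Agent.R186
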