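import Mathlib

/-!
Matrix complexes over a ring `R`: an index type with a degree function with finite fibres,
idempotents `e i` and a matrix `D` of degree `-1` with `D * D = 0`.  It stands for the complex of
projective left modules `⊕_{deg i = n} R (e i)` with differential the right multiplication by `D`.

* for a left module `U`, `colD` is the differential of `Hom(Q, U)` (columns `ι → U`),
* for a right module `V`, `rowD` is the differential of `V ⊗ Q` (rows `ι → V`).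
Rows are the columns of the opposite matrix complex.
-/

set_option autoImplicit false

open MulOpposite

universe u u' v w

namespace Crest.Agent.R186

structure MC (R : Type u) [Ring R] where
  ι : Type
  [dec : DecidableEq ι]
  deg : ι → ℤ
  fib : ℤ → Finset ι
  mem_fib : ∀ n i, i ∈ fib n ↔ deg i = n
  e : ι → R
  D : ι → ι → R
  e_idem : ∀ i, e i * e i = e i
  e_D : ∀ i j, e i * D i j = D i j
  D_e : ∀ i j, D i j * e j = D i j
  D_deg : ∀ i j, deg i ≠ deg j + 1 → D i j = 0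
  D_sq : ∀ i l, ∑ j ∈ fib (deg l + 1), D i j * D j l = 0

attribute [instance] MC.dec

namespace MC

variable {R : Type u} [Ring R] (Q : MC R)

theorem sum_fib_eq {M : Type*} [AddCommMonoid M] {n : ℤ} (f : Q.ι → M) (s : Finset Q.ι)
    (h1 : ∀ j, Q.deg j ≠ n → f j = 0) (h2 : ∀ j, j ∉ s → f j = 0) :
    ∑ j ∈ Q.fib n, f j = ∑ j ∈ s, f j := by
  have e1 : ∑ j ∈ Q.fib n ∩ s, f j = ∑ j ∈ Q.fib n, f j :=
    Finset.sum_subset Finset.inter_subset_left fun j h1 hj =>
      h2 j fun h => hj (Finset.mem_inter.2 ⟨h1, h⟩)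
  have e2 : ∑ j ∈ Q.fib n ∩ s, f j = ∑ j ∈ s, f j :=
    Finset.sum_subset Finset.inter_subset_right fun j h2 hj =>
      h1 j fun h => hj (Finset.mem_inter.2 ⟨(Q.mem_fib _ _).2 h, h2⟩)
  rw [← e1, e2]

theorem D_sq' (i l : Q.ι) : ∑ j ∈ Q.fib (Q.deg i - 1), Q.D i j * Q.D j l = 0 := by
  rw [← Q.D_sq i l]
  refine Q.sum_fib_eq _ _ (fun j hj => ?_) (fun j hj => ?_)
  · rw [Q.D_deg i j (by omega), zero_mul]
  · rw [Q.D_deg j l (by rwa [Q.mem_fib] at hj), mul_zero]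

section Cols

variable {U : Type v} [AddCommGroup U] [Module R U] {U' : Type w} [AddCommGroup U'] [Module R U']

/-- differential of `Hom(Q,U)` -/
def colD : (Q.ι → U) →+ (Q.ι → U) where
  toFun w i := ∑ j ∈ Q.fib (Q.deg i - 1), Q.D i j • w j
  map_zero' := by ext; simp
  map_add' _ _ := by ext; simp [Finset.sum_add_distrib]

theorem colD_apply (w : Q.ι → U) (i : Q.ι) :
    Q.colD w i = ∑ j ∈ Q.fib (Q.deg i - 1), Q.D i j • w j := rfl

theorem colD_eq_sum (w : Q.ι → U) (i : Q.ι) (s : Finset Q.ι) (h : ∀ j, j ∉ s → Q.D i j • w j = 0) :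
    Q.colD w i = ∑ j ∈ s, Q.D i j • w j :=
  Q.sum_fib_eq _ _ (fun j hj => by rw [Q.D_deg i j (by omega), zero_smul]) h

/-- projection on the columns of degree `n` -/
def proj (n : ℤ) : (Q.ι → U) →+ (Q.ι → U) where
  toFun w i := if Q.deg i = n then Q.e i • w i else 0
  map_zero' := by ext; simp
  map_add' _ _ := by ext i; by_cases h : Q.deg i = n <;> simp [h]

theorem proj_apply (n : ℤ) (w : Q.ι → U) (i : Q.ι) :
    Q.proj n w i = if Q.deg i = n then Q.e i • w i else 0 := rfl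

/-- `w` is an element of `Hom(Q_n, U)` -/
def IsCol (n : ℤ) (w : Q.ι → U) : Prop := Q.proj n w = w

theorem isCol_iff {n : ℤ} {w : Q.ι → U} :
    Q.IsCol n w ↔ (∀ i, Q.deg i ≠ n → w i = 0) ∧ ∀ i, Q.e i • w i = w i := by
  constructor
  · intro h
    refine ⟨fun i hi => ?_, fun i => ?_⟩
    · rw [← h, proj_apply, if_neg hi]
    · rw [← h, proj_apply]
      split_ifs
      · rw [← mul_smul, Q.e_idem]
      · simp
  · rintro ⟨h1, h2⟩
    ext i
    rw [proj_apply]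
    split_ifs with h
    · exact h2 i
    · exact (h1 i h).symm

theorem isCol_proj (n : ℤ) (w : Q.ι → U) : Q.IsCol n (Q.proj n w) := by
  ext i
  simp only [proj_apply]
  split_ifs
  · rw [← mul_smul, Q.e_idem]
  · rfl

variable {Q} in
theorem IsCol.eq_zero {n : ℤ} {w : Q.ι → U} (h : Q.IsCol n w) {i : Q.ι} (hi : Q.deg i ≠ n) :
    w i = 0 := (Q.isCol_iff.1 h).1 i hi

variable {Q} in
theorem IsCol.e_smul {n : ℤ} {w : Q.ι → U} (h : Q.IsCol n w) (i : Q.ι) :
    Q.e i • w i = w i := (Q.isCol_iff.1 h).2 i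

theorem isCol_zero (n : ℤ) : Q.IsCol n (0 : Q.ι → U) := map_zero _

variable {Q} in
theorem IsCol.add {n : ℤ} {w w' : Q.ι → U} (h : Q.IsCol n w) (h' : Q.IsCol n w') :
    Q.IsCol n (w + w') := by
  unfold IsCol at *; rw [map_add, h, h']

variable {Q} in
theorem IsCol.sub {n : ℤ} {w w' : Q.ι → U} (h : Q.IsCol n w) (h' : Q.IsCol n w') :
    Q.IsCol n (w - w') := by
  unfold IsCol at *; rw [map_sub, h, h']

variable {Q} in
theorem IsCol.neg {n : ℤ} {w : Q.ι → U} (h : Q.IsCol n w) : Q.IsCol n (-w) := by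
  unfold IsCol at *; rw [map_neg, h]

theorem colD_colD (w : Q.ι → U) : Q.colD (Q.colD w) = 0 := by
  ext i
  have : ∀ j ∈ Q.fib (Q.deg i - 1), Q.D i j • Q.colD w j
      = ∑ l ∈ Q.fib (Q.deg i - 1 - 1), (Q.D i j * Q.D j l) • w l := fun j hj => by
    rw [colD_apply, (Q.mem_fib _ _).1 hj, Finset.smul_sum]
    simp only [mul_smul]
  rw [colD_apply, Finset.sum_congr rfl this, Finset.sum_comm]
  refine Finset.sum_eq_zero fun l _ => ?_
  rw [← Finset.sum_smul, Q.D_sq', zero_smul]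

theorem colD_proj (n : ℤ) (w : Q.ι → U) : Q.colD (Q.proj n w) = Q.proj (n + 1) (Q.colD w) := by
  ext i
  simp only [colD_apply, proj_apply]
  split_ifs with h
  · rw [Finset.smul_sum]
    refine Finset.sum_congr rfl fun j hj => ?_
    rw [Q.mem_fib] at hj
    rw [if_pos (by omega), ← mul_smul, ← mul_smul, Q.D_e, Q.e_D]
  · refine Finset.sum_eq_zero fun j hj => ?_
    rw [Q.mem_fib] at hj
    rw [if_neg (by omega), smul_zero]

variable {Q} in
theorem IsCol.colD {n : ℤ} {w : Q.ι → U} (h : Q.IsCol n w) : Q.IsCol (n + 1) (Q.colD w) := by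
  unfold IsCol at *; rw [← colD_proj, h]

theorem colD_comp (f : U →ₗ[R] U') (w : Q.ι → U) :
    Q.colD (fun i => f (w i)) = fun i => f (Q.colD w i) := by
  ext i; simp [colD_apply]

theorem proj_comp (f : U →ₗ[R] U') (n : ℤ) (w : Q.ι → U) :
    Q.proj n (fun i => f (w i)) = fun i => f (Q.proj n w i) := by
  ext i; simp only [proj_apply]; split_ifs <;> simp

variable {Q} in
theorem IsCol.comp {n : ℤ} {w : Q.ι → U} (h : Q.IsCol n w) (f : U →ₗ[R] U') :
    Q.IsCol n (fun i => f (w i)) := by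
  unfold IsCol at *; rw [proj_comp, h]

theorem colD_smul {S : Type*} [Monoid S] [DistribMulAction S U] [SMulCommClass S R U] (c : S)
    (w : Q.ι → U) : Q.colD (c • w) = c • Q.colD w := by
  ext i; simp [colD_apply, Finset.smul_sum, smul_comm c]

theorem proj_smul {S : Type*} [Monoid S] [DistribMulAction S U] [SMulCommClass S R U] (c : S)
    (n : ℤ) (w : Q.ι → U) : Q.proj n (c • w) = c • Q.proj n w := by
  ext i; simp only [proj_apply, Pi.smul_apply]; split_ifs <;> simp [smul_comm c]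

/-- `colD` as a linear map over a commuting ring -/
def colL (S : Type*) [Semiring S] [Module S U] [SMulCommClass S R U] :
    (Q.ι → U) →ₗ[S] (Q.ι → U) where
  toFun := Q.colD
  map_add' := map_add _
  map_smul' := Q.colD_smul

@[simp] theorem colL_apply (S : Type*) [Semiring S] [Module S U] [SMulCommClass S R U]
    (w : Q.ι → U) : Q.colL S w = Q.colD w := rfl

/-- `proj` as a linear map over a commuting ring -/
def projL (S : Type*) [Semiring S] [Module S U] [SMulCommClass S R U] (n : ℤ) :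
    (Q.ι → U) →ₗ[S] (Q.ι → U) where
  toFun := Q.proj n
  map_add' := map_add _
  map_smul' c := Q.proj_smul c n

@[simp] theorem projL_apply (S : Type*) [Semiring S] [Module S U] [SMulCommClass S R U] (n : ℤ)
    (w : Q.ι → U) : Q.projL S n w = Q.proj n w := rfl

variable (U) in
/-- `Hom(Q,U)` is exact in degree `n` -/
def ColEx (n : ℤ) : Prop :=
  ∀ w : Q.ι → U, Q.IsCol n w → Q.colD w = 0 → ∃ w', Q.colD w' = w

variable {Q} in
theorem IsCol.normalize {n : ℤ} {w w' : Q.ι → U} (h : Q.IsCol n w) (h' : Q.colD w' = w) :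
    Q.IsCol (n - 1) (Q.proj (n - 1) w') ∧ Q.colD (Q.proj (n - 1) w') = w :=
  ⟨Q.isCol_proj _ _, by rw [colD_proj, h', sub_add_cancel, h]⟩

variable {Q} in
theorem ColEx.exists_isCol {n : ℤ} (hU : Q.ColEx U n) {w : Q.ι → U} (h : Q.IsCol n w)
    (h0 : Q.colD w = 0) : ∃ w', Q.IsCol (n - 1) w' ∧ Q.colD w' = w := by
  obtain ⟨w', hw'⟩ := hU w h h0
  exact ⟨_, h.normalize hw'⟩

variable {Q} in
theorem ColEx.of_retract {n : ℤ} (h : Q.ColEx U' n) (i : U →ₗ[R] U') (p : U' →ₗ[R] U)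
    (hpi : ∀ u, p (i u) = u) : Q.ColEx U n := by
  intro w hw h0
  obtain ⟨w', hw'⟩ := h _ (hw.comp i) (by rw [colD_comp, h0]; ext; simp)
  refine ⟨fun j => p (w' j), ?_⟩
  rw [colD_comp, hw']
  ext j; exact hpi _

variable {Q} in
theorem ColEx.pi {n : ℤ} {κ : Type*} {W : κ → Type*} [∀ l, AddCommGroup (W l)]
    [∀ l, Module R (W l)] (h : ∀ l, Q.ColEx (W l) n) : Q.ColEx (∀ l, W l) n := by
  intro w hw h0
  have := fun l => h l _ (hw.comp (LinearMap.proj l)) (by rw [colD_comp, h0]; rfl)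
  choose w' hw' using this
  refine ⟨fun j l => w' l j, ?_⟩
  ext j l
  have h1 := congrFun (Q.colD_comp (LinearMap.proj (R := R) (φ := W) l) (fun j l => w' l j)) j
  exact h1.symm.trans (congrFun (hw' l) j)

variable {Q} in
theorem ColEx.prod {n : ℤ} (h : Q.ColEx U n) (h' : Q.ColEx U' n) : Q.ColEx (U × U') n := by
  intro w hw h0
  obtain ⟨a, ha⟩ := h _ (hw.comp (LinearMap.fst R U U')) (by rw [colD_comp, h0]; rfl)
  obtain ⟨b, hb⟩ := h' _ (hw.comp (LinearMap.snd R U U')) (by rw [colD_comp, h0]; rfl)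
  refine ⟨fun j => (a j, b j), ?_⟩
  ext j
  · exact (congrFun (Q.colD_comp (LinearMap.fst R U U') (fun j => (a j, b j))) j).symm.trans
      (congrFun ha j)
  · exact (congrFun (Q.colD_comp (LinearMap.snd R U U') (fun j => (a j, b j))) j).symm.trans
      (congrFun hb j)

variable {Q} in
theorem ColEx.of_projective {n : ℤ} (h : Q.ColEx R n) (U : Type v) [AddCommGroup U] [Module R U]
    [Module.Finite R U] [Module.Projective R U] : Q.ColEx U n := by
  obtain ⟨m, p, i, -, -, hpi⟩ := Module.Finite.exists_comp_eq_id_of_projective R U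
  exact (ColEx.pi (W := fun _ : Fin m => R) fun _ => h).of_retract i p
    fun u => LinearMap.congr_fun hpi u

/-- columns lift along a surjection -/
theorem exists_isCol_lift {n : ℤ} (f : U →ₗ[R] U') {w : Q.ι → U'} (hw : Q.IsCol n w)
    (hf : ∀ i, ∃ u, f u = w i) : ∃ v : Q.ι → U, Q.IsCol n v ∧ ∀ i, f (v i) = w i := by
  choose v hv using hf
  refine ⟨Q.proj n v, Q.isCol_proj _ _, fun i => ?_⟩
  have := congrFun (Q.proj_comp f n v) i
  rw [← this, funext hv, hw]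

end Cols

/-- the transposed complex over the opposite ring -/
def op : MC Rᵐᵒᵖ where
  ι := Q.ι
  deg i := -Q.deg i
  fib n := Q.fib (-n)
  mem_fib n i := by rw [Q.mem_fib]; omega
  e i := MulOpposite.op (Q.e i)
  D i j := MulOpposite.op (Q.D j i)
  e_idem i := by rw [← op_mul, Q.e_idem]
  e_D i j := by rw [← op_mul, Q.D_e]
  D_e i j := by rw [← op_mul, Q.e_D]
  D_deg i j h := by rw [Q.D_deg j i (by omega), op_zero]
  D_sq i l := by
    simp only [← op_mul, ← Finset.op_sum]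
    rw [show -(-Q.deg l + 1) = Q.deg l - 1 by ring, Q.D_sq', op_zero]

section Rows

variable {V : Type v} [AddCommGroup V] [Module Rᵐᵒᵖ V] {V' : Type w} [AddCommGroup V']
  [Module Rᵐᵒᵖ V']

/-- differential of `V ⊗ Q` -/
def rowD : (Q.ι → V) →+ (Q.ι → V) := Q.op.colD

theorem rowD_apply (v : Q.ι → V) (j : Q.ι) :
    Q.rowD v j = ∑ i ∈ Q.fib (Q.deg j + 1), MulOpposite.op (Q.D i j) • v i := by
  change ∑ i ∈ Q.fib (-(-Q.deg j - 1)), _ = _
  rw [show -(-Q.deg j - 1) = Q.deg j + 1 by ring]; rfl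

theorem rowD_eq_sum (v : Q.ι → V) (j : Q.ι) (s : Finset Q.ι)
    (h : ∀ i, i ∉ s → MulOpposite.op (Q.D i j) • v i = 0) :
    Q.rowD v j = ∑ i ∈ s, MulOpposite.op (Q.D i j) • v i := Q.op.colD_eq_sum v j s h

/-- projection on the rows of degree `n` -/
def rproj (n : ℤ) : (Q.ι → V) →+ (Q.ι → V) := Q.op.proj (-n)

theorem rproj_apply (n : ℤ) (v : Q.ι → V) (i : Q.ι) :
    Q.rproj n v i = if Q.deg i = n then MulOpposite.op (Q.e i) • v i else 0 := by
  change (if -Q.deg i = -n then _ else _) = _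
  simp only [neg_inj]; rfl

/-- `v` is an element of `V ⊗ Q_n` -/
def IsRow (n : ℤ) (v : Q.ι → V) : Prop := Q.rproj n v = v

theorem isRow_iff {n : ℤ} {v : Q.ι → V} :
    Q.IsRow n v ↔ (∀ i, Q.deg i ≠ n → v i = 0) ∧ ∀ i, MulOpposite.op (Q.e i) • v i = v i := by
  refine (Q.op.isCol_iff (n := -n) (w := v)).trans ?_
  change (∀ i, -Q.deg i ≠ -n → _) ∧ _ ↔ _
  simp only [ne_eq, neg_inj]; rfl

theorem isRow_rproj (n : ℤ) (v : Q.ι → V) : Q.IsRow n (Q.rproj n v) := Q.op.isCol_proj _ _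

variable {Q} in
theorem IsRow.eq_zero {n : ℤ} {v : Q.ι → V} (h : Q.IsRow n v) {i : Q.ι} (hi : Q.deg i ≠ n) :
    v i = 0 := (Q.isRow_iff.1 h).1 i hi

variable {Q} in
theorem IsRow.e_smul {n : ℤ} {v : Q.ι → V} (h : Q.IsRow n v) (i : Q.ι) :
    MulOpposite.op (Q.e i) • v i = v i := (Q.isRow_iff.1 h).2 i

theorem isRow_zero (n : ℤ) : Q.IsRow n (0 : Q.ι → V) := map_zero _

variable {Q} in
theorem IsRow.add {n : ℤ} {v v' : Q.ι → V} (h : Q.IsRow n v) (h' : Q.IsRow n v') :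
    Q.IsRow n (v + v') := IsCol.add (Q := Q.op) h h'

variable {Q} in
theorem IsRow.sub {n : ℤ} {v v' : Q.ι → V} (h : Q.IsRow n v) (h' : Q.IsRow n v') :
    Q.IsRow n (v - v') := IsCol.sub (Q := Q.op) h h'

variable {Q} in
theorem IsRow.neg {n : ℤ} {v : Q.ι → V} (h : Q.IsRow n v) : Q.IsRow n (-v) :=
  IsCol.neg (Q := Q.op) h

theorem rowD_rowD (v : Q.ι → V) : Q.rowD (Q.rowD v) = 0 := Q.op.colD_colD v

theorem rowD_rproj (n : ℤ) (v : Q.ι → V) :
    Q.rowD (Q.rproj (n + 1) v) = Q.rproj n (Q.rowD v) := by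
  have := Q.op.colD_proj (-(n + 1)) v
  rwa [show -(n + 1) + 1 = -n by ring] at this

variable {Q} in
theorem IsRow.rowD {n : ℤ} {v : Q.ι → V} (h : Q.IsRow (n + 1) v) : Q.IsRow n (Q.rowD v) := by
  unfold IsRow at *; rw [← rowD_rproj, h]

variable {Q} in
theorem IsRow.rowD' {n : ℤ} {v : Q.ι → V} (h : Q.IsRow n v) : Q.IsRow (n - 1) (Q.rowD v) :=
  IsRow.rowD (by rwa [sub_add_cancel])

theorem rowD_comp (f : V →ₗ[Rᵐᵒᵖ] V') (v : Q.ι → V) :
    Q.rowD (fun i => f (v i)) = fun i => f (Q.rowD v i) := Q.op.colD_comp f v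

theorem rproj_comp (f : V →ₗ[Rᵐᵒᵖ] V') (n : ℤ) (v : Q.ι → V) :
    Q.rproj n (fun i => f (v i)) = fun i => f (Q.rproj n v i) := Q.op.proj_comp f _ v

variable {Q} in
theorem IsRow.comp {n : ℤ} {v : Q.ι → V} (h : Q.IsRow n v) (f : V →ₗ[Rᵐᵒᵖ] V') :
    Q.IsRow n (fun i => f (v i)) := IsCol.comp (Q := Q.op) h f

/-- `rowD` as a linear map over a commuting ring -/
def rowL (S : Type*) [Semiring S] [Module S V] [SMulCommClass S Rᵐᵒᵖ V] :
    (Q.ι → V) →ₗ[S] (Q.ι → V) := Q.op.colL S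

@[simp] theorem rowL_apply (S : Type*) [Semiring S] [Module S V] [SMulCommClass S Rᵐᵒᵖ V]
    (v : Q.ι → V) : Q.rowL S v = Q.rowD v := rfl

/-- `rproj` as a linear map over a commuting ring -/
def rprojL (S : Type*) [Semiring S] [Module S V] [SMulCommClass S Rᵐᵒᵖ V] (n : ℤ) :
    (Q.ι → V) →ₗ[S] (Q.ι → V) := Q.op.projL S (-n)

@[simp] theorem rprojL_apply (S : Type*) [Semiring S] [Module S V] [SMulCommClass S Rᵐᵒᵖ V]
    (n : ℤ) (v : Q.ι → V) : Q.rprojL S n v = Q.rproj n v := rfl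

variable (V) in
/-- `V ⊗ Q` is exact in degree `n` -/
def RowEx (n : ℤ) : Prop :=
  ∀ v : Q.ι → V, Q.IsRow n v → Q.rowD v = 0 → ∃ v', Q.rowD v' = v

theorem rowEx_iff {n : ℤ} : Q.RowEx V n ↔ Q.op.ColEx V (-n) := Iff.rfl

variable {Q} in
theorem IsRow.normalize {n : ℤ} {v v' : Q.ι → V} (h : Q.IsRow n v) (h' : Q.rowD v' = v) :
    Q.IsRow (n + 1) (Q.rproj (n + 1) v') ∧ Q.rowD (Q.rproj (n + 1) v') = v :=
  ⟨Q.isRow_rproj _ _, by rw [rowD_rproj, h', h]⟩

variable {Q} in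
theorem RowEx.exists_isRow {n : ℤ} (hV : Q.RowEx V n) {v : Q.ι → V} (h : Q.IsRow n v)
    (h0 : Q.rowD v = 0) : ∃ v', Q.IsRow (n + 1) v' ∧ Q.rowD v' = v := by
  obtain ⟨v', hv'⟩ := hV v h h0
  exact ⟨_, h.normalize hv'⟩

variable {Q} in
theorem RowEx.of_retract {n : ℤ} (h : Q.RowEx V' n) (i : V →ₗ[Rᵐᵒᵖ] V') (p : V' →ₗ[Rᵐᵒᵖ] V)
    (hpi : ∀ u, p (i u) = u) : Q.RowEx V n := ColEx.of_retract (Q := Q.op) h i p hpi

variable {Q} in
theorem RowEx.prod {n : ℤ} (h : Q.RowEx V n) (h' : Q.RowEx V' n) : Q.RowEx (V × V') n :=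
  ColEx.prod (Q := Q.op) h h'

variable {Q} in
theorem RowEx.of_projective {n : ℤ} (h : Q.RowEx R n) (V : Type v) [AddCommGroup V]
    [Module Rᵐᵒᵖ V] [Module.Finite Rᵐᵒᵖ V] [Module.Projective Rᵐᵒᵖ V] : Q.RowEx V n := by
  have h' : Q.RowEx Rᵐᵒᵖ n :=
    h.of_retract (opLinearEquiv Rᵐᵒᵖ).symm.toLinearMap (opLinearEquiv Rᵐᵒᵖ).toLinearMap
      fun _ => rfl
  exact ColEx.of_projective (Q := Q.op) h' V

end Rows

end MC

end Crest.Agent.R186
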