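import Crest.Agent.R186.MC
import Crest.Agent.R186.Sym

/-!
Matrix complexes II: duality between rows and columns, the vanishing predicate `Van`,
change of rings, cones and tensor products.
-/

set_option autoImplicit false

open MulOpposite
open scoped TensorProduct

universe u u' v w

namespace Crest.Agent.R186

theorem dual_factor {k : Type*} [Field k] {X Y : Type*} [AddCommGroup X] [Module k X]
    [AddCommGroup Y] [Module k Y] (f : X →ₗ[k] Y) (φ : X →ₗ[k] k)
    (h : ∀ x, f x = 0 → φ x = 0) : ∃ ψ : Y →ₗ[k] k, ∀ x, ψ (f x) = φ x := by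
  obtain ⟨ψ, hψ⟩ := LinearMap.exists_extend
    ((LinearMap.ker f).liftQ φ (fun x hx => h x hx) ∘ₗ (f.quotKerEquivRange).symm.toLinearMap)
  refine ⟨ψ, fun x => ?_⟩
  have := LinearMap.congr_fun hψ ⟨f x, LinearMap.mem_range_self f x⟩
  simpa using this

namespace MC

section Duality

variable {k : Type w} [Field k] {R : Type u} [Ring R] (Q : MC R)
  {U : Type v} [AddCommGroup U] [Module R U] [Module k U] [SMulCommClass k R U]
  {V : Type u'} [AddCommGroup V] [Module Rᵐᵒᵖ V] [Module k V]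
  (B : V →ₗ[k] U →ₗ[k] k) (hB : ∀ (a : R) v u, B (MulOpposite.op a • v) u = B v (a • u))
include hB

omit [SMulCommClass k R U] in
theorem pair_rowD (n : ℤ) (v : Q.ι → V) (w : Q.ι → U) :
    ∑ j ∈ Q.fib n, B (Q.rowD v j) (w j) = ∑ i ∈ Q.fib (n + 1), B (v i) (Q.colD w i) := by
  have h1 : ∀ j ∈ Q.fib n, B (Q.rowD v j) (w j)
      = ∑ i ∈ Q.fib (n + 1), B (v i) (Q.D i j • w j) := fun j hj => by
    rw [rowD_apply, (Q.mem_fib _ _).1 hj]; simp [hB]
  have h2 : ∀ i ∈ Q.fib (n + 1), B (v i) (Q.colD w i)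
      = ∑ j ∈ Q.fib n, B (v i) (Q.D i j • w j) := fun i hi => by
    rw [colD_apply, (Q.mem_fib _ _).1 hi]; simp
  rw [Finset.sum_congr rfl h1, Finset.sum_congr rfl h2, Finset.sum_comm]

omit [SMulCommClass k R U] in
theorem pair_rproj (n : ℤ) (v : Q.ι → V) (w : Q.ι → U) :
    ∑ j ∈ Q.fib n, B (Q.rproj n v j) (w j) = ∑ j ∈ Q.fib n, B (v j) (Q.proj n w j) :=
  Finset.sum_congr rfl fun j hj => by
    rw [rproj_apply, proj_apply, if_pos ((Q.mem_fib _ _).1 hj), if_pos ((Q.mem_fib _ _).1 hj), hB]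

omit hB [Module R U] [SMulCommClass k R U] [Module Rᵐᵒᵖ V] in
theorem pair_surj (hs : Function.Surjective B) (n : ℤ) (φ : (Q.ι → U) →ₗ[k] k) :
    ∃ v : Q.ι → V, ∀ w : Q.ι → U, (∀ i, Q.deg i ≠ n → w i = 0) →
      ∑ j ∈ Q.fib n, B (v j) (w j) = φ w := by
  choose v hv using fun j => hs (φ ∘ₗ LinearMap.single k (fun _ : Q.ι => U) j)
  refine ⟨v, fun w hw => ?_⟩
  have : w = ∑ j ∈ Q.fib n, Pi.single j (w j) := by
    ext i
    rw [Finset.sum_apply]
    by_cases hi : Q.deg i = n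
    · rw [Finset.sum_eq_single i (fun j _ hj => Pi.single_eq_of_ne' hj _)
        (fun h => (h ((Q.mem_fib _ _).2 hi)).elim), Pi.single_eq_same]
    · rw [hw i hi]
      refine (Finset.sum_eq_zero fun j hj => Pi.single_eq_of_ne (fun h => hi ?_) _).symm
      rw [h, (Q.mem_fib _ _).1 hj]
  conv_rhs => rw [this]
  simp [hv]

omit [SMulCommClass k R U] in
theorem row_ext (hi : Function.Injective B) {n : ℤ} {v v' : Q.ι → V} (hv : Q.IsRow n v)
    (hv' : Q.IsRow n v') (h : ∀ w : Q.ι → U, Q.IsCol n w →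
      ∑ j ∈ Q.fib n, B (v j) (w j) = ∑ j ∈ Q.fib n, B (v' j) (w j)) : v = v' := by
  ext i
  by_cases hd : Q.deg i = n
  · apply hi
    ext u
    have := h _ (Q.isCol_proj n (Pi.single i u))
    rw [← Q.pair_rproj B hB, ← Q.pair_rproj B hB, hv, hv',
      Finset.sum_eq_single i (fun j _ hj => by simp [Pi.single_eq_of_ne hj])
        (fun h => (h ((Q.mem_fib _ _).2 hd)).elim),
      Finset.sum_eq_single i (fun j _ hj => by simp [Pi.single_eq_of_ne hj])
        (fun h => (h ((Q.mem_fib _ _).2 hd)).elim)] at this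
    simpa using this
  · rw [hv.eq_zero hd, hv'.eq_zero hd]

/-- the pairing with a row, as a linear form on columns -/
def pairL (B : V →ₗ[k] U →ₗ[k] k) (n : ℤ) (v : Q.ι → V) : (Q.ι → U) →ₗ[k] k :=
  ∑ j ∈ Q.fib n, B (v j) ∘ₗ LinearMap.proj j

omit hB [Module R U] [SMulCommClass k R U] [Module Rᵐᵒᵖ V] in
theorem pairL_apply (n : ℤ) (v : Q.ι → V) (w : Q.ι → U) :
    Q.pairL B n v w = ∑ j ∈ Q.fib n, B (v j) (w j) := by
  simp [pairL]

/-- If `V` is the dual of `U`, rows in `V` are exact iff columns in `U` are. -/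
theorem rowEx_iff_colEx (hb : Function.Bijective B) (n : ℤ) : Q.RowEx V n ↔ Q.ColEx U n := by
  constructor
  · intro h w hw h0
    by_contra hne
    have hne' : w ∉ LinearMap.range (Q.colL (U := U) k) := fun ⟨w', hw'⟩ => hne ⟨w', hw'⟩
    obtain ⟨φ, hφ, hφ0⟩ := Submodule.exists_dual_map_eq_bot_of_notMem hne' inferInstance
    obtain ⟨v, hv⟩ := Q.pair_surj B hb.2 n φ
    have hr : Q.rowD (Q.rproj n v) = 0 := by
      refine Q.row_ext B hB hb.1 (Q.isRow_rproj n v).rowD' (Q.isRow_zero _) fun x hx => ?_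
      have hx' : Q.IsCol n (Q.colD x) := by simpa using hx.colD
      rw [Q.pair_rowD B hB, sub_add_cancel, Q.pair_rproj B hB, hx', hv _ fun i hi => hx'.eq_zero hi]
      have : φ (Q.colD x) ∈ (LinearMap.range (Q.colL (U := U) k)).map φ := ⟨_, ⟨x, rfl⟩, rfl⟩
      rw [hφ0] at this
      simpa using this
    obtain ⟨v', hv'⟩ := h _ (Q.isRow_rproj n v) hr
    apply hφ
    rw [← hv w fun i hi => hw.eq_zero hi, ← hw, ← Q.pair_rproj B hB, ← hv', Q.pair_rowD B hB, h0]
    simp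
  · intro h v hv h0
    obtain ⟨ψ, hψ⟩ := dual_factor (Q.colL k ∘ₗ Q.projL k n) (Q.pairL B n v) fun x hx => by
      obtain ⟨w', hw'⟩ := h _ (Q.isCol_proj n x) hx
      obtain ⟨-, hw''⟩ := (Q.isCol_proj n x).normalize hw'
      rw [pairL_apply, ← hv, Q.pair_rproj B hB, ← hw'']
      have := Q.pair_rowD B hB (n - 1) v (Q.proj (n - 1) w')
      rw [sub_add_cancel] at this
      rw [← this, h0]; simp
    obtain ⟨v', hv'⟩ := Q.pair_surj B hb.2 (n + 1) ψ
    refine ⟨Q.rproj (n + 1) v', ?_⟩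
    refine Q.row_ext B hB hb.1 (Q.isRow_rproj _ _).rowD hv fun w hw => ?_
    rw [Q.pair_rowD B hB, Q.pair_rproj B hB, hw.colD, hv' _ fun i hi => hw.colD.eq_zero hi,
      ← pairL_apply, ← hψ]
    change _ = ψ (Q.colD (Q.proj n w))
    rw [hw]

end Duality

/-- over a symmetric algebra rows and columns of the algebra itself are exact simultaneously -/
theorem rowEx_iff_colEx_self {k : Type w} [Field k] {R : Type u} [Ring R] [Algebra k R]
    (S : SymData k R) (Q : MC R) (n : ℤ) : Q.RowEx R n ↔ Q.ColEx R n := by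
  have := S.fd
  refine Q.rowEx_iff_colEx ((LinearMap.mul k R).compr₂ S.lam) (fun a v u => by simp [mul_assoc])
    ?_ n
  have hinj : Function.Injective ((LinearMap.mul k R).compr₂ S.lam) := by
    rw [injective_iff_map_eq_zero]
    intro x hx
    refine S.nondeg fun y => ?_
    rw [S.symm]
    exact LinearMap.congr_fun hx y
  exact ⟨hinj, (LinearMap.injective_iff_surjective_of_finrank_eq_finrank
    (Subspace.dual_finrank_eq).symm).1 hinj⟩

section Van

variable {R : Type u} [Ring R] {R' : Type u'} [Ring R'] (Q : MC R) (J : MC R')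
  {V : Type v} [AddCommGroup V] [Module R V] [Module R'ᵐᵒᵖ V] [SMulCommClass R R'ᵐᵒᵖ V]

/-- `M` is a matrix with rows in degree `n` of `Q` and columns in degree `j` of `J` -/
def IsMat (n j : ℤ) (M : Q.ι → J.ι → V) : Prop := Q.IsCol n M ∧ ∀ i, J.IsRow j (M i)

/-- right multiplication of a matrix by the differential of `J` -/
def rD : (Q.ι → J.ι → V) →+ (Q.ι → J.ι → V) where
  toFun M i := J.rowD (M i)
  map_zero' := by ext i : 1; simp
  map_add' _ _ := by ext i : 1; simp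

omit [Module R V] [SMulCommClass R R'ᵐᵒᵖ V] in
theorem rD_apply (M : Q.ι → J.ι → V) (i : Q.ι) : Q.rD J M i = J.rowD (M i) := rfl

omit [Module R V] [SMulCommClass R R'ᵐᵒᵖ V] in
theorem rD_rD (M : Q.ι → J.ι → V) : Q.rD J (Q.rD J M) = 0 := by
  ext i : 1; exact J.rowD_rowD _

theorem colD_rD (M : Q.ι → J.ι → V) : Q.colD (Q.rD J M) = Q.rD J (Q.colD M) :=
  Q.colD_comp (J.rowL R) M

/-- projection on the matrices of bidegree `(n, j)` -/
def mproj (n j : ℤ) : (Q.ι → J.ι → V) →+ (Q.ι → J.ι → V) where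
  toFun M := Q.proj n fun i => J.rproj j (M i)
  map_zero' := by simp only [Pi.zero_apply, map_zero]; exact map_zero _
  map_add' _ _ := by rw [← map_add]; congr 1; ext i : 1; simp

theorem mproj_eq (n j : ℤ) (M : Q.ι → J.ι → V) :
    Q.mproj J n j M = fun i => J.rproj j (Q.proj n M i) := Q.proj_comp (J.rprojL (V := V) R j) n M

omit [SMulCommClass R R'ᵐᵒᵖ V] in
theorem mproj_apply (n j : ℤ) (M : Q.ι → J.ι → V) (i : Q.ι) (l : J.ι) :
    Q.mproj J n j M i l = if Q.deg i = n ∧ J.deg l = j then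
      Q.e i • MulOpposite.op (J.e l) • M i l else 0 := by
  change Q.proj n (fun i => J.rproj j (M i)) i l = _
  rw [proj_apply]
  by_cases h1 : Q.deg i = n <;> by_cases h2 : J.deg l = j <;> simp [h1, h2, rproj_apply]

theorem isMat_mproj (n j : ℤ) (M : Q.ι → J.ι → V) : Q.IsMat J n j (Q.mproj J n j M) :=
  ⟨Q.isCol_proj _ _, fun i => by rw [mproj_eq]; exact J.isRow_rproj _ _⟩

theorem isMat_iff_mproj {n j : ℤ} {M : Q.ι → J.ι → V} : Q.IsMat J n j M ↔ Q.mproj J n j M = M :=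
  ⟨fun h => by
    change Q.proj n (fun i => J.rproj j (M i)) = M
    rw [funext h.2]; exact h.1, fun h => h ▸ Q.isMat_mproj J n j M⟩

theorem colD_mproj (n j : ℤ) (M : Q.ι → J.ι → V) :
    Q.colD (Q.mproj J n j M) = Q.mproj J (n + 1) j (Q.colD M) := by
  rw [mproj_eq Q J (n + 1), ← colD_proj, mproj_eq]
  exact Q.colD_comp (J.rprojL (V := V) R j) _

theorem rD_mproj (n j : ℤ) (M : Q.ι → J.ι → V) :
    Q.rD J (Q.mproj J n (j + 1) M) = Q.mproj J n j (Q.rD J M) := by
  have : Q.proj n (Q.rD J M) = Q.rD J (Q.proj n M) := Q.proj_comp (J.rowL R) n M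
  rw [mproj_eq, mproj_eq, this]
  ext i : 1
  exact J.rowD_rproj j _

variable {Q J}

theorem IsMat.colD {n j : ℤ} {M : Q.ι → J.ι → V} (h : Q.IsMat J n j M) :
    Q.IsMat J (n + 1) j (Q.colD M) := by
  rw [isMat_iff_mproj] at *; rw [← colD_mproj, h]

theorem IsMat.rD {n j : ℤ} {M : Q.ι → J.ι → V} (h : Q.IsMat J n (j + 1) M) :
    Q.IsMat J n j (Q.rD J M) := by
  rw [isMat_iff_mproj] at *; rw [← rD_mproj, h]

theorem IsMat.rD' {n j : ℤ} {M : Q.ι → J.ι → V} (h : Q.IsMat J n j M) :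
    Q.IsMat J n (j - 1) (Q.rD J M) := IsMat.rD (by rwa [sub_add_cancel])

omit [SMulCommClass R R'ᵐᵒᵖ V] in
theorem IsMat.add {n j : ℤ} {M M' : Q.ι → J.ι → V} (h : Q.IsMat J n j M) (h' : Q.IsMat J n j M') :
    Q.IsMat J n j (M + M') := ⟨h.1.add h'.1, fun i => (h.2 i).add (h'.2 i)⟩

omit [SMulCommClass R R'ᵐᵒᵖ V] in
theorem IsMat.sub {n j : ℤ} {M M' : Q.ι → J.ι → V} (h : Q.IsMat J n j M) (h' : Q.IsMat J n j M') :
    Q.IsMat J n j (M - M') := ⟨h.1.sub h'.1, fun i => (h.2 i).sub (h'.2 i)⟩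

theorem IsMat.exists_colD {n j : ℤ} {M : Q.ι → J.ι → V} (h : Q.IsMat J n j M)
    (hc : Q.ColEx V n) (h0 : Q.colD M = 0) : ∃ S, Q.IsMat J (n - 1) j S ∧ Q.colD S = M := by
  obtain ⟨S, hS⟩ := ColEx.pi (W := fun _ : J.ι => V) (fun _ => hc) M h.1 h0
  refine ⟨_, Q.isMat_mproj J _ _ S, ?_⟩
  rw [colD_mproj, hS, sub_add_cancel, (Q.isMat_iff_mproj J).1 h]

theorem IsMat.exists_rD {n j : ℤ} {M : Q.ι → J.ι → V} (h : Q.IsMat J n j M)
    (hr : J.RowEx V j) (h0 : Q.rD J M = 0) : ∃ S, Q.IsMat J n (j + 1) S ∧ Q.rD J S = M := by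
  choose S hS using fun i => hr (M i) (h.2 i) (congrFun h0 i)
  refine ⟨_, Q.isMat_mproj J _ _ S, ?_⟩
  have : Q.rD J S = M := funext hS
  rw [rD_mproj, this, (Q.isMat_iff_mproj J).1 h]

variable (Q J V) in
/-- vanishing of `H^n Hom(Q, coker(V ⊗ J_{j+1} → V ⊗ J_j))` in matrix form -/
def Van (n j : ℤ) : Prop :=
  ∀ M : Q.ι → J.ι → V, Q.IsMat J n j M → Q.colD (Q.rD J M) = 0 →
    ∃ S S', M = Q.colD S + Q.rD J S'

theorem Van.exists_isMat {n j : ℤ} (h : Q.Van J V n j) {M : Q.ι → J.ι → V}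
    (hM : Q.IsMat J n j M) (h0 : Q.colD (Q.rD J M) = 0) :
    ∃ S S', Q.IsMat J (n - 1) j S ∧ Q.IsMat J n (j + 1) S' ∧ M = Q.colD S + Q.rD J S' := by
  obtain ⟨S, S', hS⟩ := h M hM h0
  refine ⟨_, _, Q.isMat_mproj J _ _ S, Q.isMat_mproj J _ _ S', ?_⟩
  rw [colD_mproj, rD_mproj, sub_add_cancel, ← map_add, ← hS, (Q.isMat_iff_mproj J).1 hM]

theorem Van.succ {n j : ℤ} (h : Q.Van J V n j) (hc : Q.ColEx V (n + 1))
    (hr : J.RowEx V (j + 1)) : Q.Van J V (n + 1) (j + 1) := by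
  intro M hM h0
  obtain ⟨M', hM', h1⟩ := hM.rD.exists_colD hc h0
  rw [add_sub_cancel_right] at hM'
  obtain ⟨S, S', -, hS', h2⟩ := h.exists_isMat hM' (by rw [colD_rD, h1, rD_rD])
  obtain ⟨S'', -, h3⟩ := (hM.sub hS'.colD).exists_rD hr (by
    rw [map_sub, ← h1, h2, map_add, colD_colD, zero_add, colD_rD, sub_self])
  exact ⟨S', S'', by rw [h3]; abel⟩

theorem Van.pred {n j : ℤ} (h : Q.Van J V (n + 1) (j + 1)) (hc : Q.ColEx V n)
    (hr : J.RowEx V j) : Q.Van J V n j := by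
  intro M hM h0
  obtain ⟨M', hM', h1⟩ := hM.colD.exists_rD hr (by rw [← colD_rD, h0])
  obtain ⟨S, S', hS, -, h2⟩ := h.exists_isMat hM' (by rw [h1, colD_colD])
  rw [add_sub_cancel_right] at hS
  obtain ⟨S'', -, h3⟩ := (hM.sub hS.rD).exists_colD hc (by
    rw [map_sub, ← h1, h2, map_add, rD_rD, add_zero, colD_rD, sub_self])
  exact ⟨S'', S, by rw [h3]; abel⟩

theorem Van.shift (hc : ∀ n, Q.ColEx V n) (hr : ∀ j, J.RowEx V j) {n j : ℤ} (h : Q.Van J V n j)
    {n' j' : ℤ} (e : n' - j' = n - j) : Q.Van J V n' j' := by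
  have key : ∀ c : ℤ, Q.Van J V (n + c) (j + c) := fun c => by
    induction c using Int.induction_on with
    | zero => simpa using h
    | succ c ih => rw [← add_assoc, ← add_assoc]; exact ih.succ (hc _) (hr _)
    | pred c ih =>
      refine Van.pred ?_ (hc _) (hr _)
      convert ih using 1 <;> ring
  convert key (n' - n) using 1 <;> omega

end Van

section Constructions

variable {R : Type u} [Ring R] {R' : Type u'} [Ring R']

/-- change of rings along a non-unital ring homomorphism -/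
def map (Q : MC R) (f : R →ₙ+* R') : MC R' where
  ι := Q.ι
  deg := Q.deg
  fib := Q.fib
  mem_fib := Q.mem_fib
  e i := f (Q.e i)
  D i j := f (Q.D i j)
  e_idem i := by rw [← map_mul, Q.e_idem]
  e_D i j := by rw [← map_mul, Q.e_D]
  D_e i j := by rw [← map_mul, Q.D_e]
  D_deg i j h := by rw [Q.D_deg i j h, map_zero]
  D_sq i l := by simp only [← map_mul, ← map_sum, Q.D_sq, map_zero]

/-- a chain map of degree `0` between matrix complexes -/
structure Hom (U V : MC R) where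
  f : U.ι → V.ι → R
  e_f : ∀ i j, U.e i * f i j = f i j
  f_e : ∀ i j, f i j * V.e j = f i j
  f_deg : ∀ i j, U.deg i ≠ V.deg j → f i j = 0
  comm : ∀ i l, ∑ j ∈ U.fib (V.deg l), U.D i j * f j l
    = ∑ j ∈ V.fib (V.deg l + 1), f i j * V.D j l

/-- mapping cone: `U_n ⊕ V_{n+1}` in degree `n` with matrix `[[-D, f], [0, D]]` -/
def cone {U V : MC R} (ψ : Hom U V) : MC R where
  ι := U.ι ⊕ V.ι
  deg := Sum.elim U.deg fun j => V.deg j - 1
  fib n := (U.fib n).disjSum (V.fib (n + 1))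
  mem_fib n i := by
    rcases i with i | i
    · simp [U.mem_fib]
    · simp only [Finset.inr_mem_disjSum, V.mem_fib, Sum.elim_inr]; omega
  e := Sum.elim U.e V.e
  D := fun
    | .inl i, .inl j => -U.D i j
    | .inl i, .inr j => ψ.f i j
    | .inr _, .inl _ => 0
    | .inr i, .inr j => V.D i j
  e_idem i := by rcases i with i | i; exacts [U.e_idem i, V.e_idem i]
  e_D i j := by
    rcases i with i | i <;> rcases j with j | j <;> simp [U.e_D, V.e_D, ψ.e_f]
  D_e i j := by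
    rcases i with i | i <;> rcases j with j | j <;> simp [U.D_e, V.D_e, ψ.f_e]
  D_deg i j h := by
    rcases i with i | i <;> rcases j with j | j <;> simp only [Sum.elim_inl, Sum.elim_inr] at h
    · simp [U.D_deg i j h]
    · exact ψ.f_deg i j (by omega)
    · rfl
    · exact V.D_deg i j (by omega)
  D_sq i l := by
    rcases i with i | i <;> rcases l with l | l <;>
      simp [Finset.sum_disjSum, U.D_sq, V.D_sq, ψ.comm]

section cone

variable {U V : MC R} (ψ : Hom U V)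

@[simp] theorem cone_deg_inl (i : U.ι) : (cone ψ).deg (.inl i) = U.deg i := rfl
@[simp] theorem cone_deg_inr (j : V.ι) : (cone ψ).deg (.inr j) = V.deg j - 1 := rfl
@[simp] theorem cone_e_inl (i : U.ι) : (cone ψ).e (.inl i) = U.e i := rfl
@[simp] theorem cone_e_inr (j : V.ι) : (cone ψ).e (.inr j) = V.e j := rfl
@[simp] theorem cone_D_inl_inl (i j : U.ι) : (cone ψ).D (.inl i) (.inl j) = -U.D i j := rfl
@[simp] theorem cone_D_inl_inr (i : U.ι) (j : V.ι) : (cone ψ).D (.inl i) (.inr j) = ψ.f i j := rfl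
@[simp] theorem cone_D_inr_inl (i : V.ι) (j : U.ι) : (cone ψ).D (.inr i) (.inl j) = 0 := rfl
@[simp] theorem cone_D_inr_inr (i j : V.ι) : (cone ψ).D (.inr i) (.inr j) = V.D i j := rfl

variable {W : Type v} [AddCommGroup W]

theorem cone_rowD_inl [Module Rᵐᵒᵖ W] (v : (cone ψ).ι → W) (j : U.ι) :
    (cone ψ).rowD v (.inl j) = -U.rowD (fun i => v (.inl i)) j := by
  rw [rowD_apply, rowD_apply]
  change ∑ i ∈ (U.fib _).disjSum (V.fib _), _ = _
  simp [Finset.sum_disjSum]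

theorem cone_rowD_inr [Module Rᵐᵒᵖ W] (v : (cone ψ).ι → W) (j : V.ι) :
    (cone ψ).rowD v (.inr j) = ∑ i ∈ U.fib (V.deg j), MulOpposite.op (ψ.f i j) • v (.inl i)
      + V.rowD (fun i => v (.inr i)) j := by
  rw [rowD_apply, rowD_apply]
  change ∑ i ∈ (U.fib _).disjSum (V.fib _), _ = _
  simp [Finset.sum_disjSum]

theorem cone_colD_inl [Module R W] (w : (cone ψ).ι → W) (i : U.ι) :
    (cone ψ).colD w (.inl i) = -U.colD (fun j => w (.inl j)) i
      + ∑ j ∈ V.fib (U.deg i), ψ.f i j • w (.inr j) := by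
  rw [colD_apply, colD_apply]
  change ∑ i ∈ (U.fib _).disjSum (V.fib _), _ = _
  simp [Finset.sum_disjSum]

theorem cone_colD_inr [Module R W] (w : (cone ψ).ι → W) (i : V.ι) :
    (cone ψ).colD w (.inr i) = V.colD (fun j => w (.inr j)) i := by
  rw [colD_apply, colD_apply]
  change ∑ i ∈ (U.fib _).disjSum (V.fib _), _ = _
  simp [Finset.sum_disjSum]

end cone

end Constructions

end MC

end Crest.Agent.R186
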