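import Crest.Agent.R186.QKer

/-!
Exactness of the cone of `psiQ`.
-/

set_option autoImplicit false

open MulOpposite

universe u

namespace Crest.Agent.R186

theorem MC.rowD_mul_e {R : Type u} [Ring R] (Q : MC R) (v : Q.ι → R) (j : Q.ι) :
    Q.rowD v j * Q.e j = Q.rowD v j := by
  rw [MC.rowD_apply, Finset.sum_mul]
  refine Finset.sum_congr rfl fun i _ => ?_
  rw [op_smul_eq_mul, mul_assoc, Q.D_e]

theorem MC.cone_exists {R : Type u} [Ring R] {U V : MC R} (ψ : MC.Hom U V)
    (v : (MC.cone ψ).ι → R) (a : U.ι → R) (b : V.ι → R)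
    (h1 : ∀ j, -U.rowD a j = v (.inl j))
    (h2 : ∀ j, ∑ i ∈ U.fib (V.deg j), MulOpposite.op (ψ.f i j) • a i + V.rowD b j = v (.inr j)) :
    ∃ v', (MC.cone ψ).rowD v' = v := by
  refine ⟨Sum.elim a b, ?_⟩
  funext j
  rcases j with j | j
  · exact (MC.cone_rowD_inl ψ _ j).trans (h1 j)
  · exact (MC.cone_rowD_inr ψ _ j).trans (h2 j)

namespace TT

namespace QK

variable {k : Type u} [Field k] {q : k} (hq0 : q ≠ 0) (hq : ∀ n : ℕ, 0 < n → q ^ n ≠ 1)
include hq0 hq

theorem L_row (w : ℕ → TT k q) (he : ∀ n, w n * eL n = w n) (h0 : ∀ n, w (n + 1) * dL n = 0)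
    (hf : (w 0).f = 0) :
    ∃ u : ℕ → TT k q, ∀ n, u n * dL n + (if n = 2 then (w 2).v' • bv' else 0) = w n := by
  have : ∀ n, ∃ u : TT k q, u * dL n + (if n = 2 then (w 2).v' • bv' else 0) = w n := by
    intro n
    match n with
    | 0 => simpa using L_zero hq0 hq (he 0) hf
    | 1 => simpa using L_one hq0 hq (he 1) (h0 0)
    | 2 => simpa using L_two hq0 hq (he 2) (h0 1)
    | n + 3 => simpa using L_ge hq0 hq n (he _) (h0 _)
  choose u hu using this
  exact ⟨u, hu⟩

theorem R_row (w : ℕ → TT k q) (he : ∀ n, w n * eL n = w n) (h0 : ∀ n, w n * dR n = 0)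
    (h2 : w 2 * del' 0 = 0) : ∃ u : ℕ → TT k q, ∀ n, u n * dR n = w (n + 1) := by
  have : ∀ n, ∃ u : TT k q, u * dR n = w (n + 1) := by
    intro n
    match n with
    | 0 => exact R_one hq0 hq (he 1) (h0 1)
    | 1 => exact R_two hq0 hq (he 2) (h0 2) h2
    | n + 2 => exact R_ge hq0 hq n (he _) (h0 _)
  choose u hu using this
  exact ⟨u, hu⟩

theorem Qm_ex (M : ℕ) : ∀ w : ℕ × ℕ → TT k q, (∀ p, w p * eL p.2 = w p) →
    (∀ m n, M ≤ m → w (m, n) = 0) → (Qm hq0).rowD w = 0 → (w (0, 0)).f = 0 →
    ∃ v, (Qm hq0).rowD v = w ∧ v (0, 0) = 0 := by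
  induction M with
  | zero =>
    intro w _ h _ _
    refine ⟨0, ?_, rfl⟩
    rw [map_zero]
    funext ⟨m, n⟩
    exact (h m n (Nat.zero_le _)).symm
  | succ M ih =>
    intro w he hM h0 hf
    have h1 : ∀ n, w (M, n + 1) * dL n = 0 := fun n => by
      have := congrFun h0 (M, n)
      rw [Qm_rowD, hM (M + 1) _ le_rfl] at this
      simpa using this
    have hf' : (w (M, 0)).f = 0 := by
      cases M with
      | zero => exact hf
      | succ M =>
        have := congrFun h0 (M, 2)
        rw [Qm_rowD, if_pos le_rfl] at this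
        simpa [dL, ac, del] using congrArg TT.v' this
    obtain ⟨u, hu⟩ := L_row hq0 hq (fun n => w (M, n)) (fun n => he (M, n)) h1 hf'
    let u' : ℕ × ℕ → TT k q := fun p =>
      if p.1 = M ∧ 1 ≤ p.2 then u (p.2 - 1)
      else if p.1 = M + 1 ∧ p.2 = 0 then (w (M, 2)).v' • bf else 0
    obtain ⟨v, hv, hv0⟩ := ih (w - (Qm hq0).rowD u')
      (fun p => by
        rw [Pi.sub_apply, sub_mul, he]
        exact congrArg _ ((Qm hq0).rowD_mul_e u' p))
      (fun m n hm => by
        rw [Pi.sub_apply, Qm_rowD, sub_eq_zero]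
        rcases hm.eq_or_lt with rfl | hm
        · rw [← hu n]
          simp only [u']
          rw [if_pos (c := True ∧ _) ⟨trivial, by omega⟩, if_neg (c := M + 1 = M ∧ _) (by omega)]
          congr 1
          by_cases h2 : n = 2
          · subst h2
            ext <;> simp [del]
          · rw [if_neg h2]
            split_ifs <;> first | omega | simp
        · rw [hM m n hm]
          simp only [u']
          rw [if_neg (by omega), if_neg (by omega), if_neg (c := m + 1 = M ∧ _) (by omega),
            if_neg (c := m + 1 = M + 1 ∧ _) (by omega)]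
          simp)
      (by rw [map_sub, h0, MC.rowD_rowD, sub_zero])
      (by
        rw [Pi.sub_apply, Qm_rowD]
        simp [dL, hf])
    refine ⟨v + u', by rw [map_add, hv, sub_add_cancel], ?_⟩
    simp [hv0, u']

theorem Qp_ex (N : ℤ) (j : ℕ) : ∀ a : ℕ, N < 3 * (a + j) → ∀ w : ℕ × ℕ → TT k q,
    (Qp hq0).IsRow (-N) w → (∀ m n, m < a → w (m, n) = 0) → (Qp hq0).rowD w = 0 →
    w (0, 0) = 0 → ∃ v, (Qp hq0).rowD v = w := by
  induction j with
  | zero =>
    intro a ha w hw h _ _
    refine ⟨0, ?_⟩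
    rw [map_zero]
    funext ⟨m, n⟩
    by_cases hm : m < a
    · exact (h m n hm).symm
    · exact (hw.eq_zero (i := (m, n)) (by simp only; omega)).symm
  | succ j ih =>
    intro a ha w hw hM h0 hf
    have he : ∀ p, w p * eL p.2 = w p := fun p => hw.e_smul p
    have h1 : ∀ n, w (a, n) * dR n = 0 := fun n => by
      have := congrFun h0 (a, n + 1)
      rw [Qp_rowD, if_pos (by omega)] at this
      by_cases ha : 1 ≤ a
      · rw [hM (a - 1) _ (by omega)] at this
        simpa using this
      · rw [if_neg ha] at this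
        simpa using this
    have h2 : w (a, 2) * del' 0 = 0 := by
      have := congrFun h0 (a + 1, 0)
      rw [Qp_rowD] at this
      simpa using this
    obtain ⟨u, hu⟩ := R_row hq0 hq (fun n => w (a, n)) (fun n => he (a, n)) h1 h2
    have h3 := R_zero hq (he (a, 0)) (h1 0)
    let u' : ℕ × ℕ → TT k q := fun p =>
      if p.1 = a then u p.2
      else if p.1 + 1 = a ∧ p.2 = 2 then (w (a, 0)).f' • bj else 0
    have key : ∀ m n, m < a + 1 → (w - (Qp hq0).rowD u') (m, n) = 0 := fun m n hm => by
      rw [Pi.sub_apply, Qp_rowD, sub_eq_zero]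
      rcases (Nat.le_of_lt_succ hm).eq_or_lt with rfl | hm
      · simp only [u']
        cases n with
        | zero =>
          rw [if_neg (by omega), zero_add]
          by_cases ha : 1 ≤ m
          · rw [if_pos ha, if_neg (by omega), if_pos ⟨by omega, rfl⟩, h3]
            ext <;> simp [del']
          · obtain rfl : m = 0 := by omega
            rw [if_neg ha, hf]
        | succ n =>
          rw [if_pos (by omega), if_pos trivial, Nat.add_sub_cancel, hu]
          split_ifs <;> first | omega | simp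
      · rw [hM m n hm]
        simp only [u']
        rw [if_neg (c := m = a) (by omega), if_neg (c := m - 1 = a) (by omega)]
        by_cases h3 : m + 1 = a ∧ n - 1 = 2
        · obtain rfl : n = 3 := by omega
          rw [if_pos (by omega), if_pos h3, if_neg (c := m - 1 + 1 = a ∧ _) (by omega)]
          ext <;> simp [dR, ac]
        · rw [if_neg h3]
          split_ifs <;> first | omega | simp
    obtain ⟨v, hv⟩ := ih (a + 1) (by push_cast at ha ⊢; omega)
      ((Qp hq0).rproj (-N) (w - (Qp hq0).rowD u')) ((Qp hq0).isRow_rproj _ _)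
      (fun m n hm => by rw [MC.rproj_apply, key m n hm]; simp)
      (by
        have := (Qp hq0).rowD_rproj (-N - 1) (w - (Qp hq0).rowD u')
        rw [sub_add_cancel] at this
        rw [this, map_sub, h0, MC.rowD_rowD, sub_zero, map_zero])
      (by rw [MC.rproj_apply, key 0 0 (by omega)]; simp)
    refine ⟨v + (Qp hq0).rproj (-N + 1) u', ?_⟩
    rw [map_add, hv, MC.rowD_rproj, ← map_add, sub_add_cancel]
    exact hw

omit hq in
theorem sum_psiQ (v : ℕ × ℕ → TT k q) (j : ℕ × ℕ) :
    ∑ i ∈ (Qm hq0).fib ((Qp hq0).deg j), MulOpposite.op ((psiQ hq0).f i j) • v i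
      = if j = (0, 0) then v (0, 0) * bf' else 0 := by
  split_ifs with h
  · subst h
    rw [Finset.sum_eq_single (0, 0)]
    · rw [psiQ_f, if_pos ⟨rfl, rfl⟩, op_smul_eq_mul]
    · intro i _ hi
      rw [psiQ_f, if_neg (fun h => hi h.1), op_zero, zero_smul]
    · intro h
      exact (h (((Qm hq0).mem_fib _ _).2 rfl)).elim
  · refine Finset.sum_eq_zero fun i _ => ?_
    rw [psiQ_f, if_neg (fun h' => h h'.2), op_zero, zero_smul]

theorem cone_psiQ_rowEx (n : ℤ) : (MC.cone (psiQ hq0)).RowEx (TT k q) n := by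
  intro v hv h0
  have h0l : ∀ j, (MC.cone (psiQ hq0)).rowD v (.inl j) = 0 := fun j => congrFun h0 _
  have h0r : ∀ j, (MC.cone (psiQ hq0)).rowD v (.inr j) = 0 := fun j => congrFun h0 _
  rcases le_or_gt 0 n with hn | hn
  · have hr : ∀ j, v (.inr j) = 0 := fun j =>
      hv.eq_zero (by rw [MC.cone_deg_inr, Qp_deg]; omega)
    have hr' : (fun j => v (.inr j)) = 0 := funext hr
    obtain ⟨v1, h1, h2⟩ := Qm_ex hq0 hq (n.toNat + 1) (fun i => v (.inl i))
      (fun p => hv.e_smul (.inl p))
      (fun m n' hm => hv.eq_zero (by rw [MC.cone_deg_inl, Qm_deg]; simp only; omega))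
      (by
        funext j
        have := h0l j
        rw [MC.cone_rowD_inl] at this
        exact neg_eq_zero.1 this)
      (by
        have := h0r (0, 0)
        rw [MC.cone_rowD_inr, hr', map_zero, sum_psiQ hq0 (fun i => v (.inl i))] at this
        simpa using congrArg TT.f' this)
    refine MC.cone_exists _ v (-v1) 0 (fun j => ?_) (fun j => ?_)
    · rw [map_neg, h1]; simp
    · rw [sum_psiQ, map_zero, hr]; simp [h2]
  · have hl : ∀ j, v (.inl j) = 0 := fun j =>
      hv.eq_zero (by rw [MC.cone_deg_inl, Qm_deg]; omega)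
    have hc : (Qp hq0).rowD (fun j => v (.inr j)) = 0 := by
      funext j
      have := h0r j
      rw [MC.cone_rowD_inr, sum_psiQ hq0 (fun i => v (.inl i)), hl] at this
      simpa using this
    have hw : (Qp hq0).IsRow (-(-n - 1)) (fun j => v (.inr j)) := by
      rw [MC.isRow_iff]
      exact ⟨fun i hi => hv.eq_zero (by rw [MC.cone_deg_inr]; omega),
        fun i => hv.e_smul (.inr i)⟩
    by_cases hn1 : n = -1
    · have h3 : v (.inr (0, 0)) = (v (.inr (0, 0))).f' • bf' := by
        refine R_zero hq (hv.e_smul (.inr (0, 0))) ?_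
        have := congrFun hc (0, 1)
        rw [Qp_rowD] at this
        simpa using this
      refine MC.cone_exists _ v (Pi.single (0, 0) ((v (.inr (0, 0))).f' • bf)) 0
        (fun ⟨a, b⟩ => ?_) (fun j => ?_)
      · rw [Qm_rowD, hl]; simp
      · rw [sum_psiQ, map_zero, Pi.zero_apply, add_zero]
        split_ifs with h
        · subst h
          refine Eq.trans ?_ h3.symm
          ext <;> simp
        · refine (hv.eq_zero ?_).symm
          rw [MC.cone_deg_inr, Qp_deg]
          intro h'
          exact h (Prod.ext (by omega) (by omega))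
    · obtain ⟨v1, h1⟩ := Qp_ex hq0 hq (-n - 1) (-n).toNat 0 (by omega) _ hw
        (fun m n h => by omega) hc
        (hv.eq_zero (by rw [MC.cone_deg_inr, Qp_deg]; simp only; omega))
      refine MC.cone_exists _ v 0 v1 (fun j => ?_) (fun j => ?_)
      · rw [hl]; simp
      · rw [sum_psiQ, h1]; simp

end QK

end TT

end Crest.Agent.R186
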