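import Crest.Agent.R186.TCx
import Crest.Agent.R186.Kunneth
import Crest.Agent.R186.LLevel
import Crest.Agent.R186.QEx

/-!
The minimal complete resolution of `s ⊗ s` over `TT k q ⊗ TT k q`.
-/

set_option autoImplicit false

open MulOpposite
open scoped TensorProduct

universe u

namespace Crest.Agent.R186

namespace TT

variable {k : Type u} [Field k] {q : k}

namespace QK

theorem chi_Dm (i j : ℕ × ℕ) : chi (Dm i j : TT k q) = 0 := by
  have h1 : ∀ n, (dL n : TT k q).f = 0 := fun n => by cases n <;> simp [dL, ac]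
  have h2 : ∀ n, (del n : TT k q).f = 0 := fun n => by cases n <;> simp [del]
  simp only [Dm]
  split_ifs <;> simp [h1, h2]

theorem chi_Dp (i j : ℕ × ℕ) : chi (Dp i j : TT k q) = 0 := by
  have h1 : ∀ n, (dR n : TT k q).f = 0 := fun n => by cases n <;> simp [dR, ac]
  have h2 : ∀ n, (del' n : TT k q).f = 0 := fun n => by cases n <;> simp [del']
  simp only [Dp]
  split_ifs <;> simp [h1, h2]

variable (hq0 : q ≠ 0)

theorem hh_eL (n : ℕ) : hh q hq0 (eL n : TT k q) = eL n := by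
  cases n <;> ext <;> simp [eL]

theorem hh_Dm (i j : ℕ × ℕ) :
    q⁻¹ ^ i.1 • hh q hq0 (Dm i j : TT k q) = q⁻¹ ^ j.1 • Dm i j := by
  have h1 : ∀ n, hh q hq0 (dL n : TT k q) = dL n := fun n => by
    cases n <;> ext <;> simp [dL, ac]
  have h2 : ∀ n, hh q hq0 (del n : TT k q) = q • del n := fun n => by
    cases n <;> ext <;> simp [del, mul_comm]
  simp only [Dm, map_add, smul_add]
  congr 1 <;> split_ifs with h
  · rw [h1, h.1]
  · simp only [map_zero, smul_zero]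
  · rw [h2, h.1, smul_smul, pow_succ, mul_assoc, inv_mul_cancel₀ hq0, mul_one]
  · simp only [map_zero, smul_zero]

theorem hh_Dp (i j : ℕ × ℕ) :
    q ^ i.1 • hh q hq0 (Dp i j : TT k q) = q ^ j.1 • Dp i j := by
  have h1 : ∀ n, hh q hq0 (dR n : TT k q) = dR n := fun n => by
    cases n <;> ext <;> simp [dR, ac]
  have h2 : ∀ n, hh q hq0 (del' n : TT k q) = q • del' n := fun n => by
    cases n <;> ext <;> simp [del']
  simp only [Dp, map_add, smul_add]
  congr 1 <;> split_ifs with h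
  · rw [h1, h.1]
  · simp only [map_zero, smul_zero]
  · rw [h2, h.1, smul_smul, pow_succ]
  · simp only [map_zero, smul_zero]

end QK

end TT

theorem MC.exists_single {R : Type u} [Ring R] (Q : MC R) (i0 : Q.ι) (n : ℤ) (hd : Q.deg i0 = n)
    (hE : Q.RowEx R n) (a : R) (ha : a * Q.e i0 = a) (h : ∀ j, a * Q.D i0 j = 0) :
    ∃ v : Q.ι → R, Q.rowD v = Pi.single i0 a := by
  refine hE _ ?_ ?_
  · rw [MC.isRow_iff]
    refine ⟨fun i hi => Pi.single_eq_of_ne ?_ _, fun i => ?_⟩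
    · rintro rfl
      exact hi hd
    · by_cases hi : i = i0
      · subst hi
        rw [Pi.single_eq_same]
        exact ha
      · rw [Pi.single_eq_of_ne hi, smul_zero]
  · funext j
    rw [MC.rowD_apply]
    refine Finset.sum_eq_zero fun i _ => ?_
    by_cases hi : i = i0
    · subst hi
      rw [Pi.single_eq_same, op_smul_eq_mul, h]
    · rw [Pi.single_eq_of_ne hi, smul_zero]

section gen

variable {k : Type u} [Field k] {T : Type u} [Ring T] [Algebra k T]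

theorem chi2_tensor_D (χ : T →ₐ[k] k) (U : MC T) (hU : MC.TensFin U U)
    (h : ∀ i j, χ (U.D i j) = 0) (p p' : U.ι × U.ι) :
    chi2 χ ((MC.tensor k U U hU).D p p') = 0 := by
  rw [MC.tensor_D, map_add]
  split_ifs <;> simp [h, Units.smul_def]

theorem aut2_tensor_D (h : T ≃ₐ[k] T) (U : MC T) (hU : MC.TensFin U U) (g : U.ι → k) (c : k)
    (he : ∀ i, h (U.e i) = U.e i) (hD : ∀ i j, g i • h (U.D i j) = g j • U.D i j)
    (p p' : U.ι × U.ι) :
    (g p.1 * g p.2 * c) • aut2 h ((MC.tensor k U U hU).D p p')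
      = (g p'.1 * g p'.2 * c) • (MC.tensor k U U hU).D p p' := by
  rw [MC.tensor_D, map_add, smul_add, smul_add]
  congr 1 <;> split_ifs with e
  · rw [aut2_tmul, he, ← e, mul_assoc, mul_assoc, mul_comm (g p.1), mul_comm (g p'.1), mul_smul,
      mul_smul _ (g p'.1), TensorProduct.smul_tmul', TensorProduct.smul_tmul' (g p'.1), hD]
  · simp
  · rw [Units.smul_def, map_zsmul, aut2_tmul, he, ← e, smul_comm, smul_comm (g p.1 * g p'.2 * c),
      mul_right_comm, mul_right_comm _ (g p'.2), mul_smul, mul_smul _ (g p'.2),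
      ← TensorProduct.tmul_smul, ← TensorProduct.tmul_smul (g p'.2), hD]
  · simp

end gen

namespace TT

variable {k : Type u} [Field k] {q : k}

open QK

theorem exists_qdata (hq0 : q ≠ 0) (hq : ∀ n : ℕ, 0 < n → q ^ n ≠ 1) :
    Nonempty (QData k (TT k q ⊗[k] TT k q) (chi2 chi) (aut2 (hh q hq0))) := by
  have hU : MC.TensFin (Qm hq0) (Qm hq0) :=
    MC.tensFin_of_bddBelow _ _ 0 0 (fun i => by rw [Qm_deg]; omega)
      (fun i => by rw [Qm_deg]; omega)
  have hV : MC.TensFin (Qp hq0) (Qp hq0) :=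
    MC.tensFin_of_bddAbove _ _ 0 0 (fun i => by rw [Qp_deg]; omega)
      (fun i => by rw [Qp_deg]; omega)
  let ψ := (psiQ hq0).tensor k (psiQ hq0) hU hV
  have hrow : ∀ n, (MC.cone ψ).RowEx (TT k q ⊗[k] TT k q) n :=
    MC.rowEx_cone_tensor k _ _ hU hV (cone_psiQ_rowEx hq0 hq) (cone_psiQ_rowEx hq0 hq)
  have hψ : ∀ p p' : (ℕ × ℕ) × (ℕ × ℕ), ψ.f p p' = 0 ∨ (p = ((0, 0), (0, 0)) ∧
      p' = ((0, 0), (0, 0)) ∧ ψ.f p p' = bf' ⊗ₜ bf') := fun p p' => by
    have : ψ.f p p' = (psiQ hq0).f p.1 p'.1 ⊗ₜ (psiQ hq0).f p.2 p'.2 := rfl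
    rw [this, psiQ_f, psiQ_f]
    split_ifs with h1 h2
    · exact .inr ⟨Prod.ext h1.1 h2.1, Prod.ext h1.2 h2.2, rfl⟩
    all_goals simp
  have hdl : ∀ p : (ℕ × ℕ) × (ℕ × ℕ), (MC.cone ψ).deg (.inl p)
      = 3 * p.1.1 + p.1.2 + (3 * p.2.1 + p.2.2) := fun p => rfl
  have hdr : ∀ p : (ℕ × ℕ) × (ℕ × ℕ), (MC.cone ψ).deg (.inr p)
      = -(3 * p.1.1 + p.1.2) + -(3 * p.2.1 + p.2.2) - 1 := fun p => rfl
  have huniq : ∀ i, (MC.cone ψ).deg i = 0 → i = .inl ((0, 0), (0, 0)) := by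
    rintro (⟨⟨a, b⟩, c, d⟩ | p) h
    · rw [hdl] at h
      simp only at h
      obtain ⟨rfl, rfl, rfl, rfl⟩ : a = 0 ∧ b = 0 ∧ c = 0 ∧ d = 0 := by omega
      rfl
    · have := (hdr p).symm.trans h
      omega
  obtain ⟨G, hGl, hGr⟩ : ∃ G : (MC.cone ψ).ι → kˣ,
      (∀ p : (ℕ × ℕ) × (ℕ × ℕ), (G (.inl p) : k) = q⁻¹ ^ p.1.1 * q⁻¹ ^ p.2.1 * 1) ∧
      (∀ p : (ℕ × ℕ) × (ℕ × ℕ), (G (.inr p) : k) = q ^ p.1.1 * q ^ p.2.1 * q ^ 2) := by
    let qu : kˣ := Units.mk0 q hq0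
    refine ⟨Sum.elim (fun p : (ℕ × ℕ) × (ℕ × ℕ) => qu⁻¹ ^ (p.1.1 + p.2.1))
      (fun p : (ℕ × ℕ) × (ℕ × ℕ) => qu ^ (p.1.1 + p.2.1 + 2)), fun p => ?_, fun p => ?_⟩
    · change ((qu⁻¹ ^ (p.1.1 + p.2.1) : kˣ) : k) = _
      simp [qu, pow_add]
    · change ((qu ^ (p.1.1 + p.2.1 + 2) : kˣ) : k) = _
      simp [qu, pow_add]
  refine ⟨{
    Q := MC.cone ψ
    i0 := .inl ((0, 0), (0, 0))
    deg_i0 := rfl
    uniq := huniq
    χ_e0 := ?_
    χ_D := ?_
    rowE := hrow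
    colE := fun n => (MC.rowEx_iff_colEx_self ((sym k q).tensor (sym k q)) _ n).1 (hrow n)
    ker0 := ?_
    G := G
    h_e := ?_
    h_D := ?_
    G_i0 := Units.ext ((hGl _).trans (by simp))
    G_ne := ?_ }⟩
  · change chi2 chi (bf ⊗ₜ[k] bf : TT k q ⊗[k] TT k q) = 1
    simp
  · rintro (p | p) (p' | p')
    · rw [MC.cone_D_inl_inl, map_neg, neg_eq_zero]
      exact chi2_tensor_D chi (Qm hq0) hU chi_Dm p p'
    · rw [MC.cone_D_inl_inr]
      rcases hψ p p' with h | ⟨-, -, h⟩ <;> rw [h] <;> simp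
    · rw [MC.cone_D_inr_inl, map_zero]
    · exact chi2_tensor_D chi (Qp hq0) hV chi_Dp p p'
  · intro a ha h0
    refine MC.exists_single _ _ 0 rfl (hrow 0) a ha ?_
    rintro (p | p)
    · refine (congrArg (a * ·) ((MC.cone ψ).D_deg _ _ ?_)).trans (mul_zero a)
      intro h
      have := ((hdl ((0, 0), (0, 0))).symm.trans h).trans (congrArg (· + 1) (hdl p))
      simp only at this
      omega
    · change a * ψ.f ((0, 0), (0, 0)) p = 0
      rcases hψ ((0, 0), (0, 0)) p with h | ⟨-, -, h⟩ <;> rw [h]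
      · rw [mul_zero]
      · rw [((sym k q).tensor (sym k q)).mul_soc (chi2 chi) _
          (lam_mul_soc2 (sym k q) chi bf' lam_mul_soc), h0, zero_smul]
  · rintro (p | p)
    · change aut2 _ (eL _ ⊗ₜ[k] eL _) = eL _ ⊗ₜ[k] eL _
      rw [aut2_tmul, hh_eL, hh_eL]
    · change aut2 _ (eL _ ⊗ₜ[k] eL _) = eL _ ⊗ₜ[k] eL _
      rw [aut2_tmul, hh_eL, hh_eL]
  · rintro (p | p) (p' | p')
    · have := aut2_tensor_D (hh q hq0) (Qm hq0) hU (fun i => q⁻¹ ^ i.1) 1
        (fun i => hh_eL hq0 _) (hh_Dm hq0) p p'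
      rw [MC.cone_D_inl_inl, map_neg, smul_neg, smul_neg, neg_inj]
      erw [hGl, hGl]
      exact this
    · rw [MC.cone_D_inl_inr]
      erw [hGl, hGr]
      rcases hψ p p' with h | ⟨rfl, rfl, h⟩ <;> rw [h]
      · simp
      · have : hh q hq0 (bf' : TT k q) = q • bf' := by ext <;> simp
        rw [aut2_tmul, this, TensorProduct.smul_tmul_smul]
        simp [pow_two]
    · rw [MC.cone_D_inr_inl]; simp
    · have := aut2_tensor_D (hh q hq0) (Qp hq0) hV (fun i => q ^ i.1) (q ^ 2)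
        (fun i => hh_eL hq0 _) (hh_Dp hq0) p p'
      rw [MC.cone_D_inr_inr]
      erw [hGr, hGr]
      exact this
  · rintro (⟨⟨a, b⟩, c, d⟩ | p) hd hχ h
    · have hχ' : chi (eL b : TT k q) * chi (eL d : TT k q) ≠ 0 := hχ
      have hb : b = 0 := by
        cases b with
        | zero => rfl
        | succ b => simp [eL] at hχ'
      have hd' : d = 0 := by
        cases d with
        | zero => rfl
        | succ b => simp [eL] at hχ'
      have hd2 : (3 * a + b + (3 * c + d) : ℤ) ≠ 0 := hd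
      have h' : q⁻¹ ^ (a + c) = q ^ 0 := by
        rw [pow_add, pow_zero, ← mul_one (_ * _)]
        exact (hGl ((a, b), (c, d))).symm.trans (congrArg Units.val h)
      exact inv_pow_ne hq0 hq (by omega) h'
    · have h' := (hGr p).symm.trans (congrArg Units.val h)
      rw [← pow_add, ← pow_add] at h'
      exact hq _ (by omega) h'

end TT

end Crest.Agent.R186
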