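import Crest.Agent.R186.ELevel
import Crest.Agent.R186.BLevel
import Crest.Agent.R186.QCx
import Crest.Agent.R186.LLevel
import Crest.Agent.R186.ALevel
import Crest.Agent.R186.BasicLem

/-!
The main construction: a Tachikawa counterexample over every field with an element of infinite
multiplicative order.
-/

set_option autoImplicit false

open scoped TensorProduct

universe u

namespace Crest.Agent.R186

/-- the data over `TT k q` -/
noncomputable def TT.tdata {k : Type u} [Field k] {q : k} (hq0 : q ≠ 0)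
    (hq : ∀ n : ℕ, 0 < n → q ^ n ≠ 1) : TData k (TT k q) where
  S := TT.sym k q
  χ := TT.chi
  ς := TT.bf'
  hς := TT.lam_mul_soc
  e := TT.eL
  dL := TT.dL
  dR := TT.dR
  he := TT.eL_idem
  hL1 := TT.eL_dL
  hL2 := TT.dL_eL
  hL3 := TT.dL_dL
  hR1 := TT.eL_dR
  hR2 := TT.dR_eL
  hR3 := TT.dR_dR hq0
  Ψ := TT.Psi hq0
  exΨ := TT.cone_Psi_rowEx hq0 hq
  he1 _ := rfl
  χe := rfl
  ex3 := TT.Rc_exact3 hq0 hq

theorem main {k : Type u} [Field k] {q : k} (hq0 : q ≠ 0) (hq : ∀ n : ℕ, 0 < n → q ^ n ≠ 1) :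
    MainStmt k := by
  obtain ⟨B⟩ := TT.exists_bdata hq0 hq
  obtain ⟨X⟩ := TT.exists_qdata hq0 hq
  have hχ : ∀ a : TT k q, TT.chi (TT.hh q hq0 a) = TT.chi a := fun _ => rfl
  obtain ⟨F, ⟨Y⟩⟩ := TData.exists_F (Y := TT.tdata hq0 hq) (h := TT.hh q hq0) B hχ X
  obtain ⟨P, χ', i0, hr, hc, hv, hD, he⟩ := lambda_mc (chi2_aut2 _ _ hχ) X Y
  have : FiniteDimensional k (Lam (TT k q ⊗[k] TT k q) F.V) :=
    inferInstanceAs (FiniteDimensional k (((TT k q ⊗[k] TT k q) × (TT k q ⊗[k] TT k q)) ×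
      Fab (TT k q ⊗[k] TT k q) F.V))
  obtain ⟨M, _, _, hM⟩ := tach_of_mc P hr hc hv χ' hD i0 he
  have hb := TT.basic hq0 (by simpa using hq 1 one_pos)
  exact ⟨_, _, _, M, _, _, hM,
    ((((hb.tensor hb).prod (hb.tensor hb)).tsze _).tsze _).reindex
      (Fintype.equivFinOfCardEq (by simp))⟩

theorem main_ext (K : Type u) [Field K]
    [Algebra (FractionRing (MvPolynomial (Fin 3) (ZMod 2))) K] : MainStmt K := by
  obtain ⟨q, hq0, hq⟩ := exists_infinite_order K
  exact main hq0 hq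

theorem main_complex : MainStmt ℂ := by
  obtain ⟨q, hq0, hq⟩ := exists_infinite_order_complex
  exact main hq0 hq

end Crest.Agent.R186
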