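import Crest.Agent.R186.Sym
import Crest.Agent.R186.DualBi

/-!
Bundled finite-dimensional bimodules that are projective on both sides, and their "fibres"
`V ⊗_R k_χ = V / V·ker χ`.
-/

set_option autoImplicit false

open MulOpposite
open scoped TensorProduct

universe u

namespace Crest.Agent.R186

theorem exists_innerInv {k : Type*} [Field k] {V U : Type*} [AddCommGroup V] [Module k V]
    [AddCommGroup U] [Module k U] (π : V →ₗ[k] U) : ∃ s : U →ₗ[k] V, ∀ v, π (s (π v)) = π v := by
  obtain ⟨g, hg⟩ := π.rangeRestrict.exists_rightInverse_of_surjective π.range_rangeRestrict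
  obtain ⟨s, hs⟩ := LinearMap.exists_extend g
  refine ⟨s, fun v => ?_⟩
  have h1 : s (π v) = g ⟨π v, LinearMap.mem_range_self π v⟩ := LinearMap.congr_fun hs ⟨_, _⟩
  have h2 := congrArg Subtype.val (LinearMap.congr_fun hg ⟨π v, LinearMap.mem_range_self π v⟩)
  rw [h1]; exact h2

section radR

variable {k : Type u} [Field k] {R : Type u} [Ring R] [Algebra k R] {χ : R →ₐ[k] k}
  {V : Type u} [AddCommGroup V] [Module k V] [Module Rᵐᵒᵖ V]
  {W : Type u} [AddCommGroup W] [Module k W] [Module Rᵐᵒᵖ W]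

theorem op_smul_mem_radR {a : R} (ha : χ a = 0) (y : V) : op a • y ∈ radR χ V :=
  Submodule.subset_span ⟨a, y, ha, rfl⟩

theorem radR_map (f : V →ₗ[k] W) (hf : ∀ (a : R) v, f (op a • v) = op a • f v) {v : V}
    (hv : v ∈ radR χ V) : f v ∈ radR χ W := by
  induction hv using Submodule.span_induction with
  | mem x hx => obtain ⟨a, y, ha, rfl⟩ := hx; rw [hf]; exact op_smul_mem_radR ha _
  | zero => simp
  | add x y _ _ hx hy => rw [map_add]; exact add_mem hx hy
  | smul c x _ hx => rw [map_smul]; exact Submodule.smul_mem _ _ hx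

theorem radR_le_ker {U : Type*} [AddCommGroup U] [Module k U] (π : V →ₗ[k] U)
    (h : ∀ (a : R) v, χ a = 0 → π (op a • v) = 0) {v : V} (hv : v ∈ radR χ V) : π v = 0 := by
  have : radR χ V ≤ LinearMap.ker π := Submodule.span_le.2 (by
    rintro _ ⟨a, y, ha, rfl⟩; exact h a y ha)
  exact this hv

theorem op_smul_sub_mem_radR [IsScalarTower k Rᵐᵒᵖ V] (a : R) (y : V) :
    op a • y - χ a • y ∈ radR χ V := by
  have : op a • y - χ a • y = op (a - algebraMap k R (χ a)) • y := by
    rw [op_sub, sub_smul, Algebra.algebraMap_eq_smul_one, op_smul, smul_assoc, op_one, one_smul]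
  rw [this]
  exact op_smul_mem_radR (by simp) _

end radR

/-- finite-dimensional bimodules, projective on both sides -/
structure PB (k : Type u) [Field k] (R : Type u) [Ring R] [Algebra k R] where
  V : Type u
  [acg : AddCommGroup V]
  [mdk : Module k V]
  [mdl : Module R V]
  [mdr : Module Rᵐᵒᵖ V]
  [comm : SMulCommClass R Rᵐᵒᵖ V]
  [twl : IsScalarTower k R V]
  [twr : IsScalarTower k Rᵐᵒᵖ V]
  [fd : FiniteDimensional k V]
  [pl : Module.Projective R V]
  [pr : Module.Projective Rᵐᵒᵖ V]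

attribute [instance] PB.acg PB.mdk PB.mdl PB.mdr PB.comm PB.twl PB.twr PB.fd PB.pl PB.pr

namespace PB

variable {k : Type u} [Field k] {R : Type u} [Ring R] [Algebra k R]

instance (V : PB k R) : Module.Finite R V.V := Module.Finite.of_restrictScalars_finite k R V.V
instance (V : PB k R) : Module.Finite Rᵐᵒᵖ V.V :=
  Module.Finite.of_restrictScalars_finite k Rᵐᵒᵖ V.V

/-- bimodule maps -/
structure Hom (V W : PB k R) where
  l : V.V →ₗ[R] W.V
  map_r : ∀ (a : Rᵐᵒᵖ) v, l (a • v) = a • l v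

namespace Hom

variable {V W X : PB k R}

/-- as a map of right modules -/
def r (f : Hom V W) : V.V →ₗ[Rᵐᵒᵖ] W.V where
  toFun := f.l
  map_add' := map_add _
  map_smul' := f.map_r

@[simp] theorem r_apply (f : Hom V W) (v : V.V) : f.r v = f.l v := rfl

/-- as a `k`-linear map -/
def lk (f : Hom V W) : V.V →ₗ[k] W.V := f.l.restrictScalars k

@[simp] theorem lk_apply (f : Hom V W) (v : V.V) : f.lk v = f.l v := rfl

/-- identity -/
def id (V : PB k R) : Hom V V := ⟨LinearMap.id, fun _ _ => rfl⟩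

@[simp] theorem id_l (v : V.V) : (id V).l v = v := rfl

/-- composition -/
def comp (g : Hom W X) (f : Hom V W) : Hom V X :=
  ⟨g.l ∘ₗ f.l, fun a v => by simp [f.map_r, g.map_r]⟩

@[simp] theorem comp_l (g : Hom W X) (f : Hom V W) (v : V.V) : (g.comp f).l v = g.l (f.l v) := rfl

/-- sum -/
def add (f g : Hom V W) : Hom V W := ⟨f.l + g.l, fun a v => by simp [f.map_r, g.map_r]⟩

@[simp] theorem add_l (f g : Hom V W) (v : V.V) : (f.add g).l v = f.l v + g.l v := rfl

/-- difference -/
def sub (f g : Hom V W) : Hom V W := ⟨f.l - g.l, fun a v => by simp [f.map_r, g.map_r, smul_sub]⟩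

@[simp] theorem sub_l (f g : Hom V W) (v : V.V) : (f.sub g).l v = f.l v - g.l v := rfl

theorem map_radR {χ : R →ₐ[k] k} (f : Hom V W) {v : V.V} (hv : v ∈ radR χ V.V) :
    f.l v ∈ radR χ W.V := radR_map f.lk (fun a v => f.map_r _ v) hv

end Hom

theorem smul_mem_radR {χ : R →ₐ[k] k} (V : PB k R) (a : R) {v : V.V} (hv : v ∈ radR χ V.V) :
    a • v ∈ radR χ V.V :=
  radR_map (Algebra.lsmul k k V.V a) (fun b v => smul_comm a (op b) v) hv

/-- `π` identifies `V / V · ker χ` with its range -/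
def Fib (χ : R →ₐ[k] k) (V : PB k R) {U : Type u} [AddCommGroup U] [Module R U]
    (π : V.V →ₗ[R] U) : Prop := ∀ v, π v = 0 ↔ v ∈ radR χ V.V

theorem Fib.op_smul {χ : R →ₐ[k] k} {V : PB k R} {U : Type u} [AddCommGroup U] [Module R U]
    [Module k U] [IsScalarTower k R U] {π : V.V →ₗ[R] U} (h : Fib χ V π) (a : R) (v : V.V) :
    π (op a • v) = χ a • π v := by
  have := (h _).2 (op_smul_sub_mem_radR (χ := χ) a v)
  rwa [map_sub, π.map_smul_of_tower (χ a), sub_eq_zero] at this

theorem Fib.comp_injective {χ : R →ₐ[k] k} {V : PB k R} {U U' : Type u} [AddCommGroup U]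
    [Module R U] [AddCommGroup U'] [Module R U'] {π : V.V →ₗ[R] U} (h : Fib χ V π)
    (i : U →ₗ[R] U') (hi : Function.Injective i) : Fib χ V (i ∘ₗ π) := fun v => by
  rw [← h v, LinearMap.comp_apply, map_eq_zero_iff i hi]

/-! ### products -/

/-- product -/
def prod (V W : PB k R) : PB k R where
  V := V.V × W.V

/-- first projection -/
def fst (V W : PB k R) : Hom (V.prod W) V := ⟨LinearMap.fst R V.V W.V, fun _ _ => rfl⟩
/-- second projection -/
def snd (V W : PB k R) : Hom (V.prod W) W := ⟨LinearMap.snd R V.V W.V, fun _ _ => rfl⟩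
/-- pairing of elements -/
def mkp {V W : PB k R} (v : V.V) (w : W.V) : (V.prod W).V := (v, w)
/-- first inclusion -/
def inl (V W : PB k R) : Hom V (V.prod W) :=
  ⟨LinearMap.inl R V.V W.V, fun a v => Prod.ext rfl (smul_zero a).symm⟩
/-- second inclusion -/
def inr (V W : PB k R) : Hom W (V.prod W) :=
  ⟨LinearMap.inr R V.V W.V, fun a v => Prod.ext (smul_zero a).symm rfl⟩
/-- map into a product -/
def Hom.pair {V W X : PB k R} (f : Hom V W) (g : Hom V X) : Hom V (W.prod X) :=
  ⟨f.l.prod g.l, fun a v => Prod.ext (f.map_r a v) (g.map_r a v)⟩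
/-- map out of a product -/
def Hom.copair {V W X : PB k R} (f : Hom V X) (g : Hom W X) : Hom (V.prod W) X :=
  (f.comp (fst V W)).add (g.comp (snd V W))

@[simp] theorem fst_mkp {V W : PB k R} (v : V.V) (w : W.V) : (fst V W).l (mkp v w) = v := rfl
@[simp] theorem snd_mkp {V W : PB k R} (v : V.V) (w : W.V) : (snd V W).l (mkp v w) = w := rfl
@[simp] theorem inl_l (V W : PB k R) (v : V.V) : (inl V W).l v = mkp v 0 := rfl
@[simp] theorem inr_l (V W : PB k R) (v : W.V) : (inr V W).l v = mkp 0 v := rfl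
@[simp] theorem Hom.pair_l {V W X : PB k R} (f : Hom V W) (g : Hom V X) (v : V.V) :
    (f.pair g).l v = mkp (f.l v) (g.l v) := rfl
@[simp] theorem Hom.copair_l {V W X : PB k R} (f : Hom V X) (g : Hom W X) (v : (V.prod W).V) :
    (f.copair g).l v = f.l ((fst V W).l v) + g.l ((snd V W).l v) := rfl

theorem prod_ext {V W : PB k R} {x y : (V.prod W).V} (h1 : (fst V W).l x = (fst V W).l y)
    (h2 : (snd V W).l x = (snd V W).l y) : x = y := Prod.ext h1 h2

theorem mem_radR_prod {χ : R →ₐ[k] k} {V W : PB k R} (v : (V.prod W).V) :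
    v ∈ radR χ (V.prod W).V ↔ (fst V W).l v ∈ radR χ V.V ∧ (snd V W).l v ∈ radR χ W.V := by
  refine ⟨fun h => ⟨(fst V W).map_radR h, (snd V W).map_radR h⟩, fun h => ?_⟩
  have := add_mem ((inl V W).map_radR h.1) ((inr V W).map_radR h.2)
  convert this using 1
  exact prod_ext (by simp) (by simp)

theorem Fib.prod {χ : R →ₐ[k] k} {V W : PB k R} {U U' : Type u} [AddCommGroup U]
    [Module R U] [AddCommGroup U'] [Module R U'] {π : V.V →ₗ[R] U} {π' : W.V →ₗ[R] U'}
    (h : Fib χ V π) (h' : Fib χ W π') :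
    Fib χ (V.prod W) ((π ∘ₗ (fst V W).l).prod (π' ∘ₗ (snd V W).l)) := fun v => by
  rw [mem_radR_prod, ← h, ← h']
  exact Prod.ext_iff

/-- finite power -/
def pow (V : PB k R) (n : ℕ) : PB k R where
  V := Fin n → V.V
  pl := Module.Projective.of_equiv' (DFinsupp.linearEquivFunOnFintype (R := R)
    (M := fun _ : Fin n => V.V))
  pr := Module.Projective.of_equiv' (DFinsupp.linearEquivFunOnFintype (R := Rᵐᵒᵖ)
    (M := fun _ : Fin n => V.V))

/-- evaluation -/
def ev (V : PB k R) {n : ℕ} (i : Fin n) : Hom (V.pow n) V :=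
  ⟨LinearMap.proj (R := R) (φ := fun _ : Fin n => V.V) i, fun _ _ => rfl⟩

/-- inclusion of a coordinate -/
def sgl (V : PB k R) {n : ℕ} (i : Fin n) : Hom V (V.pow n) :=
  ⟨LinearMap.single R (fun _ : Fin n => V.V) i, fun a v => Pi.single_smul' i a v⟩

@[simp] theorem ev_sgl_same (V : PB k R) {n : ℕ} (i : Fin n) (v : V.V) :
    (V.ev i).l ((V.sgl i).l v) = v := Pi.single_eq_same (M := fun _ : Fin n => V.V) i v

theorem ev_sgl_of_ne (V : PB k R) {n : ℕ} {i j : Fin n} (h : i ≠ j) (v : V.V) :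
    (V.ev i).l ((V.sgl j).l v) = 0 := Pi.single_eq_of_ne (M := fun _ : Fin n => V.V) h v

theorem sum_sgl_ev (V : PB k R) {n : ℕ} (v : (V.pow n).V) :
    ∑ i, (V.sgl i).l ((V.ev i).l v) = v := Finset.univ_sum_single (M := fun _ : Fin n => V.V) v

/-- map out of a finite power -/
def Hom.copow {V W : PB k R} {n : ℕ} (f : Fin n → Hom V W) : Hom (V.pow n) W :=
  ⟨∑ i, (f i).l ∘ₗ (V.ev i).l, fun a v => by
    simp [Finset.smul_sum, (V.ev _).map_r, (f _).map_r]⟩

@[simp] theorem Hom.copow_l {V W : PB k R} {n : ℕ} (f : Fin n → Hom V W) (v : (V.pow n).V) :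
    (Hom.copow f).l v = ∑ i, (f i).l ((V.ev i).l v) := by simp [Hom.copow]

theorem mem_radR_pow {χ : R →ₐ[k] k} {V : PB k R} {n : ℕ} (v : (V.pow n).V) :
    v ∈ radR χ (V.pow n).V ↔ ∀ i, (V.ev i).l v ∈ radR χ V.V := by
  refine ⟨fun h i => (V.ev i).map_radR h, fun h => ?_⟩
  rw [← sum_sgl_ev V v]
  exact Submodule.sum_mem _ fun i _ => (V.sgl i).map_radR (h i)

theorem Fib.pow {χ : R →ₐ[k] k} {V : PB k R} {U : Type u} [AddCommGroup U]
    [Module R U] {π : V.V →ₗ[R] U} (h : Fib χ V π) (n : ℕ) :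
    Fib χ (V.pow n) (LinearMap.pi fun i : Fin n => π ∘ₗ (V.ev i).l) := fun v => by
  rw [mem_radR_pow]
  simp only [← h _]
  exact funext_iff

/-! ### sub-bimodules -/

/-- a left submodule stable under the right action -/
def Sub (V : PB k R) (S : Submodule R V.V) (_hS : ∀ (a : Rᵐᵒᵖ) v, v ∈ S → a • v ∈ S) : Type u := S

namespace Sub

variable {V : PB k R} {S : Submodule R V.V} {hS : ∀ (a : Rᵐᵒᵖ) v, v ∈ S → a • v ∈ S}

instance : AddCommGroup (Sub V S hS) := inferInstanceAs (AddCommGroup S)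
instance : Module R (Sub V S hS) := inferInstanceAs (Module R S)
instance : Module k (Sub V S hS) := inferInstanceAs (Module k S)
instance : IsScalarTower k R (Sub V S hS) := inferInstanceAs (IsScalarTower k R S)
instance : FiniteDimensional k (Sub V S hS) :=
  inferInstanceAs (FiniteDimensional k (S.restrictScalars k))
instance : SMul Rᵐᵒᵖ (Sub V S hS) := ⟨fun a v => ⟨a • v.1, hS a _ v.2⟩⟩
instance : Module Rᵐᵒᵖ (Sub V S hS) :=
  Function.Injective.module Rᵐᵒᵖ (S.subtype.toAddMonoidHom : Sub V S hS →+ V.V)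
    Subtype.val_injective fun _ _ => rfl
instance : SMulCommClass R Rᵐᵒᵖ (Sub V S hS) := ⟨fun a b v => Subtype.ext (smul_comm a b v.1)⟩
instance : IsScalarTower k Rᵐᵒᵖ (Sub V S hS) := ⟨fun a b v => Subtype.ext (smul_assoc a b v.1)⟩

theorem projective_left (p : V.V →ₗ[R] V.V) (h1 : ∀ v, p v ∈ S) (h2 : ∀ v ∈ S, p v = v) :
    Module.Projective R (Sub V S hS) :=
  Module.Projective.of_split (M := V.V) S.subtype (p.codRestrict S h1)
    (LinearMap.ext fun v => Subtype.ext (h2 v.1 v.2))

theorem projective_right (p : V.V →ₗ[Rᵐᵒᵖ] V.V) (h1 : ∀ v, p v ∈ S) (h2 : ∀ v ∈ S, p v = v) :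
    Module.Projective Rᵐᵒᵖ (Sub V S hS) :=
  Module.Projective.of_split (M := V.V)
    { toFun v := v.1, map_add' _ _ := rfl, map_smul' _ _ := rfl }
    { toFun v := ⟨p v, h1 v⟩
      map_add' x y := Subtype.ext (map_add p x y)
      map_smul' a x := Subtype.ext (map_smul p a x) }
    (LinearMap.ext fun v => Subtype.ext (h2 v.1 v.2))

end Sub

/-- kernel of a surjection -/
def ker {V W : PB k R} (g : Hom V W) (hg : Function.Surjective g.l) : PB k R where
  V := Sub V (LinearMap.ker g.l) fun a v hv => by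
    rw [LinearMap.mem_ker] at *; rw [g.map_r, hv, smul_zero]
  pl := by
    obtain ⟨s, hs⟩ := g.l.exists_rightInverse_of_surjective (LinearMap.range_eq_top.2 hg)
    have hs' : ∀ w, g.l (s w) = w := LinearMap.congr_fun hs
    exact Sub.projective_left (LinearMap.id - s ∘ₗ g.l) (fun v => by simp [hs'])
      fun v hv => by simp [LinearMap.mem_ker.1 hv]
  pr := by
    obtain ⟨s, hs⟩ := g.r.exists_rightInverse_of_surjective (LinearMap.range_eq_top.2 hg)
    have hs' : ∀ w, g.l (s w) = w := LinearMap.congr_fun hs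
    exact Sub.projective_right (LinearMap.id - s ∘ₗ g.r) (fun v => by simp [hs'])
      fun v hv => by simp [LinearMap.mem_ker.1 hv]

section ker

variable {V W X : PB k R} (g : Hom V W) (hg : Function.Surjective g.l)

/-- inclusion of the kernel -/
def kerι : Hom (ker g hg) V := ⟨(LinearMap.ker g.l).subtype, fun _ _ => rfl⟩

theorem kerι_injective : Function.Injective (kerι g hg).l := Subtype.val_injective

theorem g_kerι (v : (ker g hg).V) : g.l ((kerι g hg).l v) = 0 := v.2

theorem exists_kerι {v : V.V} (h : g.l v = 0) : ∃ y, (kerι g hg).l y = v := ⟨⟨v, h⟩, rfl⟩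

/-- map into the kernel -/
def kerLift (f : Hom X V) (h : ∀ x, g.l (f.l x) = 0) : Hom X (ker g hg) :=
  ⟨f.l.codRestrict _ h, fun a x => Subtype.ext (f.map_r a x)⟩

@[simp] theorem kerι_kerLift (f : Hom X V) (h : ∀ x, g.l (f.l x) = 0) (x : X.V) :
    (kerι g hg).l ((kerLift g hg f h).l x) = f.l x := rfl

theorem mem_radR_ker {χ : R →ₐ[k] k} (y : (ker g hg).V) :
    y ∈ radR χ (ker g hg).V ↔ (kerι g hg).l y ∈ radR χ V.V := by
  refine ⟨(kerι g hg).map_radR, fun h => ?_⟩
  obtain ⟨s, hs⟩ := g.r.exists_rightInverse_of_surjective (LinearMap.range_eq_top.2 hg)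
  have hs' : ∀ w, g.l (s w) = w := LinearMap.congr_fun hs
  let p : V.V →ₗ[k] (ker g hg).V :=
    { toFun v := ⟨v - s (g.l v), by simp [hs']⟩
      map_add' x y := Subtype.ext (by
        change x + y - s (g.l (x + y)) = x - s (g.l x) + (y - s (g.l y))
        simp only [map_add]; abel)
      map_smul' c x := Subtype.ext (by
        change c • x - s (g.l (c • x)) = c • (x - s (g.l x))
        simp [smul_sub]) }
  have := radR_map p (fun a v => Subtype.ext (by
    change op a • v - s (g.l (op a • v)) = op a • (v - s (g.l v))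
    rw [g.map_r, map_smul, smul_sub])) h
  convert this using 1
  refine Subtype.ext ?_
  change y.1 = y.1 - s (g.l y.1)
  rw [show g.l y.1 = 0 from y.2, map_zero, sub_zero]

theorem Fib.ker {χ : R →ₐ[k] k} {U : Type u} [AddCommGroup U] [Module R U] {π : V.V →ₗ[R] U}
    (h : Fib χ V π) : Fib χ (ker g hg) (π ∘ₗ (kerι g hg).l) := fun y => by
  rw [mem_radR_ker, ← h]; rfl

/-- the fibre of the kernel is the kernel on fibres -/
theorem Fib.exists_ker {χ : R →ₐ[k] k} {U : Type u} [AddCommGroup U] [Module R U]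
    {π : V.V →ₗ[R] U} (h : Fib χ V π) {v : V.V} (hv : g.l v ∈ radR χ W.V) :
    ∃ y, π ((kerι g hg).l y) = π v := by
  obtain ⟨s, hs⟩ := g.r.exists_rightInverse_of_surjective (LinearMap.range_eq_top.2 hg)
  have hs' : ∀ w, g.l (s w) = w := LinearMap.congr_fun hs
  have h1 : π (s (g.l v)) = 0 :=
    (h _).2 (radR_map (s.restrictScalars k) (fun a w => map_smul s _ w) hv)
  obtain ⟨y, hy⟩ := exists_kerι g hg (v := v - s (g.l v)) (by simp [hs'])
  exact ⟨y, by rw [hy, map_sub, h1, sub_zero]⟩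

end ker

/-- image of an idempotent -/
def summand {V : PB k R} (p : Hom V V) (hp : ∀ v, p.l (p.l v) = p.l v) : PB k R where
  V := Sub V (LinearMap.range p.l) (by
    rintro a _ ⟨v, rfl⟩; exact ⟨a • v, p.map_r a v⟩)
  pl := Sub.projective_left p.l (fun v => ⟨v, rfl⟩) (by rintro _ ⟨v, rfl⟩; exact hp v)
  pr := Sub.projective_right p.r (fun v => ⟨v, rfl⟩) (by rintro _ ⟨v, rfl⟩; exact hp v)

section summand

variable {V : PB k R} (p : Hom V V) (hp : ∀ v, p.l (p.l v) = p.l v)

/-- inclusion of the summand -/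
def summandι : Hom (summand p hp) V := ⟨(LinearMap.range p.l).subtype, fun _ _ => rfl⟩

/-- projection on the summand -/
def summandπ : Hom V (summand p hp) :=
  ⟨p.l.rangeRestrict, fun a x => Subtype.ext (p.map_r a x)⟩

theorem summandι_injective : Function.Injective (summandι p hp).l := Subtype.val_injective

@[simp] theorem summandι_π (v : V.V) : (summandι p hp).l ((summandπ p hp).l v) = p.l v := rfl

theorem p_summandι (y : (summand p hp).V) : p.l ((summandι p hp).l y) = (summandι p hp).l y := by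
  obtain ⟨_, v, rfl⟩ := y; exact hp v

@[simp] theorem summandπ_ι (y : (summand p hp).V) :
    (summandπ p hp).l ((summandι p hp).l y) = y := Subtype.ext (p_summandι p hp y)

theorem Fib.summand {χ : R →ₐ[k] k} {U : Type u} [AddCommGroup U] [Module R U]
    {π : V.V →ₗ[R] U} (h : Fib χ V π) : Fib χ (summand p hp) (π ∘ₗ (summandι p hp).l) := fun y => by
  rw [LinearMap.comp_apply, h]
  refine ⟨fun hy => ?_, (summandι p hp).map_radR⟩
  simpa using (summandπ p hp).map_radR hy

end summand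

end PB

end Crest.Agent.R186
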