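import Crest.Agent.R186.PB
import Crest.Agent.R186.Chain

/-!
More biprojective bimodules: twisted regular bimodule, free bimodule, cokernels, external tensor
products.
-/

set_option autoImplicit false

open MulOpposite
open scoped TensorProduct

universe u

namespace Crest.Agent.R186

namespace PB

variable {k : Type u} [Field k] {R : Type u} [Ring R] [Algebra k R]

/-! ### the regular bimodule with twisted right action -/

/-- `R` with right action twisted by `h` -/
def Reg (_h : R ≃ₐ[k] R) : Type u := R

namespace Reg

variable {h : R ≃ₐ[k] R}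

instance : AddCommGroup (Reg h) := inferInstanceAs (AddCommGroup R)
instance : Module k (Reg h) := inferInstanceAs (Module k R)
instance : Module R (Reg h) := inferInstanceAs (Module R R)
instance : IsScalarTower k R (Reg h) := inferInstanceAs (IsScalarTower k R R)
instance : Module Rᵐᵒᵖ (Reg h) := Module.compHom R (RingHom.op (h : R →+* R))
/-- the identity -/
def val : Reg h ≃ₗ[R] R := LinearEquiv.refl R R
theorem val_op_smul (a : Rᵐᵒᵖ) (x : Reg h) : val (a • x) = val x * h a.unop := rfl
instance : SMulCommClass R Rᵐᵒᵖ (Reg h) :=
  ⟨fun a b x => val.injective (by simp [val_op_smul, mul_assoc])⟩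
instance : IsScalarTower k Rᵐᵒᵖ (Reg h) :=
  ⟨fun a b x => by
    change val x * h (a • b.unop) = a • (val x * h b.unop)
    simp⟩

end Reg

/-- `R` with right action twisted by `h` -/
def reg [FiniteDimensional k R] (h : R ≃ₐ[k] R) : PB k R where
  V := Reg h
  fd := inferInstanceAs (FiniteDimensional k R)
  pl := inferInstanceAs (Module.Projective R R)
  pr := Module.Projective.of_split (M := Rᵐᵒᵖ)
    { toFun x := op (h.symm (Reg.val x))
      map_add' x y := by simp
      map_smul' a x := by simp [Reg.val_op_smul] }
    { toFun a := Reg.val.symm (h a.unop)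
      map_add' x y := by simp
      map_smul' a x := Reg.val.injective (by simp [Reg.val_op_smul]) }
    (LinearMap.ext fun x => by simp)

section reg

variable [FiniteDimensional k R] (h : R ≃ₐ[k] R)

/-- the identity `reg h → R` -/
def regVal : (reg h).V ≃ₗ[R] R := Reg.val

theorem regVal_op_smul (a : R) (x : (reg h).V) : regVal h (op a • x) = regVal h x * h a := rfl

/-- the bimodule map determined by an `h`-central element -/
def regGen {W : PB k R} (w : W.V) (hw : ∀ a : R, h a • w = op a • w) : Hom (reg h) W :=
  ⟨LinearMap.toSpanSingleton R W.V w ∘ₗ (regVal h).toLinearMap, fun a x => by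
    change (regVal h (op a.unop • x)) • w = a • (regVal h x • w)
    rw [regVal_op_smul, mul_smul, hw, smul_comm, op_unop]⟩

@[simp] theorem regGen_l {W : PB k R} (w : W.V) (hw : ∀ a : R, h a • w = op a • w)
    (x : (reg h).V) : (regGen h w hw).l x = regVal h x • w := rfl

theorem mem_radR_reg {χ : R →ₐ[k] k} (hχ : ∀ a, χ (h a) = χ a) (x : (reg h).V) :
    x ∈ radR χ (reg h).V ↔ χ (regVal h x) = 0 := by
  constructor
  · exact radR_le_ker (χ.toLinearMap ∘ₗ (regVal h).toLinearMap.restrictScalars k)
      fun a v ha => by simp [regVal_op_smul, hχ, ha]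
  · intro hx
    have : x = op (h.symm (regVal h x)) • (regVal h).symm 1 :=
      (regVal h).injective (by simp [regVal_op_smul])
    rw [this]
    exact op_smul_mem_radR (by rw [← hχ]; simpa using hx) _

end reg

/-! ### the free bimodule `R ⊗ R` -/

variable (k R) in
/-- `R ⊗ R` with the outer bimodule structure -/
def OT' : Type u := R ⊗[k] R

namespace OT'

noncomputable instance : AddCommGroup (OT' k R) := inferInstanceAs (AddCommGroup (R ⊗[k] R))
noncomputable instance : Module k (OT' k R) := inferInstanceAs (Module k (R ⊗[k] R))
noncomputable instance : Module R (OT' k R) := inferInstanceAs (Module R (R ⊗[k] R))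
instance : IsScalarTower k R (OT' k R) := inferInstanceAs (IsScalarTower k R (R ⊗[k] R))
/-- the identity -/
noncomputable def val : OT' k R ≃ₗ[R] R ⊗[k] R := LinearEquiv.refl _ _
noncomputable instance : Module Rᵐᵒᵖ (OT' k R) :=
  Module.compHom (R ⊗[k] R) (RingHom.op (Algebra.TensorProduct.includeRight (R := k) (A := R)
    (B := R)).toRingHom)
theorem val_op_smul (a : Rᵐᵒᵖ) (x : OT' k R) : val (a • x) = val x * (1 ⊗ₜ a.unop) := rfl
theorem val_smul (a : R) (x : OT' k R) : val (a • x) = (a ⊗ₜ 1) * val x := by
  rw [map_smul]
  induction val x using TensorProduct.induction_on with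
  | zero => simp
  | add x y hx hy => simp only [smul_add, mul_add, hx, hy]
  | tmul x y => simp [TensorProduct.smul_tmul']
instance : SMulCommClass R Rᵐᵒᵖ (OT' k R) :=
  ⟨fun a b x => val.injective (by simp only [val_op_smul, val_smul, mul_assoc])⟩
instance : IsScalarTower k Rᵐᵒᵖ (OT' k R) :=
  ⟨fun a b x => by
    have : val x * (1 ⊗ₜ (a • b.unop)) = a • (val x * (1 ⊗ₜ b.unop)) := by
      rw [TensorProduct.tmul_smul]; exact mul_smul_comm a (val x) _
    exact this⟩

end OT'

variable (k R) in
/-- the free bimodule of rank one -/
noncomputable def OT [FiniteDimensional k R] : PB k R where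
  V := OT' k R
  fd := inferInstanceAs (FiniteDimensional k (R ⊗[k] R))
  pl := inferInstanceAs (Module.Projective R (R ⊗[k] R))
  pr := by
    let b := Module.finBasis k R
    let c : Fin (Module.finrank k R) → R ⊗[k] R →ₗ[k] R := fun i =>
      (TensorProduct.lid k R).toLinearMap ∘ₗ (b.coord i).rTensor R
    have hc : ∀ i x (a : R), c i (x * (1 ⊗ₜ a)) = c i x * a := fun i x a => by
      induction x using TensorProduct.induction_on with
      | zero => simp
      | add x y hx hy => simp only [add_mul, map_add, hx, hy]
      | tmul x y => simp [c]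
    refine Module.Projective.of_split (M := Fin (Module.finrank k R) → Rᵐᵒᵖ)
      { toFun x i := op (c i (OT'.val x))
        map_add' x y := by ext; simp
        map_smul' a x := by ext; simp [OT'.val_op_smul, hc] }
      (Fintype.linearCombination Rᵐᵒᵖ fun i => OT'.val.symm (b i ⊗ₜ 1))
      (LinearMap.ext fun x => OT'.val.injective ?_)
    simp only [LinearMap.comp_apply, Fintype.linearCombination_apply, LinearMap.coe_mk,
      AddHom.coe_mk, map_sum, OT'.val_op_smul, LinearEquiv.apply_symm_apply, LinearMap.id_apply,
      unop_op]
    induction OT'.val x using TensorProduct.induction_on with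
    | zero => simp
    | add x y hx hy => simp only [map_add, TensorProduct.tmul_add, mul_add,
        Finset.sum_add_distrib, hx, hy]
    | tmul x y =>
      conv_rhs => rw [← b.sum_repr x, TensorProduct.sum_tmul]
      simp [c, TensorProduct.smul_tmul]

section OT

variable [FiniteDimensional k R]

/-- pure tensors -/
noncomputable def tm : R →ₗ[k] R →ₗ[k] (OT k R).V := TensorProduct.mk k R R

@[simp] theorem smul_tm (a x y : R) : a • tm (k := k) x y = tm (k := k) (a * x) y := rfl

@[simp] theorem op_smul_tm (a x y : R) : op a • tm (k := k) x y = tm (k := k) x (y * a) := by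
  change (x ⊗ₜ[k] y) * (1 ⊗ₜ a) = x ⊗ₜ (y * a)
  simp

@[elab_as_elim] theorem OT_induction {p : (OT k R).V → Prop} (z : (OT k R).V) (zero : p 0)
    (tmul : ∀ x y, p (tm (k := k) x y)) (add : ∀ x y, p x → p y → p (x + y)) : p z :=
  TensorProduct.induction_on z zero tmul add

/-- `k`-linear maps out of `OT` -/
noncomputable def otLift {N : Type*} [AddCommGroup N] [Module k N] (f : R →ₗ[k] R →ₗ[k] N) :
    (OT k R).V →ₗ[k] N := TensorProduct.lift f

@[simp] theorem otLift_tm {N : Type*} [AddCommGroup N] [Module k N] (f : R →ₗ[k] R →ₗ[k] N)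
    (x y : R) : otLift f (tm (k := k) x y) = f x y := rfl

/-- the bimodule map `x ⊗ y ↦ x w y` -/
noncomputable def otGen {W : PB k R} (w : W.V) : Hom (OT k R) W where
  l :=
    { toFun := otLift (LinearMap.mk₂ k (fun x y : R => x • op y • w) (by intros; simp [add_smul])
        (by intros; simp) (by intros; simp [add_smul])
        (fun c x y => by rw [op_smul, smul_assoc, smul_comm c x]))
      map_add' := map_add _
      map_smul' a z := by
        induction z using OT_induction with
        | zero => simp
        | add x y hx hy => simp only [smul_add, map_add, hx, hy]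
        | tmul x y => simp [mul_smul] }
  map_r a z := by
    induction z using OT_induction with
    | zero => simp
    | add x y hx hy => simp only [smul_add, map_add, hx, hy]
    | tmul x y =>
      rw [← op_unop a, op_smul_tm]
      simp [mul_smul, smul_comm x]

@[simp] theorem otGen_tm {W : PB k R} (w : W.V) (x y : R) :
    (otGen w).l (tm (k := k) x y) = x • op y • w := rfl

/-- inner multiplication `x ⊗ y ↦ x a ⊗ b y` -/
noncomputable def inner (a b : R) : Hom (OT k R) (OT k R) := otGen (tm (k := k) a b)

@[simp] theorem inner_tm (a b x y : R) :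
    (inner a b).l (tm (k := k) x y) = tm (k := k) (x * a) (b * y) := by simp [inner]

theorem Hom.ext_OT {W : PB k R} {f g : Hom (OT k R) W}
    (h : ∀ x y, f.l (tm (k := k) x y) = g.l (tm (k := k) x y)) (z : (OT k R).V) :
    f.l z = g.l z := by
  induction z using OT_induction with
  | zero => simp
  | add x y hx hy => simp only [map_add, hx, hy]
  | tmul x y => exact h x y

/-- the fibre map `x ⊗ y ↦ χ y • x` -/
noncomputable def otFib (χ : R →ₐ[k] k) : (OT k R).V →ₗ[R] R where
  toFun := otLift (LinearMap.mk₂ k (fun x y : R => χ y • x) (by intros; simp)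
    (by intros; rw [smul_comm]) (by intros; simp [add_smul]) (by intros; simp [mul_smul]))
  map_add' := map_add _
  map_smul' a z := by
    induction z using OT_induction with
    | zero => simp
    | add x y hx hy => simp only [smul_add, map_add, hx, hy]
    | tmul x y => simp

@[simp] theorem otFib_tm (χ : R →ₐ[k] k) (x y : R) : otFib χ (tm (k := k) x y) = χ y • x := rfl

theorem fib_OT (χ : R →ₐ[k] k) : Fib χ (OT k R) (otFib χ) := by
  have key : ∀ z : (OT k R).V, z - tm (k := k) (otFib χ z) 1 ∈ radR χ (OT k R).V := fun z => by
    induction z using OT_induction with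
    | zero => simp
    | add x y hx hy =>
      convert add_mem hx hy using 1
      simp only [map_add, LinearMap.add_apply]; abel
    | tmul x y => simpa using op_smul_sub_mem_radR (χ := χ) y (tm (k := k) x 1)
  refine fun z => ⟨fun h => by simpa [h] using key z, radR_le_ker
    ((otFib χ).restrictScalars k) fun a z ha => ?_⟩
  induction z using OT_induction with
  | zero => simp
  | add x y hx hy => simp_all only [smul_add, map_add, add_zero]
  | tmul x y => simp [ha]

theorem exists_cover (W : PB k R) :
    ∃ (n : ℕ) (w : Fin n → W.V), Function.Surjective (Hom.copow fun i => otGen (w i)).l := by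
  let b := Module.finBasis k W.V
  refine ⟨_, b, fun v => ⟨∑ i, b.repr v i • ((OT k R).sgl i).l (tm (k := k) 1 1), ?_⟩⟩
  conv_rhs => rw [← b.sum_repr v]
  rw [map_sum]
  refine Finset.sum_congr rfl fun i _ => ?_
  rw [LinearMap.map_smul_of_tower, Hom.copow_l,
    Finset.sum_eq_single i (fun j _ hj => by rw [ev_sgl_of_ne _ hj, map_zero]) (by simp)]
  simp

end OT

/-! ### cokernels -/

/-- quotient by the image of a bimodule map -/
def Quo {V W : PB k R} (f : Hom V W) : Type u := W.V ⧸ LinearMap.range f.l

namespace Quo

variable {V W : PB k R} {f : Hom V W}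

instance : AddCommGroup (Quo f) := inferInstanceAs (AddCommGroup (W.V ⧸ LinearMap.range f.l))
instance : Module R (Quo f) := inferInstanceAs (Module R (W.V ⧸ LinearMap.range f.l))
instance : Module k (Quo f) := inferInstanceAs (Module k (W.V ⧸ LinearMap.range f.l))
instance : IsScalarTower k R (Quo f) :=
  inferInstanceAs (IsScalarTower k R (W.V ⧸ LinearMap.range f.l))
instance : Module Rᵐᵒᵖ (Quo f) := inferInstanceAs (Module Rᵐᵒᵖ (W.V ⧸ LinearMap.range f.r))
instance : IsScalarTower k Rᵐᵒᵖ (Quo f) :=
  inferInstanceAs (IsScalarTower k Rᵐᵒᵖ (W.V ⧸ LinearMap.range f.r))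
instance : FiniteDimensional k (Quo f) :=
  Module.Finite.of_surjective (M := W.V) (P := W.V ⧸ LinearMap.range f.l)
    ((LinearMap.range f.l).mkQ.restrictScalars k) (LinearMap.range f.l).mkQ_surjective
instance : SMulCommClass R Rᵐᵒᵖ (Quo f) := ⟨fun a b x => by
  obtain ⟨x, rfl⟩ := Submodule.mkQ_surjective _ x
  exact congrArg (LinearMap.range f.l).mkQ (smul_comm a b x)⟩

end Quo

/-- cokernel of a bimodule map whose image is isomorphic, on each side, to a projective module;
here: `f` with an exact sequence `0 → U → V → W`. -/
def coker (S : SymData k R) {U V W : PB k R} (i : Hom U V) (f : Hom V W)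
    (hi : Function.Injective i.l) (hex : Function.Exact i.l f.l) : PB k R where
  V := Quo f
  pl := by
    have h1 : Module.Projective R (LinearMap.range f.l) :=
      S.projective_of_exact i.l f.l.rangeRestrict hi f.l.surjective_rangeRestrict
        (fun v => by rw [← hex v]; exact Subtype.ext_iff)
    exact S.projective_of_exact (LinearMap.range f.l).subtype (LinearMap.range f.l).mkQ
      Subtype.val_injective (Submodule.mkQ_surjective _) (LinearMap.exact_subtype_mkQ _)
  pr := by
    have h1 : Module.Projective Rᵐᵒᵖ (LinearMap.range f.r) :=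
      S.op.projective_of_exact i.r f.r.rangeRestrict hi f.r.surjective_rangeRestrict
        (fun v => by refine Iff.trans ?_ (hex v); exact Subtype.ext_iff)
    exact S.op.projective_of_exact (LinearMap.range f.r).subtype (LinearMap.range f.r).mkQ
      Subtype.val_injective (Submodule.mkQ_surjective _) (LinearMap.exact_subtype_mkQ _)

section coker

variable (S : SymData k R) {U V W X : PB k R} (i : Hom U V) (f : Hom V W)
  (hi : Function.Injective i.l) (hex : Function.Exact i.l f.l)

/-- projection on the cokernel -/
def cokerπ : Hom W (coker S i f hi hex) := ⟨(LinearMap.range f.l).mkQ, fun _ _ => rfl⟩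

theorem cokerπ_surjective : Function.Surjective (cokerπ S i f hi hex).l :=
  Submodule.mkQ_surjective _

theorem cokerπ_eq_zero (w : W.V) : (cokerπ S i f hi hex).l w = 0 ↔ ∃ v, f.l v = w :=
  Submodule.Quotient.mk_eq_zero _

end coker

end PB

end Crest.Agent.R186
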