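import Crest.Agent.R186.PB2

/-!
External tensor product of biprojective bimodules.
-/

set_option autoImplicit false

open MulOpposite
open scoped TensorProduct

universe u

namespace Crest.Agent.R186

section abstract

variable {k : Type u} [Field k] {A B C : Type u} [Ring A] [Algebra k A] [Ring B] [Algebra k B]
  [Ring C] [Algebra k C] {V W X : Type u} [AddCommGroup V] [Module k V] [Module A V]
  [IsScalarTower k A V] [AddCommGroup W] [Module k W] [Module B W] [IsScalarTower k B W]
  [AddCommGroup X] [Module k X] [Module C X] [IsScalarTower k C X]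

omit [IsScalarTower k C X] in
theorem projective_tensor_abstract [Module.Finite A V] [Module.Projective A V] [Module.Finite B W]
    [Module.Projective B W] (μ : A ⊗[k] B ≃ₐ[k] C) (e : V ⊗[k] W ≃ₗ[k] X)
    (he : ∀ a b v w, μ (a ⊗ₜ b) • e (v ⊗ₜ w) = e ((a • v) ⊗ₜ (b • w))) : Module.Projective C X := by
  obtain ⟨n, p, i, -, -, hpi⟩ := Module.Finite.exists_comp_eq_id_of_projective A V
  obtain ⟨m, p', i', -, -, hpi'⟩ := Module.Finite.exists_comp_eq_id_of_projective B W
  let φ : Fin n × Fin m → X →ₗ[k] C := fun s => μ.toLinearMap ∘ₗ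
    TensorProduct.map ((LinearMap.proj s.1 ∘ₗ i).restrictScalars k)
      ((LinearMap.proj s.2 ∘ₗ i').restrictScalars k) ∘ₗ e.symm.toLinearMap
  have hφ : ∀ s v w, φ s (e (v ⊗ₜ w)) = μ (i v s.1 ⊗ₜ i' w s.2) := fun s v w => by simp [φ]
  have hlin : ∀ s (c : C) x, φ s (c • x) = c * φ s x := fun s c x => by
    obtain ⟨c, rfl⟩ := μ.surjective c
    obtain ⟨x, rfl⟩ := e.surjective x
    induction c using TensorProduct.induction_on with
    | zero => simp
    | add c c' hc hc' => simp only [map_add, add_smul, add_mul, hc, hc']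
    | tmul a b =>
      induction x using TensorProduct.induction_on with
      | zero => simp
      | add x x' hx hx' => simp only [map_add, smul_add, mul_add, hx, hx']
      | tmul v w => rw [he, hφ, hφ, ← map_mul]; simp
  refine Module.Projective.of_split (M := Fin n × Fin m → C)
    { toFun x s := φ s x
      map_add' x y := by ext; simp
      map_smul' c x := by ext; simp [hlin] }
    (Fintype.linearCombination C fun s => e (p (Pi.single s.1 1) ⊗ₜ p' (Pi.single s.2 1)))
    (LinearMap.ext fun x => ?_)
  obtain ⟨x, rfl⟩ := e.surjective x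
  simp only [LinearMap.comp_apply, Fintype.linearCombination_apply, LinearMap.coe_mk,
    AddHom.coe_mk, LinearMap.id_apply]
  induction x using TensorProduct.induction_on with
  | zero => simp
  | add x x' hx hx' => simp only [map_add, add_smul, Finset.sum_add_distrib, hx, hx']
  | tmul v w =>
    have h1 : ∑ s, i v s • p (Pi.single s 1) = v := by
      have : p (i v) = v := LinearMap.congr_fun hpi v
      conv_rhs => rw [← this, ← Finset.univ_sum_single (i v), map_sum]
      exact Finset.sum_congr rfl fun s _ => by rw [← map_smul, ← Pi.single_smul']; simp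
    have h2 : ∑ s, i' w s • p' (Pi.single s 1) = w := by
      have : p' (i' w) = w := LinearMap.congr_fun hpi' w
      conv_rhs => rw [← this, ← Finset.univ_sum_single (i' w), map_sum]
      exact Finset.sum_congr rfl fun s _ => by rw [← map_smul, ← Pi.single_smul']; simp
    conv_rhs => rw [← h1, ← h2, TensorProduct.sum_tmul]
    simp only [hφ, he, TensorProduct.tmul_sum, map_sum, Fintype.sum_prod_type]

variable (k A B V W) in
/-- the action of `A ⊗ B` on `V ⊗ W` -/
noncomputable def boxAct : A ⊗[k] B →ₐ[k] Module.End k (V ⊗[k] W) :=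
  (Module.endTensorEndAlgHom (R := k) (S := k) (A := k)).comp
    (Algebra.TensorProduct.map (Algebra.lsmul k k V) (Algebra.lsmul k k W))

theorem boxAct_tmul (a : A) (b : B) (v : V) (w : W) :
    boxAct k A B V W (a ⊗ₜ b) (v ⊗ₜ w) = (a • v) ⊗ₜ (b • w) := by
  simp [boxAct, Module.endTensorEndAlgHom_apply]

end abstract

namespace PB

variable {k : Type u} [Field k] {A B : Type u} [Ring A] [Algebra k A] [Ring B] [Algebra k B]

/-- carrier of the external tensor product -/
def Box (V : PB k A) (W : PB k B) : Type u := V.V ⊗[k] W.V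

namespace Box

variable {V : PB k A} {W : PB k B}

noncomputable instance : AddCommGroup (Box V W) := inferInstanceAs (AddCommGroup (V.V ⊗[k] W.V))
noncomputable instance : Module k (Box V W) := inferInstanceAs (Module k (V.V ⊗[k] W.V))
instance : FiniteDimensional k (Box V W) := inferInstanceAs (FiniteDimensional k (V.V ⊗[k] W.V))
noncomputable instance : Module (A ⊗[k] B) (Box V W) :=
  Module.compHom (V.V ⊗[k] W.V) (boxAct k A B V.V W.V).toRingHom
noncomputable instance : Module (A ⊗[k] B)ᵐᵒᵖ (Box V W) :=
  Module.compHom (V.V ⊗[k] W.V) ((boxAct k Aᵐᵒᵖ Bᵐᵒᵖ V.V W.V).comp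
    (Algebra.TensorProduct.opAlgEquiv k k A B).symm.toAlgHom).toRingHom

/-- the identity -/
noncomputable def val : Box V W ≃ₗ[k] V.V ⊗[k] W.V := LinearEquiv.refl _ _

theorem val_smul (c : A ⊗[k] B) (x : Box V W) : val (c • x) = boxAct k A B V.V W.V c (val x) := rfl
theorem val_op_smul (c : (A ⊗[k] B)ᵐᵒᵖ) (x : Box V W) : val (c • x) =
    boxAct k Aᵐᵒᵖ Bᵐᵒᵖ V.V W.V ((Algebra.TensorProduct.opAlgEquiv k k A B).symm c) (val x) := rfl

instance : IsScalarTower k (A ⊗[k] B) (Box V W) :=
  ⟨fun a b x => val.injective (by simp [val_smul])⟩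
instance : IsScalarTower k (A ⊗[k] B)ᵐᵒᵖ (Box V W) :=
  ⟨fun a b x => val.injective (by simp [val_op_smul])⟩

instance : SMulCommClass (A ⊗[k] B) (A ⊗[k] B)ᵐᵒᵖ (Box V W) := ⟨fun c c' x => by
  obtain ⟨c', rfl⟩ := (Algebra.TensorProduct.opAlgEquiv k k A B).surjective c'
  apply val.injective
  simp only [val_smul, val_op_smul, AlgEquiv.symm_apply_apply]
  induction c using TensorProduct.induction_on with
  | zero => simp
  | add c c' hc hc' => simp only [map_add, LinearMap.add_apply, hc, hc']
  | tmul a b =>
    induction c' using TensorProduct.induction_on with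
    | zero => simp
    | add c c' hc hc' => simp only [map_add, LinearMap.add_apply, hc, hc']
    | tmul a' b' =>
      induction val x using TensorProduct.induction_on with
      | zero => simp
      | add x x' hx hx' => simp only [map_add, hx, hx']
      | tmul v w => simp only [boxAct_tmul, smul_comm a a', smul_comm b b']⟩

end Box

/-- external tensor product -/
noncomputable def box (V : PB k A) (W : PB k B) : PB k (A ⊗[k] B) where
  V := Box V W
  pl := projective_tensor_abstract (V := V.V) (W := W.V) AlgEquiv.refl Box.val.symm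
    fun a b v w => Box.val.injective (by simp [Box.val_smul, boxAct_tmul])
  pr := projective_tensor_abstract (V := V.V) (W := W.V)
    (Algebra.TensorProduct.opAlgEquiv k k A B) Box.val.symm
    fun a b v w => Box.val.injective (by
      rw [Box.val_op_smul, AlgEquiv.symm_apply_apply]; simp [boxAct_tmul])

section box

variable {V V' : PB k A} {W W' : PB k B}

/-- pure tensors -/
noncomputable def bx : V.V →ₗ[k] W.V →ₗ[k] (V.box W).V := TensorProduct.mk k V.V W.V

@[simp] theorem tmul_smul_bx (a : A) (b : B) (v : V.V) (w : W.V) :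
    (a ⊗ₜ[k] b) • bx v w = bx (a • v) (b • w) := boxAct_tmul a b v w

@[simp] theorem op_tmul_smul_bx (a : A) (b : B) (v : V.V) (w : W.V) :
    op (a ⊗ₜ[k] b) • bx v w = bx (op a • v) (op b • w) := boxAct_tmul (op a) (op b) v w

@[elab_as_elim] theorem box_induction {p : (V.box W).V → Prop} (z : (V.box W).V) (zero : p 0)
    (tmul : ∀ x y, p (bx x y)) (add : ∀ x y, p x → p y → p (x + y)) : p z :=
  TensorProduct.induction_on z zero tmul add

/-- `k`-linear maps out of a box -/
noncomputable def boxLift {N : Type*} [AddCommGroup N] [Module k N] (f : V.V →ₗ[k] W.V →ₗ[k] N) :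
    (V.box W).V →ₗ[k] N := TensorProduct.lift f

@[simp] theorem boxLift_bx {N : Type*} [AddCommGroup N] [Module k N] (f : V.V →ₗ[k] W.V →ₗ[k] N)
    (x : V.V) (y : W.V) : boxLift f (bx x y) = f x y := rfl

/-- tensor product of `k`-linear maps -/
noncomputable def boxMapK (f : V.V →ₗ[k] V'.V) (g : W.V →ₗ[k] W'.V) :
    (V.box W).V →ₗ[k] (V'.box W').V := TensorProduct.map f g

@[simp] theorem boxMapK_bx (f : V.V →ₗ[k] V'.V) (g : W.V →ₗ[k] W'.V) (x : V.V) (y : W.V) :
    boxMapK f g (bx x y) = bx (f x) (g y) := rfl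

theorem map_smul_of_tmul {C : Type u} [Ring C] [Algebra k C] (μ : A ⊗[k] B ≃+ C)
    {N : Type*} [AddCommGroup N] [Module k N] [Module C (V.box W).V] [Module C N]
    (f : (V.box W).V →ₗ[k] N)
    (h : ∀ a b v w, f (μ (a ⊗ₜ b) • bx v w) = μ (a ⊗ₜ b) • f (bx v w)) (c : C)
    (z : (V.box W).V) : f (c • z) = c • f z := by
  obtain ⟨c, rfl⟩ := μ.surjective c
  induction c using TensorProduct.induction_on with
  | zero => simp
  | add c c' hc hc' => simp only [map_add, add_smul, hc, hc']
  | tmul a b =>
    induction z using box_induction with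
    | zero => simp
    | add x x' hx hx' => simp only [map_add, smul_add, hx, hx']
    | tmul v w => exact h a b v w

/-- tensor product of bimodule maps -/
noncomputable def Hom.box (f : Hom V V') (g : Hom W W') : Hom (V.box W) (V'.box W') where
  l :=
    { toFun := boxMapK f.lk g.lk
      map_add' := map_add _
      map_smul' := map_smul_of_tmul (AddEquiv.refl _) _ fun a b v w => by simp }
  map_r := map_smul_of_tmul opAddEquiv (boxMapK f.lk g.lk) fun a b v w => by
    simp [f.map_r, g.map_r]

@[simp] theorem Hom.box_bx (f : Hom V V') (g : Hom W W') (x : V.V) (y : W.V) :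
    (f.box g).l (bx x y) = bx (f.l x) (g.l y) := rfl

/-- tensor product of fibre maps -/
noncomputable def boxFib (π : V.V →ₗ[A] A) (π' : W.V →ₗ[B] B) : (V.box W).V →ₗ[A ⊗[k] B] A ⊗[k] B where
  toFun := boxLift ((TensorProduct.mk k A B).compl₁₂ (π.restrictScalars k) (π'.restrictScalars k))
  map_add' := map_add _
  map_smul' := map_smul_of_tmul (AddEquiv.refl _) _ fun a b v w => by simp

@[simp] theorem boxFib_bx (π : V.V →ₗ[A] A) (π' : W.V →ₗ[B] B) (x : V.V) (y : W.V) :
    boxFib π π' (bx x y) = π x ⊗ₜ π' y := rfl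

/-- the identity -/
noncomputable def boxVal : (V.box W).V ≃ₗ[k] V.V ⊗[k] W.V := Box.val

theorem boxFib_eq_map (π : V.V →ₗ[A] A) (π' : W.V →ₗ[B] B) (z : (V.box W).V) :
    boxFib π π' z = TensorProduct.map (π.restrictScalars k) (π'.restrictScalars k) (boxVal z) := by
  induction z using box_induction with
  | zero => simp
  | add x x' hx hx' => simp only [map_add, hx, hx']
  | tmul v w => rfl

theorem mul_tmul_eq_map (z : A ⊗[k] B) (a : A) (b : B) :
    z * (a ⊗ₜ b) = TensorProduct.map (LinearMap.mulRight k a) (LinearMap.mulRight k b) z := by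
  induction z using TensorProduct.induction_on with
  | zero => simp
  | add x x' hx hx' => simp only [map_add, add_mul, hx, hx']
  | tmul v w => simp

/-- the range of a tensor product of fibre maps -/
theorem exists_boxFib {π : V.V →ₗ[A] A} {π' : W.V →ₗ[B] B} {c : A} {c' : B}
    (h : ∀ w, w * c = 0 → ∃ r, π r = w) (h' : ∀ w, w * c' = 0 → ∃ r, π' r = w)
    (hc : ∀ r, π r * c = 0) (hc' : ∀ r, π' r * c' = 0) {z : A ⊗[k] B}
    (hz : z * (c ⊗ₜ 1) = 0) (hz' : z * (1 ⊗ₜ c') = 0) : ∃ y, boxFib π π' y = z := by
  have e1 : Function.Exact (π.restrictScalars k) (LinearMap.mulRight k c) := fun w =>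
    ⟨h w, by rintro ⟨r, rfl⟩; exact hc r⟩
  have e2 : Function.Exact (π'.restrictScalars k) (LinearMap.mulRight k c') := fun w =>
    ⟨h' w, by rintro ⟨r, rfl⟩; exact hc' r⟩
  obtain ⟨s', hs'⟩ := exists_innerInv (π'.restrictScalars k)
  obtain ⟨z1, hz1⟩ := (Module.Flat.lTensor_exact A e2 z).1 (by
    rw [mul_tmul_eq_map, LinearMap.mulRight_one] at hz'; exact hz')
  have h1 : (π'.restrictScalars k).lTensor A (s'.lTensor A z) = z := by
    rw [← hz1, ← LinearMap.comp_apply, ← LinearMap.comp_apply, ← LinearMap.lTensor_comp,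
      ← LinearMap.lTensor_comp]
    congr 2
    exact LinearMap.ext hs'
  obtain ⟨z2, hz2⟩ := (Module.Flat.rTensor_exact W.V e1 (s'.lTensor A z)).1 (by
    rw [mul_tmul_eq_map, LinearMap.mulRight_one] at hz
    rw [← LinearMap.comp_apply, LinearMap.rTensor_comp_lTensor, ← LinearMap.lTensor_comp_rTensor,
      LinearMap.comp_apply]
    exact (congrArg _ hz).trans (map_zero _))
  refine ⟨boxVal.symm z2, ?_⟩
  rw [boxFib_eq_map, LinearEquiv.apply_symm_apply, ← h1, ← hz2, ← LinearMap.comp_apply,
    LinearMap.lTensor_comp_rTensor]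

theorem boxFib_mul {V' : PB k A} {W' : PB k B} {π : V.V →ₗ[A] A} {π' : W.V →ₗ[B] B}
    {ρ : V'.V →ₗ[A] A} {ρ' : W'.V →ₗ[B] B} (f : Hom V V') (g : Hom W W') {a : A} {b : B}
    (hf : ∀ r, ρ (f.l r) = π r * a) (hg : ∀ r, ρ' (g.l r) = π' r * b) (z : (V.box W).V) :
    boxFib ρ ρ' ((f.box g).l z) = boxFib π π' z * (a ⊗ₜ b) := by
  induction z using box_induction with
  | zero => simp
  | add x x' hx hx' => simp only [map_add, add_mul, hx, hx']
  | tmul v w => simp [hf, hg]

theorem boxFib_mul_self {π : V.V →ₗ[A] A} {π' : W.V →ₗ[B] B} {a a' : A} {b b' : B}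
    (hf : ∀ r, π r * a = π r * a') (hg : ∀ r, π' r * b = π' r * b') (z : (V.box W).V) :
    boxFib π π' z * (a ⊗ₜ b) = boxFib π π' z * (a' ⊗ₜ b') := by
  induction z using box_induction with
  | zero => simp
  | add x x' hx hx' => simp only [map_add, add_mul, hx, hx']
  | tmul v w => simp [hf, hg]

end box

section fib

variable {T : Type u} [Ring T] [Algebra k T] {V W : PB k T} {χ : T →ₐ[k] k}

theorem bx_mem_radR_left {v : V.V} (hv : v ∈ radR χ V.V) (w : W.V) :
    bx v w ∈ radR (chi2 χ) (V.box W).V := by
  induction hv using Submodule.span_induction with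
  | mem x hx =>
    obtain ⟨a, y, ha, rfl⟩ := hx
    have := op_smul_mem_radR (χ := chi2 χ) (a := a ⊗ₜ 1) (by simp [ha]) (bx y w)
    simpa using this
  | zero => simp
  | add x y _ _ hx hy => rw [map_add]; exact add_mem hx hy
  | smul c x _ hx => rw [map_smul]; exact Submodule.smul_mem _ _ hx

theorem bx_mem_radR_right (v : V.V) {w : W.V} (hw : w ∈ radR χ W.V) :
    bx v w ∈ radR (chi2 χ) (V.box W).V := by
  induction hw using Submodule.span_induction with
  | mem x hx =>
    obtain ⟨a, y, ha, rfl⟩ := hx
    have := op_smul_mem_radR (χ := chi2 χ) (a := 1 ⊗ₜ a) (by simp [ha]) (bx v y)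
    simpa using this
  | zero => simp
  | add x y _ _ hx hy => rw [map_add]; exact add_mem hx hy
  | smul c x _ hx => rw [map_smul]; exact Submodule.smul_mem _ _ hx

theorem Fib.box {π : V.V →ₗ[T] T} {π' : W.V →ₗ[T] T} (h : Fib χ V π) (h' : Fib χ W π') :
    Fib (chi2 χ) (V.box W) (boxFib π π') := by
  intro z
  constructor
  · intro hz
    obtain ⟨s, hs⟩ := exists_innerInv (π.restrictScalars k)
    obtain ⟨s', hs'⟩ := exists_innerInv (π'.restrictScalars k)
    let σ : T ⊗[k] T →ₗ[k] (V.box W).V := TensorProduct.lift (bx.compl₁₂ s s')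
    have key : ∀ z : (V.box W).V, z - σ (boxFib π π' z) ∈ radR (chi2 χ) (V.box W).V := fun z => by
      induction z using box_induction with
      | zero => simp
      | add x y hx hy =>
        convert add_mem hx hy using 1
        simp only [map_add]; abel
      | tmul v w =>
        have h1 : v - s (π v) ∈ radR χ V.V := (h _).1 (by rw [map_sub]; exact sub_eq_zero.2 (hs v).symm)
        have h2 : w - s' (π' w) ∈ radR χ W.V :=
          (h' _).1 (by rw [map_sub]; exact sub_eq_zero.2 (hs' w).symm)
        convert add_mem (bx_mem_radR_left h1 w) (bx_mem_radR_right (s (π v)) h2) using 1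
        simp [σ]
    simpa [hz] using key z
  · refine radR_le_ker ((boxFib π π').restrictScalars k) fun a z ha => ?_
    have : ∀ (a : T ⊗[k] T) (z : (V.box W).V), boxFib π π' (op a • z) = chi2 χ a • boxFib π π' z := by
      intro a z
      induction a using TensorProduct.induction_on with
      | zero => simp
      | add c c' hc hc' => simp only [op_add, map_add, add_smul, hc, hc']
      | tmul a b =>
        induction z using box_induction with
        | zero => simp
        | add x x' hx hx' => simp only [map_add, smul_add, hx, hx']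
        | tmul v w =>
          rw [op_tmul_smul_bx, boxFib_bx, h.op_smul, h'.op_smul, TensorProduct.smul_tmul_smul]
          simp
    simp [this, ha]

end fib

end PB

end Crest.Agent.R186
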