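import Crest.Agent.R186.TCx

/-!
The two halves `Qm`, `Qp` of the minimal complete resolution of the simple module `s` over
`TT k q`, glued by `psiQ`.
-/

set_option autoImplicit false

open MulOpposite

universe u

namespace Crest.Agent.R186

namespace TT

variable {k : Type u} [Field k] {q : k}

/-- connecting maps of `Qm` -/
def del : ℕ → TT k q
  | 0 => bv'
  | n + 1 => q⁻¹ ^ (n + 1) • bz'

/-- connecting maps of `Qp` -/
def del' : ℕ → TT k q
  | 0 => bj'
  | n + 1 => -(q ^ n) • bz'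

/-- the pairs with `3 m + n = N` -/
def fib3 (N : ℤ) : Finset (ℕ × ℕ) :=
  (Finset.range (N.toNat + 1) ×ˢ Finset.range (N.toNat + 1)).filter
    fun p => (3 * p.1 + p.2 : ℤ) = N

theorem mem_fib3 (N : ℤ) (p : ℕ × ℕ) : p ∈ fib3 N ↔ (3 * p.1 + p.2 : ℤ) = N := by
  simp only [fib3, Finset.mem_filter, Finset.mem_product, Finset.mem_range]
  omega

/-- matrix of `Qm` -/
def Dm (i j : ℕ × ℕ) : TT k q :=
  (if i.1 = j.1 ∧ i.2 = j.2 + 1 then dL j.2 else 0)
    + (if i.1 = j.1 + 1 ∧ j.2 = i.2 + 2 then del i.2 else 0)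

/-- matrix of `Qp` -/
def Dp (i j : ℕ × ℕ) : TT k q :=
  (if i.1 = j.1 ∧ j.2 = i.2 + 1 then dR i.2 else 0)
    + (if j.1 = i.1 + 1 ∧ i.2 = j.2 + 2 then del' j.2 else 0)

theorem sum_Dm (F : ℕ × ℕ → TT k q) (m n : ℕ) (N : ℤ) (hN : N = 3 * m + n + 1) :
    ∑ j ∈ fib3 N, F j * Dm j (m, n)
      = F (m, n + 1) * dL n + (if 2 ≤ n then F (m + 1, n - 2) * del (n - 2) else 0) := by
  simp only [Dm, mul_add, Finset.sum_add_distrib]
  congr 1
  · rw [Finset.sum_eq_single (m, n + 1)]
    · simp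
    · rintro ⟨a, b⟩ _ h
      rw [if_neg, mul_zero]
      rintro ⟨rfl, rfl⟩
      exact h rfl
    · intro h
      exact (h ((mem_fib3 _ _).2 (by simp only [hN]; push_cast; ring))).elim
  · split_ifs with h2
    · rw [Finset.sum_eq_single (m + 1, n - 2)]
      · rw [if_pos ⟨rfl, by simp only; omega⟩]
      · rintro ⟨a, b⟩ _ h
        rw [if_neg, mul_zero]
        rintro ⟨h1, h3⟩
        simp only at h1 h3
        exact h (Prod.ext h1 (by simp only; omega))
      · intro h
        exact (h ((mem_fib3 _ _).2 (by simp only [hN]; omega))).elim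
    · refine Finset.sum_eq_zero fun j _ => ?_
      rw [if_neg, mul_zero]
      rintro ⟨-, h3⟩
      omega

theorem sum_Dp (F : ℕ × ℕ → TT k q) (m n : ℕ) (N : ℤ) (hN : N = 3 * m + n - 1) :
    ∑ j ∈ fib3 N, F j * Dp j (m, n)
      = (if 1 ≤ n then F (m, n - 1) * dR (n - 1) else 0)
        + (if 1 ≤ m then F (m - 1, n + 2) * del' n else 0) := by
  simp only [Dp, mul_add, Finset.sum_add_distrib]
  congr 1
  · split_ifs with h2
    · rw [Finset.sum_eq_single (m, n - 1)]
      · rw [if_pos ⟨rfl, by simp only; omega⟩]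
      · rintro ⟨a, b⟩ _ h
        rw [if_neg, mul_zero]
        rintro ⟨h1, h3⟩
        simp only at h1 h3
        exact h (Prod.ext h1 (by simp only; omega))
      · intro h
        exact (h ((mem_fib3 _ _).2 (by simp only [hN]; omega))).elim
    · refine Finset.sum_eq_zero fun j _ => ?_
      rw [if_neg, mul_zero]
      rintro ⟨-, h3⟩
      omega
  · split_ifs with h2
    · rw [Finset.sum_eq_single (m - 1, n + 2)]
      · rw [if_pos ⟨by simp only; omega, rfl⟩]
      · rintro ⟨a, b⟩ _ h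
        rw [if_neg, mul_zero]
        rintro ⟨h1, h3⟩
        simp only at h1 h3
        exact h (Prod.ext (by simp only; omega) h3)
      · intro h
        exact (h ((mem_fib3 _ _).2 (by simp only [hN]; omega))).elim
    · refine Finset.sum_eq_zero fun j _ => ?_
      rw [if_neg, mul_zero]
      rintro ⟨h3, -⟩
      omega

theorem eL_del (n : ℕ) : (eL n : TT k q) * del n = del n := by
  cases n <;> ext <;> simp [eL, del]
theorem del_eL (n : ℕ) : (del n : TT k q) * eL (n + 2) = del n := by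
  cases n <;> ext <;> simp [eL, del]
theorem eL_del' (n : ℕ) : (eL (n + 2) : TT k q) * del' n = del' n := by
  cases n <;> ext <;> simp [eL, del']
theorem del'_eL (n : ℕ) : (del' n : TT k q) * eL n = del' n := by
  cases n <;> ext <;> simp [eL, del']

theorem del_dL_zero : (del 0 : TT k q) * dL 1 = 0 := by
  ext <;> simp [del, dL, ac]
theorem del_dL (hq0 : q ≠ 0) (n : ℕ) :
    (del (n + 1) : TT k q) * dL (n + 2) + dL n * del n = 0 := by
  cases n <;> ext <;> simp [del, dL, ac] <;> field_simp <;> ring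
theorem del_del (n : ℕ) : (del n : TT k q) * del (n + 2) = 0 := by
  cases n <;> ext <;> simp [del]
theorem dR_del'_zero : (dR 1 : TT k q) * del' 0 = 0 := by
  ext <;> simp [del', dR, ac]
theorem dR_del' (hq0 : q ≠ 0) (n : ℕ) :
    (del' n : TT k q) * dR n + dR (n + 2) * del' (n + 1) = 0 := by
  cases n <;> ext <;> simp [del', dR, ac] <;> field_simp <;> ring
theorem del'_del' (n : ℕ) : (del' (n + 2) : TT k q) * del' n = 0 := by
  cases n <;> ext <;> simp [del']

theorem Dm_sq (hq0 : q ≠ 0) (i l : ℕ × ℕ) (N : ℤ) (hN : N = 3 * l.1 + l.2 + 1) :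
    ∑ j ∈ fib3 N, (Dm i j : TT k q) * Dm j l = 0 := by
  obtain ⟨m, n⟩ := l
  obtain ⟨a, b⟩ := i
  rw [sum_Dm _ m n N hN]
  simp only [Dm]
  by_cases h1 : a = m ∧ b = n + 1 + 1
  · obtain ⟨rfl, rfl⟩ := h1
    rw [if_pos ⟨rfl, rfl⟩, if_neg (by omega), if_neg (c := a = a + 1 ∧ _) (by omega),
      if_neg (c := a = a + 1 + 1 ∧ _) (by omega)]
    simp [dL_dL]
  rw [if_neg h1, zero_add]
  by_cases h2 : a = m + 1 ∧ n + 1 = b + 2
  · obtain ⟨rfl, h2⟩ := h2
    rw [if_pos ⟨rfl, h2⟩, if_neg (c := m + 1 = m + 1 + 1 ∧ _) (by omega), add_zero]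
    obtain rfl : n = b + 1 := by omega
    cases b with
    | zero => simp [del_dL_zero]
    | succ b =>
      rw [if_pos (by omega), if_pos ⟨rfl, by omega⟩]
      exact del_dL hq0 b
  rw [if_neg h2, zero_mul, zero_add]
  by_cases h3 : 2 ≤ n
  · rw [if_pos h3, if_neg (by omega), zero_add]
    split_ifs with h4
    · rw [h4.2, del_del]
    · rw [zero_mul]
  · rw [if_neg h3]

theorem Dp_sq (hq0 : q ≠ 0) (i l : ℕ × ℕ) (N : ℤ) (hN : N = 3 * l.1 + l.2 - 1) :
    ∑ j ∈ fib3 N, (Dp i j : TT k q) * Dp j l = 0 := by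
  obtain ⟨m, n⟩ := l
  obtain ⟨a, b⟩ := i
  rw [sum_Dp _ m n N hN]
  simp only [Dp]
  by_cases h1 : a = m ∧ n = b + 2
  · obtain ⟨rfl, rfl⟩ := h1
    rw [if_pos (by omega), if_pos ⟨rfl, by omega⟩, if_neg (by omega), add_zero]
    have : (dR b : TT k q) * dR (b + 2 - 1) = 0 := dR_dR hq0 b
    rw [this, zero_add]
    split_ifs with h2 h3 h4 h5 <;> first | omega | simp
  by_cases h2 : m = a + 1 ∧ b = n + 1
  · obtain ⟨rfl, rfl⟩ := h2
    rw [if_pos (c := 1 ≤ a + 1) (by omega), if_pos (c := a = a + 1 - 1 ∧ _) ⟨by omega, rfl⟩,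
      if_neg (c := a + 1 - 1 = a + 1 ∧ _) (by omega), add_zero]
    cases n with
    | zero => simp [dR_del'_zero]
    | succ n =>
      rw [if_pos (by omega), if_neg (by omega), if_pos ⟨rfl, by omega⟩, zero_add]
      exact dR_del' hq0 n
  by_cases h3 : m = a + 2 ∧ b = n + 4
  · obtain ⟨rfl, rfl⟩ := h3
    rw [if_pos (c := 1 ≤ a + 2) (by omega), if_neg (c := a = a + 2 - 1 ∧ _) (by omega),
      if_pos (c := a + 2 - 1 = a + 1 ∧ _) ⟨by omega, rfl⟩, zero_add, del'_del', add_zero]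
    split_ifs with h2 h3 h4 h5 <;> first | omega | simp
  split_ifs <;> first | omega | simp

/-- the non-negative half -/
@[reducible] def Qm (hq0 : q ≠ 0) : MC (TT k q) where
  ι := ℕ × ℕ
  deg p := 3 * p.1 + p.2
  fib := fib3
  mem_fib := mem_fib3
  e p := eL p.2
  D := Dm
  e_idem p := eL_idem _
  e_D i j := by
    simp only [Dm, mul_add]
    congr 1 <;> split_ifs with h
    · rw [h.2, eL_dL]
    · rw [mul_zero]
    · rw [eL_del]
    · rw [mul_zero]
  D_e i j := by
    simp only [Dm, add_mul]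
    congr 1 <;> split_ifs with h
    · rw [dL_eL]
    · rw [zero_mul]
    · rw [h.2, del_eL]
    · rw [zero_mul]
  D_deg i j h := by
    simp only [Dm]
    rw [if_neg (by omega), if_neg (by omega), add_zero]
  D_sq i l := Dm_sq hq0 i l _ rfl

/-- the negative half -/
@[reducible] def Qp (hq0 : q ≠ 0) : MC (TT k q) where
  ι := ℕ × ℕ
  deg p := -(3 * p.1 + p.2)
  fib N := fib3 (-N)
  mem_fib N p := by rw [mem_fib3]; omega
  e p := eL p.2
  D := Dp
  e_idem p := eL_idem _
  e_D i j := by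
    simp only [Dp, mul_add]
    congr 1 <;> split_ifs with h
    · rw [eL_dR]
    · rw [mul_zero]
    · rw [h.2, eL_del']
    · rw [mul_zero]
  D_e i j := by
    simp only [Dp, add_mul]
    congr 1 <;> split_ifs with h
    · rw [h.2, dR_eL]
    · rw [zero_mul]
    · rw [del'_eL]
    · rw [zero_mul]
  D_deg i j h := by
    simp only [Dp]
    rw [if_neg (by omega), if_neg (by omega), add_zero]
  D_sq i l := Dp_sq hq0 i l _ (by ring)

section
variable (hq0 : q ≠ 0)

theorem Qm_deg (p : ℕ × ℕ) : (Qm hq0).deg p = 3 * p.1 + p.2 := rfl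
theorem Qm_e (p : ℕ × ℕ) : (Qm hq0).e p = eL p.2 := rfl
theorem Qm_D (p p' : ℕ × ℕ) : (Qm hq0).D p p' = Dm p p' := rfl
theorem Qp_deg (p : ℕ × ℕ) : (Qp hq0).deg p = -(3 * p.1 + p.2) := rfl
theorem Qp_e (p : ℕ × ℕ) : (Qp hq0).e p = eL p.2 := rfl
theorem Qp_D (p p' : ℕ × ℕ) : (Qp hq0).D p p' = Dp p p' := rfl

theorem Qm_rowD (v : ℕ × ℕ → TT k q) (m n : ℕ) : (Qm hq0).rowD v (m, n)
    = v (m, n + 1) * dL n + (if 2 ≤ n then v (m + 1, n - 2) * del (n - 2) else 0) := by
  rw [MC.rowD_apply]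
  exact sum_Dm v m n _ rfl

theorem Qp_rowD (v : ℕ × ℕ → TT k q) (m n : ℕ) : (Qp hq0).rowD v (m, n)
    = (if 1 ≤ n then v (m, n - 1) * dR (n - 1) else 0)
      + (if 1 ≤ m then v (m - 1, n + 2) * del' n else 0) := by
  rw [MC.rowD_apply]
  exact sum_Dp v m n _ (by simp only; ring)

/-- the gluing map -/
def psiQ : MC.Hom (Qm hq0) (Qp hq0) where
  f i j := if i = ((0, 0) : ℕ × ℕ) ∧ j = ((0, 0) : ℕ × ℕ) then bf' else 0
  e_f i j := by
    split_ifs with h
    · rw [h.1]; ext <;> simp [eL]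
    · rw [mul_zero]
  f_e i j := by
    split_ifs with h
    · rw [h.2]; ext <;> simp [eL]
    · rw [zero_mul]
  f_deg i j h := by
    rw [if_neg]
    rintro ⟨rfl, rfl⟩
    exact h rfl
  comm i l := by
    rw [Finset.sum_eq_zero, Finset.sum_eq_zero]
    · intro j _
      split_ifs with h
      · rw [h.2, Qp_D]
        simp only [Dp]
        rw [if_neg (c := l.1 = 0 + 1 ∧ _) (by omega), add_zero]
        split_ifs
        · ext <;> simp [dR]
        · rw [mul_zero]
      · rw [zero_mul]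
    · intro j _
      split_ifs with h
      · rw [h.1, Qm_D]
        simp only [Dm]
        rw [if_neg (c := i.1 = 0 + 1 ∧ _) (by omega), add_zero]
        split_ifs
        · ext <;> simp [dL]
        · rw [zero_mul]
      · rw [mul_zero]

theorem psiQ_f (i j : ℕ × ℕ) :
    (psiQ hq0).f i j = if i = (0, 0) ∧ j = (0, 0) then bf' else 0 := rfl

end

end TT

end Crest.Agent.R186
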