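import Crest.Agent.R186.QDef

/-!
Kernels of the right multiplications by `ac c`, `bu`, `bt` in `TT k q`: homology of `L` and `R`.
-/

set_option autoImplicit false

universe u

namespace Crest.Agent.R186

namespace TT

namespace QK

variable {k : Type u} [Field k] {q : k}

theorem of_be {w : TT k q} (h : w * be = w) :
    w.u = 0 ∧ w.v = 0 ∧ w.f = 0 ∧ w.n = 0 ∧ w.t' = 0 ∧ w.j' = 0 ∧ w.f' = 0 ∧ w.n' = 0 := by
  have h1 := congrArg TT.u h
  have h2 := congrArg TT.v h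
  have h3 := congrArg TT.f h
  have h4 := congrArg TT.n h
  have h5 := congrArg TT.t' h
  have h6 := congrArg TT.j' h
  have h7 := congrArg TT.f' h
  have h8 := congrArg TT.n' h
  simp at h1 h2 h3 h4 h5 h6 h7 h8
  exact ⟨h1.symm, h2.symm, h3.symm, h4.symm, h5.symm, h6.symm, h7.symm, h8.symm⟩

theorem of_bf {w : TT k q} (h : w * bf = w) :
    w.e = 0 ∧ w.x = 0 ∧ w.y = 0 ∧ w.z = 0 ∧ w.t = 0 ∧ w.j = 0 ∧ w.e' = 0 ∧ w.x' = 0 ∧
      w.y' = 0 ∧ w.z' = 0 ∧ w.u' = 0 ∧ w.v' = 0 := by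
  have h1 := congrArg TT.e h
  have h2 := congrArg TT.x h
  have h3 := congrArg TT.y h
  have h4 := congrArg TT.z h
  have h5 := congrArg TT.t h
  have h6 := congrArg TT.j h
  have h7 := congrArg TT.e' h
  have h8 := congrArg TT.x' h
  have h9 := congrArg TT.y' h
  have h10 := congrArg TT.z' h
  have h11 := congrArg TT.u' h
  have h12 := congrArg TT.v' h
  simp at h1 h2 h3 h4 h5 h6 h7 h8 h9 h10 h11 h12
  exact ⟨h1.symm, h2.symm, h3.symm, h4.symm, h5.symm, h6.symm, h7.symm, h8.symm, h9.symm,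
    h10.symm, h11.symm, h12.symm⟩

theorem of_ac (hq0 : q ≠ 0) {c : k} {w : TT k q} (h : w * ac c = 0) :
    w.e = 0 ∧ w.y = q * c * w.x ∧ (c - 1) * w.t = 0 ∧ w.x' = -(c * w.y') ∧ w.z' = 0 ∧
      (c - q ^ 2) * w.v' = 0 := by
  have h1 := congrArg TT.x h
  have h2 := congrArg TT.z h
  have h3 := congrArg TT.j h
  have h4 := congrArg TT.e' h
  have h5 := congrArg TT.y' h
  have h6 := congrArg TT.u' h
  simp [ac, hq0] at h1 h2 h3 h4 h5 h6
  refine ⟨h1, ?_, ?_, ?_, h5, ?_⟩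
  · linear_combination h2
  · linear_combination h3
  · linear_combination h4
  · linear_combination h6

/-- the common computation -/
theorem ker_ac (hq0 : q ≠ 0) {c c' : k} (hc : c' = q * c) {w : TT k q} (h1 : w * be = w)
    (h2 : w * ac c = 0) (ht : w.t = 0) (τ μ : k) (hj : w.j = (q * c - 1) * τ)
    (hu : w.u' = (q * c - q ^ 2) * μ) : ∃ v, v * ac c' + w.v' • bv' = w := by
  obtain ⟨a1, a2, a3, a4, a5, a6, a7, a8⟩ := of_be h1
  obtain ⟨b1, b2, -, b4, b5, -⟩ := of_ac hq0 h2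
  subst hc
  refine ⟨w.x • be + w.z • bY + τ • bt + w.e' • bx' + (-(w.y' / q)) • bz' + μ • bv', ?_⟩
  ext <;> simp [ac, *] <;> field_simp

theorem ker_gen (hq0 : q ≠ 0) {c c' : k} (hc : c' = q * c) (c1 : c ≠ 1) (c2 : c ≠ q)
    (c3 : q * c ≠ 1) {w : TT k q} (h1 : w * be = w) (h2 : w * ac c = 0) :
    ∃ v, v * ac c' + w.v' • bv' = w := by
  have d1 : q * c - 1 ≠ 0 := sub_ne_zero.2 c3
  have d2 : q * c - q ^ 2 ≠ 0 := by
    rw [show q * c - q ^ 2 = q * (c - q) by ring]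
    exact mul_ne_zero hq0 (sub_ne_zero.2 c2)
  refine ker_ac hq0 hc h1 h2 ?_ (w.j / (q * c - 1)) (w.u' / (q * c - q ^ 2)) ?_ ?_
  · exact (mul_eq_zero.1 (of_ac hq0 h2).2.2.1).resolve_left (sub_ne_zero.2 c1)
  · field_simp
  · field_simp

theorem ker_gen' (hq0 : q ≠ 0) {c c' : k} (hc : c' = q * c) (c1 : c ≠ 1) (c2 : c ≠ q)
    (c3 : q * c ≠ 1) (c4 : c ≠ q ^ 2) {w : TT k q} (h1 : w * be = w) (h2 : w * ac c = 0) :
    ∃ v, v * ac c' = w := by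
  obtain ⟨v, hv⟩ := ker_gen hq0 hc c1 c2 c3 h1 h2
  have : w.v' = 0 :=
    (mul_eq_zero.1 (of_ac hq0 h2).2.2.2.2.2).resolve_left (sub_ne_zero.2 c4)
  exact ⟨v, by simpa [this] using hv⟩

theorem pow_ne (hq0 : q ≠ 0) (hq : ∀ n : ℕ, 0 < n → q ^ n ≠ 1) {a b : ℕ} (h : a < b) :
    q ^ b ≠ q ^ a := by
  intro e
  obtain ⟨d, rfl⟩ := Nat.exists_eq_add_of_lt h
  apply hq (d + 1) (Nat.succ_pos _)
  apply mul_left_cancel₀ (pow_ne_zero a hq0)
  rw [mul_one, ← pow_add, ← add_assoc, e]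

theorem inv_pow_ne (hq0 : q ≠ 0) (hq : ∀ n : ℕ, 0 < n → q ^ n ≠ 1) {a b : ℕ} (h : 0 < a + b) :
    q⁻¹ ^ b ≠ q ^ a := by
  intro e
  apply hq _ h
  rw [pow_add, ← e, ← mul_pow, inv_mul_cancel₀ hq0, one_pow]

section
variable (hq0 : q ≠ 0) (hq : ∀ n : ℕ, 0 < n → q ^ n ≠ 1)
include hq0 hq

theorem L_zero {w : TT k q} (h1 : w * eL 0 = w) (h2 : w.f = 0) : ∃ v, v * dL 0 = w := by
  obtain ⟨a1, a2, a3, a4, a5, a6, a7, a8, a9, a10, a11, a12⟩ := of_bf h1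
  have d1 : q - 1 ≠ 0 := sub_ne_zero.2 (by simpa using hq 1 one_pos)
  refine ⟨w.u • be + w.v • bY + (w.n / (q - 1)) • bt + w.t' • bx' + (-(w.j' / q)) • bz'
    + w.f' • bu' + (-(w.n' / q)) • bv', ?_⟩
  ext <;> simp [dL, *] <;> field_simp

theorem L_one {w : TT k q} (h1 : w * eL 1 = w) (h2 : w * dL 0 = 0) : ∃ v, v * dL 1 = w := by
  obtain ⟨a1, a2, a3, a4, a5, a6, a7, a8⟩ := of_be h1
  have d1 : q - 1 ≠ 0 := sub_ne_zero.2 (by simpa using hq 1 one_pos)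
  have d2 : q ^ 2 - 1 ≠ 0 := sub_ne_zero.2 (hq 2 two_pos)
  have b1 := congrArg TT.u h2
  have b2 := congrArg TT.v h2
  have b3 := congrArg TT.n h2
  have b4 := congrArg TT.t' h2
  have b5 := congrArg TT.j' h2
  have b6 := congrArg TT.f' h2
  have b7 := congrArg TT.n' h2
  simp [dL, hq0, d1] at b1 b2 b3 b4 b5 b6 b7
  have b2' : w.y = q ^ 2 * w.x := by linear_combination b2
  have b4' : w.x' = -(q * w.y') := by linear_combination b4
  refine ⟨w.x • be + w.z • bY + (w.j / (q ^ 2 - 1)) • bt + w.e' • bx'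
    + (-(w.y' / q)) • bz', ?_⟩
  ext <;> simp [dL, ac, b1, b2', b3, b4', b5, b6, b7, a1, a2, a3, a4, a5, a6, a7, a8] <;>
    field_simp

theorem L_two {w : TT k q} (h1 : w * eL 2 = w) (h2 : w * dL 1 = 0) :
    ∃ v, v * dL 2 + w.v' • bv' = w := by
  refine ker_gen hq0 (c := q ^ 2) (by ring) (hq 2 two_pos) ?_ ?_ h1 h2
  · simpa using pow_ne hq0 hq (a := 1) (b := 2) (by omega)
  · rw [← pow_succ']; exact hq 3 (by omega)

theorem L_ge (n : ℕ) {w : TT k q} (h1 : w * eL (n + 3) = w) (h2 : w * dL (n + 2) = 0) :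
    ∃ v, v * dL (n + 3) = w := by
  refine ker_gen' hq0 (c := q ^ (n + 3)) (by ring) (hq _ (by omega)) ?_ ?_ ?_ h1 h2
  · simpa using pow_ne hq0 hq (a := 1) (b := n + 3) (by omega)
  · rw [← pow_succ']; exact hq _ (by omega)
  · exact pow_ne hq0 hq (by omega)

omit hq0 in
theorem R_zero {w : TT k q} (h1 : w * eL 0 = w) (h2 : w * dR 0 = 0) : w = w.f' • bf' := by
  obtain ⟨a1, a2, a3, a4, a5, a6, a7, a8, a9, a10, a11, a12⟩ := of_bf h1
  have d1 : q - 1 ≠ 0 := sub_ne_zero.2 (by simpa using hq 1 one_pos)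
  have b1 := congrArg TT.x h2
  have b2 := congrArg TT.z h2
  have b3 := congrArg TT.t h2
  have b4 := congrArg TT.j h2
  have b5 := congrArg TT.e' h2
  have b6 := congrArg TT.y' h2
  have b7 := congrArg TT.u' h2
  simp [dR, d1] at b1 b2 b3 b4 b5 b6 b7
  ext <;> simp [*]

theorem R_one {w : TT k q} (h1 : w * eL 1 = w) (h2 : w * dR 1 = 0) : ∃ v, v * dR 0 = w := by
  obtain ⟨a1, a2, a3, a4, a5, a6, a7, a8⟩ := of_be h1
  obtain ⟨b1, b2, -, b4, b5, b6⟩ := of_ac hq0 (c := q⁻¹ ^ 0) h2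
  have d1 : q - 1 ≠ 0 := sub_ne_zero.2 (by simpa using hq 1 one_pos)
  have b6' : w.v' = 0 := (mul_eq_zero.1 b6).resolve_left
    (sub_ne_zero.2 (inv_pow_ne hq0 hq (by omega)))
  refine ⟨w.x • bu + w.z • bv + w.t • bf + w.j • bn + w.e' • bt' + w.y' • bj'
    + (w.u' / (q - 1)) • bn', ?_⟩
  ext <;> simp [dR, b1, b2, b4, b5, b6', a1, a2, a3, a4, a5, a6, a7, a8]
  field_simp

theorem R_two {w : TT k q} (h1 : w * eL 2 = w) (h2 : w * dR 2 = 0) (h3 : w * del' 0 = 0) :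
    ∃ v, v * dR 1 = w := by
  obtain ⟨-, -, b3, -, -, b6⟩ := of_ac hq0 (c := q⁻¹ ^ 1) h2
  have b3' : w.t = 0 := (mul_eq_zero.1 b3).resolve_left
    (sub_ne_zero.2 (by simpa using inv_pow_ne hq0 hq (a := 0) (b := 1) (by omega)))
  have b6' : w.v' = 0 := (mul_eq_zero.1 b6).resolve_left
    (sub_ne_zero.2 (inv_pow_ne hq0 hq (by omega)))
  have b7 : w.j = 0 := by simpa [del'] using congrArg TT.f' h3
  have d2 : q * q⁻¹ ^ 1 - q ^ 2 ≠ 0 := by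
    rw [pow_one, mul_inv_cancel₀ hq0]
    exact sub_ne_zero.2 (hq 2 two_pos).symm
  obtain ⟨v, hv⟩ := ker_ac hq0 (c := q⁻¹ ^ 1) (c' := q⁻¹ ^ 0) (by field_simp) h1 h2 b3' 0
    (w.u' / (q * q⁻¹ ^ 1 - q ^ 2)) (by simp [b7]) (mul_div_cancel₀ _ d2).symm
  rw [b6', zero_smul, add_zero] at hv
  exact ⟨v, hv⟩

theorem R_ge (n : ℕ) {w : TT k q} (h1 : w * eL (n + 3) = w) (h2 : w * dR (n + 3) = 0) :
    ∃ v, v * dR (n + 2) = w := by
  have e : q⁻¹ ^ (n + 1) = q * q⁻¹ ^ (n + 2) := by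
    rw [pow_succ' q⁻¹ (n + 1), ← mul_assoc, mul_inv_cancel₀ hq0, one_mul]
  refine ker_gen' hq0 (c := q⁻¹ ^ (n + 2)) e ?_ ?_ ?_ ?_ h1 h2
  · simpa using inv_pow_ne hq0 hq (a := 0) (b := n + 2) (by omega)
  · simpa using inv_pow_ne hq0 hq (a := 1) (b := n + 2) (by omega)
  · rw [← e]; simpa using inv_pow_ne hq0 hq (a := 0) (b := n + 1) (by omega)
  · exact inv_pow_ne hq0 hq (by omega)

end

end QK

end TT

end Crest.Agent.R186
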