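import Crest.Agent.R186.TAlg

/-!
Kernels and images of right multiplications in `TT k q`.
-/

set_option autoImplicit false

universe u

namespace Crest.Agent.R186

namespace TT

variable {k : Type u} [Field k] {q : k}

theorem mul_be_iff {w : TT k q} : w * be = w ↔ w.u = 0 ∧ w.v = 0 ∧ w.f = 0 ∧ w.n = 0 ∧
    w.t' = 0 ∧ w.j' = 0 ∧ w.f' = 0 ∧ w.n' = 0 := by
  simp [TT.ext_iff, eq_comm]

theorem mul_bf_iff {w : TT k q} : w * bf = w ↔ w.e = 0 ∧ w.x = 0 ∧ w.y = 0 ∧ w.z = 0 ∧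
    w.t = 0 ∧ w.j = 0 ∧ w.e' = 0 ∧ w.x' = 0 ∧ w.y' = 0 ∧ w.z' = 0 ∧ w.u' = 0 ∧ w.v' = 0 := by
  simp [TT.ext_iff, eq_comm]

theorem mul_ac_eq_zero (hq0 : q ≠ 0) {c : k} {w : TT k q} (h : w * ac c = 0) :
    w.e = 0 ∧ w.y = q * c * w.x ∧ w.t * (c - 1) = 0 ∧ w.x' + c * w.y' = 0 ∧ w.z' = 0 ∧
      w.v' * (c - q ^ 2) = 0 := by
  have h1 := congrArg TT.x h
  have h2 := congrArg TT.z h
  have h3 := congrArg TT.j h
  have h4 := congrArg TT.e' h
  have h5 := congrArg TT.y' h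
  have h6 := congrArg TT.u' h
  simp [ac] at h1 h2 h3 h4 h5 h6
  refine ⟨h1, by linear_combination h2, by linear_combination h3, by linear_combination h4,
    h5.resolve_left hq0, by linear_combination h6⟩

theorem exists_mul_ac (hq0 : q ≠ 0) (d : k) {w : TT k q} (h : w * be = w) (he : w.e = 0)
    (hy : w.y = d * w.x) (ht : w.t = 0) (hz' : w.z' = 0) (hv' : w.v' = 0)
    (hx' : q * w.x' + d * w.y' = 0) (τ ν : k) (hj : w.j = (d - 1) * τ)
    (hu : w.u' = (d - q ^ 2) * ν) : ∃ v : TT k q, v * ac d = w := by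
  obtain ⟨h1, h2, h3, h4, h5, h6, h7, h8⟩ := mul_be_iff.1 h
  refine ⟨w.x • be + w.z • bY + τ • bt + w.e' • bx' + (-w.y' / q) • bz' + ν • bv', ?_⟩
  ext <;> simp [ac, *]
  · ring
  · ring
  · field_simp
    linear_combination -hx'
  · field_simp
  · ring

/-- generic `c` -/
theorem ker_ac (hq0 : q ≠ 0) {c : k} (h1 : c ≠ 1) (h2 : c ≠ q ^ 2) (h3 : q * c ≠ 1) (h4 : c ≠ q)
    {w : TT k q} (h : w * be = w) (h0 : w * ac c = 0) : ∃ v : TT k q, v * ac (q * c) = w := by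
  obtain ⟨a1, a2, a3, a4, a5, a6⟩ := mul_ac_eq_zero hq0 h0
  have b3 : q * c - 1 ≠ 0 := sub_ne_zero.2 h3
  have b4 : q * c - q ^ 2 ≠ 0 := by
    rw [sq, ← mul_sub]; exact mul_ne_zero hq0 (sub_ne_zero.2 h4)
  exact exists_mul_ac hq0 _ h a1 a2 ((mul_eq_zero.1 a3).resolve_right (sub_ne_zero.2 h1)) a5
    ((mul_eq_zero.1 a6).resolve_right (sub_ne_zero.2 h2)) (by linear_combination q * a4)
    (w.j / (q * c - 1)) (w.u' / (q * c - q ^ 2)) (by field_simp) (by field_simp)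

theorem pow_ne_pow (hq0 : q ≠ 0) (hq : ∀ n : ℕ, 0 < n → q ^ n ≠ 1) {m n : ℕ} (h : m ≠ n) :
    q ^ m ≠ q ^ n := by
  wlog hmn : m < n generalizing m n
  · exact (this h.symm (by omega)).symm
  intro he
  obtain ⟨d, rfl⟩ := Nat.exists_eq_add_of_lt hmn
  apply hq (d + 1) (by omega)
  have : q ^ m * q ^ (d + 1) = q ^ m * 1 := by rw [mul_one, ← pow_add, ← add_assoc, ← he]
  exact mul_left_cancel₀ (pow_ne_zero _ hq0) this

theorem q_ne_one (hq : ∀ n : ℕ, 0 < n → q ^ n ≠ 1) : q ≠ 1 := by simpa using hq 1 one_pos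

/-- `c = q ^ n`, `n ≥ 3` -/
theorem ker_ac_pow (hq0 : q ≠ 0) (hq : ∀ n : ℕ, 0 < n → q ^ n ≠ 1) (n : ℕ) {w : TT k q}
    (h : w * be = w) (h0 : w * ac (q ^ (n + 3)) = 0) : ∃ v : TT k q, v * ac (q ^ (n + 4)) = w := by
  have := ker_ac hq0 (hq _ (by omega)) (pow_ne_pow hq0 hq (by omega))
    (by rw [← pow_succ']; exact hq _ (by omega))
    (by simpa using pow_ne_pow hq0 hq (show n + 3 ≠ 1 by omega)) h h0
  rwa [← pow_succ'] at this

/-- `c = q⁻¹ ^ n`, `n ≥ 2` -/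
theorem ker_ac_inv_pow (hq0 : q ≠ 0) (hq : ∀ n : ℕ, 0 < n → q ^ n ≠ 1) (n : ℕ) {w : TT k q}
    (h : w * be = w) (h0 : w * ac (q⁻¹ ^ (n + 2)) = 0) :
    ∃ v : TT k q, v * ac (q⁻¹ ^ (n + 1)) = w := by
  have key : ∀ m l : ℕ, 0 < m → q⁻¹ ^ m ≠ q ^ l := by
    intro m l hm he
    apply hq (m + l) (by omega)
    rw [pow_add, ← he, ← mul_pow, mul_inv_cancel₀ hq0, one_pow]
  have e : q * q⁻¹ ^ (n + 2) = q⁻¹ ^ (n + 1) := by
    rw [pow_succ' _ (n + 1), ← mul_assoc, mul_inv_cancel₀ hq0, one_mul]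
  have := ker_ac hq0 (by simpa using key (n + 2) 0 (by omega)) (key _ 2 (by omega))
    (by rw [e]; simpa using key (n + 1) 0 (by omega))
    (by simpa using key (n + 2) 1 (by omega)) h h0
  rwa [e] at this

/-- `c = q ^ 2` -/
theorem ker_ac_sq (hq0 : q ≠ 0) (hq : ∀ n : ℕ, 0 < n → q ^ n ≠ 1) {w : TT k q}
    (h : w * be = w) (h0 : w * ac (q ^ 2) = 0) :
    ∃ (v : TT k q) (r : k), w = v * ac (q ^ 3) + r • bv' := by
  obtain ⟨a1, a2, a3, a4, a5, -⟩ := mul_ac_eq_zero hq0 h0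
  have b3 : q ^ 3 - 1 ≠ 0 := sub_ne_zero.2 (hq 3 (by omega))
  have b4 : q ^ 3 - q ^ 2 ≠ 0 := sub_ne_zero.2 (pow_ne_pow hq0 hq (by omega))
  have b1 : q - 1 ≠ 0 := sub_ne_zero.2 (q_ne_one hq)
  have ht : w.t = 0 := (mul_eq_zero.1 a3).resolve_right (sub_ne_zero.2 (hq 2 (by omega)))
  obtain ⟨v, hv⟩ := exists_mul_ac hq0 (q ^ 3) (w := w - w.v' • bv')
    (by rw [sub_mul, h]; congr 1; ext <;> simp) (by simp [a1]) (by simp [a2]; ring_nf; simp)
    (by simp [ht]) (by simp [a5]) (by simp) (by simp; linear_combination q * a4)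
    (w.j / (q ^ 3 - 1)) (w.u' / (q ^ 3 - q ^ 2)) (by simp; field_simp) (by simp; field_simp)
  exact ⟨v, w.v', by rw [hv, sub_add_cancel]⟩

/-- `c = q⁻¹` -/
theorem ker_ac_inv (hq0 : q ≠ 0) (hq : ∀ n : ℕ, 0 < n → q ^ n ≠ 1) {w : TT k q}
    (h : w * be = w) (h0 : w * ac q⁻¹ = 0) :
    ∃ (v : TT k q) (r : k), w = v * ac 1 + r • bj := by
  obtain ⟨a1, a2, a3, a4, a5, a6⟩ := mul_ac_eq_zero hq0 h0
  have b1 : q⁻¹ - 1 ≠ 0 := sub_ne_zero.2 (by simpa using q_ne_one hq)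
  have b2 : q⁻¹ - q ^ 2 ≠ 0 := by
    intro he
    apply hq 3 (by omega)
    have : q ^ 2 = q⁻¹ := by linear_combination -he
    rw [pow_succ, this, inv_mul_cancel₀ hq0]
  have b4 : 1 - q ^ 2 ≠ 0 := sub_ne_zero.2 (hq 2 (by omega)).symm
  have ht : w.t = 0 := (mul_eq_zero.1 a3).resolve_right b1
  have hv' : w.v' = 0 := (mul_eq_zero.1 a6).resolve_right b2
  rw [mul_inv_cancel₀ hq0] at a2
  have a4' : q * w.x' + w.y' = 0 := by
    have := congrArg (q * ·) a4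
    simp only [mul_add, ← mul_assoc, mul_inv_cancel₀ hq0, one_mul, mul_zero] at this
    exact this
  obtain ⟨v, hv⟩ := exists_mul_ac hq0 1 (w := w - w.j • bj)
    (by rw [sub_mul, h]; congr 1; ext <;> simp) (by simp [a1]) (by simp [a2])
    (by simp [ht]) (by simp [a5]) (by simp [hv']) (by simpa using a4')
    0 (w.u' / (1 - q ^ 2)) (by simp) (by simp; field_simp)
  exact ⟨v, w.j, by rw [hv, sub_add_cancel]⟩

/-- `c = 1` -/
theorem ker_ac_one (hq0 : q ≠ 0) (hq : ∀ n : ℕ, 0 < n → q ^ n ≠ 1) {w : TT k q}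
    (h : w * be = w) (h0 : w * ac 1 = 0) : ∃ v : TT k q, v * bt = w := by
  obtain ⟨a1, a2, -, a4, a5, a6⟩ := mul_ac_eq_zero hq0 h0
  obtain ⟨h1, h2, h3, h4, h5, h6, h7, h8⟩ := mul_be_iff.1 h
  have b1 : q - 1 ≠ 0 := sub_ne_zero.2 (q_ne_one hq)
  have hv' : w.v' = 0 :=
    (mul_eq_zero.1 a6).resolve_right (sub_ne_zero.2 (hq 2 (by omega)).symm)
  refine ⟨w.x • bu + w.z • bv + w.t • bf + w.j • bn + w.e' • bt' + w.y' • bj' +
    (w.u' / (q - 1)) • bn', ?_⟩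
  ext <;> simp [*]
  · linear_combination -a4
  · field_simp

theorem ker_bu (hq0 : q ≠ 0) (hq : ∀ n : ℕ, 0 < n → q ^ n ≠ 1) {w : TT k q}
    (h : w * be = w) (h0 : w * bu = 0) : ∃ v : TT k q, v * ac (q ^ 2) = w := by
  have b1 : q - 1 ≠ 0 := sub_ne_zero.2 (q_ne_one hq)
  have b2 : q ^ 2 - 1 ≠ 0 := sub_ne_zero.2 (hq 2 (by omega))
  have h1 := congrArg TT.u h0
  have h2 := congrArg TT.v h0
  have h3 := congrArg TT.n h0
  have h4 := congrArg TT.t' h0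
  have h5 := congrArg TT.j' h0
  have h6 := congrArg TT.f' h0
  have h7 := congrArg TT.n' h0
  simp [b1, hq0] at h1 h2 h3 h4 h5 h6 h7
  exact exists_mul_ac hq0 _ h h1 (by linear_combination h2) h3 h5 h7
    (by linear_combination q * h4) (w.j / (q ^ 2 - 1)) 0 (by field_simp) (by simp [h6])

theorem ker_chi (hq0 : q ≠ 0) (hq1 : q ≠ 1) {w : TT k q} (h : w * bf = w) (h0 : chi w = 0) :
    ∃ v : TT k q, v * bu = w := by
  have b1 : q - 1 ≠ 0 := sub_ne_zero.2 hq1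
  obtain ⟨h1, h2, h3, h4, h5, h6, h7, h8, h9, h10, h11, h12⟩ := mul_bf_iff.1 h
  have hf : w.f = 0 := h0
  refine ⟨w.u • be + w.v • bY + (w.n / (q - 1)) • bt + w.t' • bx' + (-w.j' / q) • bz' +
    w.f' • bu' + (-w.n' / q) • bv', ?_⟩
  ext <;> simp [*] <;> field_simp

theorem ker_bt (hq1 : q ≠ 1) {w : TT k q} (h : w * bf = w) (h0 : w * bt = 0) :
    ∃ r : k, w = r • bf' := by
  have b1 : q - 1 ≠ 0 := sub_ne_zero.2 hq1
  obtain ⟨h1, h2, h3, h4, h5, h6, h7, h8, h9, h10, h11, h12⟩ := mul_bf_iff.1 h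
  have g1 := congrArg TT.x h0
  have g2 := congrArg TT.z h0
  have g3 := congrArg TT.t h0
  have g4 := congrArg TT.j h0
  have g5 := congrArg TT.e' h0
  have g6 := congrArg TT.y' h0
  have g7 := congrArg TT.u' h0
  simp [b1] at g1 g2 g3 g4 g5 g6 g7
  exact ⟨w.f', by ext <;> simp [*]⟩

theorem mul_bv'_class (hq0 : q ≠ 0) (hq1 : q ≠ 1) (a : TT k q) :
    ∃ v : TT k q, v * ac (q ^ 3) = a * bv' - chi a • bv' := by
  have b4 : q ^ 3 - q ^ 2 ≠ 0 := by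
    rw [pow_succ' q 2, ← sub_one_mul]
    exact mul_ne_zero (sub_ne_zero.2 hq1) (pow_ne_zero _ hq0)
  exact exists_mul_ac hq0 _ (by ext <;> simp) (by simp) (by simp) (by simp) (by simp) (by simp)
    (by simp; ring) 0 (-(q * a.n) / (q ^ 3 - q ^ 2)) (by simp) (by simp; field_simp)

theorem bv'_not_mem {c r : k} {v : TT k q} (h : r • bv' = v * ac c) : r = 0 := by
  simpa [ac] using congrArg TT.v' h

theorem mul_bj_class (hq0 : q ≠ 0) (a : TT k q) :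
    ∃ v : TT k q, v * ac 1 = a * bj - chi a • bj :=
  exists_mul_ac hq0 _ (by ext <;> simp) (by simp) (by simp) (by simp) (by simp) (by simp)
    (by simp) 0 0 (by simp) (by simp)

theorem bj_not_mem {r : k} {v : TT k q} (h : r • bj = v * ac 1) : r = 0 := by
  simpa [ac] using congrArg TT.j h

end TT

end Crest.Agent.R186
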